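import Vale.Agent.P154.DE.Expo

/-!
# Packed arrays: Kronecker substitution
-/

namespace Vale.Agent.P154.DE

noncomputable section NC

open Finset Polynomial
open scoped ENNReal NNReal

/-- evaluation at `2 ^ b` -/
def ev1 (b : ℕ) : ℕ[X] →+* ℕ := evalRingHom (2 ^ b)

/-- evaluation of a two-variable polynomial, inner slots of `b` bits, outer slots of `b * R` bits -/
def ev2 (b R : ℕ) : ℕ[X][X] →+* ℕ := (ev1 (b * R)).comp (mapRingHom (ev1 b))

theorem ev1_apply (b : ℕ) (p : ℕ[X]) : ev1 b p = p.eval (2 ^ b) := rfl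

theorem eval_eq_divX (b : ℕ) (p : ℕ[X]) :
    p.eval b = b * p.divX.eval b + p.coeff 0 := by
  conv_lhs => rw [← divX_mul_X_add p]
  simp [mul_comm]

/-- digits of the value of a polynomial with small coefficients -/
theorem eval_div_pow_mod {b : ℕ} (k : ℕ) (p : ℕ[X]) (h : ∀ i, p.coeff i < b) :
    p.eval b / b ^ k % b = p.coeff k := by
  induction k generalizing p with
  | zero =>
    rw [pow_zero, Nat.div_one, eval_eq_divX, Nat.mul_add_mod]
    exact Nat.mod_eq_of_lt (h 0)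
  | succ k ih =>
    have hb : 0 < b := lt_of_le_of_lt (Nat.zero_le _) (h 0)
    rw [pow_succ, mul_comm (b ^ k) b, ← Nat.div_div_eq_div_mul, eval_eq_divX,
      Nat.mul_add_div hb, Nat.div_eq_of_lt (h 0), add_zero,
      ih p.divX (fun i => by rw [coeff_divX]; exact h _), coeff_divX]

/-- size of the value -/
theorem eval_lt_pow {b : ℕ} (n : ℕ) (p : ℕ[X]) (h : ∀ i, p.coeff i < b)
    (hn : ∀ i, n ≤ i → p.coeff i = 0) : p.eval b < b ^ n := by
  induction n generalizing p with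
  | zero =>
    have : p = 0 := by
      ext i
      exact hn i (Nat.zero_le i)
    simp [this]
  | succ n ih =>
    rw [eval_eq_divX]
    have h1 := ih p.divX (fun i => by rw [coeff_divX]; exact h _)
      (fun i hi => by rw [coeff_divX]; exact hn _ (by omega))
    have h2 := h 0
    calc b * p.divX.eval b + p.coeff 0 < b * p.divX.eval b + b := by omega
      _ = b * (p.divX.eval b + 1) := by ring
      _ ≤ b * b ^ n := Nat.mul_le_mul_left _ h1
      _ = b ^ (n + 1) := by ring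

theorem div_mod_aux {b R j N : ℕ} (hb : 0 < b) (hj : j < R) :
    N % b ^ R / b ^ j % b = N / b ^ j % b := by
  obtain ⟨m, rfl⟩ : ∃ m, R = j + 1 + m := ⟨R - (j + 1), by omega⟩
  have e : b ^ (j + 1 + m) = b ^ j * (b * b ^ m) := by ring
  rw [e, Nat.mod_mul_right_div_self, Nat.mod_mul_right_mod]

/-- `A` is a packed array of lower bounds (scale `sc`) of planted masses -/
def Arr (θ : ℝ≥0) (J : ℕ → ℕ → ℕ → Expo → Prop) (c : Fnl Expo) (sc z D b R : ℕ) (A : ℕ) : Prop :=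
  ∃ p : ℕ[X][X], ev2 b R p = A ∧
    (∀ i j, (((p.coeff i).coeff j : ℕ) : ℝ≥0∞) ≤ sc * pl θ c (J z i j)) ∧
    ∀ i j, D < j → (p.coeff i).coeff j = 0

variable {θ : ℝ≥0} {J Ja Jb Jc : ℕ → ℕ → ℕ → Expo → Prop} {c c₁ c₂ : Fnl Expo}
  {sc sc₁ sc₂ z z₁ z₂ D D₁ D₂ b R A A₁ A₂ : ℕ}

theorem Arr.mul (ha : Uniq Ja) (hb : Uniq Jb) (hc : Comp Ja Jb Jc)
    (h1 : Arr θ Ja c₁ sc₁ z₁ D₁ b R A₁) (h2 : Arr θ Jb c₂ sc₂ z₂ D₂ b R A₂) :
    Arr θ Jc (conv (· + ·) c₁ c₂) (sc₁ * sc₂) (z₁ + z₂) (D₁ + D₂) b R (A₁ * A₂) := by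
  obtain ⟨p, rfl, hp, hpD⟩ := h1
  obtain ⟨q, rfl, hq, hqD⟩ := h2
  refine ⟨p * q, map_mul _ _ _, fun i j => ?_, fun i j hj => ?_⟩
  · rw [coeff_mul, finsetSum_coeff]
    simp_rw [coeff_mul]
    push_cast
    calc ∑ x ∈ antidiagonal i, ∑ y ∈ antidiagonal j,
          (((p.coeff x.1).coeff y.1 : ℕ) : ℝ≥0∞) * (((q.coeff x.2).coeff y.2 : ℕ) : ℝ≥0∞)
        ≤ ∑ x ∈ antidiagonal i, ∑ y ∈ antidiagonal j,
          (sc₁ * pl θ c₁ (Ja z₁ x.1 y.1)) * (sc₂ * pl θ c₂ (Jb z₂ x.2 y.2)) :=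
          Finset.sum_le_sum fun x _ => Finset.sum_le_sum fun y _ =>
            mul_le_mul' (hp _ _) (hq _ _)
      _ = sc₁ * sc₂ * ∑ x ∈ antidiagonal i, ∑ y ∈ antidiagonal j,
          pl θ c₁ (Ja z₁ x.1 y.1) * pl θ c₂ (Jb z₂ x.2 y.2) := by
          rw [Finset.mul_sum]
          refine Finset.sum_congr rfl fun x _ => ?_
          rw [Finset.mul_sum]
          refine Finset.sum_congr rfl fun y _ => ?_
          ring
      _ ≤ _ := mul_le_mul_right (pl_conv ha hb hc θ c₁ c₂ z₁ z₂ i j) _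
  · rw [coeff_mul, finsetSum_coeff]
    refine Finset.sum_eq_zero fun x _ => ?_
    rw [coeff_mul]
    refine Finset.sum_eq_zero fun y hy => ?_
    rw [HasAntidiagonal.mem_antidiagonal] at hy
    rcases Nat.lt_or_ge D₁ y.1 with h | h
    · rw [hpD _ _ h, zero_mul]
    · rw [hqD _ _ (by omega), mul_zero]

theorem Arr.add (h1 : Arr θ J c₁ sc z D b R A₁) (h2 : Arr θ J c₂ sc z D b R A₂) :
    Arr θ J (c₁ + c₂) sc z D b R (A₁ + A₂) := by
  obtain ⟨p, rfl, hp, hpD⟩ := h1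
  obtain ⟨q, rfl, hq, hqD⟩ := h2
  refine ⟨p + q, map_add _ _ _, fun i j => ?_, fun i j hj => ?_⟩
  · rw [coeff_add, coeff_add, pl_add, mul_add]
    push_cast
    exact add_le_add (hp i j) (hq i j)
  · rw [coeff_add, coeff_add, hpD i j hj, hqD i j hj]

theorem Arr.zero : Arr θ J c sc z D b R 0 :=
  ⟨0, map_zero _, fun i j => by simp, fun i j _ => by simp⟩

theorem Arr.mono_c (h : Arr θ J c₁ sc z D b R A) (hc : ∀ f, c₁ f ≤ c₂ f) :
    Arr θ J c₂ sc z D b R A := by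
  obtain ⟨p, hA, hp, hpD⟩ := h
  exact ⟨p, hA, fun i j => (hp i j).trans (mul_le_mul_right (pl_mono hc _) _), hpD⟩

theorem Arr.congr_c (h : Arr θ J c₁ sc z D b R A) (hc : c₁ = c₂) :
    Arr θ J c₂ sc z D b R A := hc ▸ h

theorem Arr.mono_D (h : Arr θ J c sc z D₁ b R A) (hD : D₁ ≤ D₂) : Arr θ J c sc z D₂ b R A := by
  obtain ⟨p, hA, hp, hpD⟩ := h
  exact ⟨p, hA, hp, fun i j hj => hpD i j (by omega)⟩

/-- two arrays for the same law -/
theorem Arr.add_same {J' : ℕ → ℕ → ℕ → Expo → Prop}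
    (h1 : Arr θ Ja c sc z D b R A₁) (h2 : Arr θ Jb c sc z D b R A₂)
    (h : ∀ i j, pl θ c (Ja z i j) + pl θ c (Jb z i j) ≤ pl θ c (J' z i j)) :
    Arr θ J' c sc z D b R (A₁ + A₂) := by
  obtain ⟨p, rfl, hp, hpD⟩ := h1
  obtain ⟨q, rfl, hq, hqD⟩ := h2
  refine ⟨p + q, map_add _ _ _, fun i j => ?_, fun i j hj => ?_⟩
  · rw [coeff_add, coeff_add]
    push_cast
    refine (add_le_add (hp i j) (hq i j)).trans ?_
    rw [← mul_add]
    exact mul_le_mul_right (h i j) _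
  · rw [coeff_add, coeff_add, hpD i j hj, hqD i j hj]

theorem pl_JP_add_JE (θ : ℝ≥0) (c : Fnl Expo) (z i j : ℕ) :
    pl θ c (JP z i j) + pl θ c (JE z i j) ≤ pl θ c (JA z i j) := by
  classical
  unfold pl
  rw [← map_add]
  refine c.mono fun x => ?_
  rw [Pi.add_apply]
  by_cases h1 : JP z i j x
  · have h2 : ¬ JE z i j x := fun h => h1.2.2.1 h.2.2.1
    rw [if_pos h1, if_neg h2, if_pos h1.ja, add_zero]
  · by_cases h2 : JE z i j x
    · rw [if_neg h1, if_pos h2, if_pos h2.ja, zero_add]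
    · rw [if_neg h1, if_neg h2, add_zero]
      exact zero_le

/-- product rule for the excluded-colour arrays -/
theorem Arr.mulE {E₁ P₁ U₂ E₂ : ℕ} (hE1 : Arr θ JE c₁ sc₁ z₁ D₁ b R E₁)
    (hP1 : Arr θ JP c₁ sc₁ z₁ D₁ b R P₁) (hU2 : Arr θ JA c₂ sc₂ z₂ D₂ b R U₂)
    (hE2 : Arr θ JE c₂ sc₂ z₂ D₂ b R E₂) :
    Arr θ JE (conv (· + ·) c₁ c₂) (sc₁ * sc₂) (z₁ + z₂) (D₁ + D₂) b R (E₁ * U₂ + P₁ * E₂) := by
  obtain ⟨p1, rfl, hp1, hp1D⟩ := hE1
  obtain ⟨p2, rfl, hp2, hp2D⟩ := hP1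
  obtain ⟨q1, rfl, hq1, hq1D⟩ := hU2
  obtain ⟨q2, rfl, hq2, hq2D⟩ := hE2
  have hz : ∀ (c : Fnl Expo) (z i j : ℕ), j ≠ 0 → pl θ c (JE z i j) = 0 ∧ pl θ c (JP z i j) = 0 ∧
      pl θ c (JA z i j) = 0 := by
    intro c z i j hj
    classical
    refine ⟨?_, ?_, ?_⟩ <;>
    · unfold pl
      convert map_zero c using 2
      funext x
      rw [if_neg (fun h => hj h.1)]
      rfl
  have hz0 : ∀ (p : ℕ[X][X]) (s : ℕ) (c : Fnl Expo) (J : ℕ → ℕ → ℕ → Expo → Prop) (z i j : ℕ),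
      (((p.coeff i).coeff j : ℕ) : ℝ≥0∞) ≤ s * pl θ c (J z i j) → pl θ c (J z i j) = 0 →
      (p.coeff i).coeff j = 0 := by
    intro p s c J z i j h h0
    rw [h0, mul_zero] at h
    exact_mod_cast le_antisymm h zero_le
  refine ⟨p1 * q1 + p2 * q2, by rw [map_add, map_mul, map_mul], fun i j => ?_, fun i j hj => ?_⟩
  · rw [coeff_add, coeff_add, coeff_mul, coeff_mul, finsetSum_coeff, finsetSum_coeff]
    simp_rw [coeff_mul]
    by_cases hj : j = 0
    · subst hj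
      simp only [Finset.Nat.antidiagonal_zero, Finset.sum_singleton]
      push_cast
      rw [← Finset.sum_add_distrib]
      calc ∑ x ∈ antidiagonal i,
            ((((p1.coeff x.1).coeff 0 : ℕ) : ℝ≥0∞) * (((q1.coeff x.2).coeff 0 : ℕ) : ℝ≥0∞) +
            (((p2.coeff x.1).coeff 0 : ℕ) : ℝ≥0∞) * (((q2.coeff x.2).coeff 0 : ℕ) : ℝ≥0∞))
          ≤ ∑ x ∈ antidiagonal i, ((sc₁ * pl θ c₁ (JE z₁ x.1 0)) * (sc₂ * pl θ c₂ (JA z₂ x.2 0)) +
              (sc₁ * pl θ c₁ (JP z₁ x.1 0)) * (sc₂ * pl θ c₂ (JE z₂ x.2 0))) :=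
            Finset.sum_le_sum fun x _ => add_le_add (mul_le_mul' (hp1 _ _) (hq1 _ _))
              (mul_le_mul' (hp2 _ _) (hq2 _ _))
        _ = sc₁ * sc₂ * ∑ x ∈ antidiagonal i,
            (pl θ c₁ (JE z₁ x.1 0) * pl θ c₂ (JA z₂ x.2 0) +
              pl θ c₁ (JP z₁ x.1 0) * pl θ c₂ (JE z₂ x.2 0)) := by
            rw [Finset.mul_sum]
            refine Finset.sum_congr rfl fun x _ => ?_
            ring
        _ ≤ _ := mul_le_mul_right (pl_convE θ c₁ c₂ z₁ z₂ i) _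
    · have h0 : ∀ x ∈ antidiagonal i, ∀ y ∈ antidiagonal j,
          (p1.coeff x.1).coeff y.1 * (q1.coeff x.2).coeff y.2 = 0 := by
        intro x _ y hy
        rw [HasAntidiagonal.mem_antidiagonal] at hy
        by_cases hy1 : y.1 = 0
        · rw [hz0 q1 _ _ _ _ _ _ (hq1 x.2 y.2) (hz _ _ _ _ (by omega)).2.2, mul_zero]
        · rw [hz0 p1 _ _ _ _ _ _ (hp1 x.1 y.1) (hz _ _ _ _ hy1).1, zero_mul]
      have h0' : ∀ x ∈ antidiagonal i, ∀ y ∈ antidiagonal j,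
          (p2.coeff x.1).coeff y.1 * (q2.coeff x.2).coeff y.2 = 0 := by
        intro x _ y hy
        rw [HasAntidiagonal.mem_antidiagonal] at hy
        by_cases hy1 : y.1 = 0
        · rw [hz0 q2 _ _ _ _ _ _ (hq2 x.2 y.2) (hz _ _ _ _ (by omega)).1, mul_zero]
        · rw [hz0 p2 _ _ _ _ _ _ (hp2 x.1 y.1) (hz _ _ _ _ hy1).2.1, zero_mul]
      rw [Finset.sum_eq_zero fun x hx => Finset.sum_eq_zero (h0 x hx),
        Finset.sum_eq_zero fun x hx => Finset.sum_eq_zero (h0' x hx)]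
      simp
  · have k1 : ∀ x ∈ antidiagonal i, (p1.coeff x.1 * q1.coeff x.2).coeff j = 0 := by
      intro x _
      rw [coeff_mul]
      refine Finset.sum_eq_zero fun y hy => ?_
      rw [HasAntidiagonal.mem_antidiagonal] at hy
      rcases Nat.lt_or_ge D₁ y.1 with h | h
      · rw [hp1D _ _ h, zero_mul]
      · rw [hq1D _ _ (by omega), mul_zero]
    have k2 : ∀ x ∈ antidiagonal i, (p2.coeff x.1 * q2.coeff x.2).coeff j = 0 := by
      intro x _
      rw [coeff_mul]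
      refine Finset.sum_eq_zero fun y hy => ?_
      rw [HasAntidiagonal.mem_antidiagonal] at hy
      rcases Nat.lt_or_ge D₁ y.1 with h | h
      · rw [hp2D _ _ h, zero_mul]
      · rw [hq2D _ _ (by omega), mul_zero]
    rw [coeff_add, coeff_add, coeff_mul, coeff_mul, finsetSum_coeff, finsetSum_coeff,
      Finset.sum_eq_zero k1, Finset.sum_eq_zero k2, add_zero]

/-- one atom -/
theorem Arr.atom {x : Expo} {w : ℝ≥0∞} {a i j : ℕ} (hx : J z i j x) (hj : j ≤ D)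
    (ha : (a : ℝ≥0∞) ≤ sc * (w * (pwT θ (x 0) : ℝ≥0∞))) :
    Arr θ J (w • dirac x) sc z D b R (a * 2 ^ (b * (R * i + j))) := by
  classical
  refine ⟨monomial i (monomial j a), ?_, fun i' j' => ?_, fun i' j' hj' => ?_⟩
  · show (evalRingHom (2 ^ (b * R))) (mapRingHom (ev1 b) (monomial i (monomial j a))) = _
    rw [coe_mapRingHom, map_monomial, coe_evalRingHom, eval_monomial, ev1_apply, eval_monomial]
    rw [← pow_mul, ← pow_mul, mul_assoc, ← pow_add]
    congr 2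
    ring
  · rw [coeff_monomial]
    split_ifs with h1
    · subst h1
      rw [coeff_monomial]
      split_ifs with h2
      · subst h2
        refine ha.trans (le_of_eq ?_)
        show _ = (sc : ℝ≥0∞) * (w * (if J z i j x then (pwT θ (x 0) : ℝ≥0∞) else 0))
        rw [if_pos hx]
      · simp
    · simp
  · rw [coeff_monomial]
    split_ifs with h1
    · rw [coeff_monomial, if_neg (by omega)]
    · simp

/-- finite sums -/
theorem Arr.sum {ι : Type*} (s : Finset ι) {c : ι → Fnl Expo} {A : ι → ℕ}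
    (h : ∀ k ∈ s, Arr θ J (c k) sc z D b R (A k)) :
    Arr θ J (∑ k ∈ s, c k) sc z D b R (∑ k ∈ s, A k) := by
  classical
  induction s using Finset.induction_on with
  | empty => exact Arr.zero
  | insert a s ha ih =>
    rw [Finset.sum_insert ha, Finset.sum_insert ha]
    exact (h a (Finset.mem_insert_self a s)).add
      (ih fun k hk => h k (Finset.mem_insert_of_mem hk))

/-- reading a digit -/
theorem Arr.read (h : Arr θ J c sc z D b R A) (hm : pmass θ c ≤ 1) (hsc : sc < 2 ^ b)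
    (hD : D < R) {i j : ℕ} (hj : j < R) :
    ((A / 2 ^ (b * (R * i + j)) % 2 ^ b : ℕ) : ℝ≥0∞) ≤ sc * pl θ c (J z i j) := by
  obtain ⟨p, rfl, hp, hpD⟩ := h
  have hlt : ∀ i j, (p.coeff i).coeff j < 2 ^ b := by
    intro i j
    refine lt_of_le_of_lt ?_ hsc
    have h1 : (((p.coeff i).coeff j : ℕ) : ℝ≥0∞) ≤ (sc : ℝ≥0∞) := by
      refine (hp i j).trans ?_
      calc (sc : ℝ≥0∞) * pl θ c (J z i j) ≤ sc * 1 :=
            mul_le_mul_right ((pl_le_pmass θ c _).trans hm) _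
        _ = sc := mul_one _
    exact_mod_cast h1
  have hrow : ∀ i, (p.coeff i).eval (2 ^ b) < (2 ^ b) ^ R := fun i =>
    eval_lt_pow R _ (hlt i) (fun j hj => hpD i j (by omega))
  have e1 : ev2 b R p = ((mapRingHom (ev1 b)) p).eval ((2 ^ b) ^ R) := by
    show ((mapRingHom (ev1 b)) p).eval (2 ^ (b * R)) = _
    rw [pow_mul]
  have e2 : ev2 b R p / (2 ^ b) ^ (R * i) % (2 ^ b) ^ R = (p.coeff i).eval (2 ^ b) := by
    rw [e1, pow_mul (2 ^ b) R i]
    rw [eval_div_pow_mod i _ (fun k => by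
      rw [coe_mapRingHom, coeff_map]
      exact hrow k)]
    rw [coe_mapRingHom, coeff_map]
    rfl
  have e3 : ev2 b R p / 2 ^ (b * (R * i + j)) % 2 ^ b = (p.coeff i).coeff j := by
    rw [← eval_div_pow_mod j (p.coeff i) (hlt i), ← e2, div_mod_aux (by positivity) hj,
      Nat.div_div_eq_div_mul, ← pow_add, pow_mul]
  rw [e3]
  exact hp i j

end NC

end Vale.Agent.P154.DE
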