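import Vale.Agent.P154.DE.Read2

/-!
# The array builder organised by rows
-/

namespace Vale.Agent.P154.DE

open Finset

theorem hsum_eq (b : ℕ) (f : ℕ → ℕ) (n i : ℕ) :
    hsum b f n i = ∑ j ∈ range n, f (i + j) * 2 ^ (b * j) := by
  induction n generalizing i with
  | zero => simp [hsum]
  | succ n ih =>
    rw [hsum, ih, Finset.sum_range_succ', Nat.shiftLeft_eq, Finset.sum_mul]
    simp only [Nat.add_zero, Nat.mul_zero, pow_zero, Nat.mul_one]
    congr 1
    refine Finset.sum_congr rfl fun j _ => ?_
    have e1 : i + 1 + j = i + (j + 1) := by ring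
    have e2 : b * (j + 1) = b * j + b := by ring
    rw [e1, e2, pow_add, mul_assoc]

theorem tri_row (n : ℕ) (F : ℕ → ℕ → ℕ) :
    ∑ y ∈ range n, ∑ x ∈ range (y + 1), F x y = ∑ x ∈ range n, ∑ t ∈ range (n - x), F x (x + t) := by
  rw [← sum_TT n F]
  unfold TT
  rw [Finset.sum_filter, Finset.sum_product, Finset.sum_comm]
  refine Finset.sum_congr rfl fun y hy => ?_
  rw [Finset.mem_range] at hy
  rw [← Finset.sum_filter]
  refine Finset.sum_congr ?_ fun _ _ => rfl
  ext x
  simp only [Finset.mem_range, Finset.mem_filter]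
  omega

theorem tri_diag (n : ℕ) (F : ℕ → ℕ → ℕ) :
    ∑ y ∈ range n, ∑ x ∈ range (y + 1), F x y = ∑ t ∈ range n, ∑ x ∈ range (n - t), F x (x + t) := by
  rw [tri_row]
  refine Finset.sum_comm' ?_
  intro x y
  simp only [Finset.mem_range]
  omega

theorem tri_diag' (L : ℕ) (F : ℕ → ℕ → ℕ) :
    ∑ y ∈ range (L + 1), ∑ x ∈ range (y + 1), F x y =
      ∑ t ∈ range (L + 1), ∑ j ∈ range (L + 1 - t), F (L - t - j) (L - j) := by
  rw [tri_diag]
  refine Finset.sum_congr rfl fun t ht => ?_
  rw [Finset.mem_range] at ht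
  rw [← Finset.sum_range_reflect]
  refine Finset.sum_congr rfl fun j hj => ?_
  rw [Finset.mem_range] at hj
  have e1 : L + 1 - t - 1 - j = L - t - j := by omega
  have e2 : L + 1 - t - 1 - j + t = L - j := by omega
  rw [e2, e1]

theorem mul_shift2 (a w b c : ℕ) : (a * (w * 2 ^ b)) * 2 ^ c = w * (a * 2 ^ (c + b)) := by
  rw [pow_add]
  ring

theorem bA2_eq (be R L pb qb P S : ℕ) : bA2 be R L pb qb P S = bA be R L pb qb P S := by
  have hw : ∀ x y, dg pb S (y * (L + 1) + x) = wg pb L S x y := fun _ _ => rfl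
  have hbA : bA be R L pb qb P S = ∑ y ∈ range (L + 1), ∑ x ∈ range (y + 1),
      wg pb L S x y * gen2 be R L (dg qb P 0) (dg qb P x) (dg qb P y) x y := by
    unfold bA
    rw [sumR_eq]
    refine Finset.sum_congr rfl fun y _ => ?_
    rw [sumR_eq]
    rfl
  rw [hbA]
  set A1 : ℕ → ℕ → ℕ := fun x y =>
    wg pb L S x y * (dg qb P 0 * 2 ^ (be * (R * (L + x) + (L + y)))) with hA1
  set A2 : ℕ → ℕ → ℕ := fun x y =>
    wg pb L S x y * (dg qb P 0 * 2 ^ (be * (R * (L + y) + (L + x)))) with hA2
  set B1 : ℕ → ℕ → ℕ := fun x y =>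
    wg pb L S x y * (dg qb P x * 2 ^ (be * (R * (L - x) + (L + y - x)))) with hB1
  set B2 : ℕ → ℕ → ℕ := fun x y =>
    wg pb L S x y * (dg qb P x * 2 ^ (be * (R * (L + y - x) + (L - x)))) with hB2
  set C1 : ℕ → ℕ → ℕ := fun x y =>
    wg pb L S x y * (dg qb P y * 2 ^ (be * (R * (L - y) + (L + x - y)))) with hC1
  set C2 : ℕ → ℕ → ℕ := fun x y =>
    wg pb L S x y * (dg qb P y * 2 ^ (be * (R * (L + x - y) + (L - y)))) with hC2
  have hsplit : ∑ y ∈ range (L + 1), ∑ x ∈ range (y + 1),
      wg pb L S x y * gen2 be R L (dg qb P 0) (dg qb P x) (dg qb P y) x y =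
      (∑ y ∈ range (L + 1), ∑ x ∈ range (y + 1), A1 x y +
        ∑ y ∈ range (L + 1), ∑ x ∈ range (y + 1), B1 x y) +
      ((∑ y ∈ range (L + 1), ∑ x ∈ range (y + 1), A2 x y +
        ∑ y ∈ range (L + 1), ∑ x ∈ range (y + 1), C1 x y) +
      (∑ y ∈ range (L + 1), ∑ x ∈ range (y + 1), B2 x y +
        ∑ y ∈ range (L + 1), ∑ x ∈ range (y + 1), C2 x y)) := by
    simp only [← Finset.sum_add_distrib]
    refine Finset.sum_congr rfl fun y _ => Finset.sum_congr rfl fun x _ => ?_
    simp only [hA1, hA2, hB1, hB2, hC1, hC2]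
    unfold gen2
    simp only [Nat.shiftLeft_eq]
    ring
  rw [hsplit]
  unfold bA2
  simp only [force_eq]
  rw [sumR_eq, sumR_eq, sumR_eq]
  congr 1
  · rw [tri_row, tri_row, ← Finset.sum_add_distrib]
    refine Finset.sum_congr rfl fun x hx => ?_
    rw [Finset.mem_range] at hx
    rw [hsum_eq, Nat.shiftLeft_eq, Nat.shiftLeft_eq]
    congr 1
    · rw [Finset.mul_sum, Finset.sum_mul]
      refine Finset.sum_congr rfl fun t _ => ?_
      simp only [hA1, Nat.zero_add]
      rw [mul_shift2]
      congr 3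
      ring
    · rw [Finset.mul_sum, Finset.sum_mul]
      refine Finset.sum_congr rfl fun t _ => ?_
      simp only [hB1, Nat.zero_add]
      rw [mul_shift2]
      have e : L + (x + t) - x = L + t := by omega
      rw [e]
      congr 3
      ring
  · congr 1
    · rw [← Finset.sum_add_distrib]
      refine Finset.sum_congr rfl fun y hy => ?_
      rw [Finset.mem_range] at hy
      rw [hsum_eq, Nat.shiftLeft_eq, Nat.shiftLeft_eq]
      congr 1
      · rw [Finset.mul_sum, Finset.sum_mul]
        refine Finset.sum_congr rfl fun t _ => ?_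
        simp only [hA2, Nat.zero_add]
        rw [mul_shift2]
        congr 3
        ring
      · rw [Finset.mul_sum, Finset.sum_mul]
        refine Finset.sum_congr rfl fun t _ => ?_
        simp only [hC1, Nat.zero_add]
        rw [mul_shift2]
        have e : L + t - y = (L - y) + t := by omega
        rw [e]
        congr 3
        ring
    · rw [tri_diag', tri_diag', ← Finset.sum_add_distrib]
      refine Finset.sum_congr rfl fun t ht => ?_
      rw [Finset.mem_range] at ht
      rw [hsum_eq, hsum_eq, Nat.shiftLeft_eq, Nat.shiftLeft_eq]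
      congr 1
      · rw [Finset.sum_mul]
        refine Finset.sum_congr rfl fun j hj => ?_
        rw [Finset.mem_range] at hj
        simp only [hB2, Nat.zero_add]
        have e1 : L + (L - j) - (L - t - j) = L + t := by omega
        have e2 : L - (L - t - j) = t + j := by omega
        rw [e1, e2]
        have e3 : be * (R * (L + t) + (t + j)) = be * (R * (L + t) + t) + be * j := by ring
        rw [e3, pow_add]
        ring
      · rw [Finset.sum_mul]
        refine Finset.sum_congr rfl fun j hj => ?_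
        rw [Finset.mem_range] at hj
        simp only [hC2, Nat.zero_add]
        have e1 : L + (L - t - j) - (L - j) = L - t := by omega
        have e2 : L - (L - j) = j := by omega
        rw [e1, e2]
        have e3 : be * (R * (L - t) + j) = be * (R * (L - t)) + be * j := by ring
        rw [e3, pow_add]
        ring

end Vale.Agent.P154.DE
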