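import Vale.Agent.P154.DE.RowChk

/-!
# The arrays of the messages
-/

namespace Vale.Agent.P154.DE

noncomputable section NC

open Finset Polynomial
open scoped ENNReal NNReal

/-- symmetrised point mass -/
def symD (x : Expo) : Fnl Expo := ∑ g : Equiv.Perm (Fin 3), dirac (fun i => x (g i))

theorem symD_apply (x : Expo) (f : Expo → ℝ≥0∞) :
    symD x f = ∑ g : Equiv.Perm (Fin 3), f (fun i => x (g i)) := by
  unfold symD
  rw [LinearMap.sum_apply]
  rfl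

/-- the law represented by a packed state -/
def cS (p pb L S : ℕ) : Fnl Expo :=
  ∑ k ∈ range (nS L), ((dg pb S k : ℝ≥0∞) / 2 ^ p) • symD (xk L k)

theorem cS_apply (p pb L S : ℕ) (f : Expo → ℝ≥0∞) :
    cS p pb L S f = ∑ k ∈ range (nS L), (dg pb S k : ℝ≥0∞) / 2 ^ p * symD (xk L k) f := by
  unfold cS
  rw [LinearMap.sum_apply]
  rfl

theorem symC_cS (p pb L S : ℕ) : SymC (cS p pb L S) := by
  intro g f
  rw [cS_apply, cS_apply]
  refine Finset.sum_congr rfl fun k _ => ?_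
  congr 1
  rw [symD_apply, symD_apply]
  exact Fintype.sum_equiv (Equiv.mulRight g) _ _ fun σ => rfl

/-- exponent vector with natural entries -/
def nx (a b c : ℕ) : Expo := ![(a : ℕ∞), (b : ℕ∞), (c : ℕ∞)]

theorem nx_perms (a b c : ℕ) :
    (fun i => nx a b c ((1 : Equiv.Perm (Fin 3)) i)) = nx a b c ∧
    (fun i => nx a b c (Equiv.swap 0 1 i)) = nx b a c ∧
    (fun i => nx a b c (Equiv.swap 0 2 i)) = nx c b a ∧
    (fun i => nx a b c (Equiv.swap 1 2 i)) = nx a c b ∧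
    (fun i => nx a b c (finRotate 3 i)) = nx b c a ∧
    (fun i => nx a b c ((finRotate 3)⁻¹ i)) = nx c a b := by
  obtain ⟨h1, h2, h3, h4, h5, h6, h7, h8, h9, h10, h11, h12, h13, h14, h15⟩ := perm_vals
  refine ⟨rfl, ?_, ?_, ?_, ?_, ?_⟩ <;> funext i <;> fin_cases i
  · show nx a b c (Equiv.swap (0 : Fin 3) 1 0) = _; rw [h1]; rfl
  · show nx a b c (Equiv.swap (0 : Fin 3) 1 1) = _; rw [h2]; rfl
  · show nx a b c (Equiv.swap (0 : Fin 3) 1 2) = _; rw [h3]; rfl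
  · show nx a b c (Equiv.swap (0 : Fin 3) 2 0) = _; rw [h4]; rfl
  · show nx a b c (Equiv.swap (0 : Fin 3) 2 1) = _; rw [h5]; rfl
  · show nx a b c (Equiv.swap (0 : Fin 3) 2 2) = _; rw [h6]; rfl
  · show nx a b c (Equiv.swap (1 : Fin 3) 2 0) = _; rw [h7]; rfl
  · show nx a b c (Equiv.swap (1 : Fin 3) 2 1) = _; rw [h8]; rfl
  · show nx a b c (Equiv.swap (1 : Fin 3) 2 2) = _; rw [h9]; rfl
  · show nx a b c (finRotate 3 0) = _; rw [h10]; rfl
  · show nx a b c (finRotate 3 1) = _; rw [h11]; rfl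
  · show nx a b c (finRotate 3 2) = _; rw [h12]; rfl
  · show nx a b c ((finRotate 3)⁻¹ 0) = _; rw [h13]; rfl
  · show nx a b c ((finRotate 3)⁻¹ 1) = _; rw [h14]; rfl
  · show nx a b c ((finRotate 3)⁻¹ 2) = _; rw [h15]; rfl

theorem symD_nx (w : ℝ≥0∞) (a b c : ℕ) : w • symD (nx a b c) =
    w • dirac (nx a b c) + (w • dirac (nx b a c) + (w • dirac (nx c b a) +
      (w • dirac (nx a c b) + (w • dirac (nx b c a) + w • dirac (nx c a b))))) := by
  obtain ⟨h1, h2, h3, h4, h5, h6⟩ := nx_perms a b c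
  unfold symD
  rw [sum_perm3, h1, h2, h3, h4, h5, h6]
  simp only [smul_add]

theorem J2_nx {z i j a b c : ℕ} (h1 : b + z = a + i) (h2 : c + z = a + j) :
    J2 z i j (nx a b c) := by
  refine ⟨ENat.natCast_ne_top _, ?_, ?_⟩
  · show ((b : ℕ∞)) + z = (a : ℕ∞) + i
    exact_mod_cast h1
  · show ((c : ℕ∞)) + z = (a : ℕ∞) + j
    exact_mod_cast h2

theorem JP_nx {z i a b c : ℕ} (h1 : b + z = a + i) : JP z i 0 (nx a b c) := by
  refine ⟨rfl, ENat.natCast_ne_top _, ENat.natCast_ne_top _, ?_⟩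
  show ((b : ℕ∞)) + z = (a : ℕ∞) + i
  exact_mod_cast h1

theorem coef_le {θ : ℝ≥0} {p q qb P n e w : ℕ} (hP : PT θ q qb P n) (he : e ≤ n) (a b : ℕ) :
    ((w * dg qb P e : ℕ) : ℝ≥0∞) ≤ ((2 ^ (p + q) : ℕ) : ℝ≥0∞) *
      ((w : ℝ≥0∞) / 2 ^ p * (pwT θ (nx e a b 0) : ℝ≥0∞)) := by
  have h1 := (hP e he).1
  have h2 : ((dg qb P e : ℕ) : ℝ≥0∞) ≤ 2 ^ q * ((θ ^ e : ℝ≥0) : ℝ≥0∞) := by
    have : (((dg qb P e : ℕ) : ℝ≥0) : ℝ≥0∞) ≤ ((2 ^ q * θ ^ e : ℝ≥0) : ℝ≥0∞) :=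
      ENNReal.coe_le_coe.mpr h1
    push_cast at this
    push_cast
    exact this
  have e0 : nx e a b 0 = (e : ℕ∞) := rfl
  rw [e0, pwT_coe]
  have hp0 : (2 : ℝ≥0∞) ^ p ≠ 0 := by positivity
  have hpt : (2 : ℝ≥0∞) ^ p ≠ ⊤ := ENNReal.pow_ne_top (by norm_num)
  push_cast
  calc (w : ℝ≥0∞) * (dg qb P e : ℝ≥0∞) ≤ w * (2 ^ q * ((θ ^ e : ℝ≥0) : ℝ≥0∞)) :=
        mul_le_mul_right h2 _
    _ = (2 ^ p * ((w : ℝ≥0∞) / 2 ^ p)) * (2 ^ q * ((θ ^ e : ℝ≥0) : ℝ≥0∞)) := by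
        rw [ENNReal.mul_div_cancel hp0 hpt]
    _ = _ := by
        rw [pow_add]
        push_cast
        ring

theorem sh_eq (w P b i : ℕ) : w * (P <<< (b * i)) = w * P * 2 ^ (b * i) := by
  rw [Nat.shiftLeft_eq, mul_assoc]

variable {θ : ℝ≥0} {p q qb P n be R L pb S : ℕ}

theorem arr_gen2 (hP : PT θ q qb P L) {w e1 e2 : ℕ} (h1 : e1 ≤ L) (h2 : e2 ≤ L) :
    Arr θ J2 (((w : ℝ≥0∞) / 2 ^ p) • symD (nx 0 e1 e2)) (2 ^ (p + q)) L (2 * L) be R
      (w * gen2 be R L (dg qb P 0) (dg qb P e1) (dg qb P e2) e1 e2) := by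
  have e : w * gen2 be R L (dg qb P 0) (dg qb P e1) (dg qb P e2) e1 e2 =
      w * dg qb P 0 * 2 ^ (be * (R * (L + e1) + (L + e2))) +
      (w * dg qb P e1 * 2 ^ (be * (R * (L - e1) + (L + e2 - e1))) +
      (w * dg qb P e2 * 2 ^ (be * (R * (L + e1 - e2) + (L - e2))) +
      (w * dg qb P 0 * 2 ^ (be * (R * (L + e2) + (L + e1))) +
      (w * dg qb P e1 * 2 ^ (be * (R * (L + e2 - e1) + (L - e1))) +
      w * dg qb P e2 * 2 ^ (be * (R * (L - e2) + (L + e1 - e2))))))) := by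
    unfold gen2
    simp only [Nat.shiftLeft_eq]
    ring
  rw [e, symD_nx]
  refine Arr.add ?_ (Arr.add ?_ (Arr.add ?_ (Arr.add ?_ (Arr.add ?_ ?_))))
  · exact Arr.atom (J2_nx (by omega) (by omega)) (by omega) (coef_le hP (by omega) _ _)
  · exact Arr.atom (J2_nx (by omega) (by omega)) (by omega) (coef_le hP (by omega) _ _)
  · exact Arr.atom (J2_nx (by omega) (by omega)) (by omega) (coef_le hP (by omega) _ _)
  · exact Arr.atom (J2_nx (by omega) (by omega)) (by omega) (coef_le hP (by omega) _ _)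
  · exact Arr.atom (J2_nx (by omega) (by omega)) (by omega) (coef_le hP (by omega) _ _)
  · exact Arr.atom (J2_nx (by omega) (by omega)) (by omega) (coef_le hP (by omega) _ _)

theorem arr_gen1 (hP : PT θ q qb P L) {w e1 e2 : ℕ} (h1 : e1 ≤ L) (h2 : e2 ≤ L) :
    Arr θ JP (((w : ℝ≥0∞) / 2 ^ p) • symD (nx 0 e1 e2)) (2 ^ (p + q)) L 0 be 1
      (w * gen1 be L (dg qb P 0) (dg qb P e1) (dg qb P e2) e1 e2) := by
  have e : w * gen1 be L (dg qb P 0) (dg qb P e1) (dg qb P e2) e1 e2 =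
      w * dg qb P 0 * 2 ^ (be * (1 * (L + e1) + 0)) +
      (w * dg qb P e1 * 2 ^ (be * (1 * (L - e1) + 0)) +
      (w * dg qb P e2 * 2 ^ (be * (1 * (L + e1 - e2) + 0)) +
      (w * dg qb P 0 * 2 ^ (be * (1 * (L + e2) + 0)) +
      (w * dg qb P e1 * 2 ^ (be * (1 * (L + e2 - e1) + 0)) +
      w * dg qb P e2 * 2 ^ (be * (1 * (L - e2) + 0)))))) := by
    unfold gen1
    simp only [Nat.shiftLeft_eq, one_mul, add_zero]
    ring
  rw [e, symD_nx]
  refine Arr.add ?_ (Arr.add ?_ (Arr.add ?_ (Arr.add ?_ (Arr.add ?_ ?_))))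
  · exact Arr.atom (JP_nx (by omega)) (by omega) (coef_le hP (by omega) _ _)
  · exact Arr.atom (JP_nx (by omega)) (by omega) (coef_le hP (by omega) _ _)
  · exact Arr.atom (JP_nx (by omega)) (by omega) (coef_le hP (by omega) _ _)
  · exact Arr.atom (JP_nx (by omega)) (by omega) (coef_le hP (by omega) _ _)
  · exact Arr.atom (JP_nx (by omega)) (by omega) (coef_le hP (by omega) _ _)
  · exact Arr.atom (JP_nx (by omega)) (by omega) (coef_le hP (by omega) _ _)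

theorem xk_row {L e1 e2 : ℕ} (h1 : e1 ≤ L) (h2 : e2 ≤ L) :
    xk L (e2 * (L + 1) + e1) = nx 0 e1 e2 := by
  have h3 : e2 * (L + 1) + e1 < (L + 1) * (L + 1) := by nlinarith
  unfold xk
  rw [if_neg h3.ne]
  have h4 : (e2 * (L + 1) + e1) % (L + 1) = e1 := by
    rw [Nat.add_comm, Nat.add_mul_mod_self_right, Nat.mod_eq_of_lt (by omega)]
  have h5 : (e2 * (L + 1) + e1) / (L + 1) = e2 := by
    rw [mul_comm, Nat.mul_add_div (by omega), Nat.div_eq_of_lt (by omega), add_zero]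
  rw [h4, h5]
  rfl

theorem sum_rows (F : ℕ → ℝ≥0∞) (m k : ℕ) :
    ∑ i ∈ range m, ∑ j ∈ range k, F (i * k + j) = ∑ i ∈ range (m * k), F i := by
  induction m with
  | zero => simp
  | succ m ih =>
    rw [Finset.sum_range_succ, ih, Nat.succ_mul, Finset.sum_range_add]

/-- the sub-law of the orbits -/
theorem cS_ge_orbits (p pb L S : ℕ) (f : Expo → ℝ≥0∞) :
    (∑ e2 ∈ range (L + 1), ∑ e1 ∈ range (e2 + 1),
      ((dg pb S (e2 * (L + 1) + e1) : ℝ≥0∞) / 2 ^ p) • symD (nx 0 e1 e2)) f ≤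
      cS p pb L S f := by
  rw [cS_apply, LinearMap.sum_apply]
  simp_rw [LinearMap.sum_apply]
  calc ∑ e2 ∈ range (L + 1), ∑ e1 ∈ range (e2 + 1),
        (((dg pb S (e2 * (L + 1) + e1) : ℝ≥0∞) / 2 ^ p) • symD (nx 0 e1 e2)) f
      ≤ ∑ e2 ∈ range (L + 1), ∑ e1 ∈ range (L + 1),
        (dg pb S (e2 * (L + 1) + e1) : ℝ≥0∞) / 2 ^ p * symD (xk L (e2 * (L + 1) + e1)) f := by
        refine Finset.sum_le_sum fun e2 he2 => ?_
        rw [Finset.mem_range] at he2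
        refine (Finset.sum_le_sum_of_subset (Finset.range_mono (by omega : e2 + 1 ≤ L + 1))).trans
          (Finset.sum_le_sum fun e1 he1 => ?_)
        rw [Finset.mem_range] at he1
        rw [xk_row (by omega) (by omega)]
        rfl
    _ = ∑ k ∈ range ((L + 1) * (L + 1)), (dg pb S k : ℝ≥0∞) / 2 ^ p * symD (xk L k) f :=
        sum_rows (fun k => (dg pb S k : ℝ≥0∞) / 2 ^ p * symD (xk L k) f) (L + 1) (L + 1)
    _ ≤ _ := Finset.sum_le_sum_of_subset (Finset.range_mono (by unfold nS; omega))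

theorem arr_bA (hP : PT θ q qb P L) :
    Arr θ J2 (cS p pb L S) (2 ^ (p + q)) L (2 * L) be R (bA be R L pb qb P S) := by
  refine Arr.mono_c ?_ (cS_ge_orbits p pb L S)
  unfold bA
  rw [sumR_eq]
  refine Arr.sum _ fun e2 he2 => ?_
  rw [sumR_eq]
  refine Arr.sum _ fun e1 he1 => ?_
  rw [Finset.mem_range] at he1 he2
  exact arr_gen2 hP (by omega) (by omega)

theorem arr_bP (hP : PT θ q qb P L) :
    Arr θ JP (cS p pb L S) (2 ^ (p + q)) L 0 be 1 (bP be L pb qb P S) := by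
  refine Arr.mono_c ?_ (cS_ge_orbits p pb L S)
  unfold bP
  rw [sumR_eq]
  refine Arr.sum _ fun e2 he2 => ?_
  rw [sumR_eq]
  refine Arr.sum _ fun e1 he1 => ?_
  rw [Finset.mem_range] at he1 he2
  exact arr_gen1 hP (by omega) (by omega)

theorem arr_bE (hP : PT θ q qb P L) :
    Arr θ JE (cS p pb L S) (2 ^ (p + q)) L 0 be 1 (bE be L pb qb P S) := by
  set w : ℝ≥0∞ := (dg pb S ((L + 1) * (L + 1)) : ℝ≥0∞) / 2 ^ p with hw
  set x0 : Expo := ![0, 0, ⊤] with hx0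
  have hx : xk L ((L + 1) * (L + 1)) = x0 := by
    unfold xk
    rw [if_pos rfl]
  have hswap : (fun i => x0 (Equiv.swap 0 1 i)) = x0 := by
    funext i
    fin_cases i
    · show x0 (Equiv.swap (0 : Fin 3) 1 0) = x0 0
      rw [perm_vals.1]
      rfl
    · show x0 (Equiv.swap (0 : Fin 3) 1 1) = x0 1
      rw [perm_vals.2.1]
      rfl
    · show x0 (Equiv.swap (0 : Fin 3) 1 2) = x0 2
      rw [perm_vals.2.2.1]
  refine Arr.mono_c (c₁ := w • dirac x0 + w • dirac x0) ?_ ?_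
  · have e : bE be L pb qb P S =
        dg pb S ((L + 1) * (L + 1)) * dg qb P 0 * 2 ^ (be * (1 * L + 0)) +
        dg pb S ((L + 1) * (L + 1)) * dg qb P 0 * 2 ^ (be * (1 * L + 0)) := by
      unfold bE
      rw [Nat.shiftLeft_eq, one_mul, add_zero]
      ring
    rw [e]
    have hJ : JE L L 0 x0 := ⟨rfl, by simp [hx0], by simp [hx0], by simp [hx0]⟩
    have hc := coef_le (p := p) (w := dg pb S ((L + 1) * (L + 1))) hP (Nat.zero_le L) 0 0
    exact Arr.add (Arr.atom hJ le_rfl hc) (Arr.atom hJ le_rfl hc)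
  · intro f
    rw [cS_apply]
    have h1 : (dg pb S ((L + 1) * (L + 1)) : ℝ≥0∞) / 2 ^ p * symD (xk L ((L + 1) * (L + 1))) f ≤
        ∑ k ∈ range (nS L), (dg pb S k : ℝ≥0∞) / 2 ^ p * symD (xk L k) f :=
      Finset.single_le_sum (f := fun k => (dg pb S k : ℝ≥0∞) / 2 ^ p * symD (xk L k) f)
        (fun _ _ => zero_le) (Finset.mem_range.mpr (by unfold nS; omega))
    refine le_trans ?_ h1
    rw [hx, symD_apply, sum_perm3, hswap]
    show w * f x0 + w * f x0 ≤ w * _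
    rw [← mul_add]
    refine mul_le_mul_right ?_ _
    have : (fun i => x0 ((1 : Equiv.Perm (Fin 3)) i)) = x0 := rfl
    rw [this]
    gcongr
    exact le_self_add

end NC

end Vale.Agent.P154.DE
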