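import Vale.Agent.P154.DE.Engine

/-!
# Checks of the tables (integer arithmetic)
-/

namespace Vale.Agent.P154.DE

/-- `U ≥ 2^q θ^e` -/
def Uq (qb P e : ℕ) : ℕ := dg qb P e + 1

/-- upper bound for component `c` of the lattice vector number `k` (arranged increasingly) -/
def ucomp (qb P L k c : ℕ) : ℕ :=
  if k = (L + 1) * (L + 1) then (if c = 0 then 0 else Uq qb P 0)
  else Uq qb P (if c = 0 then k / (L + 1) else if c = 1 then k % (L + 1) else 0)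

/-- check of one entry of the splitting table -/
def chkEnt (qb P L vb tb mu r0 r1 r2 s1 t1 s2 t2 s3 t3 : ℕ) : Bool :=
  (vb * (s1 / vb) == s1 && (vb * (s2 / vb) == s2 && (vb * (s3 / vb) == s3))) &&
  ((Nat.ble (s1 / vb) ((L + 1) * (L + 1)) && (Nat.ble (s2 / vb) ((L + 1) * (L + 1)) &&
    (Nat.ble (s3 / vb) ((L + 1) * (L + 1))))) &&
  ((Nat.blt t1 (2 ^ tb) && (Nat.blt t2 (2 ^ tb) && (Nat.blt t3 (2 ^ tb)))) &&
  (Nat.ble (mu * (t1 * ucomp qb P L (s1 / vb) 0 + (t2 * ucomp qb P L (s2 / vb) 0 +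
      t3 * ucomp qb P L (s3 / vb) 0))) r0 &&
  (Nat.ble (mu * (t1 * ucomp qb P L (s1 / vb) 1 + (t2 * ucomp qb P L (s2 / vb) 1 +
      t3 * ucomp qb P L (s3 / vb) 1))) r1 &&
  (Nat.ble (mu * (t1 * ucomp qb P L (s1 / vb) 2 + (t2 * ucomp qb P L (s2 / vb) 2 +
      t3 * ucomp qb P L (s3 / vb) 2))) r2)))))

/-- `3 kd 2^q` times a component of the image of a vector under the channel with eigenvalue
`-kn/kd`; `x` is the component, `s` the sum -/
def chl (kn kd x s : ℕ) : ℕ := (kd - 2 * kn) * x + (kd + kn) * (s - x)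

/-- size of an orbit -/
def orbN (a b : ℕ) : ℕ := if a = 0 then (if b = 0 then 1 else 3) else if a = b then 3 else 6

/-- size of an orbit, one colour excluded -/
def orbEN (a : ℕ) : ℕ := if a = 0 then 3 else 6

/-- check of a row of the table -/
def chkRow (qb P L vb tb kn kd r qb0 P0 a : ℕ) : Row → ℕ → Bool
  | .nil, _ => true
  | .cons u s1 t1 s2 t2 s3 t3 l, b =>
    (chkEnt qb P L vb tb (18 * kd)
      (orbN a b * 2 ^ r * chl kn kd (dg qb0 P0 0) (dg qb0 P0 0 + dg qb0 P0 a + dg qb0 P0 b))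
      (orbN a b * 2 ^ r * chl kn kd (dg qb0 P0 a) (dg qb0 P0 0 + dg qb0 P0 a + dg qb0 P0 b))
      (orbN a b * 2 ^ r * chl kn kd (dg qb0 P0 b) (dg qb0 P0 0 + dg qb0 P0 a + dg qb0 P0 b))
      s1 t1 s2 t2 s3 t3 &&
    (Nat.ble (orbN a b * (Uq qb0 P0 0 + Uq qb0 P0 a + Uq qb0 P0 b)) u && Nat.blt u (2 ^ tb))) &&
    chkRow qb P L vb tb kn kd r qb0 P0 a l (b + 1)

/-- check of the excluded-colour row of the table -/
def chkRowE (qb P L vb tb kn kd r qb0 P0 : ℕ) : Row → ℕ → Bool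
  | .nil, _ => true
  | .cons u s1 t1 s2 t2 s3 t3 l, a =>
    (chkEnt qb P L vb tb (18 * kd)
      (orbEN a * 2 ^ r * chl kn kd (dg qb0 P0 0) (dg qb0 P0 0 + dg qb0 P0 a))
      (orbEN a * 2 ^ r * chl kn kd (dg qb0 P0 a) (dg qb0 P0 0 + dg qb0 P0 a))
      (orbEN a * 2 ^ r * chl kn kd 0 (dg qb0 P0 0 + dg qb0 P0 a))
      s1 t1 s2 t2 s3 t3 &&
    (Nat.ble (orbEN a * (Uq qb0 P0 0 + Uq qb0 P0 a)) u && Nat.blt u (2 ^ tb))) &&
    chkRowE qb P L vb tb kn kd r qb0 P0 l (a + 1)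

/-- check of the vertex row of the table -/
def chkRowV (qb P L vb tb kn kd r q : ℕ) : Row → Bool
  | .cons u s1 t1 s2 t2 s3 t3 .nil =>
    chkEnt qb P L vb tb (18 * kd)
      (2 ^ r * chl kn kd (2 ^ q) (2 ^ q)) (2 ^ r * chl kn kd 0 (2 ^ q))
      (2 ^ r * chl kn kd 0 (2 ^ q)) s1 t1 s2 t2 s3 t3 && (u == 0)
  | _ => false

/-- number of entries -/
def Row.len : Row → ℕ
  | .nil => 0
  | .cons _ _ _ _ _ _ _ l => l.len + 1

/-- check of the table, starting at row `a`; row `a` has `n` entries -/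
def chkTab (qb P L vb tb kn kd r qb0 P0 : ℕ) : Tab → ℕ → ℕ → Bool
  | .nil, _, _ => true
  | .cons rw t, a, n =>
    (chkRow qb P L vb tb kn kd r qb0 P0 a rw a && (rw.len == n)) &&
      chkTab qb P L vb tb kn kd r qb0 P0 t (a + 1) (n - 1)

/-- check of the table of powers of `tn / td` from exponent `e` -/
def chkP (qb P q tn td : ℕ) : ℕ → Bool
  | 0 => Nat.ble (dg qb P 0) (2 ^ q) && Nat.ble (2 ^ q) (dg qb P 0 + 1)
  | n + 1 => (Nat.ble (dg qb P (n + 1) * td ^ (n + 1)) (2 ^ q * tn ^ (n + 1)) &&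
      Nat.ble (2 ^ q * tn ^ (n + 1)) ((dg qb P (n + 1) + 1) * td ^ (n + 1))) && chkP qb P q tn td n

/-- lower bound for `2^(p+q)` times `1 - M`: `6 w (v0 v1 + v0 v2 + v1 v2)/(v0+v1+v2)` -/
def infoS (pb L qb P S : ℕ) : ℕ :=
  sumR (fun e2 => sumR (fun e1 =>
    6 * dg pb S (e2 * (L + 1) + e1) *
      (dg qb P 0 * dg qb P e1 + dg qb P 0 * dg qb P e2 + dg qb P e1 * dg qb P e2) /
      (Uq qb P 0 + Uq qb P e1 + Uq qb P e2)) (e2 + 1)) (L + 1) +
  3 * dg pb S ((L + 1) * (L + 1)) * dg qb P 0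

end Vale.Agent.P154.DE
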