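import Vale.Agent.P154.DE.Check

/-!
# Powers of a ratio
-/

namespace Vale.Agent.P154.DE

/-- powers of `12/13` -/
def pw_12_13_56 : ℕ := nat_lit 3388239774576800897006916794131905094528466473028443210582443838952429842955817579865165189112914976640232025409524855538963661746047475983889276487587249689727729977813321156487643729049309753897379475091168230395253780344120552995641304330920505531421868128192321501904211300986897694606327244429441098125490187718845081498545411025972722166262504122674291520849548661315953396380736991130680886017378333389989516934342118205963786665240381675253591319074759740510173154706575899341234001120457536051350425057519687389635072536876642250877042688

end Vale.Agent.P154.DE
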