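import Vale.Agent.P154.DE.Check
import Vale.Agent.P154.DE.Pw12_13_56

/-!
# Check of the powers
-/

namespace Vale.Agent.P154.DE

set_option maxRecDepth 100000

theorem cp_12_13_56 : chkP 32 pw_12_13_56 30 12 13 56 = true := by
  decide +kernel

end Vale.Agent.P154.DE
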