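import Vale.Agent.P154.DE.Check

/-!
# Powers of a ratio
-/

namespace Vale.Agent.P154.DE

/-- powers of `14/15` -/
def pw_14_15_70 : ℕ := nat_lit 1740461880672983853452385163796851334049919985571030298048020411662330097576874067440126454596475143799319351924078280122106297654694727704849791014568687173220825905728430059018989837050934516689657479445472497208843543543082729287319300025506948365928025312502740295709053303883666346937199355368379535308423788267883647819257623510145803249023865581341735741114753143846867112761507549149251472591470785258019135899185613810946077157696658237423250585170757307047364017678774166279336261703750175256249829441664604325107552907669127028887872590211216419296248265926408308479317376849429843866135837892920831665418239572378345854261725167690518930501632895326334715466610722734080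

end Vale.Agent.P154.DE
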