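import Vale.Agent.P154.DE.Check

/-!
# Powers of a ratio
-/

namespace Vale.Agent.P154.DE

/-- powers of `3/4` -/
def pw_3_4_56 : ℕ := nat_lit 30142272065165449460208216448278014814624553537803453106136681093253148430404121950959411269113324677058518328698607896635646627251210232553949775754854903185472488499263911461912346147942107342738628230756436690162691231906511073882287674174646361652349108734895881456196630260992555189227740841827370817596401277502564875253147845986649951428140325189730549923237167264368908125078112594173510541113465894506714491689767537808986498860815226640706674409455919030857425539946996351930535028358844860640516581701288002933546402720242894635008

end Vale.Agent.P154.DE
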