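import Vale.Agent.P154.DE.Check

/-!
# Powers of a ratio
-/

namespace Vale.Agent.P154.DE

/-- powers of `8/9` -/
def pw_8_9_56 : ℕ := nat_lit 409364987848272314971989524186087708331630687101462843002073377805497278952792205460965261909809754394406183518723171612307502168200814562467907694802846434939861065023148389533654729667186358940886631962391771101958922727931812044586841059763457959038565208453166007137332980462151089922111619260292618608096022040001410786351058684263535750522774885295945701707935203678182180304020506554128667084398076707217543531440376829799161326012811255572943860743154026875765429980294575932609218177905623352430405777108361262536014539350596504726274048

end Vale.Agent.P154.DE
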