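import Vale.Agent.P154.DE.Check

/-!
# Powers of a ratio
-/

namespace Vale.Agent.P154.DE

/-- powers of `9/10` -/
def pw_9_10_56 : ℕ := nat_lit 820790813998690246025617900474989141445701314644812954856060321925644897404929655510642288573842189828138224881507798114324138964950802578385391693230572821669740779190094149106252710653638898944909093128467826754047161500781336903248447183216482675056482819894624327251190820315994601361581770362097260499050282145269562416161795430809270628975993918356364718607763330257866962894542365142638584242268306435505988331401040677395707317110514066531927674424898597825167924376303790175341423704618158964595044687563734540011656428978416855055073280

end Vale.Agent.P154.DE
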