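import Vale.Agent.P154.DE.Check

/-!
# Powers of a ratio
-/

namespace Vale.Agent.P154.DE

/-- powers of `9/11` -/
def pw_9_11_30 : ℕ := nat_lit 25420866002879185246260609442480876577287237833518709741140889081803410059702524744130483203240570742725929071216821844688530704137423874573446048126213339200545805842907166034636596268535281285593993855639706323025408696465817171250016322855039515256260123539516977183278136095039479678400200704

end Vale.Agent.P154.DE
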