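import Vale.Agent.P154.DE.EngL
import Vale.Agent.P154.DE.Tk1_2_9_11_30_9_10_20
import Vale.Agent.P154.DE.Pw9_11_30
import Vale.Agent.P154.DE.Pw9_10_56

/-!
# Check of the splitting table
-/

namespace Vale.Agent.P154.DE

set_option maxRecDepth 100000

theorem c1tk1_2_9_11_30_9_10_20 : chkTab 32 pw_9_10_56 20 96 36 1 2 30 32 pw_9_11_30 (tk1_2_9_11_30_9_10_20.toTab 96) 0 31 = true := by
  decide +kernel

theorem c2tk1_2_9_11_30_9_10_20 : tk1_2_9_11_30_9_10_20.cnt = 31 := by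
  decide +kernel

theorem c3tk1_2_9_11_30_9_10_20 : chkRowE 32 pw_9_10_56 20 96 36 1 2 30 32 pw_9_11_30 (tk1_2_9_11_30_9_10_20E.toRow 96) 0 = true := by
  decide +kernel

theorem c4tk1_2_9_11_30_9_10_20 : (tk1_2_9_11_30_9_10_20E.toRow 96).len = 31 := by
  decide +kernel

theorem c5tk1_2_9_11_30_9_10_20 : chkRowV 32 pw_9_10_56 20 96 36 1 2 30 30 (tk1_2_9_11_30_9_10_20V.toRow 96) = true := by
  decide +kernel

end Vale.Agent.P154.DE
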