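import Vale.Agent.P154.DE.EngL
import Vale.Agent.P154.DE.Tk49_100_9_10_56_14_15_24
import Vale.Agent.P154.DE.Pw9_10_56
import Vale.Agent.P154.DE.Pw14_15_70

/-!
# Check of the splitting table
-/

namespace Vale.Agent.P154.DE

set_option maxRecDepth 100000

theorem c1tk49_100_9_10_56_14_15_24 : chkTab 32 pw_14_15_70 24 96 36 49 100 30 32 pw_9_10_56 (tk49_100_9_10_56_14_15_24.toTab 96) 0 57 = true := by
  decide +kernel

theorem c2tk49_100_9_10_56_14_15_24 : tk49_100_9_10_56_14_15_24.cnt = 57 := by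
  decide +kernel

theorem c3tk49_100_9_10_56_14_15_24 : chkRowE 32 pw_14_15_70 24 96 36 49 100 30 32 pw_9_10_56 (tk49_100_9_10_56_14_15_24E.toRow 96) 0 = true := by
  decide +kernel

theorem c4tk49_100_9_10_56_14_15_24 : (tk49_100_9_10_56_14_15_24E.toRow 96).len = 57 := by
  decide +kernel

theorem c5tk49_100_9_10_56_14_15_24 : chkRowV 32 pw_14_15_70 24 96 36 49 100 30 30 (tk49_100_9_10_56_14_15_24V.toRow 96) = true := by
  decide +kernel

end Vale.Agent.P154.DE
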