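import Vale.Agent.P154.DE.EngL
import Vale.Agent.P154.DE.Tk49_100_9_11_30_9_11_10
import Vale.Agent.P154.DE.Pw9_11_30

/-!
# Check of the splitting table
-/

namespace Vale.Agent.P154.DE

set_option maxRecDepth 100000

theorem c1tk49_100_9_11_30_9_11_10 : chkTab 32 pw_9_11_30 10 96 36 49 100 30 32 pw_9_11_30 (tk49_100_9_11_30_9_11_10.toTab 96) 0 31 = true := by
  decide +kernel

theorem c2tk49_100_9_11_30_9_11_10 : tk49_100_9_11_30_9_11_10.cnt = 31 := by
  decide +kernel

theorem c3tk49_100_9_11_30_9_11_10 : chkRowE 32 pw_9_11_30 10 96 36 49 100 30 32 pw_9_11_30 (tk49_100_9_11_30_9_11_10E.toRow 96) 0 = true := by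
  decide +kernel

theorem c4tk49_100_9_11_30_9_11_10 : (tk49_100_9_11_30_9_11_10E.toRow 96).len = 31 := by
  decide +kernel

theorem c5tk49_100_9_11_30_9_11_10 : chkRowV 32 pw_9_11_30 10 96 36 49 100 30 30 (tk49_100_9_11_30_9_11_10V.toRow 96) = true := by
  decide +kernel

end Vale.Agent.P154.DE
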