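import Vale.Agent.P154.DE.EngL
import Vale.Agent.P154.DE.Tk99_200_9_10_56_9_10_20
import Vale.Agent.P154.DE.Pw9_10_56

/-!
# Check of the splitting table
-/

namespace Vale.Agent.P154.DE

set_option maxRecDepth 100000

theorem c1tk99_200_9_10_56_9_10_20 : chkTab 32 pw_9_10_56 20 96 36 99 200 30 32 pw_9_10_56 (tk99_200_9_10_56_9_10_20.toTab 96) 0 57 = true := by
  decide +kernel

theorem c2tk99_200_9_10_56_9_10_20 : tk99_200_9_10_56_9_10_20.cnt = 57 := by
  decide +kernel

theorem c3tk99_200_9_10_56_9_10_20 : chkRowE 32 pw_9_10_56 20 96 36 99 200 30 32 pw_9_10_56 (tk99_200_9_10_56_9_10_20E.toRow 96) 0 = true := by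
  decide +kernel

theorem c4tk99_200_9_10_56_9_10_20 : (tk99_200_9_10_56_9_10_20E.toRow 96).len = 57 := by
  decide +kernel

theorem c5tk99_200_9_10_56_9_10_20 : chkRowV 32 pw_9_10_56 20 96 36 99 200 30 30 (tk99_200_9_10_56_9_10_20V.toRow 96) = true := by
  decide +kernel

end Vale.Agent.P154.DE
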