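import Vale.Agent.P154.DE.PEng

/-!
# A leaner engine (integer arithmetic)
-/

namespace Vale.Agent.P154.DE

/-- `∑ j < n, f (i + j) * 2 ^ (b * j)` -/
def hsum (b : ℕ) (f : ℕ → ℕ) : ℕ → ℕ → ℕ
  | 0, _ => 0
  | n + 1, i => hsum b f n (i + 1) <<< b + f i

/-- weight of the orbit `(0, e1, e2)` -/
def wg (pb L S e1 e2 : ℕ) : ℕ := dg pb S (e2 * (L + 1) + e1)

/-- array of the messages, organised by rows -/
def bA2 (be R L pb qb P S : ℕ) : ℕ :=
  sumR (fun x => force (hsum be (fun t => wg pb L S x (x + t)) (L + 1 - x) 0) fun r =>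
    (dg qb P 0 * r) <<< (be * (R * (L + x) + (L + x))) +
      (dg qb P x * r) <<< (be * (R * (L - x) + L))) (L + 1) +
  (sumR (fun y => force (hsum be (fun x => wg pb L S x y) (y + 1) 0) fun r =>
    (dg qb P 0 * r) <<< (be * (R * (L + y) + L)) +
      (dg qb P y * r) <<< (be * (R * (L - y) + (L - y)))) (L + 1) +
  sumR (fun t => force (hsum be (fun j => dg qb P (L - t - j) * wg pb L S (L - t - j) (L - j))
      (L + 1 - t) 0) fun r => force (hsum be (fun j => dg qb P (L - j) *
        wg pb L S (L - t - j) (L - j)) (L + 1 - t) 0) fun r' =>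
      r <<< (be * (R * (L + t) + t)) + r' <<< (be * (R * (L - t)))) (L + 1))

/-- a row of the splitting table: the mass `u` and the value `(c1 + c2 <<< d) <<< s` -/
inductive RowS where
  | nil : RowS
  | cons (u c1 d c2 s : ℕ) (l : RowS) : RowS

/-- the splitting table -/
inductive TabS where
  | nil : TabS
  | cons (r : RowS) (t : TabS) : TabS

/-- accumulate a row -/
def rowK (be M : ℕ) : RowS → ℕ → ℕ → ℕ → (ℕ → ℕ → ℕ) → ℕ
  | .nil, _, V, m, k => k V m
  | .cons u c1 d c2 s l, row, V, m, k =>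
    rowK be M l (row >>> be) (V + ((row % M) * (c1 + c2 <<< d)) <<< s) (m + (row % M) * u) k

/-- accumulate the table -/
def tabK (be M R z A : ℕ) : TabS → ℕ → ℕ → ℕ → ℕ → (ℕ → ℕ → ℕ) → ℕ
  | .nil, _, _, V, m, k => k V m
  | .cons r t, a, n, V, m, k =>
    force ((A >>> (be * (R * (z + a) + (z + a)))) % 2 ^ (be * n)) fun row =>
    rowK be M r row V m fun V' m' => force V' fun V'' => force m' fun m'' =>
      tabK be M R z A t (a + 1) (n - 1) V'' m'' k

/-- from the arrays of the vertex law to the accumulator -/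
def readK (be R z sc q A E : ℕ) (T : TabS) (n : ℕ) (TE TV : RowS) : ℕ :=
  tabK be (2 ^ be) R z A T 0 n 0 0 fun V m =>
  rowK be (2 ^ be) TE (E >>> (be * z)) V m fun V m =>
  rowK be (2 ^ be) TV ((3 * sc * 2 ^ q - m) >>> q) V 0 fun V _ => V

/-- accumulator after a step with Poisson offspring -/
def accP2 (be R L W pb qb P S : ℕ) (e s sc q : ℕ) (qs : List ℕ) (T : TabS) (n : ℕ)
    (TE TV : RowS) : ℕ :=
  force (bA2 be R L pb qb P S) fun A0 =>
  force (trm A0 0 (maskM be R e (2 * L + 1) (2 * L + 1)) e) fun A =>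
  force (maskM be 1 e 1 (2 * L + 1)) fun mL =>
  force (trm (bP be L pb qb P S) 0 mL e) fun Pa =>
  force (trm (bE be L pb qb P S) 0 mL e) fun E =>
  force (maskM be R s (2 * W + 1) (2 * W + 1)) fun mA =>
  force (maskM be 1 s 1 (2 * W + 1)) fun mP =>
  force (horA (be * (R * L + L)) mA s (be * (R * W + W)) A qs) fun HA =>
  force (horE (be * L) mP s (be * W) Pa E qs) fun HE =>
  readK be R W sc q HA HE T n TE TV

/-- the corresponding row in the old format -/
def RowS.toRow (vb : ℕ) : RowS → Row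
  | .nil => .nil
  | .cons u c1 d c2 s l =>
    if 2 ^ vb ≤ c1 then .cons u s (c1 % 2 ^ vb) (s + vb) (c1 >>> vb) (s + d) c2 (l.toRow vb)
    else if 2 ^ vb ≤ c2 then .cons u s c1 (s + d) (c2 % 2 ^ vb) (s + d + vb) (c2 >>> vb) (l.toRow vb)
    else .cons u s c1 (s + d) c2 s 0 (l.toRow vb)

/-- the corresponding table in the old format -/
def TabS.toTab (vb : ℕ) : TabS → Tab
  | .nil => .nil
  | .cons r t => .cons (r.toRow vb) (t.toTab vb)

end Vale.Agent.P154.DE
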