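import Vale.Agent.P154.DE.Eng2

/-!
# The engine in a form that the kernel evaluates quickly

All loops are explicit recursors and all operations are the primitive ones.
-/

namespace Vale.Agent.P154.DE

noncomputable section NC

/-- forces evaluation of `n` -/
def fN {α : Type} (n : ℕ) (f : ℕ → α) : α :=
  Nat.rec (motive := fun _ => α) (f 0) (fun m _ => f (Nat.succ m)) n

/-- `∑ j < n, f j` -/
def sumN (f : ℕ → ℕ) (n : ℕ) : ℕ :=
  Nat.rec (motive := fun _ => ℕ) 0 (fun m ih => Nat.add ih (f m)) n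

/-- `∑ j < n, f (i + j) * 2 ^ (b * j)` -/
def hsN (b : ℕ) (f : ℕ → ℕ) (n : ℕ) : ℕ → ℕ :=
  Nat.rec (motive := fun _ => ℕ → ℕ) (fun _ => 0)
    (fun _ ih i => Nat.add (Nat.shiftLeft (ih (Nat.succ i)) b) (f i)) n

/-- digit -/
def dgN (w N k : ℕ) : ℕ := Nat.mod (Nat.shiftRight N (Nat.mul w k)) (Nat.pow 2 w)

/-- weight of an orbit -/
def wgN (pb L1 S e1 e2 : ℕ) : ℕ := dgN pb S (Nat.add (Nat.mul e2 L1) e1)

/-- array of the messages -/
def bAN (be R L pb qb P S : ℕ) : ℕ :=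
  Nat.add (sumN (fun x => fN (hsN be (fun t => wgN pb (Nat.succ L) S x (Nat.add x t))
      (Nat.sub (Nat.succ L) x) 0) fun r =>
    Nat.add (Nat.shiftLeft (Nat.mul (dgN qb P 0) r)
        (Nat.mul be (Nat.add (Nat.mul R (Nat.add L x)) (Nat.add L x))))
      (Nat.shiftLeft (Nat.mul (dgN qb P x) r)
        (Nat.mul be (Nat.add (Nat.mul R (Nat.sub L x)) L)))) (Nat.succ L))
  (Nat.add (sumN (fun y => fN (hsN be (fun x => wgN pb (Nat.succ L) S x y) (Nat.succ y) 0)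
      fun r =>
    Nat.add (Nat.shiftLeft (Nat.mul (dgN qb P 0) r)
        (Nat.mul be (Nat.add (Nat.mul R (Nat.add L y)) L)))
      (Nat.shiftLeft (Nat.mul (dgN qb P y) r)
        (Nat.mul be (Nat.add (Nat.mul R (Nat.sub L y)) (Nat.sub L y))))) (Nat.succ L))
   (sumN (fun t => fN (hsN be (fun j => Nat.mul (dgN qb P (Nat.sub (Nat.sub L t) j))
        (wgN pb (Nat.succ L) S (Nat.sub (Nat.sub L t) j) (Nat.sub L j)))
      (Nat.sub (Nat.succ L) t) 0) fun r => fN (hsN be (fun j => Nat.mul (dgN qb P (Nat.sub L j))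
        (wgN pb (Nat.succ L) S (Nat.sub (Nat.sub L t) j) (Nat.sub L j)))
      (Nat.sub (Nat.succ L) t) 0) fun r' =>
      Nat.add (Nat.shiftLeft r (Nat.mul be (Nat.add (Nat.mul R (Nat.add L t)) t)))
        (Nat.shiftLeft r' (Nat.mul be (Nat.mul R (Nat.sub L t))))) (Nat.succ L)))

/-- images of an orbit -/
def g1N (be L P0 P1 P2 e1 e2 : ℕ) : ℕ :=
  Nat.add (Nat.add (Nat.shiftLeft P0 (Nat.mul be (Nat.add L e1)))
      (Nat.shiftLeft P0 (Nat.mul be (Nat.add L e2))))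
    (Nat.add (Nat.add (Nat.shiftLeft P1 (Nat.mul be (Nat.sub L e1)))
      (Nat.shiftLeft P1 (Nat.mul be (Nat.sub (Nat.add L e2) e1))))
    (Nat.add (Nat.shiftLeft P2 (Nat.mul be (Nat.sub L e2)))
      (Nat.shiftLeft P2 (Nat.mul be (Nat.sub (Nat.add L e1) e2)))))

/-- one-dimensional array of the messages -/
def bPN (be L pb qb P S : ℕ) : ℕ :=
  sumN (fun e2 => sumN (fun e1 => Nat.mul (wgN pb (Nat.succ L) S e1 e2)
    (g1N be L (dgN qb P 0) (dgN qb P e1) (dgN qb P e2) e1 e2)) (Nat.succ e2)) (Nat.succ L)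

/-- one-dimensional array of the messages, one colour excluded -/
def bEN (be L pb qb P S : ℕ) : ℕ :=
  Nat.shiftLeft (Nat.mul (Nat.mul 2 (dgN pb S (Nat.mul (Nat.succ L) (Nat.succ L))))
    (dgN qb P 0)) (Nat.mul be L)

/-- slots equal to one -/
def onN (b w : ℕ) : ℕ := sumN (fun j => Nat.shiftLeft 1 (Nat.mul b j)) w

/-- mask -/
def mkN (b R s w h : ℕ) : ℕ :=
  Nat.mul (Nat.sub (Nat.pow 2 b) (Nat.pow 2 s)) (Nat.mul (onN b w) (onN (Nat.mul b R) h))

/-- shift, mask and round -/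
def trN (A t m s : ℕ) : ℕ := Nat.shiftRight (Nat.land (Nat.shiftRight A t) m) s

/-- Horner scheme -/
def hAN (t m s u X : ℕ) (l : List ℕ) : ℕ :=
  List.rec (motive := fun _ => ℕ) 0
    (fun q _ ih => fN ih fun H => Nat.add (trN (Nat.mul X H) t m s) (Nat.shiftLeft q u)) l

/-- Horner scheme, one colour excluded -/
def hEN (t m s u X Y : ℕ) (l : List ℕ) : ℕ :=
  List.rec (motive := fun _ => ℕ) 0
    (fun _ l ih => fN (hAN t m s u X l) fun H => fN ih fun K =>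
      trN (Nat.add (Nat.mul Y (Nat.add H K)) (Nat.mul X K)) t m s) l

/-- accumulate a row -/
def rwN (be M : ℕ) (r : RowS) : ℕ → ℕ → ℕ → (ℕ → ℕ → ℕ) → ℕ :=
  RowS.rec (motive := fun _ => ℕ → ℕ → ℕ → (ℕ → ℕ → ℕ) → ℕ) (fun _ V m k => k V m)
    (fun u c1 d c2 s _ ih row V m k =>
      ih (Nat.shiftRight row be)
        (Nat.add V (Nat.shiftLeft (Nat.mul (Nat.mod row M) (Nat.add c1 (Nat.shiftLeft c2 d))) s))
        (Nat.add m (Nat.mul (Nat.mod row M) u)) k) r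

/-- accumulate the table -/
def tbN (be M R z A : ℕ) (T : TabS) : ℕ → ℕ → ℕ → ℕ → (ℕ → ℕ → ℕ) → ℕ :=
  TabS.rec (motive := fun _ => ℕ → ℕ → ℕ → ℕ → (ℕ → ℕ → ℕ) → ℕ) (fun _ _ V m k => k V m)
    (fun r _ ih a n V m k =>
      fN (Nat.mod (Nat.shiftRight A
        (Nat.mul be (Nat.add (Nat.mul R (Nat.add z a)) (Nat.add z a))))
        (Nat.pow 2 (Nat.mul be n))) fun row =>
      rwN be M r row V m fun V' m' => fN V' fun V'' => fN m' fun m'' =>
        ih (Nat.succ a) (Nat.pred n) V'' m'' k) T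

/-- from the arrays of the vertex law to the accumulator -/
def rdN (be R z sc q A E : ℕ) (T : TabS) (n : ℕ) (TE TV : RowS) : ℕ :=
  tbN be (Nat.pow 2 be) R z A T 0 n 0 0 fun V m =>
  rwN be (Nat.pow 2 be) TE (Nat.shiftRight E (Nat.mul be z)) V m fun V m =>
  rwN be (Nat.pow 2 be) TV (Nat.shiftRight (Nat.sub (Nat.mul (Nat.mul 3 sc) (Nat.pow 2 q)) m) q)
    V 0 fun V _ => V

/-- accumulator after a step with Poisson offspring -/
def acN (be R L W pb qb P S : ℕ) (e s sc q : ℕ) (qs : List ℕ) (T : TabS) (n : ℕ)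
    (TE TV : RowS) : ℕ :=
  fN (bAN be R L pb qb P S) fun A0 =>
  fN (Nat.succ (Nat.mul 2 L)) fun wL =>
  fN (trN A0 0 (mkN be R e wL wL) e) fun A =>
  fN (mkN be 1 e 1 wL) fun mL =>
  fN (trN (bPN be L pb qb P S) 0 mL e) fun Pa =>
  fN (trN (bEN be L pb qb P S) 0 mL e) fun E =>
  fN (Nat.succ (Nat.mul 2 W)) fun wW =>
  fN (mkN be R s wW wW) fun mA =>
  fN (mkN be 1 s 1 wW) fun mP =>
  fN (hAN (Nat.mul be (Nat.add (Nat.mul R L) L)) mA s
    (Nat.mul be (Nat.add (Nat.mul R W) W)) A qs) fun HA =>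
  fN (hEN (Nat.mul be L) mP s (Nat.mul be W) Pa E qs) fun HE =>
  rdN be R W sc q HA HE T n TE TV

/-- comparison of the new state with the accumulator; `Mp = 2 ^ pb`, `Mv = 2 ^ vb` -/
def ckN (pb vb sh Mp Mv n : ℕ) : ℕ → ℕ → Bool :=
  Nat.rec (motive := fun _ => ℕ → ℕ → Bool) (fun _ _ => true)
    (fun _ ih S V => Bool.rec (motive := fun _ => Bool) false
      (ih (Nat.shiftRight S pb) (Nat.shiftRight V vb))
      (Nat.ble (Nat.shiftLeft (Nat.mod S Mp) sh) (Nat.mod V Mv))) n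

/-- check of a step with Poisson offspring -/
def stN (R L W P S L' S' : ℕ) (qs : List ℕ) (T : TabS) (TE TV : RowS) : Bool :=
  fN (acN 84 R L W 32 32 P S 20 40 (Nat.pow 2 40) 30 qs T (Nat.succ W) TE TV) fun V =>
  ckN 32 96 40 (Nat.pow 2 32) (Nat.pow 2 96) (Nat.succ (Nat.mul (Nat.succ L') (Nat.succ L')))
    S' V

/-- the weights of the fourfold product -/
def q4 : List ℕ := [nat_lit 0, nat_lit 0, nat_lit 0, nat_lit 0, nat_lit 1099511627776]

end NC

end Vale.Agent.P154.DE
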