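import Vale.Agent.P154.DE.StepP2
import Vale.Agent.P154.DE.EngD

/-!
# Correctness of the fast form of the engine
-/

namespace Vale.Agent.P154.DE

noncomputable section NC

/-! ### correctness -/

theorem fN_eq {α : Type} (n : ℕ) (f : ℕ → α) : fN n f = f n := by
  cases n <;> rfl

theorem sumN_eq (f : ℕ → ℕ) (n : ℕ) : sumN f n = sumR f n := by
  induction n with
  | zero => rfl
  | succ n ih =>
    show sumN f n + f n = sumR f n + f n
    rw [ih]

theorem hsN_eq (b : ℕ) (f : ℕ → ℕ) (n i : ℕ) : hsN b f n i = hsum b f n i := by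
  induction n generalizing i with
  | zero => rfl
  | succ n ih =>
    show hsN b f n (i + 1) <<< b + f i = _
    rw [ih]
    rfl

theorem dgN_eq (w N k : ℕ) : dgN w N k = dg w N k := rfl

theorem wgN_eq (pb L S e1 e2 : ℕ) : wgN pb (Nat.succ L) S e1 e2 = wg pb L S e1 e2 := rfl

theorem bAN_eq (be R L pb qb P S : ℕ) : bAN be R L pb qb P S = bA2 be R L pb qb P S := by
  unfold bAN bA2
  simp only [sumN_eq, fN_eq, force_eq, hsN_eq, dgN_eq, wgN_eq]
  rfl

theorem bPN_eq (be L pb qb P S : ℕ) : bPN be L pb qb P S = bP be L pb qb P S := by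
  unfold bPN bP
  simp only [sumN_eq]
  rfl

theorem bEN_eq (be L pb qb P S : ℕ) : bEN be L pb qb P S = bE be L pb qb P S := rfl

theorem onN_eq (b w : ℕ) : onN b w = ones b w := by
  unfold onN ones
  rw [sumN_eq]
  rfl

theorem mkN_eq (b R s w h : ℕ) : mkN b R s w h = maskM b R s w h := by
  unfold mkN maskM
  rw [onN_eq, onN_eq]
  rfl

theorem trN_eq (A t m s : ℕ) : trN A t m s = trm A t m s := rfl

theorem hAN_eq (t m s u X : ℕ) : (l : List ℕ) → hAN t m s u X l = horA t m s u X l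
  | [] => rfl
  | q :: l => by
    show fN (hAN t m s u X l) (fun H => Nat.add (trN (Nat.mul X H) t m s) (Nat.shiftLeft q u)) = _
    rw [fN_eq, hAN_eq t m s u X l, horA, force_eq]
    rfl

theorem hEN_eq (t m s u X Y : ℕ) : (l : List ℕ) → hEN t m s u X Y l = horE t m s u X Y l
  | [] => rfl
  | q :: l => by
    show fN (hAN t m s u X l) (fun H => fN (hEN t m s u X Y l) fun K =>
      trN (Nat.add (Nat.mul Y (Nat.add H K)) (Nat.mul X K)) t m s) = _
    rw [fN_eq, fN_eq, hAN_eq, hEN_eq t m s u X Y l, horE, force_eq, force_eq]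
    rfl

theorem rwN_eq (be M : ℕ) : (r : RowS) → (row V m : ℕ) → (k : ℕ → ℕ → ℕ) →
    rwN be M r row V m k = rowK be M r row V m k
  | .nil, _, _, _, _ => rfl
  | .cons u c1 d c2 s l, row, V, m, k => by
    rw [rowK, ← rwN_eq be M l]
    rfl

theorem tbN_eq (be M R z A : ℕ) : (T : TabS) → (a n V m : ℕ) → (k : ℕ → ℕ → ℕ) →
    tbN be M R z A T a n V m k = tabK be M R z A T a n V m k
  | .nil, _, _, _, _, _ => rfl
  | .cons r t, a, n, V, m, k => by
    show fN (Nat.mod (Nat.shiftRight A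
        (Nat.mul be (Nat.add (Nat.mul R (Nat.add z a)) (Nat.add z a))))
        (Nat.pow 2 (Nat.mul be n))) (fun row =>
      rwN be M r row V m fun V' m' => fN V' fun V'' => fN m' fun m'' =>
        tbN be M R z A t (Nat.succ a) (Nat.pred n) V'' m'' k) = _
    rw [fN_eq, tabK, force_eq, rwN_eq]
    congr 1
    funext V' m'
    rw [fN_eq, fN_eq, force_eq, force_eq, tbN_eq be M R z A t]
    rfl

theorem rdN_eq (be R z sc q A E : ℕ) (T : TabS) (n : ℕ) (TE TV : RowS) :
    rdN be R z sc q A E T n TE TV = readK be R z sc q A E T n TE TV := by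
  unfold rdN readK
  rw [tbN_eq]
  congr 1
  funext V m
  rw [rwN_eq]
  congr 1
  funext V m
  rw [rwN_eq]
  rfl

theorem acN_eq (be R L W pb qb P S : ℕ) (e s sc q : ℕ) (qs : List ℕ) (T : TabS) (n : ℕ)
    (TE TV : RowS) : acN be R L W pb qb P S e s sc q qs T n TE TV =
    accP2 be R L W pb qb P S e s sc q qs T n TE TV := by
  unfold acN accP2
  simp only [fN_eq, force_eq, bAN_eq, bPN_eq, bEN_eq, mkN_eq, trN_eq, hAN_eq, hEN_eq, rdN_eq]
  rfl

theorem ckN_eq (pb vb sh : ℕ) : (n S V : ℕ) → ckN pb vb sh (2 ^ pb) (2 ^ vb) n S V =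
    chk pb vb sh n S V
  | 0, _, _ => rfl
  | n + 1, S, V => by
    show Bool.rec (motive := fun _ => Bool) false
      (ckN pb vb sh (2 ^ pb) (2 ^ vb) n (Nat.shiftRight S pb) (Nat.shiftRight V vb))
      (Nat.ble (Nat.shiftLeft (Nat.mod S (2 ^ pb)) sh) (Nat.mod V (2 ^ vb))) = _
    rw [ckN_eq pb vb sh n, chk]
    show Bool.rec (motive := fun _ => Bool) false (chk pb vb sh n (S >>> pb) (V >>> vb))
      (Nat.ble ((S % 2 ^ pb) <<< sh) (V % 2 ^ vb)) = _
    cases Nat.ble ((S % 2 ^ pb) <<< sh) (V % 2 ^ vb) <;> rfl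

theorem stN_spec {R L W P S L' S' : ℕ} {qs : List ℕ} {T : TabS} {TE TV : RowS}
    (h : stN R L W P S L' S' qs T TE TV = true) :
    chk 32 96 40 (nS L') S' (accP2 84 R L W 32 32 P S 20 40 (2 ^ 40) 30 qs T (W + 1) TE TV)
      = true := by
  unfold stN at h
  rw [fN_eq, acN_eq] at h
  have e := ckN_eq 32 96 40 (nS L') S'
    (accP2 84 R L W 32 32 P S 20 40 (2 ^ 40) 30 qs T (W + 1) TE TV)
  rw [← e]
  exact h

end NC

end Vale.Agent.P154.DE
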