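import Vale.Agent.P154.DE.Eng2

/-!
# Length of a table
-/

namespace Vale.Agent.P154.DE

/-- number of rows -/
def TabS.cnt : TabS → ℕ
  | .nil => 0
  | .cons _ t => t.cnt + 1

end Vale.Agent.P154.DE
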