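import Mathlib.Data.Nat.Notation

/-!
# The density evolution engine (integer arithmetic)
-/

namespace Vale.Agent.P154.DE

/-- forces evaluation of `n` in the kernel -/
def force {α : Type} (n : ℕ) (f : ℕ → α) : α :=
  match n with
  | 0 => f 0
  | m + 1 => f (m + 1)

/-- digit `k` of `N`, slots of `w` bits -/
def dg (w N k : ℕ) : ℕ := (N >>> (w * k)) % 2 ^ w

/-- `∑ i < n, f i` -/
def sumR (f : ℕ → ℕ) : ℕ → ℕ
  | 0 => 0
  | n + 1 => sumR f n + f n

/-- parameters of a phase -/
structure Par where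
  /-- state precision -/
  p : ℕ
  /-- precision of the table of powers -/
  q : ℕ
  /-- precision of the splitting table -/
  r : ℕ
  /-- message window -/
  L : ℕ
  /-- slot width of the state -/
  pb : ℕ
  /-- slot width of the accumulator -/
  vb : ℕ
  /-- slot width of the arrays -/
  be : ℕ
  /-- slot width of the table of powers -/
  qb : ℕ
  /-- table of powers -/
  P : ℕ

/-- all images of the orbit `(0, e1, e2)`, two-dimensional array -/
def gen2 (be R L P0 P1 P2 e1 e2 : ℕ) : ℕ :=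
  (P0 <<< (be * (R * (L + e1) + (L + e2))) + P0 <<< (be * (R * (L + e2) + (L + e1)))) +
  ((P1 <<< (be * (R * (L - e1) + (L + e2 - e1))) + P1 <<< (be * (R * (L + e2 - e1) + (L - e1)))) +
  (P2 <<< (be * (R * (L - e2) + (L + e1 - e2))) + P2 <<< (be * (R * (L + e1 - e2) + (L - e2)))))

/-- all images of the orbit `(0, e1, e2)`, one-dimensional array -/
def gen1 (be L P0 P1 P2 e1 e2 : ℕ) : ℕ :=
  (P0 <<< (be * (L + e1)) + P0 <<< (be * (L + e2))) +
  ((P1 <<< (be * (L - e1)) + P1 <<< (be * (L + e2 - e1))) +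
  (P2 <<< (be * (L - e2)) + P2 <<< (be * (L + e1 - e2))))

/-- two-dimensional array of the messages -/
def bA (be R L pb qb P S : ℕ) : ℕ :=
  sumR (fun e2 => sumR (fun e1 => dg pb S (e2 * (L + 1) + e1) *
    gen2 be R L (dg qb P 0) (dg qb P e1) (dg qb P e2) e1 e2) (e2 + 1)) (L + 1)

/-- one-dimensional array of the messages, no colour excluded -/
def bP (be L pb qb P S : ℕ) : ℕ :=
  sumR (fun e2 => sumR (fun e1 => dg pb S (e2 * (L + 1) + e1) *
    gen1 be L (dg qb P 0) (dg qb P e1) (dg qb P e2) e1 e2) (e2 + 1)) (L + 1)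

/-- one-dimensional array of the messages, one colour excluded -/
def bE (be L pb qb P S : ℕ) : ℕ :=
  (2 * dg pb S ((L + 1) * (L + 1)) * dg qb P 0) <<< (be * L)

/-- a row of the splitting table -/
inductive Row where
  | nil : Row
  | cons (u s1 t1 s2 t2 s3 t3 : ℕ) (l : Row) : Row

/-- the splitting table -/
inductive Tab where
  | nil : Tab
  | cons (r : Row) (t : Tab) : Tab

/-- accumulate a row -/
def rowLoop (be sT : ℕ) : Row → ℕ → ℕ → ℕ
  | .nil, _, V => V
  | .cons u s1 t1 s2 t2 s3 t3 l, row, V =>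
    rowLoop be sT l (row >>> be)
      (V + row % 2 ^ be * (u <<< sT + (t1 <<< s1 + (t2 <<< s2 + t3 <<< s3))))

/-- accumulate the table -/
def tabLoop (be R z sT A : ℕ) : Tab → ℕ → ℕ → ℕ → ℕ
  | .nil, _, _, V => V
  | .cons r t, a, n, V =>
    force (rowLoop be sT r ((A >>> (be * (R * (z + a) + (z + a)))) % 2 ^ (be * n)) V) fun V' =>
      tabLoop be R z sT A t (a + 1) (n - 1) V'

/-- comparison of the new state with the accumulator -/
def chk (pb vb sh : ℕ) : ℕ → ℕ → ℕ → Bool
  | 0, _, _ => true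
  | n + 1, S, V => Nat.ble ((S % 2 ^ pb) <<< sh) (V % 2 ^ vb) && chk pb vb sh n (S >>> pb) (V >>> vb)

/-- extraction of the new state -/
def ext (pb vb sh : ℕ) : ℕ → ℕ → ℕ → ℕ → ℕ
  | 0, _, _, S => S
  | n + 1, k, V, S => ext pb vb sh n (k + 1) (V >>> vb)
      (S + (((V % 2 ^ vb) >>> sh) % 2 ^ pb) <<< (pb * k))

/-- accumulator after a regular step with four children: `K1` is the parameter set of the incoming
messages, the table belongs to the outgoing messages, whose accumulator has slots of `vb` bits and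
top slot `sT` -/
def acc4 (be R L pb qb P S : ℕ) (sc q sT : ℕ) (T : Tab) (n : ℕ) (TE TV : Row) : ℕ :=
  force (bA be R L pb qb P S) fun A =>
  force (bP be L pb qb P S) fun Pa =>
  force (bE be L pb qb P S) fun E =>
  force (Pa + E) fun U =>
  force (E * U + Pa * E) fun E2 =>
  force (E * (U * U) + Pa * E2) fun E3 =>
  force (E * (U * (U * U)) + Pa * E3) fun E4 =>
  force (A * A) fun A2 =>
  force (A2 * A2) fun A4 =>
  force (tabLoop be R (4 * L) sT A4 T 0 n 0) fun V1 =>
  force (rowLoop be sT TE (E4 >>> (be * (4 * L))) V1) fun V2 =>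
  rowLoop be sT TV ((3 * sc * 2 ^ q - V2 >>> sT) >>> q) V2

end Vale.Agent.P154.DE
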