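import Vale.Agent.P154.DE.Order

/-!
# Sub-laws supported on a multiplicative lattice, and packed arrays
-/

namespace Vale.Agent.P154.DE

noncomputable section NC

open Finset
open scoped ENNReal NNReal

/-- exponent vectors; `⊤` is the exponent of `0` -/
abbrev Expo := Fin 3 → ℕ∞

/-- power with exponent in `ℕ∞` -/
def pwT (θ : ℝ≥0) (x : ℕ∞) : ℝ≥0 := if x = ⊤ then 0 else θ ^ x.toNat

theorem pwT_top (θ : ℝ≥0) : pwT θ ⊤ = 0 := by simp [pwT]

theorem pwT_coe (θ : ℝ≥0) (n : ℕ) : pwT θ (n : ℕ∞) = θ ^ n := by simp [pwT]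

theorem pwT_zero (θ : ℝ≥0) : pwT θ 0 = 1 := by
  have := pwT_coe θ 0
  simpa using this

theorem pwT_add (θ : ℝ≥0) (x y : ℕ∞) : pwT θ (x + y) = pwT θ x * pwT θ y := by
  induction x using ENat.recTopCoe with
  | top => simp [pwT_top]
  | coe a =>
    induction y using ENat.recTopCoe with
    | top => simp [pwT_top]
    | coe b =>
      rw [← Nat.cast_add, pwT_coe, pwT_coe, pwT_coe, pow_add]

/-- the vector with given exponents -/
def pwV (θ : ℝ≥0) (x : Expo) : V := fun i => pwT θ (x i)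

theorem pwV_add (θ : ℝ≥0) (x y : Expo) : pwV θ (x + y) = pwV θ x * pwV θ y := by
  funext i
  exact pwT_add θ _ _

theorem pwV_zero (θ : ℝ≥0) : pwV θ 0 = 1 := by
  funext i
  exact pwT_zero θ

/-- the law of vectors -/
def toV (θ : ℝ≥0) (c : Fnl Expo) : Fnl V := push (pwV θ) c

theorem toV_apply (θ : ℝ≥0) (c : Fnl Expo) (f : V → ℝ≥0∞) :
    toV θ c f = c (fun x => f (pwV θ x)) := rfl

theorem toV_conv (θ : ℝ≥0) (c₁ c₂ : Fnl Expo) :
    toV θ (conv (· + ·) c₁ c₂) = conv (· * ·) (toV θ c₁) (toV θ c₂) := by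
  ext f
  rw [toV_apply, conv_apply, conv_apply]
  simp only [pwV_add, toV_apply]

/-- invariance under relabellings -/
def SymC (c : Fnl Expo) : Prop :=
  ∀ (g : Equiv.Perm (Fin 3)) (f : Expo → ℝ≥0∞), c (fun x => f (fun i => x (g i))) = c f

theorem SymC.conv {c₁ c₂ : Fnl Expo} (h1 : SymC c₁) (h2 : SymC c₂) :
    SymC (conv (· + ·) c₁ c₂) := by
  intro g f
  rw [conv_apply, conv_apply]
  have : ∀ x : Expo, c₂ (fun y => f (fun i => (x + y) (g i))) =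
      c₂ (fun y => f ((fun i => x (g i)) + y)) := by
    intro x
    exact h2 g (fun y => f ((fun i => x (g i)) + y))
  simp_rw [this]
  exact h1 g (fun x => c₂ (fun y => f (x + y)))

theorem SymC.toV {c : Fnl Expo} (h : SymC c) (θ : ℝ≥0) (g : Equiv.Perm (Fin 3))
    (f : V → ℝ≥0∞) : toV θ c (fun u => f (fun i => u (g i))) = toV θ c f :=
  h g (fun x => f (pwV θ x))

/-- total planted mass -/
def pmass (θ : ℝ≥0) (c : Fnl Expo) : ℝ≥0∞ := c (fun x => (pwT θ (x 0) : ℝ≥0∞))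

theorem pmass_conv (θ : ℝ≥0) (c₁ c₂ : Fnl Expo) :
    pmass θ (conv (· + ·) c₁ c₂) = pmass θ c₁ * pmass θ c₂ := by
  unfold pmass
  rw [conv_apply]
  have : ∀ x : Expo, c₂ (fun y => ((pwT θ ((x + y) 0) : ℝ≥0) : ℝ≥0∞)) =
      (pwT θ (x 0) : ℝ≥0∞) * c₂ (fun y => (pwT θ (y 0) : ℝ≥0∞)) := by
    intro x
    rw [← smul_eq_mul, ← map_smul]
    congr 1
    funext y
    rw [Pi.add_apply, pwT_add, ENNReal.coe_mul]
    rfl
  simp_rw [this]
  have e : (fun x : Expo => (pwT θ (x 0) : ℝ≥0∞) * c₂ (fun y => (pwT θ (y 0) : ℝ≥0∞))) =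
      c₂ (fun y => (pwT θ (y 0) : ℝ≥0∞)) • fun x : Expo => (pwT θ (x 0) : ℝ≥0∞) := by
    funext x
    simp [mul_comm]
  rw [e, map_smul, smul_eq_mul, mul_comm]

open Classical in
/-- planted mass of a set of exponents -/
def pl (θ : ℝ≥0) (c : Fnl Expo) (J : Expo → Prop) : ℝ≥0∞ :=
  c (fun x => if J x then (pwT θ (x 0) : ℝ≥0∞) else 0)

theorem pl_le_pmass (θ : ℝ≥0) (c : Fnl Expo) (J : Expo → Prop) : pl θ c J ≤ pmass θ c := by
  classical
  refine c.mono fun x => ?_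
  split_ifs
  · exact le_rfl
  · exact zero_le

theorem pl_mono {θ : ℝ≥0} {c₁ c₂ : Fnl Expo} (h : ∀ f, c₁ f ≤ c₂ f) (J : Expo → Prop) :
    pl θ c₁ J ≤ pl θ c₂ J := h _

theorem pl_add (θ : ℝ≥0) (c₁ c₂ : Fnl Expo) (J : Expo → Prop) :
    pl θ (c₁ + c₂) J = pl θ c₁ J + pl θ c₂ J := rfl

theorem pl_smul (θ : ℝ≥0) (a : ℝ≥0∞) (c : Fnl Expo) (J : Expo → Prop) :
    pl θ (a • c) J = a * pl θ c J := rfl

/-- slots of a two-dimensional array -/
def J2 (z i j : ℕ) (x : Expo) : Prop := x 0 ≠ ⊤ ∧ x 1 + z = x 0 + i ∧ x 2 + z = x 0 + j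

/-- slots of a one-dimensional array, no colour excluded -/
def JP (z i j : ℕ) (x : Expo) : Prop := j = 0 ∧ x 0 ≠ ⊤ ∧ x 2 ≠ ⊤ ∧ x 1 + z = x 0 + i

/-- slots of a one-dimensional array, last colour excluded -/
def JE (z i j : ℕ) (x : Expo) : Prop := j = 0 ∧ x 0 ≠ ⊤ ∧ x 2 = ⊤ ∧ x 1 + z = x 0 + i

/-- slots of a one-dimensional array -/
def JA (z i j : ℕ) (x : Expo) : Prop := j = 0 ∧ x 0 ≠ ⊤ ∧ x 1 + z = x 0 + i

/-- every exponent vector is in at most one slot -/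
def Uniq (J : ℕ → ℕ → ℕ → Expo → Prop) : Prop :=
  ∀ z i j i' j' x, J z i j x → J z i' j' x → i = i' ∧ j = j'

theorem cancel_aux {a : ℕ∞} (ha : a ≠ ⊤) {i i' : ℕ} (h : a + i = a + i') : i = i' := by
  have := WithTop.add_left_cancel ha h
  exact ENat.natCast_inj.mp this

theorem uniq_J2 : Uniq J2 := by
  rintro z i j i' j' x ⟨h0, h1, h2⟩ ⟨-, h3, h4⟩
  exact ⟨cancel_aux h0 (h1.symm.trans h3), cancel_aux h0 (h2.symm.trans h4)⟩

theorem uniq_JA : Uniq JA := by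
  rintro z i j i' j' x ⟨hj, h0, h1⟩ ⟨hj', -, h3⟩
  exact ⟨cancel_aux h0 (h1.symm.trans h3), hj.trans hj'.symm⟩

theorem JP.ja {z i j : ℕ} {x : Expo} (h : JP z i j x) : JA z i j x := ⟨h.1, h.2.1, h.2.2.2⟩

theorem JE.ja {z i j : ℕ} {x : Expo} (h : JE z i j x) : JA z i j x := ⟨h.1, h.2.1, h.2.2.2⟩

theorem uniq_JP : Uniq JP := fun z i j i' j' x h h' => uniq_JA z i j i' j' x h.ja h'.ja

theorem uniq_JE : Uniq JE := fun z i j i' j' x h h' => uniq_JA z i j i' j' x h.ja h'.ja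

/-- compatibility of slots with addition -/
def Comp (Ja Jb Jc : ℕ → ℕ → ℕ → Expo → Prop) : Prop :=
  ∀ z z' i i' j j' x y, Ja z i j x → Jb z' i' j' y → Jc (z + z') (i + i') (j + j') (x + y)

theorem add_ne_top' {a b : ℕ∞} (ha : a ≠ ⊤) (hb : b ≠ ⊤) : a + b ≠ ⊤ :=
  WithTop.add_ne_top.mpr ⟨ha, hb⟩

theorem comp_aux {a b a' b' : ℕ∞} {z z' i i' : ℕ} (h : a + z = b + i) (h' : a' + z' = b' + i') :
    (a + a') + ((z + z' : ℕ) : ℕ∞) = (b + b') + ((i + i' : ℕ) : ℕ∞) := by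
  push_cast
  calc a + a' + (z + z') = (a + z) + (a' + z') := by abel
    _ = (b + i) + (b' + i') := by rw [h, h']
    _ = _ := by abel

theorem comp_J2 : Comp J2 J2 J2 := by
  rintro z z' i i' j j' x y ⟨h0, h1, h2⟩ ⟨k0, k1, k2⟩
  exact ⟨add_ne_top' h0 k0, comp_aux h1 k1, comp_aux h2 k2⟩

theorem comp_JA : Comp JA JA JA := by
  rintro z z' i i' j j' x y ⟨hj, h0, h1⟩ ⟨kj, k0, k1⟩
  exact ⟨by omega, add_ne_top' h0 k0, comp_aux h1 k1⟩

theorem comp_JP : Comp JP JP JP := by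
  rintro z z' i i' j j' x y ⟨hj, h0, h2, h1⟩ ⟨kj, k0, k2, k1⟩
  exact ⟨by omega, add_ne_top' h0 k0, add_ne_top' h2 k2, comp_aux h1 k1⟩

theorem comp_JEA : Comp JE JA JE := by
  rintro z z' i i' j j' x y ⟨hj, h0, h2, h1⟩ ⟨kj, k0, k1⟩
  exact ⟨by omega, add_ne_top' h0 k0, by simp [h2], comp_aux h1 k1⟩

theorem comp_JPE : Comp JP JE JE := by
  rintro z z' i i' j j' x y ⟨hj, h0, h2, h1⟩ ⟨kj, k0, k2, k1⟩
  exact ⟨by omega, add_ne_top' h0 k0, by simp [k2], comp_aux h1 k1⟩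

open Classical in
/-- product of planted masses as a double functional -/
theorem pl_mul_pl (θ : ℝ≥0) (c₁ c₂ : Fnl Expo) (J K : Expo → Prop) :
    pl θ c₁ J * pl θ c₂ K = c₁ (fun x => c₂ (fun y =>
      (if J x then (pwT θ (x 0) : ℝ≥0∞) else 0) * (if K y then (pwT θ (y 0) : ℝ≥0∞) else 0))) := by
  have h1 : ∀ x, c₂ (fun y =>
      (if J x then (pwT θ (x 0) : ℝ≥0∞) else 0) * (if K y then (pwT θ (y 0) : ℝ≥0∞) else 0)) =
      (if J x then (pwT θ (x 0) : ℝ≥0∞) else 0) * pl θ c₂ K := by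
    intro x
    unfold pl
    rw [← smul_eq_mul, ← map_smul]
    rfl
  simp_rw [h1]
  have e : (fun x => (if J x then (pwT θ (x 0) : ℝ≥0∞) else 0) * pl θ c₂ K) =
      pl θ c₂ K • fun x => (if J x then (pwT θ (x 0) : ℝ≥0∞) else 0) := by
    funext x
    simp [mul_comm]
  rw [e, map_smul, smul_eq_mul, mul_comm]
  rfl

/-- sum of products of planted masses -/
theorem sum_pl_mul_pl {ι : Type*} (s : Finset ι) (θ : ℝ≥0) (c₁ c₂ : Fnl Expo)
    (J K : ι → Expo → Prop) (L : Expo → Prop)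
    (h1 : ∀ k ∈ s, ∀ x y, J k x → K k y → L (x + y))
    (h2 : ∀ k ∈ s, ∀ k' ∈ s, ∀ x y, J k x → K k y → J k' x → K k' y → k = k') :
    ∑ k ∈ s, pl θ c₁ (J k) * pl θ c₂ (K k) ≤ pl θ (conv (· + ·) c₁ c₂) L := by
  classical
  simp_rw [pl_mul_pl]
  have e1 : ∑ k ∈ s, c₁ (fun x => c₂ (fun y =>
      (if J k x then (pwT θ (x 0) : ℝ≥0∞) else 0) *
        (if K k y then (pwT θ (y 0) : ℝ≥0∞) else 0))) =
      c₁ (fun x => c₂ (fun y => ∑ k ∈ s, (if J k x then (pwT θ (x 0) : ℝ≥0∞) else 0) *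
        (if K k y then (pwT θ (y 0) : ℝ≥0∞) else 0))) := by
    rw [← map_sum]
    congr 1
    funext x
    rw [Finset.sum_apply, ← map_sum]
    congr 1
    funext y
    rw [Finset.sum_apply]
  rw [e1]
  refine c₁.mono fun x => c₂.mono fun y => ?_
  show _ ≤ if L (x + y) then ((pwT θ ((x + y) 0) : ℝ≥0) : ℝ≥0∞) else 0
  by_cases hex : ∃ k ∈ s, J k x ∧ K k y
  · obtain ⟨k, hk, hJ, hK⟩ := hex
    rw [Finset.sum_eq_single k]
    · rw [if_pos hJ, if_pos hK, if_pos (h1 k hk x y hJ hK), Pi.add_apply, pwT_add,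
        ENNReal.coe_mul]
    · intro k' hk' hne
      by_cases hJ' : J k' x
      · by_cases hK' : K k' y
        · exact absurd (h2 k' hk' k hk x y hJ' hK' hJ hK) hne
        · rw [if_neg hK', mul_zero]
      · rw [if_neg hJ', zero_mul]
    · intro hk'
      exact absurd hk hk'
  · have : ∀ k ∈ s, (if J k x then (pwT θ (x 0) : ℝ≥0∞) else 0) *
        (if K k y then (pwT θ (y 0) : ℝ≥0∞) else 0) = 0 := by
      intro k hk
      by_cases hJ : J k x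
      · by_cases hK : K k y
        · exact absurd ⟨k, hk, hJ, hK⟩ hex
        · rw [if_neg hK, mul_zero]
      · rw [if_neg hJ, zero_mul]
    rw [Finset.sum_eq_zero this]
    exact zero_le

/-- convolution bound for planted masses -/
theorem pl_conv {Ja Jb Jc : ℕ → ℕ → ℕ → Expo → Prop} (ha : Uniq Ja) (hb : Uniq Jb)
    (hc : Comp Ja Jb Jc) (θ : ℝ≥0) (c₁ c₂ : Fnl Expo) (z z' i j : ℕ) :
    ∑ p ∈ antidiagonal i, ∑ r ∈ antidiagonal j,
      pl θ c₁ (Ja z p.1 r.1) * pl θ c₂ (Jb z' p.2 r.2) ≤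
      pl θ (conv (· + ·) c₁ c₂) (Jc (z + z') i j) := by
  rw [← Finset.sum_product' (antidiagonal i) (antidiagonal j)
    (fun p r => pl θ c₁ (Ja z p.1 r.1) * pl θ c₂ (Jb z' p.2 r.2))]
  refine sum_pl_mul_pl _ θ c₁ c₂ (fun k : (ℕ × ℕ) × (ℕ × ℕ) => Ja z k.1.1 k.2.1)
    (fun k => Jb z' k.1.2 k.2.2) _ ?_ ?_
  · rintro ⟨p, r⟩ hk x y hx hy
    rw [Finset.mem_product, HasAntidiagonal.mem_antidiagonal, HasAntidiagonal.mem_antidiagonal] at hk
    have := hc z z' p.1 p.2 r.1 r.2 x y hx hy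
    rw [hk.1, hk.2] at this
    exact this
  · rintro ⟨p, r⟩ - ⟨p', r'⟩ - x y hx hy hx' hy'
    obtain ⟨e1, e2⟩ := ha _ _ _ _ _ _ hx hx'
    obtain ⟨e3, e4⟩ := hb _ _ _ _ _ _ hy hy'
    ext <;> assumption

/-- convolution bound, last colour excluded -/
theorem pl_convE (θ : ℝ≥0) (c₁ c₂ : Fnl Expo) (z z' i : ℕ) :
    ∑ p ∈ antidiagonal i, (pl θ c₁ (JE z p.1 0) * pl θ c₂ (JA z' p.2 0) +
      pl θ c₁ (JP z p.1 0) * pl θ c₂ (JE z' p.2 0)) ≤
      pl θ (conv (· + ·) c₁ c₂) (JE (z + z') i 0) := by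
  have e : ∑ p ∈ antidiagonal i, (pl θ c₁ (JE z p.1 0) * pl θ c₂ (JA z' p.2 0) +
      pl θ c₁ (JP z p.1 0) * pl θ c₂ (JE z' p.2 0)) =
      ∑ k ∈ antidiagonal i ×ˢ (univ : Finset Bool),
        pl θ c₁ ((if k.2 then JE else JP) z k.1.1 0) *
          pl θ c₂ ((if k.2 then JA else JE) z' k.1.2 0) := by
    rw [Finset.sum_product]
    refine Finset.sum_congr rfl fun p _ => ?_
    simp
  rw [e]
  refine sum_pl_mul_pl _ θ c₁ c₂
    (fun k : (ℕ × ℕ) × Bool => (if k.2 then JE else JP) z k.1.1 0)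
    (fun k => (if k.2 then JA else JE) z' k.1.2 0) _ ?_ ?_
  · rintro ⟨p, b⟩ hk x y hx hy
    rw [Finset.mem_product, HasAntidiagonal.mem_antidiagonal] at hk
    cases b with
    | true =>
      have := comp_JEA z z' p.1 p.2 0 0 x y hx hy
      rw [hk.1] at this
      exact this
    | false =>
      have := comp_JPE z z' p.1 p.2 0 0 x y hx hy
      rw [hk.1] at this
      exact this
  · rintro ⟨p, b⟩ - ⟨p', b'⟩ - x y hx hy hx' hy'
    have hA : ∀ b : Bool, ∀ i : ℕ, (if b then JE else JP) z i 0 x → JA z i 0 x := by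
      intro b i h
      cases b
      · exact JP.ja h
      · exact JE.ja h
    have hB : ∀ b : Bool, ∀ i : ℕ, (if b then JA else JE) z' i 0 y → JA z' i 0 y := by
      intro b i h
      cases b
      · exact JE.ja h
      · exact h
    obtain ⟨e1, -⟩ := uniq_JA _ _ _ _ _ _ (hA b _ hx) (hA b' _ hx')
    obtain ⟨e2, -⟩ := uniq_JA _ _ _ _ _ _ (hB b _ hy) (hB b' _ hy')
    have hb : b = b' := by
      cases b <;> cases b'
      · rfl
      · exact absurd hx'.2.2.1 hx.2.2.1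
      · exact absurd hx.2.2.1 hx'.2.2.1
      · rfl
    ext <;> simp_all

end NC

end Vale.Agent.P154.DE
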