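import Vale.Agent.P154.DE.Mono

/-!
# Bound on the chi-square information from a packed state
-/

namespace Vale.Agent.P154.DE

noncomputable section NC

open Finset Vale.Agent.P154.Up
open scoped ENNReal NNReal

theorem toV_cS_val {θ : ℝ≥0} {p pb L S : ℕ} {ψ : V → ℝ≥0} (hs : SymF ψ) :
    toV θ (cS p pb L S) (up ψ) =
      ((∑ k ∈ range (nS L), (dg pb S k : ℝ≥0) / 2 ^ p * (6 * val θ L ψ k) : ℝ≥0) : ℝ≥0∞) := by
  rw [toV_apply, cS_apply]
  rw [ENNReal.ofNNReal_finsetSum]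
  refine Finset.sum_congr rfl fun k _ => ?_
  rw [symD_apply]
  have e1 : ∀ g : Equiv.Perm (Fin 3), up ψ (pwV θ (fun i => xk L k (g i))) =
      (val θ L ψ k : ℝ≥0∞) := by
    intro g
    unfold up val
    rw [← hs g (pwV θ (xk L k))]
    rfl
  rw [Finset.sum_congr rfl fun g _ => e1 g]
  simp only [Finset.sum_const, Finset.card_univ, Fintype.card_perm, Fintype.card_fin,
    nsmul_eq_mul]
  have h2 : (2 : ℝ≥0) ^ p ≠ 0 := by positivity
  rw [ENNReal.coe_mul, ENNReal.coe_mul, ENNReal.coe_div h2]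
  push_cast
  rfl

theorem nx_vals (θ : ℝ≥0) (a b : ℕ) : pwV θ (nx 0 a b) 0 = 1 ∧ pwV θ (nx 0 a b) 1 = θ ^ a ∧
    pwV θ (nx 0 a b) 2 = θ ^ b := by
  refine ⟨?_, pwT_coe θ a, pwT_coe θ b⟩
  have := pwT_coe θ 0
  rw [pow_zero] at this
  exact this

theorem info_term {θ : ℝ≥0} {q qb P n e1 e2 w : ℕ} (hP : PT θ q qb P n) (h1 : e1 ≤ n)
    (h2 : e2 ≤ n) :
    ((6 * w * (dg qb P 0 * dg qb P e1 + dg qb P 0 * dg qb P e2 + dg qb P e1 * dg qb P e2) /
      (Uq qb P 0 + Uq qb P e1 + Uq qb P e2) : ℕ) : ℝ≥0) ≤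
      2 ^ q * (w * (6 * psiM (pwV θ (nx 0 e1 e2)))) := by
  obtain ⟨v0, v1, v2⟩ := nx_vals θ e1 e2
  have p0 := hP 0 (by omega)
  have p1 := hP e1 h1
  have p2 := hP e2 h2
  rw [pow_zero, mul_one] at p0
  have hU : (0 : ℝ≥0) < (Uq qb P 0 + Uq qb P e1 + Uq qb P e2 : ℕ) := by
    have : 0 < Uq qb P 0 + Uq qb P e1 + Uq qb P e2 := by
      unfold Uq
      omega
    exact_mod_cast this
  have htot : (0 : ℝ≥0) < 1 + θ ^ e1 + θ ^ e2 := by positivity
  refine (Nat.cast_div_le).trans ?_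
  rw [div_le_iff₀ hU]
  unfold psiM tot
  rw [Fin.sum_univ_three, v0, v1, v2]
  have e : 2 ^ q * ((w : ℝ≥0) * (6 * ((1 * θ ^ e1 + 1 * θ ^ e2 + θ ^ e1 * θ ^ e2) /
      (1 + θ ^ e1 + θ ^ e2)))) * ((Uq qb P 0 + Uq qb P e1 + Uq qb P e2 : ℕ) : ℝ≥0) =
      6 * w * ((2 ^ q * (2 ^ q * θ ^ e1) + 2 ^ q * (2 ^ q * θ ^ e2) +
        (2 ^ q * θ ^ e1) * (2 ^ q * θ ^ e2)) *
        (((Uq qb P 0 + Uq qb P e1 + Uq qb P e2 : ℕ) : ℝ≥0) /
          (2 ^ q * (1 + θ ^ e1 + θ ^ e2)))) := by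
    field_simp
  rw [e]
  push_cast
  refine mul_le_mul_right ?_ _
  have h3 : (1 : ℝ≥0) ≤ ((Uq qb P 0 : ℝ≥0) + Uq qb P e1 + Uq qb P e2) /
      (2 ^ q * (1 + θ ^ e1 + θ ^ e2)) := by
    rw [one_le_div (by positivity)]
    calc 2 ^ q * (1 + θ ^ e1 + θ ^ e2) = 2 ^ q + 2 ^ q * θ ^ e1 + 2 ^ q * θ ^ e2 := by ring
      _ ≤ _ := add_le_add (add_le_add p0.2 p1.2) p2.2
  calc ((dg qb P 0 : ℝ≥0) * dg qb P e1 + dg qb P 0 * dg qb P e2 + dg qb P e1 * dg qb P e2)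
      ≤ (2 ^ q * (2 ^ q * θ ^ e1) + 2 ^ q * (2 ^ q * θ ^ e2) +
        (2 ^ q * θ ^ e1) * (2 ^ q * θ ^ e2)) * 1 := by
        rw [mul_one]
        exact add_le_add (add_le_add (mul_le_mul' p0.1 p1.1) (mul_le_mul' p0.1 p2.1))
          (mul_le_mul' p1.1 p2.1)
    _ ≤ _ := by gcongr

theorem info_le {θ : ℝ≥0} {p q qb P n pb L S : ℕ} (hP : PT θ q qb P n) (hL : L ≤ n) :
    ((infoS pb L qb P S : ℝ≥0) / 2 ^ (p + q) : ℝ≥0) ≤ toV θ (cS p pb L S) (up psiM) := by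
  rw [toV_cS_val symF_psiM, ENNReal.coe_le_coe, div_le_iff₀ (by positivity)]
  unfold infoS nS
  rw [Finset.sum_range_succ, Nat.cast_add]
  refine le_trans (add_le_add ?_ ?_) (le_of_eq (add_mul _ _ _).symm)
  · have h1 : ∑ k ∈ range ((L + 1) * (L + 1)),
        (dg pb S k : ℝ≥0) / 2 ^ p * (6 * val θ L psiM k) =
        ∑ e2 ∈ range (L + 1), ∑ e1 ∈ range (L + 1),
          (dg pb S (e2 * (L + 1) + e1) : ℝ≥0) / 2 ^ p *
            (6 * val θ L psiM (e2 * (L + 1) + e1)) := by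
      have := sum_rows (fun k => (((dg pb S k : ℝ≥0) / 2 ^ p * (6 * val θ L psiM k) : ℝ≥0) :
        ℝ≥0∞)) (L + 1) (L + 1)
      rw [← ENNReal.ofNNReal_finsetSum] at this
      simp_rw [← ENNReal.ofNNReal_finsetSum] at this
      exact (ENNReal.coe_inj.mp this).symm
    rw [h1, sumR_eq, Finset.sum_mul, Nat.cast_sum]
    refine Finset.sum_le_sum fun e2 he2 => ?_
    rw [Finset.mem_range] at he2
    rw [sumR_eq, Finset.sum_mul, Nat.cast_sum]
    refine le_trans ?_ (Finset.sum_le_sum_of_subset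
      (Finset.range_mono (by omega : e2 + 1 ≤ L + 1)))
    refine Finset.sum_le_sum fun e1 he1 => ?_
    rw [Finset.mem_range] at he1
    unfold val
    rw [xk_row (by omega) (by omega)]
    refine (info_term (w := dg pb S (e2 * (L + 1) + e1)) hP (by omega) (by omega)).trans
      (le_of_eq ?_)
    rw [pow_add]
    field_simp
  · have h2 : val θ L psiM ((L + 1) * (L + 1)) = 1 / 2 := by
      unfold val xk
      rw [if_pos rfl]
      have v0 : pwV θ (![0, 0, ⊤] : Expo) 0 = 1 := pwT_zero θ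
      have v1 : pwV θ (![0, 0, ⊤] : Expo) 1 = 1 := pwT_zero θ
      have v2 : pwV θ (![0, 0, ⊤] : Expo) 2 = 0 := pwT_top θ
      unfold psiM tot
      rw [Fin.sum_univ_three, v0, v1, v2]
      norm_num
    rw [h2]
    have p0 := (hP 0 (by omega)).1
    rw [pow_zero, mul_one] at p0
    have e : (dg pb S ((L + 1) * (L + 1)) : ℝ≥0) / 2 ^ p * (6 * (1 / 2)) * 2 ^ (p + q) =
        3 * (dg pb S ((L + 1) * (L + 1)) : ℝ≥0) * 2 ^ q := by
      rw [pow_add]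
      field_simp
      ring
    rw [e]
    push_cast
    gcongr

theorem psiM_chV {kn kd : ℕ} (hkd : 0 < kd) (hk2 : 2 * kn ≤ kd) (u : V) :
    (psiM (chV (aR kn kd) (bR kn kd) u) : ℝ) =
      (1 - ((kn : ℝ) / kd) ^ 2) * ((tot u : ℝ) / 3) + ((kn : ℝ) / kd) ^ 2 * psiM u := by
  have hkdR : (0 : ℝ) < kd := by exact_mod_cast hkd
  rw [psiM_coe, psiM_coe, tot_chV (aR_add_bR hkd hk2)]
  obtain ⟨c0, c1, c2⟩ := chV_apply3 (aR kn kd) (bR kn kd) u
  rw [Fin.sum_univ_three, Fin.sum_univ_three, c0, c1, c2]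
  push_cast
  rw [aR_coe hk2, bR_coe]
  have ht : (tot u : ℝ) = u 0 + u 1 + u 2 := by
    unfold tot
    rw [Fin.sum_univ_three]
    push_cast
    rfl
  by_cases h0 : (tot u : ℝ) = 0
  · rw [h0]
    have h1 : (u 0 : ℝ) + u 1 + u 2 = 0 := by rw [← ht]; exact h0
    simp
  · rw [ht] at h0 ⊢
    field_simp
    ring

/-- bound on the information -/
theorem M_bound {kn kd : ℕ} (hkd : 0 < kd) (hk0 : 0 < kn) (hk2 : 2 * kn ≤ kd) {θ : ℝ≥0}
    {p q qb P n pb L S : ℕ} (hP : PT θ q qb P n) (hL : L ≤ n) {Λ : Fnl V} (hΛ : IsLaw Λ)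
    (hdom : Dom (chL (aR kn kd) (bR kn kd) Λ) (toV θ (cS p pb L S))) {M : ℝ} (hM1 : M ≤ 1)
    (hM : Λ (up psiM) = ENNReal.ofReal (1 - M)) :
    M ≤ (1 - (infoS pb L qb P S : ℝ) / 2 ^ (p + q)) * ((kd : ℝ) / kn) ^ 2 := by
  have hkdR : (0 : ℝ) < kd := by exact_mod_cast hkd
  have hknR : (0 : ℝ) < kn := by exact_mod_cast hk0
  have hk2R : 2 * (kn : ℝ) ≤ kd := by exact_mod_cast hk2
  have h1 := (info_le (p := p) (pb := pb) (S := S) hP hL).trans (hdom psiM psi_psiM)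
  set s : ℝ := ((kn : ℝ) / kd) ^ 2 with hs
  have hs0 : 0 < s := by positivity
  have hs1 : s ≤ 1 := by
    rw [hs]
    have : (kn : ℝ) / kd ≤ 1 := by
      rw [div_le_one hkdR]
      linarith
    have h0 : 0 ≤ (kn : ℝ) / kd := by positivity
    nlinarith
  have h2 : chL (aR kn kd) (bR kn kd) Λ (up psiM) =
      ENNReal.ofReal (1 - s) + ENNReal.ofReal s * ENNReal.ofReal (1 - M) := by
    rw [chL, push_apply]
    have e : (fun u => up psiM (chV (aR kn kd) (bR kn kd) u)) =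
        ENNReal.ofReal ((1 - s) / 3) • up tot + ENNReal.ofReal s • up psiM := by
      funext u
      simp only [Pi.add_apply, Pi.smul_apply, smul_eq_mul]
      unfold up
      have e1 : psiM (chV (aR kn kd) (bR kn kd) u) =
          ((1 - s) / 3).toNNReal * tot u + s.toNNReal * psiM u := by
        rw [← NNReal.coe_inj, psiM_chV hkd hk2]
        push_cast
        rw [Real.coe_toNNReal _ (by linarith), Real.coe_toNNReal _ hs0.le]
        ring
      rw [e1]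
      push_cast
      rfl
    rw [e, map_add, map_smul, map_smul, hΛ.tot, hM, smul_eq_mul, smul_eq_mul]
    congr 1
    have : (3 : ℝ≥0∞) = ENNReal.ofReal 3 := by norm_num
    rw [this, ← ENNReal.ofReal_mul (by linarith)]
    congr 1
    ring
  rw [h2, ← ENNReal.ofReal_mul hs0.le, ← ENNReal.ofReal_add (by linarith)
    (mul_nonneg hs0.le (by linarith))] at h1
  have h3 : ((infoS pb L qb P S : ℝ≥0) / 2 ^ (p + q) : ℝ≥0) = ENNReal.ofReal
      ((infoS pb L qb P S : ℝ) / 2 ^ (p + q)) := by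
    rw [ENNReal.ofReal, ENNReal.coe_inj, ← NNReal.coe_inj, Real.coe_toNNReal _ (by positivity)]
    push_cast
    rfl
  rw [h3, ENNReal.ofReal_le_ofReal_iff (by nlinarith)] at h1
  have h4 : s * M ≤ 1 - (infoS pb L qb P S : ℝ) / 2 ^ (p + q) := by linarith
  have h5 : ((kd : ℝ) / kn) ^ 2 * s = 1 := by
    rw [hs]
    field_simp
  calc M = (((kd : ℝ) / kn) ^ 2 * s) * M := by rw [h5, one_mul]
    _ = (s * M) * ((kd : ℝ) / kn) ^ 2 := by ring
    _ ≤ _ := mul_le_mul_of_nonneg_right h4 (by positivity)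

end NC

end Vale.Agent.P154.DE
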