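import Vale.Agent.P154.DE.Step4

/-!
# Monotonicity in the channel and in the number of children
-/

namespace Vale.Agent.P154.DE

noncomputable section NC

open Finset
open scoped ENNReal NNReal

/-- averaging over relabellings decreases the information -/
theorem psi_mean {ψ : V → ℝ≥0} (hψ : Psi ψ) (hs : SymF ψ) (u : V) :
    ψ u ≤ ψ (fun _ => tot u / 3) := by
  have h1 : (fun _ : Fin 3 => tot u / 3) = (1 / 3 : ℝ≥0) • (u + ((fun i => u (finRotate 3 i)) +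
      fun i => u ((finRotate 3)⁻¹ i))) := by
    obtain ⟨-, -, -, -, -, -, -, -, -, h10, h11, h12, h13, h14, h15⟩ := perm_vals
    funext i
    simp only [Pi.smul_apply, Pi.add_apply, smul_eq_mul]
    unfold tot
    rw [Fin.sum_univ_three]
    fin_cases i
    · show _ = 1 / 3 * (u 0 + (u (finRotate 3 0) + u ((finRotate 3)⁻¹ 0)))
      rw [h10, h13]
      field_simp
      ring
    · show _ = 1 / 3 * (u 1 + (u (finRotate 3 1) + u ((finRotate 3)⁻¹ 1)))
      rw [h11, h14]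
      field_simp
      ring
    · show _ = 1 / 3 * (u 2 + (u (finRotate 3 2) + u ((finRotate 3)⁻¹ 2)))
      rw [h12, h15]
      field_simp
      ring
  rw [h1, hψ.hom]
  have h2 := hψ.super (fun i => u (finRotate 3 i)) (fun i => u ((finRotate 3)⁻¹ i))
  have h3 := hψ.super u ((fun i => u (finRotate 3 i)) + fun i => u ((finRotate 3)⁻¹ i))
  rw [hs, hs] at h2
  calc ψ u = 1 / 3 * (ψ u + (ψ u + ψ u)) := by
        field_simp
        ring
    _ ≤ 1 / 3 * (ψ u + ψ ((fun i => u (finRotate 3 i)) + fun i => u ((finRotate 3)⁻¹ i))) := by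
        gcongr
    _ ≤ _ := by
        gcongr

theorem chV_interp {a b a' b' t : ℝ≥0} (ha : a' = t * a + (1 - t) / 3)
    (hb : b' = t * b + (1 - t) / 3) (u : V) :
    chV a' b' u = t • chV a b u + (1 - t) • fun _ => tot u / 3 := by
  funext i
  simp only [Pi.add_apply, Pi.smul_apply, smul_eq_mul]
  unfold chV tot
  rw [Finset.mul_sum, Finset.sum_div, Finset.mul_sum, ← Finset.sum_add_distrib]
  refine Finset.sum_congr rfl fun j _ => ?_
  split_ifs
  · rw [ha]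
    ring
  · rw [hb]
    ring

theorem tot_chV {a b : ℝ≥0} (hab : a + 2 * b = 1) (u : V) : tot (chV a b u) = tot u := by
  obtain ⟨c0, c1, c2⟩ := chV_apply3 a b u
  unfold tot
  rw [Fin.sum_univ_three, Fin.sum_univ_three, c0, c1, c2]
  calc _ = (a + 2 * b) * (u 0 + u 1 + u 2) := by ring
    _ = _ := by rw [hab, one_mul]

/-- a noisier channel gives less information -/
theorem dom_chL {a b a' b' t : ℝ≥0} (ht : t ≤ 1) (hab : a + 2 * b = 1)
    (ha : a' = t * a + (1 - t) / 3) (hb : b' = t * b + (1 - t) / 3)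
    (hab' : a' + 2 * b' = 1) {Λ : Fnl V} (hΛ : IsLaw Λ) :
    Dom (chL a' b' Λ) (chL a b Λ) := by
  refine DomS.dom (hΛ.chL hab') ?_ (hΛ.chL hab).perm
  intro ψ hψ hs
  rw [chL, chL, push_apply, push_apply]
  refine Λ.mono fun u => ?_
  unfold up
  rw [ENNReal.coe_le_coe, chV_interp ha hb u]
  have h1 := hψ.super (t • chV a b u) ((1 - t) • fun _ => tot u / 3)
  rw [hψ.hom, hψ.hom] at h1
  refine le_trans ?_ h1
  have h2 := psi_mean hψ hs (chV a b u)
  rw [tot_chV hab] at h2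
  calc ψ (chV a b u) = t * ψ (chV a b u) + (1 - t) * ψ (chV a b u) := by
        rw [← add_mul, add_tsub_cancel_of_le ht, one_mul]
    _ ≤ _ := by gcongr

/-- an erased copy -/
theorem dom_chL_erase {a b a' b' t : ℝ≥0} (ha : a' = t * a + (1 - t) / 3)
    (hb : b' = t * b + (1 - t) / 3) {Λ : Fnl V} (hΛ : IsLaw Λ) :
    Dom (chL a' b' Λ) ((t : ℝ≥0∞) • chL a b Λ + ((1 - t : ℝ≥0) : ℝ≥0∞) • dirac 1) := by
  intro ψ hψ
  rw [LinearMap.add_apply, LinearMap.smul_apply, LinearMap.smul_apply, chL, chL, push_apply,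
    push_apply]
  have e1 : (dirac (1 : V)) (up ψ) = Λ (((ψ 1 / 3 : ℝ≥0) : ℝ≥0∞) • up tot) := by
    rw [map_smul, hΛ.tot]
    show ((ψ 1 : ℝ≥0) : ℝ≥0∞) = _
    rw [smul_eq_mul]
    have : ((3 : ℝ≥0) : ℝ≥0∞) = 3 := by norm_num
    rw [← this, ← ENNReal.coe_mul]
    congr 1
    field_simp
  rw [e1, smul_eq_mul, smul_eq_mul, ← smul_eq_mul (t : ℝ≥0∞), ← map_smul,
    ← smul_eq_mul ((1 - t : ℝ≥0) : ℝ≥0∞), ← map_smul, ← map_add]
  refine Λ.mono fun u => ?_
  simp only [Pi.add_apply, Pi.smul_apply, smul_eq_mul]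
  unfold up
  rw [← ENNReal.coe_mul, ← ENNReal.coe_mul, ← ENNReal.coe_mul, ← ENNReal.coe_add,
    ENNReal.coe_le_coe, chV_interp ha hb u]
  refine le_trans ?_ (hψ.super _ _)
  rw [hψ.hom, hψ.hom]
  have e2 : (fun _ : Fin 3 => tot u / 3) = (tot u / 3) • (1 : V) := by
    funext i
    simp
  rw [e2, hψ.hom]
  have e3 : ψ 1 / 3 * tot u = tot u / 3 * ψ 1 := by ring
  rw [e3]

/-- Jensen: one more message gives more information -/
theorem cpow_succ_le {Λ : Fnl V} (hΛ : IsLaw Λ) (k : ℕ) : Dom (cpow Λ k) (cpow Λ (k + 1)) := by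
  induction k with
  | zero =>
    intro ψ hψ
    show Λ (fun u => up ψ (u * 1)) ≤ ψ 1
    simp only [mul_one]
    exact hΛ.jensen ψ hψ
  | succ k ih => exact dom_conv (hΛ.cpow k) (Dom.refl Λ) ih

theorem cpow_anti {Λ : Fnl V} (hΛ : IsLaw Λ) {k m : ℕ} (h : k ≤ m) :
    Dom (cpow Λ k) (cpow Λ m) := by
  induction m, h using Nat.le_induction with
  | base => exact Dom.refl _
  | succ m _ ih => exact ih.trans (cpow_succ_le hΛ m)

/-! ### parameters -/

theorem aR_coe {kn kd : ℕ} (hk2 : 2 * kn ≤ kd) :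
    (aR kn kd : ℝ) = ((kd : ℝ) - 2 * kn) / (3 * kd) := by
  unfold aR
  rw [NNReal.coe_div, NNReal.coe_natCast, Nat.cast_sub hk2]
  push_cast
  rfl

theorem bR_coe {kn kd : ℕ} : (bR kn kd : ℝ) = ((kd : ℝ) + kn) / (3 * kd) := by
  unfold bR
  rw [NNReal.coe_div, NNReal.coe_natCast]
  push_cast
  rfl

/-- the ratio of two channels -/
theorem chan_ratio {kn kd : ℕ} (hkd : 0 < kd) (hk0 : 0 < kn) (hk2 : 2 * kn ≤ kd) {κ : ℝ}
    (h0 : 0 ≤ κ) (h : κ * kd ≤ kn) : ∃ t : ℝ≥0, (t : ℝ) = κ * kd / kn ∧ t ≤ 1 ∧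
      aK κ = t * aR kn kd + (1 - t) / 3 ∧ bK κ = t * bR kn kd + (1 - t) / 3 := by
  have hkdR : (0 : ℝ) < kd := by exact_mod_cast hkd
  have hknR : (0 : ℝ) < kn := by exact_mod_cast hk0
  have hk2R : 2 * (kn : ℝ) ≤ kd := by exact_mod_cast hk2
  have ht0 : 0 ≤ κ * kd / kn := by positivity
  have ht1 : κ * kd / kn ≤ 1 := by
    rw [div_le_one hknR]
    exact h
  have hκ : κ ≤ 1 / 2 := by
    by_contra hcon
    push Not at hcon
    nlinarith
  have hc : ((κ * kd / kn).toNNReal : ℝ) = κ * kd / kn := Real.coe_toNNReal _ ht0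
  have hle : (κ * kd / kn).toNNReal ≤ 1 := by
    rw [← NNReal.coe_le_coe, hc]
    exact ht1
  refine ⟨(κ * kd / kn).toNNReal, hc, hle, ?_, ?_⟩
  · rw [← NNReal.coe_inj, aK_coe hκ]
    rw [NNReal.coe_add, NNReal.coe_mul, NNReal.coe_div, NNReal.coe_sub hle, aR_coe hk2, hc]
    push_cast
    field_simp
    ring
  · rw [← NNReal.coe_inj, bK_coe h0]
    rw [NNReal.coe_add, NNReal.coe_mul, NNReal.coe_div, NNReal.coe_sub hle, bR_coe, hc]
    push_cast
    field_simp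
    ring

theorem kappa_half {kn kd : ℕ} (hkd : 0 < kd) (hk2 : 2 * kn ≤ kd) {κ : ℝ}
    (h : κ * kd ≤ kn) : κ ≤ 1 / 2 := by
  have hkdR : (0 : ℝ) < kd := by exact_mod_cast hkd
  have hk2R : 2 * (kn : ℝ) ≤ kd := by exact_mod_cast hk2
  by_contra hcon
  push Not at hcon
  nlinarith

/-- regular trees: the vertex law dominates four messages -/
theorem dary_dom4 {kn kd : ℕ} (hkd : 0 < kd) (hk0 : 0 < kn) (hk2 : 2 * kn ≤ kd) {κ : ℝ}
    (h0 : 0 ≤ κ) (h : κ * kd ≤ kn) {d : ℕ} (hd : d ≤ 4) (n : ℕ) :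
    Dom (treeL κ (dary d (n + 1)))
      (cpow (chL (aR kn kd) (bR kn kd) (treeL κ (dary d n))) 4) := by
  have hκ := kappa_half hkd hk2 h
  obtain ⟨t, -, ht1, ha, hb⟩ := chan_ratio hkd hk0 hk2 h0 h
  have hΛ := isLaw_treeL h0 hκ (dary d n)
  rw [treeL_dary h0 hκ]
  refine Dom.trans (K := cpow (chL (aR kn kd) (bR kn kd) (treeL κ (dary d n))) d) ?_ ?_
  · refine dom_cpow (hΛ.chL (aK_add_bK h0 hκ)) ?_ d
    exact dom_chL ht1 (aR_add_bR hkd hk2) ha hb (aK_add_bK h0 hκ) hΛ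
  · exact cpow_anti (hΛ.chL (aR_add_bR hkd hk2)) hd

end NC

end Vale.Agent.P154.DE
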