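import Vale.Agent.P154.DE.PLaw

/-!
# Monotonicity of the information in the channel and in the offspring
-/

namespace Vale.Agent.P154.DE

noncomputable section NC

open Finset Vale.Agent.P154.Up
open scoped ENNReal NNReal

theorem Dom.chL {Λ K : Fnl V} (h : Dom Λ K) (a b : ℝ≥0) : Dom (chL a b Λ) (chL a b K) :=
  fun ψ hψ => h _ (hψ.chV a b)

/-- the ratio of two channels -/
theorem chan_ratio' {κ κ' : ℝ} (h0 : 0 ≤ κ) (h : κ ≤ κ') (h' : κ' ≤ 1 / 2) :
    ∃ t : ℝ≥0, t ≤ 1 ∧ aK κ = t * aK κ' + (1 - t) / 3 ∧ bK κ = t * bK κ' + (1 - t) / 3 := by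
  rcases eq_or_lt_of_le (h0.trans h) with h1 | h1
  · have : κ = κ' := by linarith
    subst this
    exact ⟨1, le_rfl, by simp, by simp⟩
  have ht0 : 0 ≤ κ / κ' := by positivity
  have ht1 : κ / κ' ≤ 1 := by rwa [div_le_one h1]
  have hc : ((κ / κ').toNNReal : ℝ) = κ / κ' := Real.coe_toNNReal _ ht0
  have hle : (κ / κ').toNNReal ≤ 1 := by
    rw [← NNReal.coe_le_coe, hc]
    exact ht1
  refine ⟨(κ / κ').toNNReal, hle, ?_, ?_⟩
  · rw [← NNReal.coe_inj, aK_coe (h.trans h'), NNReal.coe_add, NNReal.coe_mul, NNReal.coe_div,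
      NNReal.coe_sub hle, aK_coe h', hc]
    push_cast
    field_simp
    ring
  · rw [← NNReal.coe_inj, bK_coe h0, NNReal.coe_add, NNReal.coe_mul, NNReal.coe_div,
      NNReal.coe_sub hle, bK_coe (h0.trans h), hc]
    push_cast
    field_simp
    ring

theorem dom_chL_mono {κ κ' : ℝ} (h0 : 0 ≤ κ) (h : κ ≤ κ') (h' : κ' ≤ 1 / 2) {Λ K : Fnl V}
    (hΛ : IsLaw Λ) (hd : Dom Λ K) :
    Dom (DE.chL (aK κ) (bK κ) Λ) (DE.chL (aK κ') (bK κ') K) := by
  obtain ⟨t, ht1, ha, hb⟩ := chan_ratio' h0 h h'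
  refine Dom.trans (K := DE.chL (aK κ') (bK κ') Λ) ?_ (hd.chL _ _)
  exact dom_chL ht1 (aK_add_bK (h0.trans h) h') ha hb (aK_add_bK h0 (h.trans h')) hΛ

theorem treeL_leaf (κ κ' : ℝ) : treeL κ GTree.leaf = treeL κ' GTree.leaf := rfl

/-- the regular tree -/
theorem dary_mono {κ κ' : ℝ} (h0 : 0 ≤ κ) (h : κ ≤ κ') (h' : κ' ≤ 1 / 2) (d n : ℕ) :
    Dom (treeL κ (dary d n)) (treeL κ' (dary d n)) := by
  induction n with
  | zero => exact Dom.refl _
  | succ n ih =>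
    rw [treeL_dary h0 (h.trans h'), treeL_dary (h0.trans h) h']
    have hΛ := isLaw_treeL h0 (h.trans h') (dary d n)
    exact dom_cpow (hΛ.chL (aK_add_bK h0 (h.trans h')))
      (dom_chL_mono h0 h h' hΛ ih) d

/-- fewer children give less information -/
theorem pm_anti {X : Fnl V} (hX : IsLaw X) {d D : ℝ} (hd : 0 ≤ d) (h : d ≤ D) :
    Dom (pm d X) (pm D X) := by
  rcases eq_or_lt_of_le (hd.trans h) with h1 | h1
  · have : d = D := by linarith
    subst this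
    exact Dom.refl _
  have hs0 : 0 ≤ d / D := by positivity
  have hs1 : d / D ≤ 1 := by rwa [div_le_one h1]
  have e : d = D * (d / D) := by field_simp
  have h2 : pm d X = pm D (ENNReal.ofReal (d / D) • X + ENNReal.ofReal (1 - d / D) • dirac 1) := by
    rw [pm_thin h1.le hs0 hs1, ← e]
  rw [h2]
  refine dom_pm (hX.mix hs0 hs1) ?_ D
  have h3 := dom_mix hX hs0 hs1 le_rfl
  have e1 : ENNReal.ofReal (1 : ℝ) • X + ENNReal.ofReal (1 - 1 : ℝ) • dirac 1 = X := by simp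
  rw [e1] at h3
  exact h3

theorem poisL_zero (κ d : ℝ) (f : V → ℝ≥0∞) : poisL κ d 0 f = treeL κ GTree.leaf f :=
  treeE_zero d _

/-- the Poisson tree -/
theorem pois_mono {κ κ' d d' : ℝ} (h0 : 0 ≤ κ) (h : κ ≤ κ') (h' : κ' ≤ 1 / 2) (hd : 0 ≤ d)
    (hdd : d ≤ d') (n : ℕ) : Dom (poisL κ d n) (poisL κ' d' n) := by
  induction n with
  | zero =>
    intro ψ _
    rw [poisL_zero, poisL_zero]
    exact le_rfl
  | succ n ih =>
    rw [poisL_succ_pm h0 (h.trans h') hd, poisL_succ_pm (h0.trans h) h' (hd.trans hdd)]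
    have hΛ := isLaw_poisL h0 (h.trans h') hd n
    have hY := hΛ.chL (aK_add_bK h0 (h.trans h'))
    exact (pm_anti hY hd hdd).trans (dom_pm hY (dom_chL_mono h0 h h' hΛ ih) d')

theorem M_le_of_dom {Λ K : Fnl V} (h : Dom Λ K) {x y : ℝ} (hy : y ≤ 1)
    (hx : Λ (up psiM) = ENNReal.ofReal (1 - x)) (hy' : K (up psiM) = ENNReal.ofReal (1 - y))
    (hx1 : x ≤ 1) : x ≤ y := by
  have := h psiM psi_psiM
  rw [hx, hy', ENNReal.ofReal_le_ofReal_iff (by linarith)] at this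
  linarith

/-- the information on the regular tree is monotone in the channel -/
theorem Mtree_dary_mono {κ κ' : ℝ} (h0 : 0 ≤ κ) (h : κ ≤ κ') (h' : κ' ≤ 1 / 2) (d n : ℕ) :
    Mtree 3 (-κ) (dary d n) ≤ Mtree 3 (-κ') (dary d n) :=
  M_le_of_dom (dary_mono h0 h h' d n)
    (Mtree_le_one (q := 3) (by norm_num) (lam := -κ') (by norm_num; linarith) (by linarith) _)
    (treeL_psiM h0 (h.trans h') _) (treeL_psiM (h0.trans h) h' _)
    (Mtree_le_one (q := 3) (by norm_num) (lam := -κ) (by norm_num; linarith) (by linarith) _)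

theorem tsum_M_le_one {κ d : ℝ} (h0 : 0 ≤ κ) (h : κ ≤ 1 / 2) (hd : 0 ≤ d) (n : ℕ) :
    ∑' T : GTree n, poissonWeight d T * Mtree 3 (-κ) T ≤ 1 := by
  have hM0 : ∀ T : GTree n, 0 ≤ Mtree 3 (-κ) T := fun T =>
    Mtree_nonneg (q := 3) (by norm_num) (lam := -κ) (by norm_num; linarith) (by linarith) T
  have hM1 : ∀ T : GTree n, Mtree 3 (-κ) T ≤ 1 := fun T =>
    Mtree_le_one (q := 3) (by norm_num) (lam := -κ) (by norm_num; linarith) (by linarith) T
  rw [← poissonWeight_tsum hd n]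
  exact (summable_weight hd n hM0 hM1).tsum_le_tsum
    (fun T => mul_le_of_le_one_right (poissonWeight_nonneg hd T) (hM1 T))
    (poissonWeight_summable hd n)

/-- the information on the Poisson tree is monotone in the channel and in the mean offspring -/
theorem Mtree_pois_mono {κ κ' d d' : ℝ} (h0 : 0 ≤ κ) (h : κ ≤ κ') (h' : κ' ≤ 1 / 2) (hd : 0 ≤ d)
    (hdd : d ≤ d') (n : ℕ) :
    ∑' T : GTree n, poissonWeight d T * Mtree 3 (-κ) T ≤
      ∑' T : GTree n, poissonWeight d' T * Mtree 3 (-κ') T :=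
  M_le_of_dom (pois_mono h0 h h' hd hdd n) (tsum_M_le_one (h0.trans h) h' (hd.trans hdd) n)
    (poisL_psiM h0 (h.trans h') hd n) (poisL_psiM (h0.trans h) h' (hd.trans hdd) n)
    (tsum_M_le_one h0 (h.trans h') hd n)

end NC

end Vale.Agent.P154.DE
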