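import Vale.Agent.P154.DE.Mono

/-!
# Monotonicity of the information on a fixed tree in the channel
-/

namespace Vale.Agent.P154.DE

noncomputable section NC

open Finset Vale.Agent.P154.Up
open scoped ENNReal NNReal

/-- product of laws -/
def cprod : (k : ℕ) → (Fin k → Fnl V) → Fnl V
  | 0, _ => dirac 1
  | k + 1, Λ => conv (· * ·) (Λ 0) (cprod k fun v => Λ v.succ)

theorem isLaw_cprod : ∀ (k : ℕ) (Λ : Fin k → Fnl V), (∀ v, IsLaw (Λ v)) → IsLaw (cprod k Λ)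
  | 0, _, _ => isLaw_one
  | k + 1, Λ, h => (h 0).conv (isLaw_cprod k _ fun v => h v.succ)

theorem dom_cprod : ∀ (k : ℕ) (Λ K : Fin k → Fnl V), (∀ v, IsLaw (Λ v)) →
    (∀ v, Dom (Λ v) (K v)) → Dom (cprod k Λ) (cprod k K)
  | 0, _, _, _, _ => dom_one
  | k + 1, _, _, h, h' => dom_conv (isLaw_cprod k _ fun v => h v.succ) (h' 0)
      (dom_cprod k _ _ (fun v => h v.succ) fun v => h' v.succ)

theorem sum_pi_cprod {k : ℕ} (O : Fin k → Type) [∀ v, Fintype (O v)] (Λ : Fin k → Fnl V)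
    (m : ∀ v, O v → V) (hm : ∀ v (f : V → ℝ≥0∞), ∑ x, f (m v x) = Λ v f) (f : V → ℝ≥0∞) :
    ∑ x : (∀ v, O v), f (∏ v, m v (x v)) = cprod k Λ f := by
  induction k generalizing f with
  | zero =>
    simp [cprod, dirac]
  | succ k ih =>
    rw [← (Fin.consEquiv O).sum_comp, Fintype.sum_prod_type]
    show _ = Λ 0 (fun u => cprod k (fun v => Λ v.succ) (fun v => f (u * v)))
    rw [← hm 0]
    refine Finset.sum_congr rfl fun x0 _ => ?_
    rw [← ih (fun v => O v.succ) (fun v => Λ v.succ) (fun v => m v.succ) (fun v => hm v.succ)]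
    refine Finset.sum_congr rfl fun y _ => ?_
    rw [Fin.prod_univ_succ]
    simp [Fin.consEquiv]

theorem treeL_node {κ : ℝ} (h0 : 0 ≤ κ) (h : κ ≤ 1 / 2) {n k : ℕ} (c : Fin k → GTree n) :
    treeL κ (.node k c) = cprod k fun v => chL (aK κ) (bK κ) (treeL κ (c v)) := by
  ext f
  rw [treeL_apply]
  show ∑ x : ((v : Fin k) → Obs 3 (c v)), f (likV κ (.node k c) x) = _
  simp_rw [likV_node h0 h]
  exact sum_pi_cprod (fun v => Obs 3 (c v)) _
    (fun v x => chV (aK κ) (bK κ) (likV κ (c v) x)) (fun v f => rfl) f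

theorem Dom.chL' {Λ K : Fnl V} (h : Dom Λ K) (a b : ℝ≥0) : Dom (chL a b Λ) (chL a b K) := by
  intro ψ hψ
  rw [chL, chL, push_apply, push_apply]
  exact h _ (hψ.chV a b)

theorem dom_treeL {κ κ0 : ℝ} (h0 : 0 ≤ κ) (h : κ ≤ κ0) (hh : κ0 ≤ 1 / 2) {n : ℕ}
    (T : GTree n) : Dom (treeL κ T) (treeL κ0 T) := by
  have hκ : κ ≤ 1 / 2 := h.trans hh
  have hκ0 : 0 ≤ κ0 := h0.trans h
  rcases hκ0.eq_or_lt with he | hpos
  · have : κ = κ0 := le_antisymm h (by rw [← he]; exact h0)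
    rw [this]
    exact Dom.refl _
  obtain ⟨t, ht, ht1, ha, hb⟩ : ∃ t : ℝ≥0, (t : ℝ) = κ / κ0 ∧ t ≤ 1 ∧
      aK κ = t * aK κ0 + (1 - t) / 3 ∧ bK κ = t * bK κ0 + (1 - t) / 3 := by
    have hq0 : 0 ≤ κ / κ0 := by positivity
    have hq1 : κ / κ0 ≤ 1 := by
      rw [div_le_one hpos]
      exact h
    have hc : ((κ / κ0).toNNReal : ℝ) = κ / κ0 := Real.coe_toNNReal _ hq0
    have hle : (κ / κ0).toNNReal ≤ 1 := by
      rw [← NNReal.coe_le_coe, hc]
      exact hq1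
    refine ⟨(κ / κ0).toNNReal, hc, hle, ?_, ?_⟩
    · rw [← NNReal.coe_inj, aK_coe hκ, NNReal.coe_add, NNReal.coe_mul, NNReal.coe_div,
        NNReal.coe_sub hle, aK_coe hh, hc]
      push_cast
      field_simp
      ring
    · rw [← NNReal.coe_inj, bK_coe h0, NNReal.coe_add, NNReal.coe_mul, NNReal.coe_div,
        NNReal.coe_sub hle, bK_coe hκ0, hc]
      push_cast
      field_simp
      ring
  induction T with
  | leaf =>
    intro ψ _
    rw [treeL_apply, treeL_apply]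
    refine le_of_eq (Finset.sum_congr rfl fun x _ => ?_)
    rfl
  | @node n k c ih =>
    rw [treeL_node h0 hκ, treeL_node hκ0 hh]
    refine dom_cprod k _ _ (fun v => (isLaw_treeL h0 hκ (c v)).chL (aK_add_bK h0 hκ)) fun v => ?_
    exact Dom.trans (dom_chL ht1 (aK_add_bK hκ0 hh) ha hb (aK_add_bK h0 hκ)
      (isLaw_treeL h0 hκ (c v))) ((ih v).chL' _ _)

/-- on every tree the information increases with `κ` -/
theorem Mtree_mono {κ κ0 : ℝ} (h0 : 0 ≤ κ) (h : κ ≤ κ0) (hh : κ0 ≤ 1 / 2) {n : ℕ}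
    (T : GTree n) : Mtree 3 (-κ) T ≤ Mtree 3 (-κ0) T := by
  have h1 := dom_treeL h0 h hh T psiM psi_psiM
  rw [treeL_psiM h0 (h.trans hh), treeL_psiM (h0.trans h) hh] at h1
  have h2 : 0 ≤ 1 - Mtree 3 (-κ) T := by
    have := Mtree_le_one (q := 3) (by norm_num) (lam := -κ) (by norm_num; linarith)
      (by linarith) T
    linarith
  have := (ENNReal.ofReal_le_ofReal_iff h2).1 h1
  linarith

end NC

end Vale.Agent.P154.DE
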