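import Mathlib

/-!
# A rigorous order for density evolution

Laws of (unnormalised) likelihood vectors of the three-state Potts model are `ℝ≥0∞`-linear
functionals. A law `Λ` dominates `K` when `K ψ ≤ Λ ψ` for all superadditive, positively homogeneous
`ψ ≥ 0`.
-/

namespace Vale.Agent.P154.DE

noncomputable section NC

open Finset
open scoped ENNReal NNReal

/-- likelihood vectors -/
abbrev V := Fin 3 → ℝ≥0

/-- linear functionals on the nonnegative functions on `X` -/
abbrev Fnl (X : Type*) := (X → ℝ≥0∞) →ₗ[ℝ≥0∞] ℝ≥0∞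

theorem Fnl.mono {X : Type*} (Λ : Fnl X) {f g : X → ℝ≥0∞} (h : ∀ x, f x ≤ g x) : Λ f ≤ Λ g := by
  have e : g = f + (g - f) := by
    funext x
    simp only [Pi.add_apply, Pi.sub_apply]
    exact (add_tsub_cancel_of_le (h x)).symm
  rw [e, map_add]
  exact le_self_add

/-- convolution along a binary operation -/
def conv {X : Type*} (op : X → X → X) (Λ₁ Λ₂ : Fnl X) : Fnl X where
  toFun f := Λ₁ (fun u => Λ₂ (fun v => f (op u v)))
  map_add' f g := by
    rw [← map_add]
    congr 1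
    funext u
    exact map_add Λ₂ (fun v => f (op u v)) (fun v => g (op u v))
  map_smul' c f := by
    simp only [RingHom.id_apply]
    rw [← map_smul]
    congr 1
    funext u
    exact map_smul Λ₂ c (fun v => f (op u v))

theorem conv_apply {X : Type*} (op : X → X → X) (Λ₁ Λ₂ : Fnl X) (f : X → ℝ≥0∞) :
    conv op Λ₁ Λ₂ f = Λ₁ (fun u => Λ₂ (fun v => f (op u v))) := rfl

/-- the evaluation functional -/
def dirac {X : Type*} (x : X) : Fnl X where
  toFun f := f x
  map_add' _ _ := rfl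
  map_smul' _ _ := rfl

/-- push forward -/
def push {X Y : Type*} (φ : X → Y) (Λ : Fnl X) : Fnl Y where
  toFun f := Λ (fun x => f (φ x))
  map_add' f g := map_add Λ (fun x => f (φ x)) (fun x => g (φ x))
  map_smul' c f := map_smul Λ c (fun x => f (φ x))

theorem push_apply {X Y : Type*} (φ : X → Y) (Λ : Fnl X) (f : Y → ℝ≥0∞) :
    push φ Λ f = Λ (fun x => f (φ x)) := rfl

/-- powers of a law -/
def cpow (Λ : Fnl V) : ℕ → Fnl V
  | 0 => dirac 1
  | k + 1 => conv (· * ·) Λ (cpow Λ k)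

/-! ### the test functions -/

/-- superadditive and positively homogeneous -/
structure Psi (ψ : V → ℝ≥0) : Prop where
  super : ∀ u v, ψ u + ψ v ≤ ψ (u + v)
  hom : ∀ (c : ℝ≥0) u, ψ (c • u) = c * ψ u

/-- invariance under relabellings -/
def SymF {Y : Type*} (ψ : V → Y) : Prop := ∀ (g : Equiv.Perm (Fin 3)) u, ψ (fun i => u (g i)) = ψ u

/-- coercion to `ℝ≥0∞` -/
def up (ψ : V → ℝ≥0) : V → ℝ≥0∞ := fun u => (ψ u : ℝ≥0∞)

theorem Psi.mono {ψ : V → ℝ≥0} (h : Psi ψ) {u v : V} (huv : u ≤ v) : ψ u ≤ ψ v := by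
  have e : v = u + (v - u) := (add_tsub_cancel_of_le huv).symm
  rw [e]
  exact le_self_add.trans (h.super _ _)

theorem Psi.zero {ψ : V → ℝ≥0} (h : Psi ψ) : ψ 0 = 0 := by
  have := h.hom 0 0
  simpa using this

theorem Psi.sum {ψ : V → ℝ≥0} (h : Psi ψ) {ι : Type*} (s : Finset ι) (u : ι → V) :
    ∑ i ∈ s, ψ (u i) ≤ ψ (∑ i ∈ s, u i) := by
  classical
  induction s using Finset.induction_on with
  | empty => simp
  | insert a s ha ih =>
    rw [Finset.sum_insert ha, Finset.sum_insert ha]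
    exact (add_le_add_right ih _).trans (h.super _ _)

theorem Psi.mulLeft {ψ : V → ℝ≥0} (h : Psi ψ) (u : V) : Psi (fun v => ψ (u * v)) where
  super v w := by
    rw [mul_add]
    exact h.super _ _
  hom c v := by
    rw [mul_smul_comm]
    exact h.hom _ _

theorem Psi.perm {ψ : V → ℝ≥0} (h : Psi ψ) (g : Equiv.Perm (Fin 3)) :
    Psi (fun v => ψ (fun i => v (g i))) where
  super _ _ := h.super _ _
  hom _ _ := h.hom _ _

theorem Psi.add {ψ φ : V → ℝ≥0} (h : Psi ψ) (h' : Psi φ) : Psi (fun v => ψ v + φ v) where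
  super v w := by
    have h1 := h.super v w
    have h2 := h'.super v w
    calc ψ v + φ v + (ψ w + φ w) = (ψ v + ψ w) + (φ v + φ w) := by ring
      _ ≤ _ := add_le_add h1 h2
  hom c v := by
    rw [h.hom, h'.hom]
    ring

theorem Psi.smul {ψ : V → ℝ≥0} (h : Psi ψ) (a : ℝ≥0) : Psi (fun v => a * ψ v) where
  super v w := by
    rw [← mul_add]
    exact mul_le_mul_right (h.super v w) a
  hom c v := by
    rw [h.hom]
    ring

theorem Psi.fsum {ι : Type*} (s : Finset ι) {ψ : ι → V → ℝ≥0} (h : ∀ i ∈ s, Psi (ψ i)) :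
    Psi (fun v => ∑ i ∈ s, ψ i v) where
  super v w := by
    rw [← Finset.sum_add_distrib]
    exact Finset.sum_le_sum fun i hi => (h i hi).super v w
  hom c v := by
    rw [Finset.mul_sum]
    exact Finset.sum_congr rfl fun i hi => (h i hi).hom c v

/-- symmetrisation -/
noncomputable def symz (ψ : V → ℝ≥0) : V → ℝ≥0 :=
  fun v => ∑ g : Equiv.Perm (Fin 3), (1 / 6 : ℝ≥0) * ψ (fun i => v (g i))

theorem Psi.symz {ψ : V → ℝ≥0} (h : Psi ψ) : Psi (symz ψ) :=
  Psi.fsum _ fun g _ => (h.perm g).smul _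

theorem symF_symz (ψ : V → ℝ≥0) : SymF (symz ψ) := by
  intro g u
  unfold symz
  refine Fintype.sum_equiv (Equiv.mulLeft g) _ _ fun σ => ?_
  rfl

/-! ### laws -/

/-- the properties of the laws of likelihood vectors that are used -/
structure IsLaw (Λ : Fnl V) : Prop where
  coord : ∀ i, Λ (fun u => (u i : ℝ≥0∞)) = 1
  perm : ∀ (g : Equiv.Perm (Fin 3)) (f : V → ℝ≥0∞), Λ (fun u => f (fun i => u (g i))) = Λ f
  jensen : ∀ ψ : V → ℝ≥0, Psi ψ → Λ (up ψ) ≤ ψ 1

theorem isLaw_one : IsLaw (dirac (1 : V)) where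
  coord i := by simp [dirac]
  perm g f := by
    simp only [dirac, LinearMap.coe_mk, AddHom.coe_mk]
    rfl
  jensen ψ h := le_rfl

theorem IsLaw.conv {Λ₁ Λ₂ : Fnl V} (h1 : IsLaw Λ₁) (h2 : IsLaw Λ₂) :
    IsLaw (conv (· * ·) Λ₁ Λ₂) where
  coord i := by
    rw [conv_apply]
    have : ∀ u : V, Λ₂ (fun v => (((u * v) i : ℝ≥0) : ℝ≥0∞)) = (u i : ℝ≥0∞) := by
      intro u
      have e : (fun v : V => (((u * v) i : ℝ≥0) : ℝ≥0∞)) = (u i : ℝ≥0∞) • fun v : V => (v i : ℝ≥0∞) := by
        funext v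
        simp
      rw [e, map_smul, h2.coord]
      simp
    simp_rw [this]
    exact h1.coord i
  perm g f := by
    rw [conv_apply, conv_apply]
    have : ∀ u : V, Λ₂ (fun v => f (fun i => (u * v) (g i))) =
        Λ₂ (fun v => f ((fun i => u (g i)) * v)) := by
      intro u
      exact h2.perm g (fun v => f ((fun i => u (g i)) * v))
    simp_rw [this]
    exact h1.perm g (fun u => Λ₂ (fun v => f (u * v)))
  jensen ψ h := by
    rw [conv_apply]
    have : ∀ u : V, Λ₂ (fun v => up ψ (u * v)) ≤ (ψ u : ℝ≥0∞) := by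
      intro u
      have := h2.jensen _ (h.mulLeft u)
      simp only [mul_one] at this
      exact this
    exact (Λ₁.mono this).trans (h1.jensen ψ h)

theorem IsLaw.cpow {Λ : Fnl V} (h : IsLaw Λ) : ∀ k, IsLaw (cpow Λ k)
  | 0 => isLaw_one
  | k + 1 => h.conv (h.cpow k)

theorem IsLaw.symz {Λ : Fnl V} (h : IsLaw Λ) (ψ : V → ℝ≥0) : Λ (up (symz ψ)) = Λ (up ψ) := by
  have e : up (DE.symz ψ) = ∑ g : Equiv.Perm (Fin 3), ((1 / 6 : ℝ≥0) : ℝ≥0∞) • fun v : V => up ψ (fun i => v (g i)) := by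
    funext v
    simp only [up, DE.symz, Finset.sum_apply, Pi.smul_apply, smul_eq_mul]
    push_cast
    rfl
  rw [e, map_sum]
  simp only [map_smul]
  rw [Finset.sum_congr rfl fun g _ => by rw [h.perm g (up ψ)]]
  rw [Finset.sum_const, Finset.card_univ]
  simp only [Fintype.card_perm, Fintype.card_fin, smul_eq_mul, nsmul_eq_mul]
  rw [← mul_assoc]
  have : ((Nat.factorial 3 : ℕ) : ℝ≥0∞) * ((1 / 6 : ℝ≥0) : ℝ≥0∞) = 1 := by
    have h1 : ((Nat.factorial 3 : ℕ) : ℝ≥0∞) = ((6 : ℝ≥0) : ℝ≥0∞) := by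
      norm_num [Nat.factorial]
    rw [h1, ← ENNReal.coe_mul]
    norm_num
  rw [this, one_mul]

/-- domination on all test functions -/
def Dom (Λ K : Fnl V) : Prop := ∀ ψ, Psi ψ → K (up ψ) ≤ Λ (up ψ)

/-- domination on symmetric test functions -/
def DomS (Λ K : Fnl V) : Prop := ∀ ψ, Psi ψ → SymF ψ → K (up ψ) ≤ Λ (up ψ)

theorem Dom.domS {Λ K : Fnl V} (h : Dom Λ K) : DomS Λ K := fun ψ h1 _ => h ψ h1

theorem DomS.dom {Λ K : Fnl V} (hΛ : IsLaw Λ) (h : DomS Λ K)
    (hK : ∀ (g : Equiv.Perm (Fin 3)) (f : V → ℝ≥0∞), K (fun u => f (fun i => u (g i))) = K f) :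
    Dom Λ K := by
  intro ψ hψ
  have h1 := h _ hψ.symz (symF_symz ψ)
  rw [hΛ.symz] at h1
  refine le_trans (le_of_eq ?_) h1
  have e : up (DE.symz ψ) = ∑ g : Equiv.Perm (Fin 3), ((1 / 6 : ℝ≥0) : ℝ≥0∞) • fun v : V => up ψ (fun i => v (g i)) := by
    funext v
    simp only [up, DE.symz, Finset.sum_apply, Pi.smul_apply, smul_eq_mul]
    push_cast
    rfl
  rw [e, map_sum]
  simp only [map_smul]
  rw [Finset.sum_congr rfl fun g _ => by rw [hK g (up ψ)]]
  rw [Finset.sum_const, Finset.card_univ]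
  simp only [Fintype.card_perm, Fintype.card_fin, smul_eq_mul, nsmul_eq_mul]
  rw [← mul_assoc]
  have : ((Nat.factorial 3 : ℕ) : ℝ≥0∞) * ((1 / 6 : ℝ≥0) : ℝ≥0∞) = 1 := by
    have h1 : ((Nat.factorial 3 : ℕ) : ℝ≥0∞) = ((6 : ℝ≥0) : ℝ≥0∞) := by
      norm_num [Nat.factorial]
    rw [h1, ← ENNReal.coe_mul]
    norm_num
  rw [this, one_mul]

theorem dom_conv {Λ₁ Λ₂ K₁ K₂ : Fnl V} (hΛ : IsLaw Λ₂) (h1 : Dom Λ₁ K₁) (h2 : Dom Λ₂ K₂) :
    Dom (conv (· * ·) Λ₁ Λ₂) (conv (· * ·) K₁ K₂) := by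
  intro ψ hψ
  rw [conv_apply, conv_apply]
  -- the inner function
  have hfin : ∀ u : V, K₂ (fun v => up ψ (u * v)) ≤ (ψ u : ℝ≥0∞) := by
    intro u
    have h3 := h2 _ (hψ.mulLeft u)
    have h4 := hΛ.jensen _ (hψ.mulLeft u)
    simp only [mul_one] at h4
    exact h3.trans h4
  set φ : V → ℝ≥0 := fun u => (K₂ (fun v => up ψ (u * v))).toNNReal with hφ
  have hφu : ∀ u, (φ u : ℝ≥0∞) = K₂ (fun v => up ψ (u * v)) := fun u =>
    ENNReal.coe_toNNReal (ne_top_of_le_ne_top ENNReal.coe_ne_top (hfin u))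
  have hφΨ : Psi φ := by
    constructor
    · intro u w
      rw [← ENNReal.coe_le_coe, ENNReal.coe_add, hφu, hφu, hφu, ← map_add]
      refine K₂.mono fun v => ?_
      simp only [Pi.add_apply, up]
      rw [← ENNReal.coe_add, ENNReal.coe_le_coe, add_mul]
      exact hψ.super _ _
    · intro c u
      rw [← ENNReal.coe_inj, ENNReal.coe_mul, hφu, hφu]
      have e : (fun v => up ψ (c • u * v)) = (c : ℝ≥0∞) • fun v => up ψ (u * v) := by
        funext v
        simp only [up, Pi.smul_apply, smul_eq_mul]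
        rw [smul_mul_assoc, hψ.hom, ENNReal.coe_mul]
      rw [e, map_smul, smul_eq_mul]
  calc K₁ (fun u => K₂ (fun v => up ψ (u * v))) = K₁ (up φ) := by
        congr 1
        funext u
        exact (hφu u).symm
    _ ≤ Λ₁ (up φ) := h1 φ hφΨ
    _ ≤ Λ₁ (fun u => Λ₂ (fun v => up ψ (u * v))) := by
        refine Λ₁.mono fun u => ?_
        show (φ u : ℝ≥0∞) ≤ _
        rw [hφu]
        exact h2 _ (hψ.mulLeft u)

theorem dom_one : Dom (dirac (1 : V)) (dirac (1 : V)) := fun _ _ => le_rfl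

theorem Dom.refl (Λ : Fnl V) : Dom Λ Λ := fun _ _ => le_rfl

theorem dom_cpow {Λ K : Fnl V} (hΛ : IsLaw Λ) (h : Dom Λ K) :
    ∀ k, Dom (cpow Λ k) (cpow K k)
  | 0 => dom_one
  | k + 1 => dom_conv (hΛ.cpow k) h (dom_cpow hΛ h k)

/-! ### the channel -/

/-- the channel with diagonal entry `a` and off-diagonal entry `b` -/
noncomputable def chV (a b : ℝ≥0) (u : V) : V := fun i => ∑ j, (if i = j then a else b) * u j

theorem chV_add (a b : ℝ≥0) (u v : V) : chV a b (u + v) = chV a b u + chV a b v := by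
  funext i
  simp only [chV, Pi.add_apply, mul_add, Finset.sum_add_distrib]

theorem chV_smul (a b c : ℝ≥0) (u : V) : chV a b (c • u) = c • chV a b u := by
  funext i
  simp only [chV, Pi.smul_apply, smul_eq_mul, Finset.mul_sum]
  refine Finset.sum_congr rfl fun j _ => ?_
  ring

theorem chV_perm (a b : ℝ≥0) (g : Equiv.Perm (Fin 3)) (u : V) :
    chV a b (fun i => u (g i)) = fun i => chV a b u (g i) := by
  funext i
  simp only [chV]
  refine Fintype.sum_equiv g _ _ fun j => ?_
  simp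

theorem Psi.chV {ψ : V → ℝ≥0} (h : Psi ψ) (a b : ℝ≥0) : Psi (fun u => ψ (chV a b u)) where
  super u v := by
    rw [chV_add]
    exact h.super _ _
  hom c u := by
    rw [chV_smul]
    exact h.hom _ _

theorem SymF.chV {ψ : V → ℝ≥0} (h : SymF ψ) (a b : ℝ≥0) : SymF (fun u => ψ (DE.chV a b u)) := by
  intro g u
  show ψ (DE.chV a b (fun i => u (g i))) = _
  rw [chV_perm, h g]

/-- the basis vectors -/
def ev (i : Fin 3) : V := fun j => if i = j then 1 else 0

theorem eq_sum_ev (u : V) : u = ∑ i, u i • ev i := by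
  funext j
  simp [ev]

theorem symF_ev {Y : Type*} {ψ : V → Y} (h : SymF ψ) (i : Fin 3) : ψ (ev i) = ψ (ev 0) := by
  have := h (Equiv.swap 0 i) (ev 0)
  rw [← this]
  congr 1
  funext j
  simp only [ev]
  by_cases hj : i = j
  · subst hj
    simp
  · rw [if_neg hj, if_neg]
    intro h0
    apply hj
    have := congrArg (Equiv.swap 0 i) h0
    simpa using this

/-- total mass -/
def tot (u : V) : ℝ≥0 := ∑ i, u i

theorem IsLaw.tot {Λ : Fnl V} (h : IsLaw Λ) : Λ (up tot) = 3 := by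
  have e : up DE.tot = ∑ i : Fin 3, fun u : V => (u i : ℝ≥0∞) := by
    funext u
    simp [up, DE.tot, Finset.sum_apply]
  rw [e, map_sum]
  simp only [h.coord]
  norm_num

/-- the law of the message sent through the channel -/
noncomputable def chL (a b : ℝ≥0) (Λ : Fnl V) : Fnl V := push (chV a b) Λ

theorem IsLaw.chL {a b : ℝ≥0} (hab : a + 2 * b = 1) {Λ : Fnl V} (h : IsLaw Λ) :
    IsLaw (chL a b Λ) where
  coord i := by
    rw [DE.chL, push_apply]
    have e : (fun u : V => ((DE.chV a b u i : ℝ≥0) : ℝ≥0∞)) =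
        ∑ j : Fin 3, ((if i = j then a else b : ℝ≥0) : ℝ≥0∞) • fun u : V => (u j : ℝ≥0∞) := by
      funext u
      simp only [DE.chV, Finset.sum_apply, Pi.smul_apply, smul_eq_mul]
      push_cast
      rfl
    rw [e, map_sum]
    simp only [map_smul, h.coord, smul_eq_mul, mul_one]
    rw [← ENNReal.ofNNReal_finsetSum]
    have : ∑ j : Fin 3, (if i = j then a else b) = 1 := by
      rw [← hab]
      fin_cases i <;> simp [Fin.sum_univ_three] <;> ring
    rw [this]
    rfl
  perm g f := by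
    rw [DE.chL, push_apply, push_apply]
    rw [← h.perm g (fun u => f (DE.chV a b u))]
    congr 1
    funext u
    rw [chV_perm]
  jensen ψ hψ := by
    rw [DE.chL, push_apply]
    have h1 := h.jensen _ (hψ.chV a b)
    have e : DE.chV a b 1 = 1 := by
      funext i
      simp only [DE.chV, Pi.one_apply, mul_one]
      rw [← hab]
      fin_cases i <;> simp [Fin.sum_univ_three] <;> ring
    rw [e] at h1
    exact h1

/-- channel step of density evolution: the mass that is not accounted for is perfect information -/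
theorem chan_rule {a b : ℝ≥0} {Λ K : Fnl V} (hΛ : IsLaw Λ) (h : DomS Λ K)
    {v : ℝ≥0∞} (hv : K (up tot) + v ≤ 3) {ψ : V → ℝ≥0} (hψ : Psi ψ) (hs : SymF ψ) :
    K (fun u => up ψ (chV a b u)) + v * ψ (chV a b (ev 0)) ≤ chL a b Λ (up ψ) := by
  set τ : ℝ≥0 := ψ (chV a b (ev 0)) with hτ
  have hψP := hψ.chV a b
  have hsP := hs.chV a b
  have hle : ∀ u, tot u * τ ≤ ψ (chV a b u) := by
    intro u
    conv_rhs => rw [eq_sum_ev u]
    refine le_trans (le_of_eq ?_) (hψP.sum univ fun i => u i • ev i)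
    unfold tot
    rw [Finset.sum_mul]
    refine Finset.sum_congr rfl fun i _ => ?_
    rw [hψP.hom, symF_ev hsP i]
  set φ : V → ℝ≥0 := fun u => ψ (chV a b u) - tot u * τ with hφ
  have hsplit : ∀ u, ψ (chV a b u) = φ u + tot u * τ := fun u =>
    (tsub_add_cancel_of_le (hle u)).symm
  have htot_add : ∀ u w : V, tot (u + w) = tot u + tot w := fun u w => by
    simp [tot, Finset.sum_add_distrib]
  have htot_smul : ∀ (c : ℝ≥0) (u : V), tot (c • u) = c * tot u := fun c u => by
    simp [tot, Finset.mul_sum]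
  have hφΨ : Psi φ := by
    constructor
    · intro u w
      have h1 := hψP.super u w
      simp only [hsplit, htot_add] at h1
      have h2 : φ u + φ w + (tot u + tot w) * τ ≤ φ (u + w) + (tot u + tot w) * τ := by
        calc φ u + φ w + (tot u + tot w) * τ = φ u + tot u * τ + (φ w + tot w * τ) := by ring
          _ ≤ _ := h1
      exact le_of_add_le_add_right h2
    · intro c u
      have h1 := hψP.hom c u
      simp only [hsplit, htot_smul] at h1
      have h2 : φ (c • u) + c * tot u * τ = c * φ u + c * tot u * τ := by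
        rw [h1]
        ring
      exact add_right_cancel h2
  have hφs : SymF φ := by
    intro g u
    have h1 := hsP g u
    have h2 : tot (fun i => u (g i)) = tot u := Equiv.sum_comp g u
    simp only [hφ, h2]
    show ψ (chV a b fun i => u (g i)) - tot u * τ = _
    rw [show ψ (chV a b fun i => u (g i)) = ψ (chV a b u) from h1]
  have hK : K (fun u => up ψ (chV a b u)) = K (up φ) + K (up tot) * τ := by
    have e : (fun u => up ψ (chV a b u)) = up φ + (τ : ℝ≥0∞) • up tot := by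
      funext u
      simp only [up, Pi.add_apply, Pi.smul_apply, smul_eq_mul]
      rw [hsplit u]
      push_cast
      ring
    rw [e, map_add, map_smul, smul_eq_mul, mul_comm]
  have hL : chL a b Λ (up ψ) = Λ (up φ) + 3 * τ := by
    rw [chL, push_apply]
    have e : (fun u => up ψ (chV a b u)) = up φ + (τ : ℝ≥0∞) • up tot := by
      funext u
      simp only [up, Pi.add_apply, Pi.smul_apply, smul_eq_mul]
      rw [hsplit u]
      push_cast
      ring
    rw [e, map_add, map_smul, smul_eq_mul, mul_comm, hΛ.tot]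
  rw [hK, hL]
  calc K (up φ) + K (up tot) * τ + v * τ = K (up φ) + (K (up tot) + v) * τ := by ring
    _ ≤ Λ (up φ) + 3 * τ := add_le_add (h φ hφΨ hφs) (mul_le_mul_left hv _)

end NC

end Vale.Agent.P154.DE
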