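import Vale.Agent.P154.DE.Check

/-!
# The density evolution engine for Poisson offspring (integer arithmetic)
-/

namespace Vale.Agent.P154.DE

/-- `w` slots of `b` bits, all equal to `1` -/
def ones (b w : ℕ) : ℕ := sumR (fun j => 1 <<< (b * j)) w

/-- mask of `h` rows of `w` slots of `b` bits, rows at distance `b * R`, keeping the bits above `s` -/
def maskM (b R s w h : ℕ) : ℕ := (2 ^ b - 2 ^ s) * (ones b w * ones (b * R) h)

/-- shift, mask and round -/
def trm (A t m s : ℕ) : ℕ := ((A >>> t) &&& m) >>> s

/-- Horner scheme, two-dimensional arrays -/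
def horA (t m s u X : ℕ) : List ℕ → ℕ
  | [] => 0
  | q :: l => force (horA t m s u X l) fun H => trm (X * H) t m s + q <<< u

/-- Horner scheme, one-dimensional arrays, one colour excluded; `X` for the array without excluded
colour -/
def horE (t m s u X Y : ℕ) : List ℕ → ℕ
  | [] => 0
  | _ :: l => force (horA t m s u X l) fun H => force (horE t m s u X Y l) fun K =>
    trm (Y * (H + K) + X * K) t m s

/-- accumulator after a step with Poisson offspring; `s` is the number of bits of the scale of the
messages, `sc` the scale of the mixture, `W` its window, `qs` the weights -/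
def accP (be R L W pb qb P S : ℕ) (s sc q sT : ℕ) (qs : List ℕ) (T : Tab) (n : ℕ)
    (TE TV : Row) : ℕ :=
  force (bA be R L pb qb P S) fun A =>
  force (bP be L pb qb P S) fun Pa =>
  force (bE be L pb qb P S) fun E =>
  force (maskM be R s (2 * W + 1) (2 * W + 1)) fun mA =>
  force (maskM be 1 s 1 (2 * W + 1)) fun mP =>
  force (horA (be * (R * L + L)) mA s (be * (R * W + W)) A qs) fun HA =>
  force (horE (be * L) mP s (be * W) Pa E qs) fun HE =>
  force (tabLoop be R W sT HA T 0 n 0) fun V1 =>
  force (rowLoop be sT TE (HE >>> (be * W)) V1) fun V2 =>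
  rowLoop be sT TV ((3 * sc * 2 ^ q - V2 >>> sT) >>> q) V2

end Vale.Agent.P154.DE
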