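import Vale.Agent.P154.DE.Order
import Vale.Agent.P154.RecTree
import Vale.Agent.P154.PoissonTree

/-!
# The laws of the likelihood vectors on trees
-/

namespace Vale.Agent.P154.DE

noncomputable section NC

open Finset Vale.Agent.P154.Up
open scoped ENNReal NNReal

/-- diagonal entry of the channel with eigenvalue `-κ` -/
def aK (κ : ℝ) : ℝ≥0 := ((1 - 2 * κ) / 3).toNNReal

/-- off-diagonal entry of the channel with eigenvalue `-κ` -/
def bK (κ : ℝ) : ℝ≥0 := ((1 + κ) / 3).toNNReal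

theorem aK_coe {κ : ℝ} (h : κ ≤ 1 / 2) : (aK κ : ℝ) = (1 - 2 * κ) / 3 :=
  Real.coe_toNNReal _ (by linarith)

theorem bK_coe {κ : ℝ} (h : 0 ≤ κ) : (bK κ : ℝ) = (1 + κ) / 3 :=
  Real.coe_toNNReal _ (by linarith)

theorem aK_add_bK {κ : ℝ} (h0 : 0 ≤ κ) (h : κ ≤ 1 / 2) : aK κ + 2 * bK κ = 1 := by
  rw [← NNReal.coe_inj]
  push_cast
  rw [aK_coe h, bK_coe h0]
  ring

/-- likelihood vector of an observation -/
def likV (κ : ℝ) {n : ℕ} (T : GTree n) (x : Obs 3 T) : V :=
  fun i => (lik 3 (-κ) T x i).toNNReal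

theorem likV_coe {κ : ℝ} (h0 : 0 ≤ κ) (h : κ ≤ 1 / 2) {n : ℕ} (T : GTree n) (x : Obs 3 T)
    (i : Fin 3) : (likV κ T x i : ℝ) = lik 3 (-κ) T x i :=
  Real.coe_toNNReal _ (Up.lik_nonneg (by norm_num) (by norm_num; linarith) (by linarith) T x i)

theorem potts_neg {κ : ℝ} (h0 : 0 ≤ κ) (h : κ ≤ 1 / 2) (i j : Fin 3) :
    potts 3 (-κ) i j = ((if i = j then aK κ else bK κ : ℝ≥0) : ℝ) := by
  unfold potts
  split_ifs
  · rw [aK_coe h]
    push_cast
    ring
  · rw [bK_coe h0]
    push_cast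
    ring

theorem likV_node {κ : ℝ} (h0 : 0 ≤ κ) (h : κ ≤ 1 / 2) {n k : ℕ} (c : Fin k → GTree n)
    (x : (v : Fin k) → Obs 3 (c v)) :
    likV κ (.node k c) x = ∏ v, chV (aK κ) (bK κ) (likV κ (c v) (x v)) := by
  funext i
  rw [← NNReal.coe_inj, Finset.prod_apply]
  refine (likV_coe h0 h (.node k c) x i).trans ?_
  show ∏ v : Fin k, ∑ j : Fin 3, potts 3 (-κ) i j * lik 3 (-κ) (c v) (x v) j = _
  push_cast
  refine Finset.prod_congr rfl fun v _ => ?_
  simp only [chV]
  push_cast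
  refine Finset.sum_congr rfl fun j _ => ?_
  rw [likV_coe h0 h, potts_neg h0 h]

theorem lik_symExp (lam : ℝ) {n : ℕ} (T : GTree n) : SymExp (lik 3 lam T) := by
  induction T with
  | leaf => exact weakExp_leaf.sym
  | @node n k ch ih =>
    intro g
    choose e he using fun v => ih v g
    refine ⟨(Equiv.piCongrRight e : ((v : Fin k) → Obs 3 (ch v)) ≃ _), fun x i => ?_⟩
    show ∏ v : Fin k, ∑ j : Fin 3, potts 3 lam i j * lik 3 lam (ch v) (e v (x v)) j =
      ∏ v : Fin k, ∑ j : Fin 3, potts 3 lam (g i) j * lik 3 lam (ch v) (x v) j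
    refine Finset.prod_congr rfl fun v _ => ?_
    simp_rw [he]
    refine Fintype.sum_equiv g _ _ fun j => ?_
    congr 1
    unfold potts
    simp

/-- law of the likelihood vectors on a fixed tree -/
def treeL (κ : ℝ) {n : ℕ} (T : GTree n) : Fnl V where
  toFun f := ∑ x, f (likV κ T x)
  map_add' f g := by
    rw [← Finset.sum_add_distrib]
    rfl
  map_smul' c f := by
    simp only [RingHom.id_apply, smul_eq_mul, Finset.mul_sum]
    rfl

theorem treeL_apply (κ : ℝ) {n : ℕ} (T : GTree n) (f : V → ℝ≥0∞) :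
    treeL κ T f = ∑ x, f (likV κ T x) := rfl

theorem sum_likV {κ : ℝ} (h0 : 0 ≤ κ) (h : κ ≤ 1 / 2) {n : ℕ} (T : GTree n) :
    ∑ x, likV κ T x = 1 := by
  funext i
  rw [Finset.sum_apply, ← NNReal.coe_inj]
  push_cast
  simp_rw [likV_coe h0 h]
  rw [lik_sum (by norm_num)]
  rfl

theorem isLaw_treeL {κ : ℝ} (h0 : 0 ≤ κ) (h : κ ≤ 1 / 2) {n : ℕ} (T : GTree n) :
    IsLaw (treeL κ T) where
  coord i := by
    rw [treeL_apply, ← ENNReal.ofNNReal_finsetSum]
    have := congrFun (sum_likV h0 h T) i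
    rw [Finset.sum_apply] at this
    rw [this]
    rfl
  perm g f := by
    rw [treeL_apply, treeL_apply]
    obtain ⟨e, he⟩ := lik_symExp (-κ) T g
    rw [← Equiv.sum_comp e (fun x => f (likV κ T x))]
    refine Finset.sum_congr rfl fun x _ => ?_
    congr 1
    funext i
    unfold likV
    rw [he]
  jensen ψ hψ := by
    rw [treeL_apply]
    unfold up
    rw [← ENNReal.ofNNReal_finsetSum, ENNReal.coe_le_coe]
    have := hψ.sum univ (likV κ T)
    rwa [sum_likV h0 h] at this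

/-- product of messages -/
theorem sum_pi_cpow {k : ℕ} (O : Fin k → Type) [∀ v, Fintype (O v)] (Λ : Fnl V)
    (m : ∀ v, O v → V) (hm : ∀ v (f : V → ℝ≥0∞), ∑ x, f (m v x) = Λ f) (f : V → ℝ≥0∞) :
    ∑ x : (∀ v, O v), f (∏ v, m v (x v)) = cpow Λ k f := by
  induction k generalizing f with
  | zero =>
    simp [cpow, dirac]
  | succ k ih =>
    rw [← (Fin.consEquiv O).sum_comp, Fintype.sum_prod_type]
    show _ = Λ (fun u => cpow Λ k (fun v => f (u * v)))
    rw [← hm 0]
    refine Finset.sum_congr rfl fun x0 _ => ?_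
    rw [← ih (fun v => O v.succ) (fun v => m v.succ) (fun v => hm v.succ)]
    refine Finset.sum_congr rfl fun y _ => ?_
    rw [Fin.prod_univ_succ]
    simp [Fin.consEquiv]

theorem treeL_dary {κ : ℝ} (h0 : 0 ≤ κ) (h : κ ≤ 1 / 2) (d n : ℕ) :
    treeL κ (dary d (n + 1)) = cpow (chL (aK κ) (bK κ) (treeL κ (dary d n))) d := by
  ext f
  rw [treeL_apply]
  show ∑ x : ((v : Fin d) → Obs 3 (dary d n)), f (likV κ (.node d fun _ => dary d n) x) = _
  simp_rw [likV_node h0 h]
  exact sum_pi_cpow (fun _ => Obs 3 (dary d n)) _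
    (fun _ x => chV (aK κ) (bK κ) (likV κ (dary d n) x)) (fun v f => rfl) f

/-- law of the likelihood vectors on the Poisson tree -/
def poisL (κ d : ℝ) (n : ℕ) : Fnl V where
  toFun f := treeE d n (fun T => treeL κ T f)
  map_add' f g := by
    unfold treeE
    simp only [map_add, mul_add]
    exact ENNReal.tsum_add
  map_smul' c f := by
    unfold treeE
    simp only [map_smul, smul_eq_mul, RingHom.id_apply]
    rw [← ENNReal.tsum_mul_left]
    refine tsum_congr fun T => ?_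
    ring

theorem poisL_apply (κ d : ℝ) (n : ℕ) (f : V → ℝ≥0∞) :
    poisL κ d n f = ∑' T : GTree n, treeW d T * treeL κ T f := rfl

theorem isLaw_poisL {κ d : ℝ} (h0 : 0 ≤ κ) (h : κ ≤ 1 / 2) (hd : 0 ≤ d) (n : ℕ) :
    IsLaw (poisL κ d n) where
  coord i := by
    rw [poisL_apply]
    simp_rw [(isLaw_treeL h0 h _).coord, mul_one]
    exact treeE_one hd n
  perm g f := by
    rw [poisL_apply, poisL_apply]
    simp_rw [(isLaw_treeL h0 h _).perm]
  jensen ψ hψ := by
    rw [poisL_apply]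
    calc ∑' T : GTree n, treeW d T * treeL κ T (up ψ)
        ≤ ∑' T : GTree n, treeW d T * (ψ 1 : ℝ≥0∞) := by
          refine ENNReal.tsum_le_tsum fun T => ?_
          exact mul_le_mul_right ((isLaw_treeL h0 h T).jensen ψ hψ) _
      _ = _ := by rw [ENNReal.tsum_mul_right, treeE_one hd n, one_mul]

theorem tsum_pi_cpow {κ d : ℝ} {n : ℕ} (k : ℕ) (f : V → ℝ≥0∞) :
    ∑' c : Fin k → GTree n, (∏ v, treeW d (c v)) *
      ∑ x : (∀ v, Obs 3 (c v)), f (∏ v, chV (aK κ) (bK κ) (likV κ (c v) (x v))) =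
    cpow (chL (aK κ) (bK κ) (poisL κ d n)) k f := by
  induction k generalizing f with
  | zero =>
    rw [tsum_eq_single (fun v => v.elim0) (fun c hc => absurd (funext fun v => v.elim0) hc)]
    simp [cpow, dirac]
  | succ k ih =>
    show _ = poisL κ d n (fun u => cpow (chL (aK κ) (bK κ) (poisL κ d n)) k
      (fun v => f (chV (aK κ) (bK κ) u * v)))
    rw [poisL_apply]
    rw [← (Fin.consEquiv (fun _ : Fin (k + 1) => GTree n)).tsum_eq, ENNReal.tsum_prod']
    refine tsum_congr fun T => ?_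
    rw [treeL_apply, Finset.mul_sum]
    have h1 : ∀ x0 : Obs 3 T, cpow (chL (aK κ) (bK κ) (poisL κ d n)) k
        (fun v => f (chV (aK κ) (bK κ) (likV κ T x0) * v)) =
        ∑' c : Fin k → GTree n, (∏ v, treeW d (c v)) *
          ∑ x : (∀ v, Obs 3 (c v)), f (chV (aK κ) (bK κ) (likV κ T x0) *
            ∏ v, chV (aK κ) (bK κ) (likV κ (c v) (x v))) := fun x0 => (ih _).symm
    simp_rw [h1]
    simp_rw [← ENNReal.tsum_mul_left]
    rw [← Summable.tsum_finsetSum (fun _ _ => ENNReal.summable)]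
    refine tsum_congr fun c => ?_
    have h2 : ∑ x : (∀ v, Obs 3 ((Fin.consEquiv (fun _ : Fin (k + 1) => GTree n)) (T, c) v)),
        f (∏ v, chV (aK κ) (bK κ)
          (likV κ ((Fin.consEquiv (fun _ : Fin (k + 1) => GTree n)) (T, c) v) (x v))) =
        ∑ x0 : Obs 3 T, ∑ x : (∀ v, Obs 3 (c v)), f (chV (aK κ) (bK κ) (likV κ T x0) *
            ∏ v, chV (aK κ) (bK κ) (likV κ (c v) (x v))) := by
      rw [← (Fin.consEquiv (fun v : Fin (k + 1) =>
        Obs 3 ((Fin.consEquiv (fun _ : Fin (k + 1) => GTree n)) (T, c) v))).sum_comp,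
        Fintype.sum_prod_type]
      refine Finset.sum_congr rfl fun x0 _ => Finset.sum_congr rfl fun y _ => ?_
      rw [Fin.prod_univ_succ]
      rfl
    rw [h2, Fin.prod_univ_succ]
    have h3 : (∏ i : Fin k, treeW d ((Fin.consEquiv (fun _ : Fin (k + 1) => GTree n)) (T, c)
        i.succ)) = ∏ i, treeW d (c i) := rfl
    have h4 : treeW d ((Fin.consEquiv (fun _ : Fin (k + 1) => GTree n)) (T, c) 0) = treeW d T := rfl
    rw [h3, h4, Finset.mul_sum]
    refine Finset.sum_congr rfl fun x0 _ => ?_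
    ring

theorem poisL_succ {κ d : ℝ} (h0 : 0 ≤ κ) (h : κ ≤ 1 / 2) (hd : 0 ≤ d) (n : ℕ)
    (f : V → ℝ≥0∞) :
    poisL κ d (n + 1) f =
      ∑' k, pk d k * cpow (chL (aK κ) (bK κ) (poisL κ d n)) k f := by
  show treeE d (n + 1) (fun T => treeL κ T f) = _
  rw [treeE_succ hd]
  refine tsum_congr fun k => ?_
  rw [← tsum_pi_cpow]
  congr 1
  refine tsum_congr fun c => ?_
  rw [treeL_apply]
  congr 1
  show ∑ x : (∀ v, Obs 3 (c v)), f (likV κ (.node k c) x) = _
  simp_rw [likV_node h0 h]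

/-! ### the functional `1 - M` -/

/-- density of `1 - M` -/
def psiM (u : V) : ℝ≥0 := (u 0 * u 1 + u 0 * u 2 + u 1 * u 2) / tot u

theorem psiM_coe (u : V) : (psiM u : ℝ) =
    ((tot u : ℝ) - (∑ i, (u i : ℝ) ^ 2) / tot u) / 2 := by
  unfold psiM tot
  push_cast
  rw [Fin.sum_univ_three, Fin.sum_univ_three]
  by_cases hs : ((u 0 : ℝ) + u 1 + u 2) = 0
  · rw [hs]
    simp
  · field_simp
    ring

theorem psi_psiM : Psi psiM where
  super u v := by
    rw [← NNReal.coe_le_coe]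
    push_cast
    rw [psiM_coe, psiM_coe, psiM_coe]
    have hadd : (tot (u + v) : ℝ) = tot u + tot v := by
      unfold tot
      push_cast
      simp [Finset.sum_add_distrib]
    rw [hadd]
    have key : (∑ i, ((u + v) i : ℝ) ^ 2) / (tot u + tot v) ≤
        (∑ i, (u i : ℝ) ^ 2) / tot u + (∑ i, (v i : ℝ) ^ 2) / tot v := by
      rw [Finset.sum_div, Finset.sum_div, Finset.sum_div, ← Finset.sum_add_distrib]
      refine Finset.sum_le_sum fun i _ => ?_
      have hu : (0 : ℝ) ≤ tot u := NNReal.coe_nonneg _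
      have hv : (0 : ℝ) ≤ tot v := NNReal.coe_nonneg _
      have hui : (u i : ℝ) ≤ tot u := by
        rw [NNReal.coe_le_coe]
        exact Finset.single_le_sum (f := u) (fun _ _ => zero_le) (mem_univ i)
      have hvi : (v i : ℝ) ≤ tot v := by
        rw [NNReal.coe_le_coe]
        exact Finset.single_le_sum (f := v) (fun _ _ => zero_le) (mem_univ i)
      have hui0 : (0 : ℝ) ≤ u i := NNReal.coe_nonneg _
      have hvi0 : (0 : ℝ) ≤ v i := NNReal.coe_nonneg _
      simp only [Pi.add_apply, NNReal.coe_add]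
      rcases hu.eq_or_lt with h1 | h1
      · have : (u i : ℝ) = 0 := le_antisymm (by rw [h1]; exact hui) hui0
        rw [this, ← h1]
        simp
      · rcases hv.eq_or_lt with h2 | h2
        · have : (v i : ℝ) = 0 := le_antisymm (by rw [h2]; exact hvi) hvi0
          rw [this, ← h2]
          simp
        · rw [div_add_div _ _ h1.ne' h2.ne', div_le_div_iff₀ (by positivity) (by positivity)]
          nlinarith [mul_pos h1 h2, sq_nonneg ((u i : ℝ) * tot v - v i * tot u)]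
    linarith
  hom c u := by
    rw [← NNReal.coe_inj]
    push_cast
    rw [psiM_coe, psiM_coe]
    have h1 : (tot (c • u) : ℝ) = c * tot u := by
      unfold tot
      push_cast
      simp [Finset.mul_sum]
    rw [h1]
    have h2 : ∑ i, ((c • u) i : ℝ) ^ 2 = c ^ 2 * ∑ i, (u i : ℝ) ^ 2 := by
      rw [Finset.mul_sum]
      refine Finset.sum_congr rfl fun i _ => ?_
      simp only [Pi.smul_apply, smul_eq_mul, NNReal.coe_mul]
      ring
    rw [h2]
    by_cases hc : (c : ℝ) = 0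
    · rw [hc]
      simp
    · by_cases ht : (tot u : ℝ) = 0
      · rw [ht]
        simp
      · field_simp

theorem symF_psiM : SymF psiM := by
  intro g u
  rw [← NNReal.coe_inj, psiM_coe, psiM_coe]
  have h1 : tot (fun i => u (g i)) = tot u := Equiv.sum_comp g u
  have h2 : ∑ i, (u (g i) : ℝ) ^ 2 = ∑ i, (u i : ℝ) ^ 2 := Equiv.sum_comp g (fun i => (u i : ℝ) ^ 2)
  rw [h1, h2]

theorem treeL_psiM {κ : ℝ} (h0 : 0 ≤ κ) (h : κ ≤ 1 / 2) {n : ℕ} (T : GTree n) :
    treeL κ T (up psiM) = ENNReal.ofReal (1 - Mtree 3 (-κ) T) := by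
  rw [treeL_apply]
  unfold up
  rw [← ENNReal.ofNNReal_finsetSum]
  rw [ENNReal.ofReal, ENNReal.coe_inj, ← NNReal.coe_inj]
  have hM1 : 0 ≤ 1 - Mtree 3 (-κ) T := by
    have := Mtree_le_one (q := 3) (by norm_num) (lam := -κ) (by norm_num; linarith) (by linarith) T
    linarith
  rw [Real.coe_toNNReal _ hM1]
  push_cast
  unfold Mtree
  rw [Mfun_eq_Gfun (by norm_num)]
  have h1 : ∀ x, (psiM (likV κ T x) : ℝ) = mass (lik 3 (-κ) T x) - Gfun (lik 3 (-κ) T x) := by
    intro x
    rw [psiM_coe]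
    have e1 : (tot (likV κ T x) : ℝ) = ∑ i, lik 3 (-κ) T x i := by
      unfold tot
      push_cast
      exact Finset.sum_congr rfl fun i _ => likV_coe h0 h T x i
    have e2 : ∑ i, (likV κ T x i : ℝ) ^ 2 = ∑ i, lik 3 (-κ) T x i ^ 2 :=
      Finset.sum_congr rfl fun i _ => by rw [likV_coe h0 h T x i]
    rw [e1, e2]
    unfold mass Gfun
    push_cast
    ring
  simp_rw [h1]
  rw [Finset.sum_sub_distrib, sum_mass_eq_one (by norm_num) (lik_sum (by norm_num) (-κ) T)]

end NC

end Vale.Agent.P154.DE
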