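import Vale.Agent.P154.DE.Read
import Vale.Agent.P154.DE.Tree

/-!
# One step of density evolution with four children
-/

namespace Vale.Agent.P154.DE

noncomputable section NC

open Finset Polynomial
open scoped ENNReal NNReal

theorem PT.mono {θ : ℝ≥0} {q qb P n m : ℕ} (h : PT θ q qb P n) (hm : m ≤ n) : PT θ q qb P m :=
  fun e he => h e (he.trans hm)

/-- the fourfold product -/
def c4 (c : Fnl Expo) : Fnl Expo := conv (· + ·) c (conv (· + ·) c (conv (· + ·) c c))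

theorem conv_dirac_one (K : Fnl V) : conv (· * ·) K (dirac 1) = K := by
  ext f
  rw [conv_apply]
  show K (fun u => f (u * 1)) = _
  simp only [mul_one]

theorem toV_c4 (θ : ℝ≥0) (c : Fnl Expo) : toV θ (c4 c) = cpow (toV θ c) 4 := by
  unfold c4
  rw [toV_conv, toV_conv, toV_conv]
  show _ = conv (· * ·) _ (conv (· * ·) _ (conv (· * ·) _ (conv (· * ·) _ (dirac 1))))
  rw [conv_dirac_one]

theorem symC_c4 {c : Fnl Expo} (h : SymC c) : SymC (c4 c) := h.conv (h.conv (h.conv h))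

theorem Dom.trans {Λ K M : Fnl V} (h1 : Dom Λ K) (h2 : Dom K M) : Dom Λ M :=
  fun ψ hψ => (h2 ψ hψ).trans (h1 ψ hψ)

/-- one step, four children -/
theorem step4 {θ θ' : ℝ≥0} {q qb P n0 qb' P' L' vb tb kn kd r : ℕ}
    (hkd : 0 < kd) (hk2 : 2 * kn ≤ kd)
    (hP : PT θ q qb P n0) (hP' : PT θ' q qb' P' L')
    {T : Tab} {TE TV : Row} {n sT : ℕ} (hn : n ≤ n0 + 1)
    (hT : chkTab qb' P' L' vb tb kn kd r qb P T 0 n = true) (hTl : T.len = n)
    (hE : chkRowE qb' P' L' vb tb kn kd r qb P TE 0 = true) (hEl : TE.len = n)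
    (hV : chkRowV qb' P' L' vb tb kn kd r q TV = true)
    (hsT : vb * (sT / vb) = sT) (hsT' : sT / vb = nS L')
    {be R p pb L : ℕ} (hbig : (n * n + n + 1) * (2 ^ be * (4 * 2 ^ tb)) < 2 ^ vb)
    (hL : L ≤ n0) (hsc : 4 * (p + q) < be) (hR : 8 * L < R) (hnR : 4 * L + n ≤ R)
    {p' pb' sh : ℕ} (hpsh : p' + sh = 4 * (p + q) + r)
    {ΛX Λ : Fnl V} (hX : IsLaw ΛX) (hΛ : IsLaw Λ) (hdom : Dom Λ (cpow ΛX 4))
    {S S' : ℕ} (hS : Dom ΛX (toV θ (cS p pb L S)))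
    (hchk : chk pb' vb sh (nS L') S'
      (acc4 be R L pb qb P S (2 ^ (4 * (p + q))) q sT T n TE TV) = true) :
    Dom (chL (aR kn kd) (bR kn kd) Λ) (toV θ' (cS p' pb' L' S')) := by
  set c := cS p pb L S with hc
  have hPL := hP.mono hL
  have hsym : SymC (c4 c) := symC_c4 (symC_cS p pb L S)
  have hdom4 : Dom Λ (toV θ (c4 c)) := by
    rw [toV_c4]
    exact hdom.trans (dom_cpow hX hS 4)
  set A := bA be R L pb qb P S with hA
  set Pa := bP be L pb qb P S with hPa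
  set E := bE be L pb qb P S with hE'
  have a1 : Arr θ J2 c (2 ^ (p + q)) L (2 * L) be R A := arr_bA hPL
  have p1 : Arr θ JP c (2 ^ (p + q)) L 0 be 1 Pa := arr_bP hPL
  have e1 : Arr θ JE c (2 ^ (p + q)) L 0 be 1 E := arr_bE hPL
  have u1 : Arr θ JA c (2 ^ (p + q)) L 0 be 1 (Pa + E) :=
    Arr.add_same p1 e1 (fun i j => pl_JP_add_JE θ c L i j)
  have a4 := a1.mul uniq_J2 uniq_J2 comp_J2 (a1.mul uniq_J2 uniq_J2 comp_J2
    (a1.mul uniq_J2 uniq_J2 comp_J2 a1))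
  have e2 := Arr.mulE e1 p1 u1 e1
  have u2 := u1.mul uniq_JA uniq_JA comp_JA u1
  have e3 := Arr.mulE e1 p1 u2 e2
  have u3 := u1.mul uniq_JA uniq_JA comp_JA u2
  have e4 := Arr.mulE e1 p1 u3 e3
  have hz : L + (L + (L + L)) = 4 * L := by ring
  have hsc4 : 2 ^ (p + q) * (2 ^ (p + q) * (2 ^ (p + q) * 2 ^ (p + q))) = 2 ^ (4 * (p + q)) := by
    rw [← pow_add, ← pow_add, ← pow_add]
    congr 1
    ring
  have hA4 : A * (A * (A * A)) = A * A * (A * A) := by ring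
  have hD4 : 2 * L + (2 * L + (2 * L + 2 * L)) = 8 * L := by ring
  rw [hsc4, hz, hA4, hD4] at a4
  rw [hsc4, hz] at e4
  refine read_step hkd hk2 hP hP' hn hT hTl hE hEl hV hsT hsT' hbig
    (Nat.pow_lt_pow_right (by norm_num) hsc) (by positivity) hR hnR hsym hΛ hdom4
    a4 e4 ?_ ?_ hchk
  · rw [← pow_add, ← pow_add, hpsh]
  · unfold acc4
    simp only [force_eq]
    rfl

end NC

end Vale.Agent.P154.DE
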