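import Vale.Agent.P154.DE.Mono
import Vale.Agent.P154.DE.Step4
import Vale.Agent.P154.PoissonLimit

/-!
# Poisson mixtures: thinning and comparison
-/

namespace Vale.Agent.P154.DE

noncomputable section NC

open Finset Vale.Agent.P154.Up
open scoped ENNReal NNReal

/-- Poisson mixture of the powers of a law -/
def pm (d : ℝ) (X : Fnl V) : Fnl V where
  toFun f := ∑' k, pk d k * cpow X k f
  map_add' f g := by
    simp only [map_add, mul_add]
    exact ENNReal.tsum_add
  map_smul' c f := by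
    simp only [map_smul, smul_eq_mul, RingHom.id_apply]
    rw [← ENNReal.tsum_mul_left]
    refine tsum_congr fun k => ?_
    ring

theorem pm_apply (d : ℝ) (X : Fnl V) (f : V → ℝ≥0∞) :
    pm d X f = ∑' k, pk d k * cpow X k f := rfl

theorem poisL_succ_pm {κ d : ℝ} (h0 : 0 ≤ κ) (h : κ ≤ 1 / 2) (hd : 0 ≤ d) (n : ℕ) :
    poisL κ d (n + 1) = pm d (chL (aK κ) (bK κ) (poisL κ d n)) := by
  ext f
  exact poisL_succ h0 h hd n f

theorem dom_pm {X Y : Fnl V} (hX : IsLaw X) (h : Dom X Y) (d : ℝ) : Dom (pm d X) (pm d Y) :=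
  fun ψ hψ => ENNReal.tsum_le_tsum fun k => mul_le_mul_right (dom_cpow hX h k ψ hψ) _

/-- the operator of multiplying by an independent message -/
def opV (X : Fnl V) : Module.End ℝ≥0∞ (V → ℝ≥0∞) where
  toFun f := fun w => X (fun u => f (w * u))
  map_add' f g := by
    funext w
    exact map_add X (fun u => f (w * u)) (fun u => g (w * u))
  map_smul' c f := by
    funext w
    exact map_smul X c (fun u => f (w * u))

theorem opV_apply (X : Fnl V) (f : V → ℝ≥0∞) (w : V) : opV X f w = X (fun u => f (w * u)) := rfl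

theorem opV_pow (X : Fnl V) (k : ℕ) (f : V → ℝ≥0∞) (w : V) :
    ((opV X) ^ k) f w = cpow X k (fun v => f (w * v)) := by
  induction k generalizing w with
  | zero =>
    show f w = f (w * 1)
    rw [mul_one]
  | succ k ih =>
    rw [pow_succ']
    show X (fun u => ((opV X) ^ k) f (w * u)) = X (fun u => cpow X k (fun v => f (w * (u * v))))
    congr 1
    funext u
    rw [ih]
    congr 1
    funext v
    rw [mul_assoc]

theorem opV_mix (X : Fnl V) (t s : ℝ≥0∞) :
    opV (t • X + s • dirac 1) = t • opV X + s • (1 : Module.End ℝ≥0∞ (V → ℝ≥0∞)) := by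
  ext f w
  rw [opV_apply]
  show t • X (fun u => f (w * u)) + s • f (w * 1) = t • X (fun u => f (w * u)) + s • f w
  rw [mul_one]

theorem cpow_thin (X : Fnl V) (t s : ℝ≥0∞) (k : ℕ) (f : V → ℝ≥0∞) :
    cpow (t • X + s • dirac 1) k f =
      ∑ p ∈ antidiagonal k, (k.choose p.1 : ℝ≥0∞) * (t ^ p.1 * s ^ p.2) * cpow X p.1 f := by
  have h1 : cpow (t • X + s • dirac 1) k f = ((opV (t • X + s • dirac 1)) ^ k) f 1 := by
    rw [opV_pow]
    simp only [one_mul]
  rw [h1, opV_mix]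
  have hc : Commute (t • opV X) (s • (1 : Module.End ℝ≥0∞ (V → ℝ≥0∞))) := by
    refine Commute.smul_right ?_ s
    exact Commute.one_right _
  rw [hc.add_pow']
  rw [LinearMap.sum_apply, Finset.sum_apply]
  refine Finset.sum_congr rfl fun p _ => ?_
  rw [smul_pow, smul_pow, one_pow]
  have h2 : cpow X p.1 f = ((opV X) ^ p.1) f 1 := by
    rw [opV_pow]
    simp only [one_mul]
  rw [h2]
  rw [LinearMap.smul_apply, Pi.smul_apply, nsmul_eq_mul]
  simp only [Algebra.mul_smul_comm, mul_one, LinearMap.smul_apply, Pi.smul_apply, smul_eq_mul]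
  ring

theorem tsum_antidiag (G : ℕ × ℕ → ℝ≥0∞) :
    ∑' k, ∑ p ∈ antidiagonal k, G p = ∑' i, ∑' j, G (i, j) := by
  rw [← ENNReal.tsum_prod, ← Finset.HasAntidiagonal.sigmaAntidiagonalEquivProd.tsum_eq, ENNReal.tsum_sigma']
  refine tsum_congr fun k => ?_
  rw [tsum_fintype, ← Finset.sum_coe_sort (antidiagonal k) G]
  rfl

theorem pk_split {d t : ℝ} (hd : 0 ≤ d) (ht0 : 0 ≤ t) (ht1 : t ≤ 1) {k : ℕ} {p : ℕ × ℕ}
    (hp : p ∈ antidiagonal k) :
    pk d k * ((k.choose p.1 : ℝ≥0∞) *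
      (ENNReal.ofReal t ^ p.1 * ENNReal.ofReal (1 - t) ^ p.2)) =
      pk (d * t) p.1 * pk (d * (1 - t)) p.2 := by
  have hs : 0 ≤ 1 - t := by linarith
  rw [HasAntidiagonal.mem_antidiagonal] at hp
  unfold pk
  rw [← ENNReal.ofReal_pow ht0, ← ENNReal.ofReal_pow hs, ← ENNReal.ofReal_natCast,
    ← ENNReal.ofReal_mul (by positivity), ← ENNReal.ofReal_mul (by positivity),
    ← ENNReal.ofReal_mul (by positivity), ← ENNReal.ofReal_mul (by positivity)]
  congr 1
  subst hp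
  have hc : (((p.1 + p.2).choose p.1 : ℕ) : ℝ) =
      ((p.1 + p.2).factorial : ℝ) / (p.1.factorial * p.2.factorial) := by
    rw [Nat.cast_choose ℝ (Nat.le_add_right _ _), Nat.add_sub_cancel_left]
  rw [hc]
  have he : Real.exp (-d) = Real.exp (-(d * t)) * Real.exp (-(d * (1 - t))) := by
    rw [← Real.exp_add]
    congr 1
    ring
  rw [he, mul_pow, mul_pow, pow_add]
  have h1 : ((p.1 + p.2).factorial : ℝ) ≠ 0 := by positivity
  have h2 : (p.1.factorial : ℝ) ≠ 0 := by positivity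
  have h3 : (p.2.factorial : ℝ) ≠ 0 := by positivity
  field_simp

/-- thinning -/
theorem pm_thin {d t : ℝ} (hd : 0 ≤ d) (ht0 : 0 ≤ t) (ht1 : t ≤ 1) (X : Fnl V) :
    pm d (ENNReal.ofReal t • X + ENNReal.ofReal (1 - t) • dirac 1) = pm (d * t) X := by
  ext f
  rw [pm_apply, pm_apply]
  have hs : 0 ≤ 1 - t := by linarith
  have h1 : ∀ k, pk d k *
      cpow (ENNReal.ofReal t • X + ENNReal.ofReal (1 - t) • dirac 1) k f =
      ∑ p ∈ antidiagonal k, pk (d * t) p.1 * pk (d * (1 - t)) p.2 * cpow X p.1 f := by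
    intro k
    rw [cpow_thin, Finset.mul_sum]
    refine Finset.sum_congr rfl fun p hp => ?_
    rw [← mul_assoc, pk_split hd ht0 ht1 hp]
  simp_rw [h1]
  rw [tsum_antidiag (fun p => pk (d * t) p.1 * pk (d * (1 - t)) p.2 * cpow X p.1 f)]
  refine tsum_congr fun i => ?_
  have h2 : ∀ j, pk (d * t) i * pk (d * (1 - t)) j * cpow X i f =
      pk (d * t) i * cpow X i f * pk (d * (1 - t)) j := fun j => by ring
  simp_rw [h2]
  rw [ENNReal.tsum_mul_left, pk_tsum (by positivity), mul_one]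

/-- mixtures with the trivial law -/
theorem IsLaw.mix {X : Fnl V} (hX : IsLaw X) {t : ℝ} (ht0 : 0 ≤ t) (ht1 : t ≤ 1) :
    IsLaw (ENNReal.ofReal t • X + ENNReal.ofReal (1 - t) • dirac 1) := by
  have hts : ENNReal.ofReal t + ENNReal.ofReal (1 - t) = 1 := by
    rw [← ENNReal.ofReal_add ht0 (by linarith)]
    simp
  refine ⟨fun i => ?_, fun g f => ?_, fun ψ hψ => ?_⟩
  · rw [LinearMap.add_apply, LinearMap.smul_apply, LinearMap.smul_apply, hX.coord i]
    show _ • (1 : ℝ≥0∞) + _ • ((1 : ℝ≥0) : ℝ≥0∞) = 1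
    rw [ENNReal.coe_one, smul_eq_mul, smul_eq_mul, mul_one, mul_one, hts]
  · rw [LinearMap.add_apply, LinearMap.smul_apply, LinearMap.smul_apply, hX.perm g f]
    rfl
  · rw [LinearMap.add_apply, LinearMap.smul_apply, LinearMap.smul_apply]
    show ENNReal.ofReal t • X (up ψ) + ENNReal.ofReal (1 - t) • (ψ 1 : ℝ≥0∞) ≤ (ψ 1 : ℝ≥0∞)
    calc _ ≤ ENNReal.ofReal t • (ψ 1 : ℝ≥0∞) + ENNReal.ofReal (1 - t) • (ψ 1 : ℝ≥0∞) := by
          simp only [smul_eq_mul]
          gcongr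
          exact hX.jensen ψ hψ
      _ = _ := by rw [← add_smul, hts, one_smul]

/-- keeping the message with higher probability gives more information -/
theorem dom_mix {X : Fnl V} (hX : IsLaw X) {s t : ℝ} (hs0 : 0 ≤ s) (hst : s ≤ t) (ht1 : t ≤ 1) :
    Dom (ENNReal.ofReal s • X + ENNReal.ofReal (1 - s) • dirac 1)
      (ENNReal.ofReal t • X + ENNReal.ofReal (1 - t) • dirac 1) := by
  intro ψ hψ
  rw [LinearMap.add_apply, LinearMap.smul_apply, LinearMap.smul_apply,
    LinearMap.add_apply, LinearMap.smul_apply, LinearMap.smul_apply]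
  simp only [smul_eq_mul]
  show ENNReal.ofReal t * X (up ψ) + ENNReal.ofReal (1 - t) * (ψ 1 : ℝ≥0∞) ≤
    ENNReal.ofReal s * X (up ψ) + ENNReal.ofReal (1 - s) * (ψ 1 : ℝ≥0∞)
  have e1 : ENNReal.ofReal t = ENNReal.ofReal s + ENNReal.ofReal (t - s) := by
    rw [← ENNReal.ofReal_add hs0 (by linarith)]
    congr 1
    ring
  have e2 : ENNReal.ofReal (1 - s) = ENNReal.ofReal (t - s) + ENNReal.ofReal (1 - t) := by
    rw [← ENNReal.ofReal_add (by linarith) (by linarith)]
    congr 1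
    ring
  rw [e1, e2, add_mul, add_mul, add_assoc]
  gcongr
  exact hX.jensen ψ hψ

/-- the vertex law on the Poisson tree dominates a Poisson mixture -/
theorem pois_dom {kn kd : ℕ} (hkd : 0 < kd) (hk0 : 0 < kn) (hk2 : 2 * kn ≤ kd) {κ d D : ℝ}
    (h0 : 0 ≤ κ) (h : κ * kd ≤ kn) (hd : 0 ≤ d) (hD : 0 < D) (hdD : d * κ * kd ≤ D * kn) (n : ℕ) :
    Dom (poisL κ d (n + 1)) (pm D (chL (aR kn kd) (bR kn kd) (poisL κ d n))) := by
  have hκ := kappa_half hkd hk2 h
  have hknR : (0 : ℝ) < kn := by exact_mod_cast hk0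
  have hkdR : (0 : ℝ) < kd := by exact_mod_cast hkd
  obtain ⟨t, htv, ht1, ha, hb⟩ := chan_ratio hkd hk0 hk2 h0 h
  have hΛ := isLaw_poisL h0 hκ hd n
  have hXl := hΛ.chL (aR_add_bR (kn := kn) (kd := kd) hkd hk2)
  have hYl := hΛ.chL (aK_add_bK h0 hκ)
  rw [poisL_succ_pm h0 hκ hd]
  have hYX : Dom (chL (aK κ) (bK κ) (poisL κ d n)) (chL (aR kn kd) (bR kn kd) (poisL κ d n)) :=
    dom_chL ht1 (aR_add_bR hkd hk2) ha hb (aK_add_bK h0 hκ) hΛ
  rcases le_or_gt d D with hdD' | hdD'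
  · -- fewer children
    have hs0 : 0 ≤ d / D := by positivity
    have hs1 : d / D ≤ 1 := by rwa [div_le_one hD]
    have e : d = D * (d / D) := by field_simp
    have h1 : pm d (chL (aR kn kd) (bR kn kd) (poisL κ d n)) =
        pm D (ENNReal.ofReal (d / D) • (chL (aR kn kd) (bR kn kd) (poisL κ d n)) +
          ENNReal.ofReal (1 - d / D) • dirac 1) := by
      rw [pm_thin hD.le hs0 hs1, ← e]
    refine (dom_pm hYl hYX d).trans ?_
    rw [h1]
    refine dom_pm (hXl.mix hs0 hs1) ?_ D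
    have h2 := dom_mix hXl hs0 hs1 le_rfl
    have e1 : ENNReal.ofReal (1 : ℝ) • (chL (aR kn kd) (bR kn kd) (poisL κ d n)) +
        ENNReal.ofReal (1 - 1 : ℝ) • dirac 1 = chL (aR kn kd) (bR kn kd) (poisL κ d n) := by
      simp
    rw [e1] at h2
    exact h2
  · -- more children, weaker messages
    have hd0 : 0 < d := hD.trans hdD'
    have ht'0 : 0 ≤ D / d := by positivity
    have ht'1 : D / d ≤ 1 := by
      rw [div_le_one hd0]
      exact hdD'.le
    have h1 : pm D (chL (aR kn kd) (bR kn kd) (poisL κ d n)) =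
        pm d (ENNReal.ofReal (D / d) • (chL (aR kn kd) (bR kn kd) (poisL κ d n)) +
          ENNReal.ofReal (1 - D / d) • dirac 1) := by
      rw [pm_thin hd ht'0 ht'1]
      congr 1
      field_simp
    rw [h1]
    refine dom_pm hYl ?_ d
    have ht0 : (0 : ℝ) ≤ t := t.2
    have htt : (t : ℝ) ≤ D / d := by
      rw [htv, div_le_div_iff₀ hknR hd0]
      calc κ * kd * d = d * κ * kd := by ring
        _ ≤ D * kn := hdD
    have h2 := dom_chL_erase ha hb hΛ
    have e1 : ENNReal.ofReal (t : ℝ) = (t : ℝ≥0∞) := ENNReal.ofReal_coe_nnreal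
    have e2 : ENNReal.ofReal (1 - (t : ℝ)) = ((1 - t : ℝ≥0) : ℝ≥0∞) := by
      rw [← ENNReal.ofReal_coe_nnreal, NNReal.coe_sub ht1, NNReal.coe_one]
    have h3 := dom_mix hXl ht0 htt ht'1
    rw [e1, e2] at h3
    exact h2.trans h3

/-- the mean of `1 - M` on the Poisson tree -/
theorem poisL_psiM {κ d : ℝ} (h0 : 0 ≤ κ) (h : κ ≤ 1 / 2) (hd : 0 ≤ d) (n : ℕ) :
    poisL κ d n (up psiM) =
      ENNReal.ofReal (1 - ∑' T : GTree n, poissonWeight d T * Mtree 3 (-κ) T) := by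
  have hM0 : ∀ T : GTree n, 0 ≤ Mtree 3 (-κ) T := fun T =>
    Mtree_nonneg (q := 3) (by norm_num) (lam := -κ) (by norm_num; linarith) (by linarith) T
  have hM1 : ∀ T : GTree n, Mtree 3 (-κ) T ≤ 1 := fun T =>
    Mtree_le_one (q := 3) (by norm_num) (lam := -κ) (by norm_num; linarith) (by linarith) T
  have h1 := tsum_weight_one_sub hd n (g := fun T => Mtree 3 (-κ) T) 1 hM0 hM1
  rw [one_mul] at h1
  rw [← h1, ofReal_tsum_weight hd n _ (fun T => by linarith [hM1 T]) (fun T => by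
    linarith [hM0 T])]
  rw [poisL_apply]
  unfold treeE
  refine tsum_congr fun T => ?_
  rw [treeL_psiM h0 h]
  simp only [one_mul]

end NC

end Vale.Agent.P154.DE
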