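import Vale.Agent.P154.DE.StepP
import Vale.Agent.P154.DE.Mono2
import Vale.Agent.P154.DE.Info

/-!
# Poisson trees: set-up of the density evolution on a box of parameters
-/

namespace Vale.Agent.P154.DE

/-- check of the weights -/
def chkW (Dn Dd en ed sc : ℕ) : ℕ → List ℕ → Bool
  | _, [] => true
  | k, q :: l => Nat.ble (q * ed * Dd ^ k * k.factorial) (sc * en * Dn ^ k) &&
      chkW Dn Dd en ed sc (k + 1) l

noncomputable section NC

open Finset Vale.Agent.P154.Up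
open scoped ENNReal NNReal

theorem wts_aux {D : ℝ} {Dn Dd en ed sc : ℕ} (hsc : 0 < sc) (hDd : 0 < Dd) (hed : 0 < ed)
    (hD : D = (Dn : ℝ) / Dd) (he : (en : ℝ) / ed ≤ Real.exp (-D)) {k q : ℕ}
    (h : q * ed * Dd ^ k * k.factorial ≤ sc * en * Dn ^ k) :
    (q : ℝ≥0∞) / sc ≤ pk D k := by
  have hscR : (0 : ℝ) < sc := by exact_mod_cast hsc
  have hDdR : (0 : ℝ) < Dd := by exact_mod_cast hDd
  have hedR : (0 : ℝ) < ed := by exact_mod_cast hed
  have hDn : (0 : ℝ) ≤ Dn := Nat.cast_nonneg _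
  have hfac : (0 : ℝ) < (k.factorial : ℝ) := by positivity
  have hR : (q : ℝ) * ed * Dd ^ k * k.factorial ≤ sc * en * Dn ^ k := by exact_mod_cast h
  have e1 : (q : ℝ≥0∞) / sc = ENNReal.ofReal ((q : ℝ) / sc) := by
    rw [ENNReal.ofReal_div_of_pos hscR, ENNReal.ofReal_natCast, ENNReal.ofReal_natCast]
  rw [e1]
  unfold pk
  refine ENNReal.ofReal_le_ofReal ?_
  have h2 : (q : ℝ) / sc ≤ (en : ℝ) / ed * D ^ k / k.factorial := by
    rw [hD, div_pow, div_le_iff₀ hscR]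
    have e3 : (en : ℝ) / ed * ((Dn : ℝ) ^ k / (Dd : ℝ) ^ k) / k.factorial * sc =
        (sc * en * Dn ^ k) / (ed * Dd ^ k * k.factorial) := by
      field_simp
    rw [e3, le_div_iff₀ (by positivity)]
    calc (q : ℝ) * (ed * Dd ^ k * k.factorial) = q * ed * Dd ^ k * k.factorial := by ring
      _ ≤ _ := hR
  refine h2.trans ?_
  have hDk : 0 ≤ D ^ k := by
    rw [hD]
    positivity
  gcongr

theorem wts_ok' {D : ℝ} {Dn Dd en ed sc : ℕ} (hsc : 0 < sc) (hDd : 0 < Dd) (hed : 0 < ed)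
    (hD : D = (Dn : ℝ) / Dd) (he : (en : ℝ) / ed ≤ Real.exp (-D)) :
    ∀ (l : List ℕ) (k0 : ℕ), chkW Dn Dd en ed sc k0 l = true →
      ∀ k < l.length, ((l.getD k 0 : ℕ) : ℝ≥0∞) / sc ≤ pk D (k0 + k)
  | [], _, _ => fun k hk => absurd hk (by simp)
  | q :: l, k0, h => by
    simp only [chkW, Bool.and_eq_true, Nat.ble_eq] at h
    intro k hk
    cases k with
    | zero => exact wts_aux hsc hDd hed hD he h.1
    | succ k =>
      rw [List.getD_cons_succ]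
      have := wts_ok' hsc hDd hed hD he l (k0 + 1) h.2 k (by simpa using hk)
      have e : k0 + (k + 1) = k0 + 1 + k := by ring
      rw [e]
      exact this

theorem wts_ok {D : ℝ} {Dn Dd en ed sc : ℕ} (hsc : 0 < sc) (hDd : 0 < Dd) (hed : 0 < ed)
    (hD : D = (Dn : ℝ) / Dd) (he : (en : ℝ) / ed ≤ Real.exp (-D)) {qs : List ℕ}
    (h : chkW Dn Dd en ed sc 0 qs = true) :
    ∀ k < qs.length, ((qs.getD k 0 : ℕ) : ℝ≥0∞) / sc ≤ pk D k := by
  intro k hk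
  have := wts_ok' hsc hDd hed hD he qs 0 h k hk
  rwa [zero_add] at this

/-- lower bound for `exp (-D)` -/
theorem exp_low {D x u e : ℝ} (hx : D = 8 * x) (hx0 : 0 ≤ x) (hx1 : x ≤ 1)
    (hu : (∑ m ∈ range 12, x ^ m / (m.factorial : ℝ)) +
      x ^ 12 * (12 + 1) / ((Nat.factorial 12 : ℕ) * 12) ≤ u)
    (he : e * u ^ 8 ≤ 1) : e ≤ Real.exp (-D) := by
  have h1 := Real.exp_bound' hx0 hx1 (n := 12) (by norm_num)
  have h2 : Real.exp x ≤ u := by
    refine h1.trans ?_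
    push_cast at hu ⊢
    exact hu
  have h3 : Real.exp D ≤ u ^ 8 := by
    rw [hx]
    have : Real.exp (8 * x) = Real.exp x ^ 8 := by
      rw [← Real.exp_nat_mul]
      norm_num
    rw [this]
    exact pow_le_pow_left₀ (Real.exp_nonneg _) h2 8
  rw [Real.exp_neg, ← one_div, le_div_iff₀ (Real.exp_pos _)]
  rcases le_or_gt e 0 with h4 | h4
  · nlinarith [Real.exp_pos D]
  · nlinarith

/-- the state `S` is dominated by the messages at depth `n`, for all parameters in a box -/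
def PoisOK (kn kd : ℕ) (D : ℝ) (θ : ℝ≥0) (L n S : ℕ) : Prop :=
  ∀ κ d : ℝ, 0 ≤ κ → κ * kd ≤ kn → 0 ≤ d → d * κ * kd ≤ D * kn →
    Dom (chL (aR kn kd) (bR kn kd) (poisL κ d n)) (toV θ (cS 30 32 L S))

theorem poisOK_zero (kn kd : ℕ) (D : ℝ) (θ : ℝ≥0) (L : ℕ) : PoisOK kn kd D θ L 0 0 := by
  intro κ d _ _ _ _ ψ hψ
  have : cS 30 32 L 0 = 0 := by
    ext f
    rw [cS_apply]
    simp [dg]
  rw [this, toV, push_apply]
  simp

theorem big_aux {W : ℕ} (hW : W ≤ 119) (X Y : ℕ) (h : (120 * 120 + 120 + 1) * X < Y) :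
    ((W + 1) * (W + 1) + (W + 1) + 1) * X < Y := by
  have h1 : (W + 1) * (W + 1) ≤ 120 * 120 :=
    Nat.mul_le_mul (by omega) (by omega)
  exact lt_of_le_of_lt (Nat.mul_le_mul_right X (by omega)) h

theorem big_num : (120 * 120 + 120 + 1) * (2 ^ 108 * (4 * 2 ^ 36)) < 2 ^ 160 := by
  decide +kernel

theorem pois_step {kn kd : ℕ} (hkd : 0 < kd) (hk0 : 0 < kn) (hk2 : 2 * kn ≤ kd) {D : ℝ}
    (hD : 0 < D) {θ θ' : ℝ≥0} {P P' L W L' R : ℕ}
    (hP : PT θ 30 32 P W) (hP' : PT θ' 30 32 P' L') {T : Tab} {TE TV : Row}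
    (hT : chkTab 32 P' L' 160 36 kn kd 30 32 P T 0 (W + 1) = true) (hTl : T.len = W + 1)
    (hE : chkRowE 32 P' L' 160 36 kn kd 30 32 P TE 0 = true) (hEl : TE.len = W + 1)
    (hV : chkRowV 32 P' L' 160 36 kn kd 30 30 TV = true)
    (hW : W ≤ 119) (hLW : L ≤ W) (hR : 2 * L + 2 * W < R) (hR' : W + (W + 1) ≤ R)
    {qs : List ℕ} (hqs : qs.sum ≤ 2 ^ 44)
    (hq : ∀ k < qs.length, ((qs.getD k 0 : ℕ) : ℝ≥0∞) / ((2 ^ 44 : ℕ) : ℝ≥0∞) ≤ pk D k)
    {n S S' : ℕ} (hS : PoisOK kn kd D θ L n S)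
    (hchk : chk 32 160 44 (nS L') S' (accP 108 R L W 32 32 P S 60 (2 ^ 44) 30 (160 * nS L')
      qs T (W + 1) TE TV) = true) : PoisOK kn kd D θ' L' (n + 1) S' := by
  intro κ d h0 h hd hdD
  have hκ := kappa_half hkd hk2 h
  have hbig := big_aux hW _ _ big_num
  exact stepP (q := 30) (qb' := 32) (p := 30) (p' := 30) (r := 30) (sh := 44) (n0 := W)
    (vb := 160) (tb := 36) (n := W + 1) (sT := 160 * nS L') (be := 108) (pb := 32) (pb' := 32)
    (s := 60) (sc := 2 ^ 44)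
    hkd hk2 hP hP' le_rfl hT hTl hE hEl hV
    (by rw [Nat.mul_div_cancel_left _ (by norm_num)])
    (by rw [Nat.mul_div_cancel_left _ (by norm_num)]) hbig hLW rfl (by norm_num)
    (by norm_num) (by norm_num) hR hR' (by norm_num) hqs hq
    ((isLaw_poisL h0 hκ hd n).chL (aR_add_bR hkd hk2))
    (isLaw_poisL h0 hκ hd (n + 1))
    (pois_dom hkd hk0 hk2 h0 h hd hD hdD n) (hS κ d h0 h hd hdD) hchk

/-- the bound on the information from a state -/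
theorem pois_M {kn kd : ℕ} (hkd : 0 < kd) (hk0 : 0 < kn) (hk2 : 2 * kn ≤ kd) {D : ℝ}
    {θ : ℝ≥0} {P L W : ℕ} (hP : PT θ 30 32 P W) (hL : L ≤ W) {n S : ℕ}
    (hS : PoisOK kn kd D θ L n S) {x : ℕ}
    (hx : Nat.ble x (infoS 32 L 32 P S) = true) {κ d : ℝ} (h0 : 0 ≤ κ) (h : κ * kd ≤ kn)
    (hd : 0 ≤ d) (hdD : d * κ * kd ≤ D * kn) :
    ∑' T : GTree n, poissonWeight d T * Mtree 3 (-κ) T ≤
      (1 - (x : ℝ) / 2 ^ 60) * ((kd : ℝ) / kn) ^ 2 := by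
  have hκ := kappa_half hkd hk2 h
  have h1 := M_bound hkd hk0 hk2 (p := 30) hP hL (isLaw_poisL h0 hκ hd n)
    (hS κ d h0 h hd hdD) (tsum_M_le_one h0 hκ hd n) (poisL_psiM h0 hκ hd n)
  have h2 : (x : ℝ) ≤ (infoS 32 L 32 P S : ℝ) := by
    rw [Nat.ble_eq] at hx
    exact_mod_cast hx
  refine h1.trans ?_
  have h3 : (x : ℝ) / 2 ^ 60 ≤ (infoS 32 L 32 P S : ℝ) / 2 ^ (30 + 30) := by
    gcongr
  have h4 : 0 ≤ ((kd : ℝ) / kn) ^ 2 := by positivity
  nlinarith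

end NC

end Vale.Agent.P154.DE
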