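import Vale.Agent.P154.DE.EngK
import Vale.Agent.P154.DE.EngL
import Vale.Agent.P154.DE.Pois

/-!
# Poisson trees: a step with the fast engine
-/

namespace Vale.Agent.P154.DE

noncomputable section NC

open Finset Vale.Agent.P154.Up
open scoped ENNReal NNReal

/-- a ratio -/
def thr (tn td : ℕ) : ℝ≥0 := (tn : ℝ≥0) / (td : ℝ≥0)

/-- correctness of the weights -/
structure WtOK (qs : List ℕ) (D : ℝ) : Prop where
  le : ∀ k < qs.length, ((qs.getD k 0 : ℕ) : ℝ≥0∞) / ((2 ^ 40 : ℕ) : ℝ≥0∞) ≤ pk D k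
  sum : qs.sum ≤ 2 ^ 40

/-- correctness of the splitting table -/
structure TbOK (kn kd P W P' L' : ℕ) (T : TabS) (TE TV : RowS) : Prop where
  t1 : chkTab 32 P' L' 96 36 kn kd 30 32 P (T.toTab 96) 0 (W + 1) = true
  t2 : (T.toTab 96).len = W + 1
  t3 : chkRowE 32 P' L' 96 36 kn kd 30 32 P (TE.toRow 96) 0 = true
  t4 : (TE.toRow 96).len = W + 1
  t5 : chkRowV 32 P' L' 96 36 kn kd 30 30 (TV.toRow 96) = true

theorem TabS.toTab_len (vb : ℕ) : (T : TabS) → (T.toTab vb).len = T.cnt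
  | .nil => rfl
  | .cons r t => by
    show (t.toTab vb).len + 1 = t.cnt + 1
    rw [TabS.toTab_len vb t]

theorem big_aux2 {W : ℕ} (hW : W ≤ 119) (X Y : ℕ) (h : (120 * 120 + 120 + 3) * X < Y) :
    ((W + 1) * (W + 1) + (W + 1) + 3) * X < Y := by
  have h1 : (W + 1) * (W + 1) ≤ 120 * 120 :=
    Nat.mul_le_mul (by omega) (by omega)
  exact lt_of_le_of_lt (Nat.mul_le_mul_right X (by omega)) h

theorem big_num2 : (120 * 120 + 120 + 3) * (2 ^ 40 * (4 * 2 ^ 36)) < 2 ^ 96 := by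
  decide +kernel

theorem pois_step2 {kn kd : ℕ} (hkd : 0 < kd) (hk0 : 0 < kn) (hk2 : 2 * kn ≤ kd) {D : ℝ}
    (hD : 0 < D) {θ θ' : ℝ≥0} {P P' L W L' R : ℕ}
    (hP : PT θ 30 32 P W) (hP' : PT θ' 30 32 P' L') {T : TabS} {TE TV : RowS}
    (hT : TbOK kn kd P W P' L' T TE TV)
    (hW : W ≤ 119) (hLW : L ≤ W) (hR : 2 * L + 2 * W < R) (hR' : W + (W + 1) ≤ R)
    {qs : List ℕ} (hq : WtOK qs D)
    {n S S' : ℕ} (hS : PoisOK kn kd D θ L n S)
    (hchk : stN R L W P S L' S' qs T TE TV = true) : PoisOK kn kd D θ' L' (n + 1) S' := by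
  intro κ d h0 h hd hdD
  have hκ := kappa_half hkd hk2 h
  have hbig := big_aux2 hW _ _ big_num2
  exact stepP2 (q := 30) (qb' := 32) (p := 30) (p' := 30) (r := 30) (sh := 40) (n0 := W)
    (vb := 96) (tb := 36) (n := W + 1) (be := 84) (pb := 32) (pb' := 32)
    (e := 20) (s := 40) (sc := 2 ^ 40)
    hkd hk2 hP hP' le_rfl hT.t1 hT.t2 hT.t3 hT.t4 hT.t5 (by norm_num) hbig hLW rfl (by norm_num)
    (by norm_num) (by norm_num) hR hR' (by norm_num) hq.sum hq.le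
    ((isLaw_poisL h0 hκ hd n).chL (aR_add_bR hkd hk2))
    (isLaw_poisL h0 hκ hd (n + 1))
    (pois_dom hkd hk0 hk2 h0 h hd hD hdD n) (hS κ d h0 h hd hdD) (stN_spec hchk)

end NC

end Vale.Agent.P154.DE
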