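import Vale.Agent.P154.DE.BoxP
import Vale.Agent.P154.DE.BoxQ
import Vale.Agent.P154.DE.BoxS
import Vale.Agent.P154.DE.BoxT

/-!
# Poisson trees, channel parameter in `[12/25, 1/2]`
-/

namespace Vale.Agent.P154.DE

open Vale.Agent.P154.Up

theorem pois_all2 {κ d : ℝ} (h1 : 12 / 25 ≤ κ) (h2 : κ ≤ 1 / 2) (hd : 0 ≤ d)
    (h : d * κ ^ 2 ≤ 1) :
    ∃ n, ∑' T : GTree n, poissonWeight d T * Mtree 3 (-κ) T ≤ 7 / 100 := by
  rcases le_total (99 / 200) κ with h3 | h3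
  · exact ⟨_, boxP h3 h2 hd h⟩
  rcases le_total (49 / 100) κ with h4 | h4
  · exact ⟨_, boxQ h4 h3 hd h⟩
  rcases le_total (97 / 200) κ with h5 | h5
  · exact ⟨_, boxS h5 h4 hd h⟩
  · exact ⟨_, boxT h1 h5 hd h⟩

end Vale.Agent.P154.DE
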