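import Vale.Agent.P154.DE.PoisF
import Vale.Agent.P154.DE.Mono2
import Vale.Agent.P154.LocCrit

/-!
# Poisson trees, channel parameter in `[12/25, 1/2]`: the information vanishes
-/

namespace Vale.Agent.P154.DE

open Filter Topology Vale.Agent.P154.Up

theorem pois_tend {κ d : ℝ} (h1 : 12 / 25 ≤ κ) (h2 : κ ≤ 1 / 2) (hd : 0 < d)
    (h : d * κ ^ 2 ≤ 1) :
    Tendsto (fun n => ∑' T : GTree n, poissonWeight d T * Mtree 3 (-κ) T) atTop (𝓝 0) := by
  have h0 : 0 < κ := by linarith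
  have hκ2 : 0 < κ ^ 2 := by positivity
  have hc : 1 / κ ^ 2 * κ ^ 2 = 1 := by field_simp
  obtain ⟨n, hn⟩ := pois_all2 h1 h2 (d := 1 / κ ^ 2) (by positivity) hc.le
  have hdd : d ≤ 1 / κ ^ 2 := by rwa [le_div_iff₀ hκ2]
  have ht := Loc.loc_poisson_crit (d := 1 / κ ^ 2) (by positivity) h0 h2 hc hn
  refine squeeze_zero (fun n => ?_) (fun n => Mtree_pois_mono h0.le le_rfl h2 hd.le hdd n) ht
  exact tsum_nonneg fun T => mul_nonneg (poissonWeight_nonneg hd.le T)
    (Mtree_nonneg (by norm_num) (by push_cast; rw [div_le_iff₀ (by norm_num)]; linarith)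
      (by linarith) T)

end Vale.Agent.P154.DE
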