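import Vale.Agent.P154.DE.Build

/-!
# From the arrays of the vertex law to the new state
-/

namespace Vale.Agent.P154.DE

noncomputable section NC

open Finset Polynomial
open scoped ENNReal NNReal

/-! ### the table loop -/

/-- generating polynomial of the table loop -/
def tabP (be vb sT R z A : ℕ) : Tab → ℕ → ℕ → ℕ[X]
  | .nil, _, _ => 0
  | .cons rw t, a, n =>
    rowP be vb sT rw ((A >>> (be * (R * (z + a) + (z + a)))) % 2 ^ (be * n)) +
      tabP be vb sT R z A t (a + 1) (n - 1)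

/-- number of rows -/
def Tab.len : Tab → ℕ
  | .nil => 0
  | .cons _ t => t.len + 1

/-- semantic correctness of the table -/
def TabOK (θ : ℝ≥0) (L vb tb : ℕ) (ρ : ℕ → ℕ → V) (υ : ℕ → ℕ → ℝ≥0) : Tab → ℕ → ℕ → Prop
  | .nil, _, _ => True
  | .cons rw t, a, n =>
    (RowOK θ L vb tb (ρ a) (υ a) rw a ∧ rw.len = n) ∧ TabOK θ L vb tb ρ υ t (a + 1) (n - 1)

theorem tabOK_of_chk {θ θ0 : ℝ≥0} {q qb P L vb tb kn kd r qb0 P0 n0 : ℕ} (hkd : 0 < kd)
    (hP : PT θ q qb P L) (hP0 : PT θ0 q qb0 P0 n0) :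
    (T : Tab) → (a n : ℕ) → T.len ≤ n → a + n ≤ n0 + 1 →
    chkTab qb P L vb tb kn kd r qb0 P0 T a n = true →
    TabOK θ L vb tb (rhoV θ0 kn kd r) (upsV θ0 q) T a n
  | .nil, _, _, _, _, _ => trivial
  | .cons rw t, a, n, hl, hn, h => by
      rw [Tab.len] at hl
      rw [chkTab] at h
      simp only [Bool.and_eq_true, beq_iff_eq] at h
      obtain ⟨⟨h1, h2⟩, h3⟩ := h
      exact ⟨⟨rowOK_of_chk hkd hP hP0 (by omega) rw a (by omega) h1, h2⟩,
        tabOK_of_chk hkd hP hP0 t (a + 1) (n - 1) (by omega) (by omega) h3⟩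

theorem tabLoop_eq {θ : ℝ≥0} {L vb tb sT be R z A : ℕ} {ρ : ℕ → ℕ → V} {υ : ℕ → ℕ → ℝ≥0}
    (hT : vb * (sT / vb) = sT) : (T : Tab) → (a n : ℕ) → TabOK θ L vb tb ρ υ T a n →
    (p : ℕ[X]) →
    tabLoop be R z sT A T a n (ev1 vb p) = ev1 vb (p + tabP be vb sT R z A T a n)
  | .nil, _, _, _, p => by simp [tabLoop, tabP]
  | .cons rw t, a, n, h, p => by
      rw [tabLoop, force_eq, tabP, rowLoop_eq hT rw a h.1.1, tabLoop_eq hT t (a + 1) (n - 1) h.2,
        add_assoc]

theorem tabP_coeff_le {θ : ℝ≥0} {L vb tb sT be R z A m : ℕ} {ρ : ℕ → ℕ → V}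
    {υ : ℕ → ℕ → ℝ≥0} :
    (T : Tab) → (a n : ℕ) → n ≤ m → TabOK θ L vb tb ρ υ T a n → (j : ℕ) →
    (tabP be vb sT R z A T a n).coeff j ≤ T.len * m * (2 ^ be * (4 * 2 ^ tb))
  | .nil, _, _, _, _, j => by simp [tabP]
  | .cons rw t, a, n, hn, h, j => by
      rw [tabP, coeff_add, Tab.len]
      have h1 := rowP_coeff_le (sT := sT) (be := be) rw a h.1.1
        ((A >>> (be * (R * (z + a) + (z + a)))) % 2 ^ (be * n)) j
      have h2 := tabP_coeff_le (sT := sT) (be := be) (R := R) (z := z) (A := A) (m := m) t (a + 1)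
        (n - 1) (by omega) h.2 j
      rw [h.1.2] at h1
      calc _ ≤ n * (2 ^ be * (4 * 2 ^ tb)) + t.len * m * (2 ^ be * (4 * 2 ^ tb)) :=
            add_le_add h1 h2
        _ ≤ m * (2 ^ be * (4 * 2 ^ tb)) + t.len * m * (2 ^ be * (4 * 2 ^ tb)) :=
            Nat.add_le_add_right (Nat.mul_le_mul_right _ hn) _
        _ = _ := by ring

/-- the digit of slot `(z + a, z + b)` -/
def dig2 (be R z A a b : ℕ) : ℕ := A / 2 ^ (be * (R * (z + a) + (z + b))) % 2 ^ be

theorem dig2_row {be R z A a n t : ℕ} (ht : t < n) :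
    (A >>> (be * (R * (z + a) + (z + a)))) % 2 ^ (be * n) / 2 ^ (be * t) % 2 ^ be =
      dig2 be R z A a (a + t) := by
  unfold dig2
  rw [Nat.shiftRight_eq_div_pow, pow_mul 2 be n, pow_mul 2 be t, div_mod_aux (by positivity) ht,
    Nat.div_div_eq_div_mul, ← pow_mul, ← pow_add]
  congr 3
  ring

theorem tabP_Sf_le {θ : ℝ≥0} {L vb tb sT be R z A : ℕ} {ρ : ℕ → ℕ → V} {υ : ℕ → ℕ → ℝ≥0}
    (hT : sT / vb = nS L) {ψ : V → ℝ≥0} (hψ : Psi ψ) (hs : SymF ψ) :
    (T : Tab) → (a n : ℕ) → TabOK θ L vb tb ρ υ T a n →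
    6 * Sf θ L ψ (tabP be vb sT R z A T a n) ≤
      ∑ i ∈ range T.len, ∑ t ∈ range (n - i),
        (dig2 be R z A (a + i) (a + i + t) : ℝ≥0) * ψ (ρ (a + i) (a + i + t))
  | .nil, _, _, _ => by simp [tabP, Sf_zero, Tab.len]
  | .cons rw t, a, n, h => by
      rw [tabP, Sf_add, Tab.len, Finset.sum_range_succ', mul_add, add_comm]
      have h1 := rowP_Sf_le (sT := sT) (be := be) hT hψ hs rw a h.1.1
        ((A >>> (be * (R * (z + a) + (z + a)))) % 2 ^ (be * n))
      have h2 := tabP_Sf_le (sT := sT) (be := be) (R := R) (z := z) (A := A) hT hψ hs t (a + 1)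
        (n - 1) h.2
      refine add_le_add ?_ ?_
      · refine h2.trans (le_of_eq ?_)
        refine Finset.sum_congr rfl fun i _ => ?_
        have e1 : n - 1 - i = n - (i + 1) := by omega
        have e2 : a + 1 + i = a + (i + 1) := by omega
        rw [e1, e2]
      · rw [h.1.2] at h1
        refine h1.trans (le_of_eq ?_)
        simp only [add_zero, tsub_zero]
        refine Finset.sum_congr rfl fun t ht => ?_
        rw [dig2_row (Finset.mem_range.mp ht)]

theorem tabP_mass_le {θ : ℝ≥0} {L vb tb sT be R z A : ℕ} {ρ : ℕ → ℕ → V}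
    {υ : ℕ → ℕ → ℝ≥0} :
    (T : Tab) → (a n : ℕ) → TabOK θ L vb tb ρ υ T a n →
    ∑ i ∈ range T.len, ∑ t ∈ range (n - i),
      (dig2 be R z A (a + i) (a + i + t) : ℝ≥0) * υ (a + i) (a + i + t) ≤
      ((tabP be vb sT R z A T a n).coeff (sT / vb) : ℝ≥0)
  | .nil, _, _, _ => by simp [tabP, Tab.len]
  | .cons rw t, a, n, h => by
      rw [tabP, coeff_add, Tab.len, Finset.sum_range_succ', Nat.cast_add, add_comm]
      have h1 := rowP_mass_le (sT := sT) (be := be) rw a h.1.1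
        ((A >>> (be * (R * (z + a) + (z + a)))) % 2 ^ (be * n))
      have h2 := tabP_mass_le (sT := sT) (be := be) (R := R) (z := z) (A := A) t (a + 1)
        (n - 1) h.2
      refine add_le_add ?_ ?_
      · rw [h.1.2] at h1
        refine le_trans (le_of_eq ?_) h1
        simp only [add_zero, tsub_zero]
        refine Finset.sum_congr rfl fun t ht => ?_
        rw [dig2_row (Finset.mem_range.mp ht)]
      · refine le_trans (le_of_eq ?_) h2
        refine Finset.sum_congr rfl fun i _ => ?_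
        have e1 : n - 1 - i = n - (i + 1) := by omega
        have e2 : a + 1 + i = a + (i + 1) := by omega
        rw [e1, e2]

/-! ### comparison with the new state -/

theorem chk_spec {pb vb sh : ℕ} : (n S V : ℕ) → chk pb vb sh n S V = true → ∀ k < n,
    dg pb S k * 2 ^ sh ≤ dg vb V k
  | 0, _, _, _, k, hk => absurd hk (Nat.not_lt_zero k)
  | n + 1, S, V, h, k, hk => by
      rw [chk] at h
      simp only [Bool.and_eq_true, Nat.ble_eq] at h
      cases k with
      | zero =>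
        rw [dg_eq, dg_eq, Nat.mul_zero, Nat.mul_zero, pow_zero, Nat.div_one, Nat.div_one,
          ← Nat.shiftLeft_eq]
        exact h.1
      | succ k =>
        have := chk_spec n (S >>> pb) (V >>> vb) h.2 k (by omega)
        rw [dg_eq, dg_eq] at this ⊢
        rw [Nat.shiftRight_eq_div_pow, Nat.shiftRight_eq_div_pow, Nat.div_div_eq_div_mul,
          Nat.div_div_eq_div_mul, ← pow_add, ← pow_add] at this
        have e1 : pb + pb * k = pb * (k + 1) := by ring
        have e2 : vb + vb * k = vb * (k + 1) := by ring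
        rwa [e1, e2] at this

/-- the region of the sector that is read -/
def TT (n : ℕ) : Finset (ℕ × ℕ) := (range n ×ˢ range n).filter fun s => s.1 ≤ s.2

theorem sum_TT {M : Type*} [AddCommMonoid M] (n : ℕ) (F : ℕ → ℕ → M) :
    ∑ s ∈ TT n, F s.1 s.2 = ∑ a ∈ range n, ∑ t ∈ range (n - a), F a (a + t) := by
  unfold TT
  rw [Finset.sum_filter, Finset.sum_product]
  refine Finset.sum_congr rfl fun a _ => ?_
  rw [← Finset.sum_filter, ← Finset.sum_Ico_eq_sum_range]
  refine Finset.sum_congr ?_ fun _ _ => rfl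
  ext b
  simp only [Finset.mem_filter, Finset.mem_range, Finset.mem_Ico]
  exact and_comm

theorem pmass_le_one {θ : ℝ≥0} {c : Fnl Expo} {Λ : Fnl V} (hΛ : IsLaw Λ)
    (h : Dom Λ (toV θ c)) : pmass θ c ≤ 1 := by
  have hψ : Psi (fun u : V => u 0) := ⟨fun _ _ => le_rfl, fun _ _ => rfl⟩
  have := h _ hψ
  rw [← hΛ.coord 0]
  exact this

/-- From arrays of the vertex law to the state of the outgoing messages. -/
theorem read_step {θ θ' : ℝ≥0} {q qb P n0 qb' P' L' vb tb kn kd r : ℕ}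
    (hkd : 0 < kd) (hk2 : 2 * kn ≤ kd)
    (hP : PT θ q qb P n0) (hP' : PT θ' q qb' P' L')
    {T : Tab} {TE TV : Row} {n sT : ℕ} (hn : n ≤ n0 + 1)
    (hT : chkTab qb' P' L' vb tb kn kd r qb P T 0 n = true) (hTl : T.len = n)
    (hE : chkRowE qb' P' L' vb tb kn kd r qb P TE 0 = true) (hEl : TE.len = n)
    (hV : chkRowV qb' P' L' vb tb kn kd r q TV = true)
    (hsT : vb * (sT / vb) = sT) (hsT' : sT / vb = nS L')
    {be R z D z' sc A E4 : ℕ} (hbig : (n * n + n + 1) * (2 ^ be * (4 * 2 ^ tb)) < 2 ^ vb)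
    (hsc : sc < 2 ^ be) (hsc0 : 0 < sc) (hD : D < R) (hzn : z + n ≤ R)
    {c : Fnl Expo} (hc : SymC c) {Λ : Fnl V} (hΛ : IsLaw Λ) (hdom : Dom Λ (toV θ c))
    (hA : Arr θ J2 c sc z D be R A) (hEA : Arr θ JE c sc z' 0 be 1 E4)
    {p' pb' sh S' Vn : ℕ} (hpsh : 2 ^ p' * 2 ^ sh = sc * 2 ^ r)
    (hVdef : Vn = force (tabLoop be R z sT A T 0 n 0) fun V1 =>
      force (rowLoop be sT TE (E4 >>> (be * z')) V1) fun V2 =>
      rowLoop be sT TV ((3 * sc * 2 ^ q - V2 >>> sT) >>> q) V2)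
    (hchk : chk pb' vb sh (nS L') S' Vn = true) :
    Dom (chL (aR kn kd) (bR kn kd) Λ) (toV θ' (cS p' pb' L' S')) := by
  have hm := pmass_le_one hΛ hdom
  have hab := aR_add_bR hkd hk2
  have hscR : (0 : ℝ≥0) < sc := by exact_mod_cast hsc0
  -- semantic tables
  have okT := tabOK_of_chk hkd hP' hP T 0 n hTl.le (by omega) hT
  have okE := rowEOK_of_chk hkd hP' hP TE 0 (by omega) hE
  obtain ⟨okV, hVl⟩ := rowVOK_of_chk (tb := tb) hkd hP' TV hV
  -- weights read from the arrays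
  set w : ℕ → ℕ → ℝ≥0 := fun a b => (dig2 be R z A a b : ℝ≥0) / sc with hw
  set eD : ℕ → ℕ := fun a => E4 / 2 ^ (be * (z' + a)) % 2 ^ be with heD
  set we : ℕ → ℝ≥0 := fun a => (eD a : ℝ≥0) / sc with hwe
  have hread : ∀ s ∈ TT n, (w s.1 s.2 : ℝ≥0∞) ≤ pl θ c (J2 z (z + s.1) (z + s.2)) := by
    intro s hs
    unfold TT at hs
    rw [Finset.mem_filter, Finset.mem_product, Finset.mem_range, Finset.mem_range] at hs
    have h1 := hA.read hm hsc hD (i := z + s.1) (j := z + s.2) (by omega)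
    simp only [hw]
    rw [ENNReal.coe_div hscR.ne']
    refine ENNReal.div_le_of_le_mul' ?_
    unfold dig2
    push_cast
    exact_mod_cast h1
  have hreadE : ∀ a ∈ range n, (we a : ℝ≥0∞) ≤ pl θ c (JE z' (z' + a) 0) := by
    intro a _
    have h1 := hEA.read hm hsc (by norm_num) (i := z' + a) (j := 0) (by norm_num)
    simp only [hwe, heD]
    rw [ENNReal.coe_div hscR.ne']
    refine ENNReal.div_le_of_le_mul' ?_
    rw [one_mul, add_zero] at h1
    push_cast
    exact_mod_cast h1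
  have hdS : DomS Λ (secF θ (fun a b => (w a b : ℝ≥0∞)) (TT n) (fun a => (we a : ℝ≥0∞))
      (range n)) := by
    have h1 := sector hc (z := z) (z' := z') (T := TT n) (T' := range n)
      (fun s hs => (Finset.mem_filter.mp hs).2) (w := fun a b => (w a b : ℝ≥0∞))
      (we := fun a => (we a : ℝ≥0∞)) hread hreadE
    exact fun ψ hψ hs => (h1 ψ hψ hs).trans (hdom ψ hψ)
  -- values on finite functions
  have hKval : ∀ φ : V → ℝ≥0, secF θ (fun a b => (w a b : ℝ≥0∞)) (TT n)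
      (fun a => (we a : ℝ≥0∞)) (range n) (up φ) =
      ((∑ s ∈ TT n, (orb s.1 s.2 : ℝ≥0) * w s.1 s.2 * φ (vec3 θ s.1 s.2) +
        ∑ a ∈ range n, (orbE a : ℝ≥0) * we a * φ (vecE θ a) : ℝ≥0) : ℝ≥0∞) := by
    intro φ
    rw [secF_apply]
    unfold up
    push_cast
    rfl
  -- the generating polynomials
  set Q1 : ℕ[X] := tabP be vb sT R z A T 0 n with hQ1
  set Q2 : ℕ[X] := rowP be vb sT TE (E4 >>> (be * z')) with hQ2
  set V2 : ℕ := ev1 vb (Q1 + Q2) with hV2
  set cv : ℕ := (3 * sc * 2 ^ q - V2 >>> sT) >>> q with hcv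
  set Q3 : ℕ[X] := rowP be vb sT TV cv with hQ3
  have hV3 : Vn = ev1 vb (Q1 + Q2 + Q3) := by
    have e1 : tabLoop be R z sT A T 0 n 0 = ev1 vb Q1 := by
      have := tabLoop_eq (be := be) (R := R) (z := z) (A := A) hsT T 0 n okT 0
      rwa [map_zero, zero_add] at this
    rw [hVdef, force_eq, force_eq, e1, rowLoop_eq hsT TE 0 okE, rowLoop_eq hsT TV 0 okV]
  -- size of the coefficients
  have hcoef : ∀ j, (Q1 + Q2 + Q3).coeff j < 2 ^ vb := by
    intro j
    rw [coeff_add, coeff_add]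
    have h1 := tabP_coeff_le (sT := sT) (be := be) (R := R) (z := z) (A := A) (m := n) T 0 n
      le_rfl okT j
    have h2 := rowP_coeff_le (sT := sT) (be := be) TE 0 okE (E4 >>> (be * z')) j
    have h3 := rowP_coeff_le (sT := sT) (be := be) TV 0 okV cv j
    rw [hTl] at h1
    rw [hEl] at h2
    rw [hVl] at h3
    calc Q1.coeff j + Q2.coeff j + Q3.coeff j ≤ n * n * (2 ^ be * (4 * 2 ^ tb)) +
          n * (2 ^ be * (4 * 2 ^ tb)) + 1 * (2 ^ be * (4 * 2 ^ tb)) :=
          add_le_add (add_le_add h1 h2) h3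
      _ = (n * n + n + 1) * (2 ^ be * (4 * 2 ^ tb)) := by ring
      _ < 2 ^ vb := hbig
  have hdigV : ∀ k, dg vb Vn k = (Q1 + Q2 + Q3).coeff k := by
    intro k
    rw [dg_eq, hV3, ev1_apply, pow_mul]
    exact eval_div_pow_mod k _ hcoef
  have hcoef2 : ∀ j, (Q1 + Q2).coeff j < 2 ^ vb := by
    intro j
    have := hcoef j
    rw [coeff_add] at this
    omega
  have hTop : (Q1 + Q2).coeff (sT / vb) ≤ V2 >>> sT := by
    rw [← eval_div_pow_mod (sT / vb) _ hcoef2, ← pow_mul, hsT, Nat.shiftRight_eq_div_pow]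
    exact Nat.mod_le _ _
  -- total mass
  have hmass : (2 : ℝ≥0) ^ q * sc * (∑ s ∈ TT n, (orb s.1 s.2 : ℝ≥0) * w s.1 s.2 *
      tot (vec3 θ s.1 s.2) + ∑ a ∈ range n, (orbE a : ℝ≥0) * we a * tot (vecE θ a)) ≤
      ((Q1 + Q2).coeff (sT / vb) : ℝ≥0) := by
    have h1 := tabP_mass_le (sT := sT) (be := be) (R := R) (z := z) (A := A) T 0 n okT
    have h2 := rowP_mass_le (sT := sT) (be := be) TE 0 okE (E4 >>> (be * z'))
    rw [coeff_add, Nat.cast_add, mul_add]
    refine add_le_add (le_trans (le_of_eq ?_) h1) (le_trans (le_of_eq ?_) h2)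
    · rw [sum_TT n (fun a b => (orb a b : ℝ≥0) * w a b * tot (vec3 θ a b)), Finset.mul_sum, hTl]
      refine Finset.sum_congr rfl fun a _ => ?_
      rw [Finset.mul_sum]
      refine Finset.sum_congr rfl fun t _ => ?_
      rw [zero_add]
      simp only [hw, upsV]
      field_simp
    · rw [Finset.mul_sum, hEl]
      refine Finset.sum_congr rfl fun a _ => ?_
      rw [zero_add, Nat.shiftRight_eq_div_pow, Nat.div_div_eq_div_mul, ← pow_add, ← mul_add]
      simp only [hwe, heD, upsE]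
      field_simp
  set m0 : ℝ≥0 := ∑ s ∈ TT n, (orb s.1 s.2 : ℝ≥0) * w s.1 s.2 *
      tot (vec3 θ s.1 s.2) + ∑ a ∈ range n, (orbE a : ℝ≥0) * we a * tot (vecE θ a) with hm0
  set dv : ℕ := cv % 2 ^ be with hdv
  set v : ℝ≥0 := (dv : ℝ≥0) / sc with hv
  have htotΨ : Psi tot := ⟨fun u w => le_of_eq (by simp [tot, Finset.sum_add_distrib]),
    fun c u => by simp [tot, Finset.mul_sum]⟩
  have htotS : SymF tot := fun g u => Equiv.sum_comp g u
  have hm3 : m0 + v ≤ 3 := by
    rcases Nat.lt_or_ge (V2 >>> sT) (3 * sc * 2 ^ q) with hlt | hge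
    · have h1 : (2 : ℝ≥0) ^ q * sc * m0 ≤ ((V2 >>> sT : ℕ) : ℝ≥0) :=
        hmass.trans (by exact_mod_cast hTop)
      have h2 : 2 ^ q * dv + V2 >>> sT ≤ 3 * sc * 2 ^ q := by
        have e1 : dv ≤ cv := Nat.mod_le _ _
        have e2 : 2 ^ q * cv ≤ 3 * sc * 2 ^ q - V2 >>> sT := by
          rw [hcv, Nat.shiftRight_eq_div_pow _ q]
          exact Nat.mul_div_le _ _
        have e3 : 2 ^ q * dv ≤ 2 ^ q * cv := Nat.mul_le_mul_left _ e1
        omega
      have h3 : (2 : ℝ≥0) ^ q * dv + ((V2 >>> sT : ℕ) : ℝ≥0) ≤ 3 * sc * 2 ^ q := by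
        exact_mod_cast h2
      have hp : (0 : ℝ≥0) < 2 ^ q * sc := by positivity
      refine le_of_mul_le_mul_left ?_ hp
      calc 2 ^ q * sc * (m0 + v) = 2 ^ q * sc * m0 + 2 ^ q * dv := by
            rw [mul_add]
            congr 1
            rw [hv]
            field_simp
        _ ≤ ((V2 >>> sT : ℕ) : ℝ≥0) + 2 ^ q * dv := by gcongr
        _ = 2 ^ q * dv + ((V2 >>> sT : ℕ) : ℝ≥0) := add_comm _ _
        _ ≤ 3 * sc * 2 ^ q := h3
        _ = 2 ^ q * sc * 3 := by ring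
    · have e1 : cv = 0 := by
        rw [hcv, Nat.sub_eq_zero_of_le hge, Nat.zero_shiftRight]
      have e2 : v = 0 := by
        rw [hv, hdv, e1]
        simp
      rw [e2, add_zero]
      have h1 := hdS _ htotΨ htotS
      rw [hKval, hΛ.tot] at h1
      have h2 : ((m0 : ℝ≥0) : ℝ≥0∞) ≤ ((3 : ℝ≥0) : ℝ≥0∞) := by
        refine h1.trans (le_of_eq ?_)
        norm_num
      exact ENNReal.coe_le_coe.mp h2
  refine DomS.dom (hΛ.chL hab) ?_ (fun g f => (symC_cS p' pb' L' S').toV θ' g f)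
  intro ψ hψ hs
  refine le_trans ?_ (chan_rule (a := aR kn kd) (b := bR kn kd) hΛ hdS (v := (v : ℝ≥0∞)) (by
    rw [hKval, ← ENNReal.coe_add]
    have : ((m0 + v : ℝ≥0) : ℝ≥0∞) ≤ ((3 : ℝ≥0) : ℝ≥0∞) := ENNReal.coe_le_coe.mpr hm3
    refine this.trans (le_of_eq ?_)
    norm_num) hψ hs)
  have hL : toV θ' (cS p' pb' L' S') (up ψ) =
      ((∑ k ∈ range (nS L'), (dg pb' S' k : ℝ≥0) / 2 ^ p' * (6 * val θ' L' ψ k) : ℝ≥0) :
        ℝ≥0∞) := by
    rw [toV_apply, cS_apply]
    rw [ENNReal.ofNNReal_finsetSum]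
    refine Finset.sum_congr rfl fun k _ => ?_
    rw [symD_apply]
    have e1 : ∀ g : Equiv.Perm (Fin 3), up ψ (pwV θ' (fun i => xk L' k (g i))) =
        (val θ' L' ψ k : ℝ≥0∞) := by
      intro g
      unfold up val
      rw [← hs g (pwV θ' (xk L' k))]
      rfl
    rw [Finset.sum_congr rfl fun g _ => e1 g]
    simp only [Finset.sum_const, Finset.card_univ, Fintype.card_perm, Fintype.card_fin,
      nsmul_eq_mul]
    have h2 : (2 : ℝ≥0) ^ p' ≠ 0 := by positivity
    rw [ENNReal.coe_mul, ENNReal.coe_mul, ENNReal.coe_div h2]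
    push_cast
    rfl
  rw [hL]
  have hR : secF θ (fun a b => (w a b : ℝ≥0∞)) (TT n) (fun a => (we a : ℝ≥0∞)) (range n)
      (fun u => up ψ (chV (aR kn kd) (bR kn kd) u)) =
      ((∑ s ∈ TT n, (orb s.1 s.2 : ℝ≥0) * w s.1 s.2 *
        ψ (chV (aR kn kd) (bR kn kd) (vec3 θ s.1 s.2)) +
        ∑ a ∈ range n, (orbE a : ℝ≥0) * we a *
          ψ (chV (aR kn kd) (bR kn kd) (vecE θ a)) : ℝ≥0) : ℝ≥0∞) :=
    hKval (fun u => ψ (chV (aR kn kd) (bR kn kd) u))
  rw [hR, ← ENNReal.coe_mul, ← ENNReal.coe_add, ENNReal.coe_le_coe]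
  -- the chain of inequalities
  have s1 := tabP_Sf_le (sT := sT) (be := be) (R := R) (z := z) (A := A) hsT' hψ hs T 0 n okT
  have s2 := rowP_Sf_le (sT := sT) (be := be) hsT' hψ hs TE 0 okE (E4 >>> (be * z'))
  have s3 := rowP_Sf_le (sT := sT) (be := be) hsT' hψ hs TV 0 okV cv
  rw [hTl] at s1
  rw [hEl] at s2
  rw [hVl, Finset.sum_range_one, Nat.mul_zero, pow_zero, Nat.div_one] at s3
  have hden : (0 : ℝ≥0) < 2 ^ p' * 2 ^ sh := by positivity
  have hden' : (2 : ℝ≥0) ^ p' * 2 ^ sh = sc * 2 ^ r := by exact_mod_cast hpsh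
  refine le_of_mul_le_mul_left ?_ hden
  calc (2 : ℝ≥0) ^ p' * 2 ^ sh *
        ∑ k ∈ range (nS L'), (dg pb' S' k : ℝ≥0) / 2 ^ p' * (6 * val θ' L' ψ k)
      = 6 * ∑ k ∈ range (nS L'), ((dg pb' S' k * 2 ^ sh : ℕ) : ℝ≥0) * val θ' L' ψ k := by
        rw [Finset.mul_sum, Finset.mul_sum]
        refine Finset.sum_congr rfl fun k _ => ?_
        push_cast
        field_simp
    _ ≤ 6 * Sf θ' L' ψ (Q1 + Q2 + Q3) := by
        refine mul_le_mul_right ?_ _
        unfold Sf
        refine Finset.sum_le_sum fun k hk => ?_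
        refine mul_le_mul_left ?_ _
        have := chk_spec (nS L') S' Vn hchk k (Finset.mem_range.mp hk)
        rw [hdigV] at this
        exact_mod_cast this
    _ = 6 * Sf θ' L' ψ Q1 + 6 * Sf θ' L' ψ Q2 + 6 * Sf θ' L' ψ Q3 := by
        rw [Sf_add, Sf_add]
        ring
    _ ≤ _ := add_le_add (add_le_add s1 s2) s3
    _ = 2 ^ p' * 2 ^ sh * ((∑ s ∈ TT n, (orb s.1 s.2 : ℝ≥0) * w s.1 s.2 *
        ψ (chV (aR kn kd) (bR kn kd) (vec3 θ s.1 s.2)) +
        ∑ a ∈ range n, (orbE a : ℝ≥0) * we a *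
          ψ (chV (aR kn kd) (bR kn kd) (vecE θ a))) +
        v * ψ (chV (aR kn kd) (bR kn kd) (ev 0))) := by
        rw [hden', mul_add, mul_add]
        congr 1
        · congr 1
          · rw [sum_TT n (fun a b => (orb a b : ℝ≥0) * w a b *
              ψ (chV (aR kn kd) (bR kn kd) (vec3 θ a b))), Finset.mul_sum]
            refine Finset.sum_congr rfl fun a _ => ?_
            rw [Finset.mul_sum]
            refine Finset.sum_congr rfl fun t _ => ?_
            rw [zero_add, rhoV, hψ.hom]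
            simp only [hw]
            push_cast
            field_simp
          · rw [Finset.mul_sum]
            refine Finset.sum_congr rfl fun a _ => ?_
            rw [zero_add, Nat.shiftRight_eq_div_pow, Nat.div_div_eq_div_mul, ← pow_add,
              ← mul_add, rhoE, hψ.hom]
            simp only [hwe, heD]
            push_cast
            field_simp
        · rw [hψ.hom]
          simp only [hv]
          push_cast
          field_simp
          rw [hdv, mul_comm]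

end NC

end Vale.Agent.P154.DE
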