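import Vale.Agent.P154.DE.Read
import Vale.Agent.P154.DE.Eng2

/-!
# Soundness of the leaner reading loop
-/

namespace Vale.Agent.P154.DE

/-- remove the masses -/
def Row.zeroU : Row → Row
  | .nil => .nil
  | .cons _ s1 t1 s2 t2 s3 t3 l => .cons 0 s1 t1 s2 t2 s3 t3 l.zeroU

/-- remove the masses -/
def Tab.zeroU : Tab → Tab
  | .nil => .nil
  | .cons r t => .cons r.zeroU t.zeroU

/-- value part of a row -/
def vS (be : ℕ) : RowS → ℕ → ℕ
  | .nil, _ => 0
  | .cons _ c1 d c2 s l, row => ((row % 2 ^ be) * (c1 + c2 <<< d)) <<< s + vS be l (row >>> be)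

/-- mass part of a row -/
def mS (be : ℕ) : RowS → ℕ → ℕ
  | .nil, _ => 0
  | .cons u _ _ _ _ l, row => (row % 2 ^ be) * u + mS be l (row >>> be)

/-- value part of the table -/
def vT (be R z A : ℕ) : TabS → ℕ → ℕ → ℕ
  | .nil, _, _ => 0
  | .cons r t, a, n =>
    vS be r ((A >>> (be * (R * (z + a) + (z + a)))) % 2 ^ (be * n)) + vT be R z A t (a + 1) (n - 1)

/-- mass part of the table -/
def mT (be R z A : ℕ) : TabS → ℕ → ℕ → ℕ
  | .nil, _, _ => 0
  | .cons r t, a, n =>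
    mS be r ((A >>> (be * (R * (z + a) + (z + a)))) % 2 ^ (be * n)) + mT be R z A t (a + 1) (n - 1)

theorem rowK_eq (be : ℕ) : (r : RowS) → (row V m : ℕ) → (k : ℕ → ℕ → ℕ) →
    rowK be (2 ^ be) r row V m k = k (V + vS be r row) (m + mS be r row)
  | .nil, _, _, _, _ => by simp [rowK, vS, mS]
  | .cons u c1 d c2 s l, row, V, m, k => by
    rw [rowK, rowK_eq be l, vS, mS, add_assoc, add_assoc]

theorem tabK_eq (be R z A : ℕ) : (T : TabS) → (a n V m : ℕ) → (k : ℕ → ℕ → ℕ) →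
    tabK be (2 ^ be) R z A T a n V m k = k (V + vT be R z A T a n) (m + mT be R z A T a n)
  | .nil, _, _, _, _, _ => by simp [tabK, vT, mT]
  | .cons r t, a, n, V, m, k => by
    rw [tabK, force_eq, rowK_eq, force_eq, force_eq, tabK_eq be R z A t, vT, mT, add_assoc,
      add_assoc]

theorem dec_aux (vb c1 : ℕ) (d c2 s : ℕ) :
    (c1 % 2 ^ vb) <<< s + ((c1 >>> vb) <<< (s + vb) + c2 <<< (s + d)) =
      (c1 + c2 <<< d) <<< s := by
  simp only [Nat.shiftLeft_eq, Nat.shiftRight_eq_div_pow, pow_add]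
  have h := Nat.mod_add_div c1 (2 ^ vb)
  calc c1 % 2 ^ vb * 2 ^ s + (c1 / 2 ^ vb * (2 ^ s * 2 ^ vb) + c2 * (2 ^ s * 2 ^ d))
      = (c1 % 2 ^ vb + 2 ^ vb * (c1 / 2 ^ vb)) * 2 ^ s + c2 * 2 ^ d * 2 ^ s := by ring
    _ = c1 * 2 ^ s + c2 * 2 ^ d * 2 ^ s := by rw [h]
    _ = _ := by ring

theorem dec_aux' (vb c1 : ℕ) (d c2 s : ℕ) :
    c1 <<< s + ((c2 % 2 ^ vb) <<< (s + d) + (c2 >>> vb) <<< (s + d + vb)) =
      (c1 + c2 <<< d) <<< s := by
  simp only [Nat.shiftLeft_eq, Nat.shiftRight_eq_div_pow, pow_add]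
  have h := Nat.mod_add_div c2 (2 ^ vb)
  calc c1 * 2 ^ s + (c2 % 2 ^ vb * (2 ^ s * 2 ^ d) + c2 / 2 ^ vb * (2 ^ s * 2 ^ d * 2 ^ vb))
      = c1 * 2 ^ s + (c2 % 2 ^ vb + 2 ^ vb * (c2 / 2 ^ vb)) * (2 ^ s * 2 ^ d) := by ring
    _ = c1 * 2 ^ s + c2 * (2 ^ s * 2 ^ d) := by rw [h]
    _ = _ := by ring

theorem entS_aux (sT a b V w : ℕ) (h : a = b) : V + w * (0 <<< sT + a) = V + w * b := by
  rw [Nat.zero_shiftLeft, zero_add, h]

theorem mul_shift (w c s : ℕ) : w * (c <<< s) = (w * c) <<< s := by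
  rw [Nat.shiftLeft_eq, Nat.shiftLeft_eq, mul_assoc]

theorem vS_rowLoop (be vb sT : ℕ) : (r : RowS) → (row V : ℕ) →
    rowLoop be sT (r.toRow vb).zeroU row V = V + vS be r row
  | .nil, _, _ => by simp [RowS.toRow, Row.zeroU, rowLoop, vS]
  | .cons u c1 d c2 s l, row, V => by
    rw [vS, ← add_assoc, ← mul_shift, RowS.toRow]
    split_ifs with h1 h2
    · rw [Row.zeroU, rowLoop, vS_rowLoop be vb sT l, entS_aux _ _ _ _ _ (dec_aux vb c1 d c2 s)]
    · rw [Row.zeroU, rowLoop, vS_rowLoop be vb sT l, entS_aux _ _ _ _ _ (dec_aux' vb c1 d c2 s)]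
    · rw [Row.zeroU, rowLoop, vS_rowLoop be vb sT l]
      congr 1
      refine entS_aux _ _ _ _ _ ?_
      simp only [Nat.shiftLeft_eq, pow_add]
      ring

theorem vT_tabLoop (be vb R z sT A : ℕ) : (T : TabS) → (a n V : ℕ) →
    tabLoop be R z sT A (T.toTab vb).zeroU a n V = V + vT be R z A T a n
  | .nil, _, _, _ => by simp [TabS.toTab, Tab.zeroU, tabLoop, vT]
  | .cons r t, a, n, V => by
    rw [TabS.toTab, Tab.zeroU, tabLoop, force_eq, vS_rowLoop, vT_tabLoop be vb R z sT A t, vT,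
      add_assoc]

theorem Row.len_zeroU : (r : Row) → r.zeroU.len = r.len
  | .nil => rfl
  | .cons _ _ _ _ _ _ _ l => by rw [Row.zeroU, Row.len, Row.len, Row.len_zeroU l]

theorem Tab.len_zeroU : (T : Tab) → T.zeroU.len = T.len
  | .nil => rfl
  | .cons _ t => by rw [Tab.zeroU, Tab.len, Tab.len, Tab.len_zeroU t]

noncomputable section NC

open Finset Polynomial
open scoped ENNReal NNReal

theorem rowOK_zeroU {θ : ℝ≥0} {L vb tb : ℕ} {ρ : ℕ → V} {υ : ℕ → ℝ≥0} :
    (r : Row) → (b : ℕ) → RowOK θ L vb tb ρ υ r b →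
    RowOK θ L vb tb ρ (fun _ => 0) r.zeroU b
  | .nil, _, _ => trivial
  | .cons u s1 t1 s2 t2 s3 t3 l, b, h =>
    ⟨{ h.1 with u0 := by positivity, mas := zero_le }, rowOK_zeroU l (b + 1) h.2⟩

theorem tabOK_zeroU {θ : ℝ≥0} {L vb tb : ℕ} {ρ : ℕ → ℕ → V} {υ : ℕ → ℕ → ℝ≥0} :
    (T : Tab) → (a n : ℕ) → TabOK θ L vb tb ρ υ T a n →
    TabOK θ L vb tb ρ (fun _ _ => 0) T.zeroU a n
  | .nil, _, _, _ => trivial
  | .cons r t, a, n, h =>
    ⟨⟨rowOK_zeroU r a h.1.1, by rw [Row.len_zeroU]; exact h.1.2⟩, tabOK_zeroU t (a + 1) (n - 1) h.2⟩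

theorem mS_ge {θ : ℝ≥0} {L vb tb be : ℕ} {ρ : ℕ → V} {υ : ℕ → ℝ≥0} :
    (r : RowS) → (b : ℕ) → RowOK θ L vb tb ρ υ (r.toRow vb) b → (row : ℕ) →
    ∑ t ∈ range (r.toRow vb).len, ((row / 2 ^ (be * t) % 2 ^ be : ℕ) : ℝ≥0) * υ (b + t) ≤
      (mS be r row : ℝ≥0)
  | .nil, _, _, row => by simp [RowS.toRow, mS, Row.len]
  | .cons u c1 d c2 s l, b, h, row => by
    have key : ∀ (s1 t1 s2 t2 s3 t3 : ℕ),
        RowOK θ L vb tb ρ υ (.cons u s1 t1 s2 t2 s3 t3 (l.toRow vb)) b →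
        ∑ t ∈ range (Row.cons u s1 t1 s2 t2 s3 t3 (l.toRow vb)).len,
          ((row / 2 ^ (be * t) % 2 ^ be : ℕ) : ℝ≥0) * υ (b + t) ≤
          (mS be (.cons u c1 d c2 s l) row : ℝ≥0) := by
      intro s1 t1 s2 t2 s3 t3 h'
      rw [Row.len, Finset.sum_range_succ', mS, Nat.cast_add, Nat.cast_mul, add_comm]
      have h2 := mS_ge (be := be) l (b + 1) h'.2 (row >>> be)
      refine add_le_add ?_ ?_
      · simp only [mul_zero, pow_zero, Nat.div_one, add_zero]
        exact mul_le_mul_right h'.1.mas _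
      · refine le_trans (le_of_eq ?_) h2
        refine Finset.sum_congr rfl fun t _ => ?_
        rw [Nat.shiftRight_eq_div_pow, Nat.div_div_eq_div_mul, ← pow_add]
        congr 2
        · congr 3
          ring
        · ring
    rw [RowS.toRow] at h ⊢
    split_ifs at h ⊢ with h1 h2
    · exact key _ _ _ _ _ _ h
    · exact key _ _ _ _ _ _ h
    · exact key _ _ _ _ _ _ h

theorem mT_ge {θ : ℝ≥0} {L vb tb be R z A : ℕ} {ρ : ℕ → ℕ → V} {υ : ℕ → ℕ → ℝ≥0} :
    (T : TabS) → (a n : ℕ) → TabOK θ L vb tb ρ υ (T.toTab vb) a n →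
    ∑ i ∈ range (T.toTab vb).len, ∑ t ∈ range (n - i),
      (dig2 be R z A (a + i) (a + i + t) : ℝ≥0) * υ (a + i) (a + i + t) ≤
      (mT be R z A T a n : ℝ≥0)
  | .nil, _, _, _ => by simp [TabS.toTab, mT, Tab.len]
  | .cons r t, a, n, h => by
    rw [TabS.toTab] at h ⊢
    rw [mT, Tab.len, Finset.sum_range_succ', Nat.cast_add, add_comm]
    have h1 := mS_ge (be := be) r a h.1.1 ((A >>> (be * (R * (z + a) + (z + a)))) % 2 ^ (be * n))
    have h2 := mT_ge (be := be) (R := R) (z := z) (A := A) t (a + 1) (n - 1) h.2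
    refine add_le_add ?_ ?_
    · rw [h.1.2] at h1
      refine le_trans (le_of_eq ?_) h1
      simp only [add_zero, tsub_zero]
      refine Finset.sum_congr rfl fun t ht => ?_
      rw [dig2_row (Finset.mem_range.mp ht)]
    · refine le_trans (le_of_eq ?_) h2
      refine Finset.sum_congr rfl fun i _ => ?_
      have e1 : n - 1 - i = n - (i + 1) := by omega
      have e2 : a + 1 + i = a + (i + 1) := by omega
      rw [e1, e2]

/-- size of the coefficients when the digits are bounded -/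
theorem rowP_coeff_le' {θ : ℝ≥0} {L vb tb sT be B : ℕ} {ρ : ℕ → V} {υ : ℕ → ℝ≥0} :
    (rw : Row) → (b : ℕ) → RowOK θ L vb tb ρ υ rw b → (row : ℕ) →
    (∀ t < rw.len, row / 2 ^ (be * t) % 2 ^ be ≤ B) → (j : ℕ) →
    (rowP be vb sT rw row).coeff j ≤ rw.len * (B * (4 * 2 ^ tb))
  | .nil, _, _, row, _, j => by simp [rowP]
  | .cons u s1 t1 s2 t2 s3 t3 l, b, h, row, hB, j => by
      rw [rowP, coeff_add, coeff_C_mul, Row.len]
      have h1 := h.1.coeff_le (sT := sT) j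
      have h2 := rowP_coeff_le' (sT := sT) (be := be) (B := B) l (b + 1) h.2 (row >>> be) (by
        intro t ht
        have := hB (t + 1) (by rw [Row.len]; omega)
        rw [Nat.shiftRight_eq_div_pow, Nat.div_div_eq_div_mul, ← pow_add]
        have e : be + be * t = be * (t + 1) := by ring
        rwa [e]) j
      have h3 : row % 2 ^ be ≤ B := by
        have := hB 0 (by rw [Row.len]; omega)
        simpa using this
      calc _ ≤ B * (4 * 2 ^ tb) + l.len * (B * (4 * 2 ^ tb)) :=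
            add_le_add (Nat.mul_le_mul h3 h1) h2
        _ = _ := by ring

theorem tabP_coeff_le' {θ : ℝ≥0} {L vb tb sT be R z A m B : ℕ} {ρ : ℕ → ℕ → V}
    {υ : ℕ → ℕ → ℝ≥0} :
    (T : Tab) → (a n : ℕ) → n ≤ m → TabOK θ L vb tb ρ υ T a n →
    (∀ i < T.len, ∀ t < n - i, dig2 be R z A (a + i) (a + i + t) ≤ B) → (j : ℕ) →
    (tabP be vb sT R z A T a n).coeff j ≤ T.len * m * (B * (4 * 2 ^ tb))
  | .nil, _, _, _, _, _, j => by simp [tabP]
  | .cons rw t, a, n, hn, h, hB, j => by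
      rw [tabP, coeff_add, Tab.len]
      have h1 := rowP_coeff_le' (sT := sT) (be := be) (B := B) rw a h.1.1
        ((A >>> (be * (R * (z + a) + (z + a)))) % 2 ^ (be * n)) (by
          intro t ht
          rw [h.1.2] at ht
          rw [dig2_row ht]
          have := hB 0 (by rw [Tab.len]; omega) t (by omega)
          simpa using this) j
      have h2 := tabP_coeff_le' (sT := sT) (be := be) (R := R) (z := z) (A := A) (m := m)
        (B := B) t (a + 1) (n - 1) (by omega) h.2 (by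
          intro i hi t' ht'
          have := hB (i + 1) (by rw [Tab.len]; omega) t' (by omega)
          have e2 : a + 1 + i = a + (i + 1) := by omega
          rw [e2]
          exact this) j
      rw [h.1.2] at h1
      calc _ ≤ n * (B * (4 * 2 ^ tb)) + t.len * m * (B * (4 * 2 ^ tb)) :=
            add_le_add h1 h2
        _ ≤ m * (B * (4 * 2 ^ tb)) + t.len * m * (B * (4 * 2 ^ tb)) :=
            Nat.add_le_add_right (Nat.mul_le_mul_right _ hn) _
        _ = _ := by ring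

/-- From arrays of the vertex law to the state of the outgoing messages, leaner loop. -/
theorem read_step2 {θ θ' : ℝ≥0} {q qb P n0 qb' P' L' vb tb kn kd r : ℕ}
    (hkd : 0 < kd) (hk2 : 2 * kn ≤ kd)
    (hP : PT θ q qb P n0) (hP' : PT θ' q qb' P' L')
    {T : TabS} {TE TV : RowS} {n : ℕ} (hn : n ≤ n0 + 1)
    (hT : chkTab qb' P' L' vb tb kn kd r qb P (T.toTab vb) 0 n = true)
    (hTl : (T.toTab vb).len = n)
    (hE : chkRowE qb' P' L' vb tb kn kd r qb P (TE.toRow vb) 0 = true)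
    (hEl : (TE.toRow vb).len = n)
    (hV : chkRowV qb' P' L' vb tb kn kd r q (TV.toRow vb) = true) (hvb : 0 < vb)
    {be R z D sc A E4 : ℕ} (hbig : (n * n + n + 3) * (sc * (4 * 2 ^ tb)) < 2 ^ vb)
    (hsc : sc < 2 ^ be) (hsc0 : 0 < sc) (hD : D < R) (hzn : z + n ≤ R)
    {c : Fnl Expo} (hc : SymC c) {Λ : Fnl V} (hΛ : IsLaw Λ) (hdom : Dom Λ (toV θ c))
    (hA : Arr θ J2 c sc z D be R A) (hEA : Arr θ JE c sc z 0 be 1 E4)
    {p' pb' sh S' : ℕ} (hpsh : 2 ^ p' * 2 ^ sh = sc * 2 ^ r)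
    (hchk : chk pb' vb sh (nS L') S' (readK be R z sc q A E4 T n TE TV) = true) :
    Dom (chL (aR kn kd) (bR kn kd) Λ) (toV θ' (cS p' pb' L' S')) := by
  have hm := pmass_le_one hΛ hdom
  have hab := aR_add_bR hkd hk2
  have hscR : (0 : ℝ≥0) < sc := by exact_mod_cast hsc0
  set sT : ℕ := vb * nS L' with hsTd
  have hsT : vb * (sT / vb) = sT := by rw [hsTd, Nat.mul_div_cancel_left _ hvb]
  have hsT' : sT / vb = nS L' := by rw [hsTd, Nat.mul_div_cancel_left _ hvb]
  -- semantic tables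
  have okT := tabOK_of_chk hkd hP' hP (T.toTab vb) 0 n hTl.le (by omega) hT
  have okE := rowEOK_of_chk hkd hP' hP (TE.toRow vb) 0 (by omega) hE
  obtain ⟨okV, hVl⟩ := rowVOK_of_chk (tb := tb) hkd hP' (TV.toRow vb) hV
  have okT0 := tabOK_zeroU _ _ _ okT
  have okE0 := rowOK_zeroU _ _ okE
  have okV0 := rowOK_zeroU _ _ okV
  have hTl0 : (T.toTab vb).zeroU.len = n := by rw [Tab.len_zeroU, hTl]
  have hEl0 : (TE.toRow vb).zeroU.len = n := by rw [Row.len_zeroU, hEl]
  have hVl0 : (TV.toRow vb).zeroU.len = 1 := by rw [Row.len_zeroU, hVl]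
  -- weights read from the arrays
  set w : ℕ → ℕ → ℝ≥0 := fun a b => (dig2 be R z A a b : ℝ≥0) / sc with hw
  set eD : ℕ → ℕ := fun a => E4 / 2 ^ (be * (z + a)) % 2 ^ be with heD
  set we : ℕ → ℝ≥0 := fun a => (eD a : ℝ≥0) / sc with hwe
  have hreadN : ∀ a b, a < n → b < n → ((dig2 be R z A a b : ℕ) : ℝ≥0∞) ≤
      sc * pl θ c (J2 z (z + a) (z + b)) := fun a b ha hb =>
    hA.read hm hsc hD (i := z + a) (j := z + b) (by omega)
  have hreadEN : ∀ a, ((eD a : ℕ) : ℝ≥0∞) ≤ sc * pl θ c (JE z (z + a) 0) := by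
    intro a
    have h1 := hEA.read hm hsc (by norm_num) (i := z + a) (j := 0) (by norm_num)
    rw [one_mul, add_zero] at h1
    exact h1
  have hle_sc : ∀ {x : ℕ} {y : ℝ≥0∞}, (x : ℝ≥0∞) ≤ sc * y → y ≤ pmass θ c → x ≤ sc := by
    intro x y h1 h2
    have : (x : ℝ≥0∞) ≤ sc := by
      calc (x : ℝ≥0∞) ≤ sc * y := h1
        _ ≤ sc * 1 := by gcongr; exact h2.trans hm
        _ = sc := mul_one _
    exact_mod_cast this
  have hdig : ∀ a b, a < n → b < n → dig2 be R z A a b ≤ sc := fun a b ha hb =>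
    hle_sc (hreadN a b ha hb) (pl_le_pmass θ c _)
  have hdigE : ∀ a, eD a ≤ sc := fun a => hle_sc (hreadEN a) (pl_le_pmass θ c _)
  have hread : ∀ s ∈ TT n, (w s.1 s.2 : ℝ≥0∞) ≤ pl θ c (J2 z (z + s.1) (z + s.2)) := by
    intro s hs
    unfold TT at hs
    rw [Finset.mem_filter, Finset.mem_product, Finset.mem_range, Finset.mem_range] at hs
    have h1 := hreadN s.1 s.2 hs.1.1 hs.1.2
    simp only [hw]
    rw [ENNReal.coe_div hscR.ne']
    refine ENNReal.div_le_of_le_mul' ?_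
    push_cast
    exact_mod_cast h1
  have hreadE : ∀ a ∈ range n, (we a : ℝ≥0∞) ≤ pl θ c (JE z (z + a) 0) := by
    intro a _
    have h1 := hreadEN a
    simp only [hwe]
    rw [ENNReal.coe_div hscR.ne']
    refine ENNReal.div_le_of_le_mul' ?_
    push_cast
    exact_mod_cast h1
  have hdS : DomS Λ (secF θ (fun a b => (w a b : ℝ≥0∞)) (TT n) (fun a => (we a : ℝ≥0∞))
      (range n)) := by
    have h1 := sector hc (z := z) (z' := z) (T := TT n) (T' := range n)
      (fun s hs => (Finset.mem_filter.mp hs).2) (w := fun a b => (w a b : ℝ≥0∞))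
      (we := fun a => (we a : ℝ≥0∞)) hread hreadE
    exact fun ψ hψ hs => (h1 ψ hψ hs).trans (hdom ψ hψ)
  -- values on finite functions
  have hKval : ∀ φ : V → ℝ≥0, secF θ (fun a b => (w a b : ℝ≥0∞)) (TT n)
      (fun a => (we a : ℝ≥0∞)) (range n) (up φ) =
      ((∑ s ∈ TT n, (orb s.1 s.2 : ℝ≥0) * w s.1 s.2 * φ (vec3 θ s.1 s.2) +
        ∑ a ∈ range n, (orbE a : ℝ≥0) * we a * φ (vecE θ a) : ℝ≥0) : ℝ≥0∞) := by
    intro φ
    rw [secF_apply]
    unfold up
    push_cast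
    rfl
  -- the generating polynomials
  set Q1 : ℕ[X] := tabP be vb sT R z A (T.toTab vb).zeroU 0 n with hQ1
  set Q2 : ℕ[X] := rowP be vb sT (TE.toRow vb).zeroU (E4 >>> (be * z)) with hQ2
  set m1 : ℕ := mT be R z A T 0 n + mS be TE (E4 >>> (be * z)) with hm1
  set cv : ℕ := (3 * sc * 2 ^ q - m1) >>> q with hcv
  set Q3 : ℕ[X] := rowP be vb sT (TV.toRow vb).zeroU cv with hQ3
  set Vn : ℕ := readK be R z sc q A E4 T n TE TV with hVn
  have hV3 : Vn = ev1 vb (Q1 + Q2 + Q3) := by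
    have e0 : Vn = vT be R z A T 0 n + vS be TE (E4 >>> (be * z)) + vS be TV cv := by
      rw [hVn]
      unfold readK
      rw [tabK_eq, rowK_eq, rowK_eq, zero_add, zero_add]
    have e1 : vT be R z A T 0 n = ev1 vb Q1 := by
      have h1 := tabLoop_eq (be := be) (R := R) (z := z) (A := A) hsT _ 0 n okT0 0
      rw [map_zero, zero_add] at h1
      have h2 := vT_tabLoop be vb R z sT A T 0 n 0
      rw [zero_add] at h2
      rw [← h2, h1]
    have e2 : ∀ (X : RowS) (ρ : ℕ → V) (row : ℕ), RowOK θ' L' vb tb ρ (fun _ => 0)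
        (X.toRow vb).zeroU 0 → vS be X row = ev1 vb (rowP be vb sT (X.toRow vb).zeroU row) := by
      intro X ρ row hX
      have h1 := rowLoop_eq (be := be) hsT _ 0 hX row 0
      rw [map_zero, zero_add] at h1
      have h2 := vS_rowLoop be vb sT X row 0
      rw [zero_add] at h2
      rw [← h2, h1]
    rw [e0, e1, e2 TE _ _ okE0, e2 TV _ _ okV0, map_add, map_add]
  have hcvle : cv ≤ 3 * sc := by
    rw [hcv, Nat.shiftRight_eq_div_pow]
    refine Nat.div_le_of_le_mul ?_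
    rw [mul_comm (2 ^ q)]
    exact Nat.sub_le _ _
  -- size of the coefficients
  have hcoef : ∀ j, (Q1 + Q2 + Q3).coeff j < 2 ^ vb := by
    intro j
    rw [coeff_add, coeff_add]
    have h1 := tabP_coeff_le' (sT := sT) (be := be) (R := R) (z := z) (A := A) (m := n) (B := sc)
      _ 0 n le_rfl okT0 (by
        intro i hi t ht
        rw [hTl0] at hi
        refine hdig _ _ (by omega) (by omega)) j
    have h2 := rowP_coeff_le' (sT := sT) (be := be) (B := sc) _ 0 okE0 (E4 >>> (be * z)) (by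
        intro t _
        have := hdigE t
        rw [Nat.shiftRight_eq_div_pow, Nat.div_div_eq_div_mul, ← pow_add, ← mul_add]
        exact this) j
    have h3 := rowP_coeff_le' (sT := sT) (be := be) (B := 3 * sc) _ 0 okV0 cv (by
        intro t _
        exact (Nat.mod_le _ _).trans ((Nat.div_le_self _ _).trans hcvle)) j
    rw [hTl0] at h1
    rw [hEl0] at h2
    rw [hVl0] at h3
    calc Q1.coeff j + Q2.coeff j + Q3.coeff j ≤ n * n * (sc * (4 * 2 ^ tb)) +
          n * (sc * (4 * 2 ^ tb)) + 1 * (3 * sc * (4 * 2 ^ tb)) :=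
          add_le_add (add_le_add h1 h2) h3
      _ = (n * n + n + 3) * (sc * (4 * 2 ^ tb)) := by ring
      _ < 2 ^ vb := hbig
  have hdigV : ∀ k, dg vb Vn k = (Q1 + Q2 + Q3).coeff k := by
    intro k
    rw [dg_eq, hV3, ev1_apply, pow_mul]
    exact eval_div_pow_mod k _ hcoef
  -- total mass
  have hmass : (2 : ℝ≥0) ^ q * sc * (∑ s ∈ TT n, (orb s.1 s.2 : ℝ≥0) * w s.1 s.2 *
      tot (vec3 θ s.1 s.2) + ∑ a ∈ range n, (orbE a : ℝ≥0) * we a * tot (vecE θ a)) ≤
      (m1 : ℝ≥0) := by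
    have h1 := mT_ge (be := be) (R := R) (z := z) (A := A) T 0 n okT
    have h2 := mS_ge (be := be) TE 0 okE (E4 >>> (be * z))
    rw [hm1, Nat.cast_add, mul_add]
    refine add_le_add (le_trans (le_of_eq ?_) h1) (le_trans (le_of_eq ?_) h2)
    · rw [sum_TT n (fun a b => (orb a b : ℝ≥0) * w a b * tot (vec3 θ a b)), Finset.mul_sum, hTl]
      refine Finset.sum_congr rfl fun a _ => ?_
      rw [Finset.mul_sum]
      refine Finset.sum_congr rfl fun t _ => ?_
      rw [zero_add]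
      simp only [hw, upsV]
      field_simp
    · rw [Finset.mul_sum, hEl]
      refine Finset.sum_congr rfl fun a _ => ?_
      rw [zero_add, Nat.shiftRight_eq_div_pow, Nat.div_div_eq_div_mul, ← pow_add, ← mul_add]
      simp only [hwe, heD, upsE]
      field_simp
  set m0 : ℝ≥0 := ∑ s ∈ TT n, (orb s.1 s.2 : ℝ≥0) * w s.1 s.2 *
      tot (vec3 θ s.1 s.2) + ∑ a ∈ range n, (orbE a : ℝ≥0) * we a * tot (vecE θ a) with hm0
  set dv : ℕ := cv % 2 ^ be with hdv
  set v : ℝ≥0 := (dv : ℝ≥0) / sc with hv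
  have htotΨ : Psi tot := ⟨fun u w => le_of_eq (by simp [tot, Finset.sum_add_distrib]),
    fun c u => by simp [tot, Finset.mul_sum]⟩
  have htotS : SymF tot := fun g u => Equiv.sum_comp g u
  have hm3 : m0 + v ≤ 3 := by
    rcases Nat.lt_or_ge m1 (3 * sc * 2 ^ q) with hlt | hge
    · have h1 : (2 : ℝ≥0) ^ q * sc * m0 ≤ (m1 : ℝ≥0) := hmass
      have h2 : 2 ^ q * dv + m1 ≤ 3 * sc * 2 ^ q := by
        have e1 : dv ≤ cv := Nat.mod_le _ _
        have e2 : 2 ^ q * cv ≤ 3 * sc * 2 ^ q - m1 := by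
          rw [hcv, Nat.shiftRight_eq_div_pow _ q]
          exact Nat.mul_div_le _ _
        have e3 : 2 ^ q * dv ≤ 2 ^ q * cv := Nat.mul_le_mul_left _ e1
        omega
      have h3 : (2 : ℝ≥0) ^ q * dv + (m1 : ℝ≥0) ≤ 3 * sc * 2 ^ q := by
        exact_mod_cast h2
      have hp : (0 : ℝ≥0) < 2 ^ q * sc := by positivity
      refine le_of_mul_le_mul_left ?_ hp
      calc 2 ^ q * sc * (m0 + v) = 2 ^ q * sc * m0 + 2 ^ q * dv := by
            rw [mul_add]
            congr 1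
            rw [hv]
            field_simp
        _ ≤ (m1 : ℝ≥0) + 2 ^ q * dv := by gcongr
        _ = 2 ^ q * dv + (m1 : ℝ≥0) := add_comm _ _
        _ ≤ 3 * sc * 2 ^ q := h3
        _ = 2 ^ q * sc * 3 := by ring
    · have e1 : cv = 0 := by
        rw [hcv, Nat.sub_eq_zero_of_le hge, Nat.zero_shiftRight]
      have e2 : v = 0 := by
        rw [hv, hdv, e1]
        simp
      rw [e2, add_zero]
      have h1 := hdS _ htotΨ htotS
      rw [hKval, hΛ.tot] at h1
      have h2 : ((m0 : ℝ≥0) : ℝ≥0∞) ≤ ((3 : ℝ≥0) : ℝ≥0∞) := by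
        refine h1.trans (le_of_eq ?_)
        norm_num
      exact ENNReal.coe_le_coe.mp h2
  refine DomS.dom (hΛ.chL hab) ?_ (fun g f => (symC_cS p' pb' L' S').toV θ' g f)
  intro ψ hψ hs
  refine le_trans ?_ (chan_rule (a := aR kn kd) (b := bR kn kd) hΛ hdS (v := (v : ℝ≥0∞)) (by
    rw [hKval, ← ENNReal.coe_add]
    have : ((m0 + v : ℝ≥0) : ℝ≥0∞) ≤ ((3 : ℝ≥0) : ℝ≥0∞) := ENNReal.coe_le_coe.mpr hm3
    refine this.trans (le_of_eq ?_)
    norm_num) hψ hs)
  have hL : toV θ' (cS p' pb' L' S') (up ψ) =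
      ((∑ k ∈ range (nS L'), (dg pb' S' k : ℝ≥0) / 2 ^ p' * (6 * val θ' L' ψ k) : ℝ≥0) :
        ℝ≥0∞) := by
    rw [toV_apply, cS_apply]
    rw [ENNReal.ofNNReal_finsetSum]
    refine Finset.sum_congr rfl fun k _ => ?_
    rw [symD_apply]
    have e1 : ∀ g : Equiv.Perm (Fin 3), up ψ (pwV θ' (fun i => xk L' k (g i))) =
        (val θ' L' ψ k : ℝ≥0∞) := by
      intro g
      unfold up val
      rw [← hs g (pwV θ' (xk L' k))]
      rfl
    rw [Finset.sum_congr rfl fun g _ => e1 g]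
    simp only [Finset.sum_const, Finset.card_univ, Fintype.card_perm, Fintype.card_fin,
      nsmul_eq_mul]
    have h2 : (2 : ℝ≥0) ^ p' ≠ 0 := by positivity
    rw [ENNReal.coe_mul, ENNReal.coe_mul, ENNReal.coe_div h2]
    push_cast
    rfl
  rw [hL]
  have hR : secF θ (fun a b => (w a b : ℝ≥0∞)) (TT n) (fun a => (we a : ℝ≥0∞)) (range n)
      (fun u => up ψ (chV (aR kn kd) (bR kn kd) u)) =
      ((∑ s ∈ TT n, (orb s.1 s.2 : ℝ≥0) * w s.1 s.2 *
        ψ (chV (aR kn kd) (bR kn kd) (vec3 θ s.1 s.2)) +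
        ∑ a ∈ range n, (orbE a : ℝ≥0) * we a *
          ψ (chV (aR kn kd) (bR kn kd) (vecE θ a)) : ℝ≥0) : ℝ≥0∞) :=
    hKval (fun u => ψ (chV (aR kn kd) (bR kn kd) u))
  rw [hR, ← ENNReal.coe_mul, ← ENNReal.coe_add, ENNReal.coe_le_coe]
  -- the chain of inequalities
  have s1 := tabP_Sf_le (sT := sT) (be := be) (R := R) (z := z) (A := A) hsT' hψ hs _ 0 n okT0
  have s2 := rowP_Sf_le (sT := sT) (be := be) hsT' hψ hs _ 0 okE0 (E4 >>> (be * z))
  have s3 := rowP_Sf_le (sT := sT) (be := be) hsT' hψ hs _ 0 okV0 cv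
  rw [hTl0] at s1
  rw [hEl0] at s2
  rw [hVl0, Finset.sum_range_one, Nat.mul_zero, pow_zero, Nat.div_one] at s3
  have hden : (0 : ℝ≥0) < 2 ^ p' * 2 ^ sh := by positivity
  have hden' : (2 : ℝ≥0) ^ p' * 2 ^ sh = sc * 2 ^ r := by exact_mod_cast hpsh
  refine le_of_mul_le_mul_left ?_ hden
  calc (2 : ℝ≥0) ^ p' * 2 ^ sh *
        ∑ k ∈ range (nS L'), (dg pb' S' k : ℝ≥0) / 2 ^ p' * (6 * val θ' L' ψ k)
      = 6 * ∑ k ∈ range (nS L'), ((dg pb' S' k * 2 ^ sh : ℕ) : ℝ≥0) * val θ' L' ψ k := by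
        rw [Finset.mul_sum, Finset.mul_sum]
        refine Finset.sum_congr rfl fun k _ => ?_
        push_cast
        field_simp
    _ ≤ 6 * Sf θ' L' ψ (Q1 + Q2 + Q3) := by
        refine mul_le_mul_right ?_ _
        unfold Sf
        refine Finset.sum_le_sum fun k hk => ?_
        refine mul_le_mul_left ?_ _
        have := chk_spec (nS L') S' Vn hchk k (Finset.mem_range.mp hk)
        rw [hdigV] at this
        exact_mod_cast this
    _ = 6 * Sf θ' L' ψ Q1 + 6 * Sf θ' L' ψ Q2 + 6 * Sf θ' L' ψ Q3 := by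
        rw [Sf_add, Sf_add]
        ring
    _ ≤ _ := add_le_add (add_le_add s1 s2) s3
    _ = 2 ^ p' * 2 ^ sh * ((∑ s ∈ TT n, (orb s.1 s.2 : ℝ≥0) * w s.1 s.2 *
        ψ (chV (aR kn kd) (bR kn kd) (vec3 θ s.1 s.2)) +
        ∑ a ∈ range n, (orbE a : ℝ≥0) * we a *
          ψ (chV (aR kn kd) (bR kn kd) (vecE θ a))) +
        v * ψ (chV (aR kn kd) (bR kn kd) (ev 0))) := by
        rw [hden', mul_add, mul_add]
        congr 1
        · congr 1
          · rw [sum_TT n (fun a b => (orb a b : ℝ≥0) * w a b *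
              ψ (chV (aR kn kd) (bR kn kd) (vec3 θ a b))), Finset.mul_sum]
            refine Finset.sum_congr rfl fun a _ => ?_
            rw [Finset.mul_sum]
            refine Finset.sum_congr rfl fun t _ => ?_
            rw [zero_add, rhoV, hψ.hom]
            simp only [hw]
            push_cast
            field_simp
          · rw [Finset.mul_sum]
            refine Finset.sum_congr rfl fun a _ => ?_
            rw [zero_add, Nat.shiftRight_eq_div_pow, Nat.div_div_eq_div_mul, ← pow_add,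
              ← mul_add, rhoE, hψ.hom]
            simp only [hwe, heD]
            push_cast
            field_simp
        · rw [hψ.hom]
          simp only [hv]
          push_cast
          field_simp
          rw [hdv, mul_comm]

end NC

end Vale.Agent.P154.DE
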