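import Vale.Agent.P154.DE.StepR2
import Vale.Agent.P154.DE.Pois2

/-!
# Regular trees: a step with the fast engine
-/

namespace Vale.Agent.P154.DE

noncomputable section NC

open Finset Vale.Agent.P154.Up
open scoped ENNReal NNReal

/-- the state `S` is dominated by the messages at depth `n` -/
def RegOK2 (θ : ℝ≥0) (L n S : ℕ) : Prop := ∀ κ : ℝ, 0 ≤ κ → κ ≤ 1 / 2 → ∀ d : ℕ, d ≤ 4 →
  Dom (chL (aR 1 2) (bR 1 2) (treeL κ (dary d n))) (toV θ (cS 30 32 L S))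

theorem regOK2_zero (θ : ℝ≥0) (L : ℕ) : RegOK2 θ L 0 0 := by
  intro κ h0 h d hd ψ hψ
  have : cS 30 32 L 0 = 0 := by
    ext f
    rw [cS_apply]
    simp [dg]
  rw [this, toV, push_apply]
  simp

theorem reg_step2 {θ θ' : ℝ≥0} {P P' L W L' R : ℕ}
    (hP : PT θ 30 32 P W) (hP' : PT θ' 30 32 P' L') {T : TabS} {TE TV : RowS}
    (hT : TbOK 1 2 P W P' L' T TE TV)
    (hW : W ≤ 119) (hLW : L ≤ W) (hR : 2 * L + 2 * W < R) (hR' : W + (W + 1) ≤ R)
    {n S S' : ℕ} (hS : RegOK2 θ L n S)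
    (hchk : stN R L W P S L' S' q4 T TE TV = true) : RegOK2 θ' L' (n + 1) S' := by
  intro κ h0 h d hd
  have hbig := big_aux2 hW _ _ big_num2
  exact stepR2 (q := 30) (qb' := 32) (p := 30) (p' := 30) (r := 30) (sh := 40) (n0 := W)
    (vb := 96) (tb := 36) (kn := 1) (kd := 2) (n := W + 1) (be := 84) (pb := 32) (pb' := 32)
    (e := 20) (s := 40)
    (by norm_num) (by norm_num) hP hP' le_rfl hT.t1 hT.t2 hT.t3 hT.t4 hT.t5 (by norm_num) hbig
    hLW rfl (by norm_num) (by norm_num) hR hR' (by norm_num)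
    ((isLaw_treeL h0 h (dary d n)).chL
      (aR_add_bR (kn := 1) (kd := 2) (by norm_num) (by norm_num)))
    (isLaw_treeL h0 h (dary d (n + 1)))
    (dary_dom4 (by norm_num) (by norm_num) (by norm_num) h0
      (show κ * ((2 : ℕ) : ℝ) ≤ ((1 : ℕ) : ℝ) by push_cast; linarith) hd n) (hS κ h0 h d hd)
    (stN_spec hchk)

/-- the bound on `M` from a state -/
theorem reg_M2 {θ : ℝ≥0} {P W L : ℕ} (hP : PT θ 30 32 P W) (hLW : L ≤ W) {n S : ℕ}
    (hS : RegOK2 θ L n S) {x : ℕ}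
    (hx : Nat.ble x (infoS 32 L 32 P S) = true) {κ : ℝ} (h0 : 0 ≤ κ) (h : κ ≤ 1 / 2) {d : ℕ}
    (hd : d ≤ 4) : Mtree 3 (-κ) (dary d n) ≤ (1 - (x : ℝ) / 2 ^ 60) * 4 := by
  have hM1 := Mtree_le_one (q := 3) (by norm_num) (lam := -κ) (by norm_num; linarith)
    (by linarith) (dary d n)
  have h1 := M_bound (kn := 1) (kd := 2) (by norm_num) (by norm_num) (by norm_num) (p := 30) hP
    hLW (isLaw_treeL h0 h (dary d n)) (hS κ h0 h d hd) hM1 (treeL_psiM h0 h _)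
  have h2 : (x : ℝ) ≤ (infoS 32 L 32 P S : ℝ) := by
    rw [Nat.ble_eq] at hx
    exact_mod_cast hx
  refine h1.trans ?_
  have h3 : (x : ℝ) / 2 ^ 60 ≤ (infoS 32 L 32 P S : ℝ) / 2 ^ (30 + 30) := by
    gcongr
  have h4 : (((2 : ℕ) : ℝ) / ((1 : ℕ) : ℝ)) ^ 2 = 4 := by norm_num
  rw [h4]
  linarith

end NC

end Vale.Agent.P154.DE
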