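import Vale.Agent.P154.DE.BoxR

/-!
# Regular trees: the bound
-/

namespace Vale.Agent.P154.DE

open Vale.Agent.P154.Up

theorem reg_bound {κ : ℝ} (h0 : 0 ≤ κ) (h : κ ≤ 1 / 2) {d : ℕ} (hd : d ≤ 4) :
    Mtree 3 (-κ) (dary d 190) ≤ 68 / 1000 :=
  (reg_bound2 h0 h hd).trans (by norm_num)

end Vale.Agent.P154.DE
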