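import Vale.Agent.P154.DE.Rows

/-!
# From the boolean checks to the semantic correctness of the tables
-/

namespace Vale.Agent.P154.DE

noncomputable section NC

open Finset Polynomial
open scoped ENNReal NNReal

/-- diagonal entry of the channel with eigenvalue `-kn/kd` -/
def aR (kn kd : ℕ) : ℝ≥0 := ((kd - 2 * kn : ℕ) : ℝ≥0) / (3 * kd)

/-- off-diagonal entry of the channel with eigenvalue `-kn/kd` -/
def bR (kn kd : ℕ) : ℝ≥0 := ((kd + kn : ℕ) : ℝ≥0) / (3 * kd)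

theorem aR_add_bR {kn kd : ℕ} (hkd : 0 < kd) (h : 2 * kn ≤ kd) :
    aR kn kd + 2 * bR kn kd = 1 := by
  unfold aR bR
  have h1 : (0 : ℝ≥0) < kd := by exact_mod_cast hkd
  rw [← mul_div_assoc, ← add_div, div_eq_one_iff_eq (by positivity)]
  have : (kd - 2 * kn) + 2 * (kd + kn) = 3 * kd := by omega
  exact_mod_cast this

theorem chV_apply3 (a b : ℝ≥0) (v : V) : chV a b v 0 = a * v 0 + b * (v 1 + v 2) ∧
    chV a b v 1 = a * v 1 + b * (v 0 + v 2) ∧ chV a b v 2 = a * v 2 + b * (v 0 + v 1) := by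
  refine ⟨?_, ?_, ?_⟩ <;> simp only [chV, Fin.sum_univ_three] <;> simp <;> ring

theorem ent_aux {kd q : ℕ} (hkd : 0 < kd) {X U : ℝ≥0} {r0 : ℕ} {ρ : ℝ≥0}
    (h1 : 2 ^ q * X ≤ U) (h2 : 18 * kd * U ≤ r0) (h3 : (r0 : ℝ≥0) ≤ 3 * kd * 2 ^ q * ρ) :
    6 * X ≤ ρ := by
  have hk : (0 : ℝ≥0) < kd := by exact_mod_cast hkd
  have hp : (0 : ℝ≥0) < 3 * kd * 2 ^ q := by positivity
  refine le_of_mul_le_mul_left ?_ hp
  calc 3 * kd * 2 ^ q * (6 * X) = 18 * kd * (2 ^ q * X) := by ring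
    _ ≤ 18 * kd * U := mul_le_mul_right h1 _
    _ ≤ r0 := h2
    _ ≤ _ := h3

theorem entOK_of_chk {θ : ℝ≥0} {q qb P L vb tb kd r0 r1 r2 u s1 t1 s2 t2 s3 t3 : ℕ} {ρ : V}
    {υ : ℝ≥0} (hkd : 0 < kd) (hP : PT θ q qb P L)
    (h : chkEnt qb P L vb tb (18 * kd) r0 r1 r2 s1 t1 s2 t2 s3 t3 = true)
    (h0 : (r0 : ℝ≥0) ≤ 3 * kd * 2 ^ q * ρ 0) (h1 : (r1 : ℝ≥0) ≤ 3 * kd * 2 ^ q * ρ 1)
    (h2 : (r2 : ℝ≥0) ≤ 3 * kd * 2 ^ q * ρ 2) (hu : υ ≤ u) (hub : u < 2 ^ tb) :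
    EntOK θ L vb tb ρ υ u s1 t1 s2 t2 s3 t3 := by
  unfold chkEnt at h
  simp only [Bool.and_eq_true, beq_iff_eq, Nat.ble_eq, Nat.blt_eq] at h
  obtain ⟨⟨d1, d2, d3⟩, ⟨k1, k2, k3⟩, ⟨b1, b2, b3⟩, g0, g1, g2⟩ := h
  refine ⟨d1, d2, d3, k1, k2, k3, hub, b1, b2, b3, ?_, hu⟩
  have key : ∀ (c : Fin 3) (rr : ℕ), 18 * kd * (t1 * ucomp qb P L (s1 / vb) c +
      (t2 * ucomp qb P L (s2 / vb) c + t3 * ucomp qb P L (s3 / vb) c)) ≤ rr →
      (rr : ℝ≥0) ≤ 3 * kd * 2 ^ q * ρ c → 6 * (t1 * rv θ L (s1 / vb) c +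
      (t2 * rv θ L (s2 / vb) c + t3 * rv θ L (s3 / vb) c)) ≤ ρ c := by
    intro c rr hr hρ
    refine ent_aux (q := q) (U := t1 * ucomp qb P L (s1 / vb) c +
      (t2 * ucomp qb P L (s2 / vb) c + t3 * ucomp qb P L (s3 / vb) c)) hkd ?_ ?_ hρ
    · have e1 := rv_le hP k1 c
      have e2 := rv_le hP k2 c
      have e3 := rv_le hP k3 c
      calc 2 ^ q * (t1 * rv θ L (s1 / vb) c + (t2 * rv θ L (s2 / vb) c +
          t3 * rv θ L (s3 / vb) c)) = t1 * (2 ^ q * rv θ L (s1 / vb) c) +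
          (t2 * (2 ^ q * rv θ L (s2 / vb) c) + t3 * (2 ^ q * rv θ L (s3 / vb) c)) := by ring
        _ ≤ _ := add_le_add (mul_le_mul_right e1 _) (add_le_add (mul_le_mul_right e2 _)
            (mul_le_mul_right e3 _))
    · exact_mod_cast hr
  intro c
  fin_cases c
  · exact key 0 r0 g0 h0
  · exact key 1 r1 g1 h1
  · exact key 2 r2 g2 h2

/-! ### rows of the table -/

/-- target of the splitting -/
def rhoV (θ : ℝ≥0) (kn kd r : ℕ) (a b : ℕ) : V :=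
  ((orb a b * 2 ^ r : ℕ) : ℝ≥0) • chV (aR kn kd) (bR kn kd) (vec3 θ a b)

/-- mass -/
def upsV (θ : ℝ≥0) (q : ℕ) (a b : ℕ) : ℝ≥0 := orb a b * (2 ^ q * tot (vec3 θ a b))

/-- target of the splitting, one colour excluded -/
def rhoE (θ : ℝ≥0) (kn kd r : ℕ) (a : ℕ) : V :=
  ((orbE a * 2 ^ r : ℕ) : ℝ≥0) • chV (aR kn kd) (bR kn kd) (vecE θ a)

/-- mass, one colour excluded -/
def upsE (θ : ℝ≥0) (q : ℕ) (a : ℕ) : ℝ≥0 := orbE a * (2 ^ q * tot (vecE θ a))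

theorem vec3_vals (θ : ℝ≥0) (a b : ℕ) : vec3 θ a b 0 = 1 ∧ vec3 θ a b 1 = θ ^ a ∧
    vec3 θ a b 2 = θ ^ b := by
  refine ⟨pwT_zero θ, ?_, ?_⟩
  · exact pwT_coe θ a
  · exact pwT_coe θ b

theorem vecE_vals (θ : ℝ≥0) (a : ℕ) : vecE θ a 0 = 1 ∧ vecE θ a 1 = θ ^ a ∧
    vecE θ a 2 = 0 := by
  refine ⟨pwT_zero θ, ?_, ?_⟩
  · exact pwT_coe θ a
  · exact pwT_top θ

theorem chl_le {kn kd q x y z : ℕ} {vx vy vz : ℝ≥0} (hkd : 0 < kd)
    (hx : (x : ℝ≥0) ≤ 2 ^ q * vx) (hy : (y : ℝ≥0) ≤ 2 ^ q * vy) (hz : (z : ℝ≥0) ≤ 2 ^ q * vz)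
    {s : ℕ} (hs : s - x = y + z) :
    (chl kn kd x s : ℝ≥0) ≤ 3 * kd * 2 ^ q * (aR kn kd * vx + bR kn kd * (vy + vz)) := by
  have hk : (kd : ℝ≥0) ≠ 0 := by exact_mod_cast hkd.ne'
  unfold chl
  rw [hs]
  unfold aR bR
  push_cast
  have e : 3 * (kd : ℝ≥0) * 2 ^ q * (((kd - 2 * kn : ℕ) : ℝ≥0) / (3 * kd) * vx +
      ((kd : ℝ≥0) + kn) / (3 * kd) * (vy + vz)) =
      ((kd - 2 * kn : ℕ) : ℝ≥0) * (2 ^ q * vx) + ((kd : ℝ≥0) + kn) *
        (2 ^ q * vy + 2 ^ q * vz) := by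
    field_simp
  push_cast at e
  rw [e]
  exact add_le_add (mul_le_mul_right hx _) (mul_le_mul_right (add_le_add hy hz) _)

theorem scale_le {m kd q c : ℕ} {ρ : ℝ≥0} (h : (c : ℝ≥0) ≤ 3 * kd * 2 ^ q * ρ) :
    ((m * c : ℕ) : ℝ≥0) ≤ 3 * kd * 2 ^ q * ((m : ℝ≥0) * ρ) := by
  push_cast
  calc (m : ℝ≥0) * c ≤ m * (3 * kd * 2 ^ q * ρ) := mul_le_mul_right h _
    _ = _ := by ring

theorem rowOK_of_chk {θ θ0 : ℝ≥0} {q qb P L vb tb kn kd r qb0 P0 n0 : ℕ} (hkd : 0 < kd)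
    (hP : PT θ q qb P L) (hP0 : PT θ0 q qb0 P0 n0) {a : ℕ} (ha : a ≤ n0) :
    (rw : Row) → (b : ℕ) → b + rw.len ≤ n0 + 1 →
    chkRow qb P L vb tb kn kd r qb0 P0 a rw b = true →
    RowOK θ L vb tb (rhoV θ0 kn kd r a) (upsV θ0 q a) rw b
  | .nil, _, _, _ => trivial
  | .cons u s1 t1 s2 t2 s3 t3 l, b, hb, h => by
      rw [Row.len] at hb
      rw [chkRow] at h
      simp only [Bool.and_eq_true, Nat.ble_eq, Nat.blt_eq] at h
      obtain ⟨⟨h1, h2, h3⟩, h4⟩ := h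
      refine ⟨?_, rowOK_of_chk hkd hP hP0 ha l (b + 1) (by omega) h4⟩
      obtain ⟨v0, v1, v2⟩ := vec3_vals θ0 a b
      obtain ⟨c0, c1, c2⟩ := chV_apply3 (aR kn kd) (bR kn kd) (vec3 θ0 a b)
      have p0 := hP0 0 (by omega)
      have pa := hP0 a ha
      have pb := hP0 b (by omega)
      refine entOK_of_chk hkd hP h1 ?_ ?_ ?_ ?_ h3
      · refine scale_le (?_ : _ ≤ 3 * (kd : ℝ≥0) * 2 ^ q *
          (chV (aR kn kd) (bR kn kd) (vec3 θ0 a b) 0))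
        rw [c0]
        refine chl_le hkd ?_ ?_ ?_ (y := dg qb0 P0 a) (z := dg qb0 P0 b) (by omega)
        · rw [v0]; simpa using p0.1
        · rw [v1]; exact pa.1
        · rw [v2]; exact pb.1
      · refine scale_le (?_ : _ ≤ 3 * (kd : ℝ≥0) * 2 ^ q *
          (chV (aR kn kd) (bR kn kd) (vec3 θ0 a b) 1))
        rw [c1]
        refine chl_le hkd ?_ ?_ ?_ (y := dg qb0 P0 0) (z := dg qb0 P0 b) (by omega)
        · rw [v1]; exact pa.1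
        · rw [v0]; simpa using p0.1
        · rw [v2]; exact pb.1
      · refine scale_le (?_ : _ ≤ 3 * (kd : ℝ≥0) * 2 ^ q *
          (chV (aR kn kd) (bR kn kd) (vec3 θ0 a b) 2))
        rw [c2]
        refine chl_le hkd ?_ ?_ ?_ (y := dg qb0 P0 0) (z := dg qb0 P0 a) (by omega)
        · rw [v2]; exact pb.1
        · rw [v0]; simpa using p0.1
        · rw [v1]; exact pa.1
      · have h2' : ((orb a b * (Uq qb0 P0 0 + Uq qb0 P0 a + Uq qb0 P0 b) : ℕ) : ℝ≥0) ≤ u := by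
          exact_mod_cast h2
        refine le_trans ?_ h2'
        unfold upsV tot
        rw [Fin.sum_univ_three, v0, v1, v2]
        push_cast
        refine mul_le_mul_right ?_ _
        rw [mul_add, mul_add]
        refine add_le_add (add_le_add ?_ pa.2) pb.2
        simpa using p0.2

theorem rowEOK_of_chk {θ θ0 : ℝ≥0} {q qb P L vb tb kn kd r qb0 P0 n0 : ℕ} (hkd : 0 < kd)
    (hP : PT θ q qb P L) (hP0 : PT θ0 q qb0 P0 n0) :
    (rw : Row) → (a : ℕ) → a + rw.len ≤ n0 + 1 →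
    chkRowE qb P L vb tb kn kd r qb0 P0 rw a = true →
    RowOK θ L vb tb (rhoE θ0 kn kd r) (upsE θ0 q) rw a
  | .nil, _, _, _ => trivial
  | .cons u s1 t1 s2 t2 s3 t3 l, a, hb, h => by
      rw [Row.len] at hb
      rw [chkRowE] at h
      simp only [Bool.and_eq_true, Nat.ble_eq, Nat.blt_eq] at h
      obtain ⟨⟨h1, h2, h3⟩, h4⟩ := h
      refine ⟨?_, rowEOK_of_chk hkd hP hP0 l (a + 1) (by omega) h4⟩
      obtain ⟨v0, v1, v2⟩ := vecE_vals θ0 a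
      obtain ⟨c0, c1, c2⟩ := chV_apply3 (aR kn kd) (bR kn kd) (vecE θ0 a)
      have p0 := hP0 0 (by omega)
      have pa := hP0 a (by omega)
      refine entOK_of_chk hkd hP h1 ?_ ?_ ?_ ?_ h3
      · refine scale_le (?_ : _ ≤ 3 * (kd : ℝ≥0) * 2 ^ q *
          (chV (aR kn kd) (bR kn kd) (vecE θ0 a) 0))
        rw [c0]
        refine chl_le hkd ?_ ?_ ?_ (y := dg qb0 P0 a) (z := 0) (by omega)
        · rw [v0]; simpa using p0.1
        · rw [v1]; exact pa.1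
        · simp
      · refine scale_le (?_ : _ ≤ 3 * (kd : ℝ≥0) * 2 ^ q *
          (chV (aR kn kd) (bR kn kd) (vecE θ0 a) 1))
        rw [c1]
        refine chl_le hkd ?_ ?_ ?_ (y := dg qb0 P0 0) (z := 0) (by omega)
        · rw [v1]; exact pa.1
        · rw [v0]; simpa using p0.1
        · simp
      · refine scale_le (?_ : _ ≤ 3 * (kd : ℝ≥0) * 2 ^ q *
          (chV (aR kn kd) (bR kn kd) (vecE θ0 a) 2))
        rw [c2]
        refine chl_le hkd ?_ ?_ ?_ (y := dg qb0 P0 0) (z := dg qb0 P0 a) (by omega)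
        · simp
        · rw [v0]; simpa using p0.1
        · rw [v1]; exact pa.1
      · have h2' : ((orbE a * (Uq qb0 P0 0 + Uq qb0 P0 a) : ℕ) : ℝ≥0) ≤ u := by
          exact_mod_cast h2
        refine le_trans ?_ h2'
        unfold upsE tot
        rw [Fin.sum_univ_three, v0, v1, v2]
        push_cast
        refine mul_le_mul_right ?_ _
        rw [add_zero, mul_add]
        refine add_le_add ?_ pa.2
        simpa using p0.2

theorem rowVOK_of_chk {θ : ℝ≥0} {q qb P L vb tb kn kd r : ℕ} (hkd : 0 < kd)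
    (hP : PT θ q qb P L) (rw : Row) (h : chkRowV qb P L vb tb kn kd r q rw = true) :
    RowOK θ L vb tb (fun _ => ((2 ^ r : ℕ) : ℝ≥0) • chV (aR kn kd) (bR kn kd) (ev 0))
      (fun _ => 0) rw 0 ∧ rw.len = 1 := by
  match rw, h with
  | .cons u s1 t1 s2 t2 s3 t3 .nil, h =>
    rw [chkRowV] at h
    simp only [Bool.and_eq_true, beq_iff_eq] at h
    obtain ⟨h1, h2⟩ := h
    refine ⟨⟨?_, trivial⟩, rfl⟩
    obtain ⟨c0, c1, c2⟩ := chV_apply3 (aR kn kd) (bR kn kd) (ev 0)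
    have v0 : ev 0 0 = 1 := rfl
    have v1 : ev 0 1 = 0 := rfl
    have v2 : ev 0 2 = 0 := rfl
    refine entOK_of_chk hkd hP h1 ?_ ?_ ?_ zero_le (by rw [h2]; positivity)
    · refine scale_le (?_ : _ ≤ 3 * (kd : ℝ≥0) * 2 ^ q * (chV (aR kn kd) (bR kn kd) (ev 0) 0))
      rw [c0, v0, v1, v2]
      refine chl_le hkd ?_ ?_ ?_ (y := 0) (z := 0) (by omega) <;> simp
    · refine scale_le (?_ : _ ≤ 3 * (kd : ℝ≥0) * 2 ^ q * (chV (aR kn kd) (bR kn kd) (ev 0) 1))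
      rw [c1, v0, v1, v2]
      refine chl_le hkd ?_ ?_ ?_ (y := 2 ^ q) (z := 0) (by simp) <;> simp
    · refine scale_le (?_ : _ ≤ 3 * (kd : ℝ≥0) * 2 ^ q * (chV (aR kn kd) (bR kn kd) (ev 0) 2))
      rw [c2, v0, v1, v2]
      refine chl_le hkd ?_ ?_ ?_ (y := 2 ^ q) (z := 0) (by simp) <;> simp

end NC

end Vale.Agent.P154.DE
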