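import Vale.Agent.P154.DE.Sector
import Vale.Agent.P154.DE.Check

/-!
# Soundness of the splitting tables
-/

namespace Vale.Agent.P154.DE

noncomputable section NC

open Finset Polynomial
open scoped ENNReal NNReal

/-! ### elementary facts on the integer side -/

theorem dg_eq (w N k : ℕ) : dg w N k = N / 2 ^ (w * k) % 2 ^ w := by
  unfold dg
  rw [Nat.shiftRight_eq_div_pow]

theorem dg_lt (w N k : ℕ) : dg w N k < 2 ^ w := Nat.mod_lt _ (by positivity)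

theorem force_eq {α : Type} (n : ℕ) (f : ℕ → α) : force n f = f n := by
  cases n <;> rfl

theorem sumR_eq (f : ℕ → ℕ) (n : ℕ) : sumR f n = ∑ i ∈ range n, f i := by
  induction n with
  | zero => rfl
  | succ n ih => rw [sumR, ih, Finset.sum_range_succ]

theorem orbN_eq (a b : ℕ) : orbN a b = orb a b := rfl

theorem orbEN_eq (a : ℕ) : orbEN a = orbE a := rfl

/-! ### vectors of the state -/

/-- exponents of the lattice vector number `k` -/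
def xk (L k : ℕ) : Expo :=
  if k = (L + 1) * (L + 1) then ![0, 0, ⊤]
  else ![0, ((k % (L + 1) : ℕ) : ℕ∞), ((k / (L + 1) : ℕ) : ℕ∞)]

/-- the number of state slots -/
def nS (L : ℕ) : ℕ := (L + 1) * (L + 1) + 1

/-- the table of powers is correct up to `n` -/
def PT (θ : ℝ≥0) (q qb P n : ℕ) : Prop :=
  ∀ e ≤ n, (dg qb P e : ℝ≥0) ≤ 2 ^ q * θ ^ e ∧ 2 ^ q * θ ^ e ≤ (Uq qb P e : ℝ≥0)

theorem PT_of_chk {qb P q tn td n : ℕ} (htd : 0 < td) (h : chkP qb P q tn td n = true) :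
    PT ((tn : ℝ≥0) / td) q qb P n := by
  have htd' : (0 : ℝ≥0) < td := by exact_mod_cast htd
  induction n with
  | zero =>
    intro e he
    obtain rfl : e = 0 := by omega
    simp only [chkP, Bool.and_eq_true, Nat.ble_eq] at h
    simp only [pow_zero, mul_one]
    constructor
    · exact_mod_cast h.1
    · unfold Uq
      exact_mod_cast h.2
  | succ n ih =>
    simp only [chkP, Bool.and_eq_true, Nat.ble_eq] at h
    intro e he
    rcases Nat.lt_or_ge e (n + 1) with h1 | h1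
    · exact ih h.2 e (by omega)
    · obtain rfl : e = n + 1 := by omega
      have hp : (0 : ℝ≥0) < (td : ℝ≥0) ^ (n + 1) := by positivity
      rw [div_pow, ← mul_div_assoc]
      constructor
      · rw [le_div_iff₀ hp]
        exact_mod_cast h.1.1
      · rw [div_le_iff₀ hp]
        unfold Uq
        exact_mod_cast h.1.2

theorem swap02_vals : (Equiv.swap (0 : Fin 3) 2) 0 = 2 ∧ (Equiv.swap (0 : Fin 3) 2) 1 = 1 ∧
    (Equiv.swap (0 : Fin 3) 2) 2 = 0 := by decide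

/-- the reversed lattice vector -/
def rv (θ : ℝ≥0) (L k : ℕ) : V := fun i => pwV θ (xk L k) (Equiv.swap 0 2 i)

theorem rv_le {θ : ℝ≥0} {q qb P L k : ℕ} (hP : PT θ q qb P L) (hk : k ≤ (L + 1) * (L + 1))
    (c : Fin 3) : 2 ^ q * rv θ L k c ≤ (ucomp qb P L k c : ℝ≥0) := by
  have h0 := (hP 0 (by omega)).2
  rw [pow_zero, mul_one] at h0
  by_cases h1 : k = (L + 1) * (L + 1)
  · have e : xk L k = ![0, 0, ⊤] := by
      unfold xk
      rw [if_pos h1]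
    unfold rv ucomp pwV
    rw [e, if_pos h1]
    fin_cases c
    · show 2 ^ q * pwT θ (![0, 0, ⊤] (Equiv.swap (0 : Fin 3) 2 0) : ℕ∞) ≤
        (((if (0 : ℕ) = 0 then 0 else Uq qb P 0 : ℕ)) : ℝ≥0)
      rw [swap02_vals.1]
      simp [pwT_top]
    · show 2 ^ q * pwT θ (![0, 0, ⊤] (Equiv.swap (0 : Fin 3) 2 1) : ℕ∞) ≤
        (((if (1 : ℕ) = 0 then 0 else Uq qb P 0 : ℕ)) : ℝ≥0)
      rw [swap02_vals.2.1]
      simpa [pwT_zero] using h0
    · show 2 ^ q * pwT θ (![0, 0, ⊤] (Equiv.swap (0 : Fin 3) 2 2) : ℕ∞) ≤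
        (((if (2 : ℕ) = 0 then 0 else Uq qb P 0 : ℕ)) : ℝ≥0)
      rw [swap02_vals.2.2]
      simpa [pwT_zero] using h0
  · have e : xk L k = ![0, ((k % (L + 1) : ℕ) : ℕ∞), ((k / (L + 1) : ℕ) : ℕ∞)] := by
      unfold xk
      rw [if_neg h1]
    have hk' : k / (L + 1) ≤ L := by
      have : k / (L + 1) < L + 1 := by
        rw [Nat.div_lt_iff_lt_mul (by omega)]
        omega
      omega
    have hm' : k % (L + 1) ≤ L := by
      have := Nat.mod_lt k (show 0 < L + 1 by omega)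
      omega
    unfold rv ucomp pwV
    rw [e, if_neg h1]
    fin_cases c
    · show 2 ^ q * pwT θ (![0, ((k % (L + 1) : ℕ) : ℕ∞), ((k / (L + 1) : ℕ) : ℕ∞)]
        (Equiv.swap (0 : Fin 3) 2 0) : ℕ∞) ≤ ((Uq qb P (k / (L + 1)) : ℕ) : ℝ≥0)
      rw [swap02_vals.1]
      have := (hP _ hk').2
      simpa [pwT_coe] using this
    · show 2 ^ q * pwT θ (![0, ((k % (L + 1) : ℕ) : ℕ∞), ((k / (L + 1) : ℕ) : ℕ∞)]
        (Equiv.swap (0 : Fin 3) 2 1) : ℕ∞) ≤ ((Uq qb P (k % (L + 1)) : ℕ) : ℝ≥0)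
      rw [swap02_vals.2.1]
      have := (hP _ hm').2
      simpa [pwT_coe] using this
    · show 2 ^ q * pwT θ (![0, ((k % (L + 1) : ℕ) : ℕ∞), ((k / (L + 1) : ℕ) : ℕ∞)]
        (Equiv.swap (0 : Fin 3) 2 2) : ℕ∞) ≤ ((Uq qb P 0 : ℕ) : ℝ≥0)
      rw [swap02_vals.2.2]
      simpa [pwT_zero] using h0

/-- value of a symmetric test function at the lattice vectors -/
def val (θ : ℝ≥0) (L : ℕ) (ψ : V → ℝ≥0) (k : ℕ) : ℝ≥0 := ψ (pwV θ (xk L k))

theorem val_rv {θ : ℝ≥0} {L : ℕ} {ψ : V → ℝ≥0} (hs : SymF ψ) (k : ℕ) :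
    ψ (rv θ L k) = val θ L ψ k := hs (Equiv.swap 0 2) _

/-! ### entries -/

/-- generating polynomial of an entry -/
def entP (vb sT u s1 t1 s2 t2 s3 t3 : ℕ) : ℕ[X] :=
  C u * X ^ (sT / vb) + (C t1 * X ^ (s1 / vb) + (C t2 * X ^ (s2 / vb) + C t3 * X ^ (s3 / vb)))

/-- generating polynomial of a row -/
def rowP (be vb sT : ℕ) : Row → ℕ → ℕ[X]
  | .nil, _ => 0
  | .cons u s1 t1 s2 t2 s3 t3 l, row =>
    C (row % 2 ^ be) * entP vb sT u s1 t1 s2 t2 s3 t3 + rowP be vb sT l (row >>> be)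

/-- linear functional of the generating polynomial -/
def Sf (θ : ℝ≥0) (L : ℕ) (ψ : V → ℝ≥0) (p : ℕ[X]) : ℝ≥0 :=
  ∑ k ∈ range (nS L), (p.coeff k : ℝ≥0) * val θ L ψ k

theorem Sf_add (θ : ℝ≥0) (L : ℕ) (ψ : V → ℝ≥0) (p p' : ℕ[X]) :
    Sf θ L ψ (p + p') = Sf θ L ψ p + Sf θ L ψ p' := by
  unfold Sf
  rw [← Finset.sum_add_distrib]
  refine Finset.sum_congr rfl fun k _ => ?_
  rw [coeff_add]
  push_cast
  ring

theorem Sf_C_mul (θ : ℝ≥0) (L : ℕ) (ψ : V → ℝ≥0) (a : ℕ) (p : ℕ[X]) :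
    Sf θ L ψ (C a * p) = a * Sf θ L ψ p := by
  unfold Sf
  rw [Finset.mul_sum]
  refine Finset.sum_congr rfl fun k _ => ?_
  rw [coeff_C_mul]
  push_cast
  ring

theorem Sf_zero (θ : ℝ≥0) (L : ℕ) (ψ : V → ℝ≥0) : Sf θ L ψ 0 = 0 := by
  unfold Sf
  simp

theorem Sf_mono (θ : ℝ≥0) (L : ℕ) (ψ : V → ℝ≥0) (t k : ℕ) :
    Sf θ L ψ (C t * X ^ k) = if k < nS L then (t : ℝ≥0) * val θ L ψ k else 0 := by
  rw [Sf_C_mul]
  unfold Sf
  simp only [coeff_X_pow]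
  split_ifs with h
  · congr 1
    rw [Finset.sum_eq_single k]
    · simp
    · intro j _ hj
      simp [hj]
    · intro h'
      exact absurd (Finset.mem_range.mpr h) h'
  · rw [Finset.sum_eq_zero, mul_zero]
    intro j hj
    rw [Finset.mem_range] at hj
    have : j ≠ k := by omega
    simp [this]

/-- semantic correctness of an entry for the target `ρ` and the mass `υ` -/
structure EntOK (θ : ℝ≥0) (L vb tb : ℕ) (ρ : V) (υ : ℝ≥0) (u s1 t1 s2 t2 s3 t3 : ℕ) : Prop where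
  d1 : vb * (s1 / vb) = s1
  d2 : vb * (s2 / vb) = s2
  d3 : vb * (s3 / vb) = s3
  k1 : s1 / vb ≤ (L + 1) * (L + 1)
  k2 : s2 / vb ≤ (L + 1) * (L + 1)
  k3 : s3 / vb ≤ (L + 1) * (L + 1)
  u0 : u < 2 ^ tb
  b1 : t1 < 2 ^ tb
  b2 : t2 < 2 ^ tb
  b3 : t3 < 2 ^ tb
  tgt : ∀ c : Fin 3, 6 * (t1 * rv θ L (s1 / vb) c + (t2 * rv θ L (s2 / vb) c +
    t3 * rv θ L (s3 / vb) c)) ≤ ρ c
  mas : υ ≤ u

theorem EntOK.Sf_le {θ : ℝ≥0} {L vb tb sT : ℕ} {ρ : V} {υ : ℝ≥0} {u s1 t1 s2 t2 s3 t3 : ℕ}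
    (h : EntOK θ L vb tb ρ υ u s1 t1 s2 t2 s3 t3) (hT : sT / vb = nS L) {ψ : V → ℝ≥0}
    (hψ : Psi ψ) (hs : SymF ψ) :
    6 * Sf θ L ψ (entP vb sT u s1 t1 s2 t2 s3 t3) ≤ ψ ρ := by
  unfold entP
  rw [Sf_add, Sf_add, Sf_add, Sf_mono, Sf_mono, Sf_mono, Sf_mono, hT, if_neg (lt_irrefl _),
    if_pos (by unfold nS; have := h.k1; omega), if_pos (by unfold nS; have := h.k2; omega),
    if_pos (by unfold nS; have := h.k3; omega), zero_add]
  set w : V := (6 : ℝ≥0) • ((t1 : ℝ≥0) • rv θ L (s1 / vb) + ((t2 : ℝ≥0) • rv θ L (s2 / vb) +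
    (t3 : ℝ≥0) • rv θ L (s3 / vb))) with hw
  have h1 : w ≤ ρ := fun c => h.tgt c
  refine le_trans ?_ (hψ.mono h1)
  rw [hw, hψ.hom]
  refine mul_le_mul_right ?_ _
  refine le_trans ?_ (hψ.super _ _)
  rw [hψ.hom, val_rv hs]
  refine add_le_add_right ?_ _
  refine le_trans ?_ (hψ.super _ _)
  rw [hψ.hom, hψ.hom, val_rv hs, val_rv hs]

theorem EntOK.ev {θ : ℝ≥0} {L vb tb sT : ℕ} {ρ : V} {υ : ℝ≥0} {u s1 t1 s2 t2 s3 t3 : ℕ}
    (h : EntOK θ L vb tb ρ υ u s1 t1 s2 t2 s3 t3) (hT : vb * (sT / vb) = sT) :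
    ev1 vb (entP vb sT u s1 t1 s2 t2 s3 t3) =
      u <<< sT + (t1 <<< s1 + (t2 <<< s2 + t3 <<< s3)) := by
  unfold entP
  rw [ev1_apply]
  simp only [eval_add, eval_mul, eval_C, eval_pow, eval_X, ← pow_mul, hT, h.d1, h.d2, h.d3,
    Nat.shiftLeft_eq]

theorem coeff_CX (t k j : ℕ) : (C t * X ^ k : ℕ[X]).coeff j ≤ t := by
  rw [coeff_C_mul, coeff_X_pow]
  split_ifs <;> simp

theorem EntOK.coeff_le {θ : ℝ≥0} {L vb tb sT : ℕ} {ρ : V} {υ : ℝ≥0} {u s1 t1 s2 t2 s3 t3 : ℕ}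
    (h : EntOK θ L vb tb ρ υ u s1 t1 s2 t2 s3 t3) (j : ℕ) :
    (entP vb sT u s1 t1 s2 t2 s3 t3).coeff j ≤ 4 * 2 ^ tb := by
  unfold entP
  rw [coeff_add, coeff_add, coeff_add]
  have := coeff_CX u (sT / vb) j
  have := coeff_CX t1 (s1 / vb) j
  have := coeff_CX t2 (s2 / vb) j
  have := coeff_CX t3 (s3 / vb) j
  have := h.u0
  have := h.b1
  have := h.b2
  have := h.b3
  omega

theorem EntOK.mass_le {θ : ℝ≥0} {L vb tb sT : ℕ} {ρ : V} {υ : ℝ≥0} {u s1 t1 s2 t2 s3 t3 : ℕ}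
    (h : EntOK θ L vb tb ρ υ u s1 t1 s2 t2 s3 t3) :
    υ ≤ ((entP vb sT u s1 t1 s2 t2 s3 t3).coeff (sT / vb) : ℝ≥0) := by
  refine h.mas.trans ?_
  unfold entP
  rw [coeff_add, coeff_C_mul, coeff_X_pow, if_pos rfl, mul_one]
  push_cast
  exact le_self_add

/-! ### rows -/

/-- semantic correctness of a row -/
def RowOK (θ : ℝ≥0) (L vb tb : ℕ) (ρ : ℕ → V) (υ : ℕ → ℝ≥0) : Row → ℕ → Prop
  | .nil, _ => True
  | .cons u s1 t1 s2 t2 s3 t3 l, b =>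
    EntOK θ L vb tb (ρ b) (υ b) u s1 t1 s2 t2 s3 t3 ∧ RowOK θ L vb tb ρ υ l (b + 1)

theorem rowLoop_eq {θ : ℝ≥0} {L vb tb sT be : ℕ} {ρ : ℕ → V} {υ : ℕ → ℝ≥0}
    (hT : vb * (sT / vb) = sT) : (rw : Row) → (b : ℕ) → RowOK θ L vb tb ρ υ rw b →
    (row : ℕ) → (p : ℕ[X]) →
    rowLoop be sT rw row (ev1 vb p) = ev1 vb (p + rowP be vb sT rw row)
  | .nil, _, _, row, p => by
      simp [rowLoop, rowP]
  | .cons u s1 t1 s2 t2 s3 t3 l, b, h, row, p => by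
      rw [rowLoop, rowP]
      have e : ev1 vb p + row % 2 ^ be * (u <<< sT + (t1 <<< s1 + (t2 <<< s2 + t3 <<< s3))) =
          ev1 vb (p + C (row % 2 ^ be) * entP vb sT u s1 t1 s2 t2 s3 t3) := by
        rw [map_add, map_mul, h.1.ev hT]
        congr 2
        rw [ev1_apply, eval_C]
      rw [e, rowLoop_eq hT l (b + 1) h.2, add_assoc]

theorem rowP_coeff_le {θ : ℝ≥0} {L vb tb sT be : ℕ} {ρ : ℕ → V} {υ : ℕ → ℝ≥0} :
    (rw : Row) → (b : ℕ) → RowOK θ L vb tb ρ υ rw b → (row : ℕ) → (j : ℕ) →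
    (rowP be vb sT rw row).coeff j ≤ rw.len * (2 ^ be * (4 * 2 ^ tb))
  | .nil, _, _, row, j => by simp [rowP]
  | .cons u s1 t1 s2 t2 s3 t3 l, b, h, row, j => by
      rw [rowP, coeff_add, coeff_C_mul, Row.len]
      have h1 := h.1.coeff_le (sT := sT) j
      have h2 := rowP_coeff_le (sT := sT) (be := be) l (b + 1) h.2 (row >>> be) j
      have h3 : row % 2 ^ be ≤ 2 ^ be := (Nat.mod_lt _ (by positivity)).le
      calc _ ≤ 2 ^ be * (4 * 2 ^ tb) + l.len * (2 ^ be * (4 * 2 ^ tb)) :=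
            add_le_add (Nat.mul_le_mul h3 h1) h2
        _ = _ := by ring

theorem rowP_Sf_le {θ : ℝ≥0} {L vb tb sT be : ℕ} {ρ : ℕ → V} {υ : ℕ → ℝ≥0}
    (hT : sT / vb = nS L) {ψ : V → ℝ≥0} (hψ : Psi ψ) (hs : SymF ψ) :
    (rw : Row) → (b : ℕ) → RowOK θ L vb tb ρ υ rw b → (row : ℕ) →
    6 * Sf θ L ψ (rowP be vb sT rw row) ≤
      ∑ t ∈ range rw.len, ((row / 2 ^ (be * t) % 2 ^ be : ℕ) : ℝ≥0) * ψ (ρ (b + t))
  | .nil, _, _, row => by simp [rowP, Sf_zero, Row.len]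
  | .cons u s1 t1 s2 t2 s3 t3 l, b, h, row => by
      rw [rowP, Sf_add, Sf_C_mul, Row.len, Finset.sum_range_succ', mul_add]
      have h1 := h.1.Sf_le hT hψ hs
      have h2 := rowP_Sf_le (sT := sT) (be := be) hT hψ hs l (b + 1) h.2 (row >>> be)
      rw [add_comm]
      refine add_le_add ?_ ?_
      · refine h2.trans (le_of_eq ?_)
        refine Finset.sum_congr rfl fun t _ => ?_
        rw [Nat.shiftRight_eq_div_pow, Nat.div_div_eq_div_mul, ← pow_add]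
        congr 2
        · congr 3
          ring
        · congr 1
          ring
      · simp only [mul_zero, pow_zero, Nat.div_one, add_zero]
        calc 6 * (((row % 2 ^ be : ℕ) : ℝ≥0) * Sf θ L ψ (entP vb sT u s1 t1 s2 t2 s3 t3))
            = ((row % 2 ^ be : ℕ) : ℝ≥0) * (6 * Sf θ L ψ (entP vb sT u s1 t1 s2 t2 s3 t3)) := by
              ring
          _ ≤ _ := mul_le_mul_right h1 _

theorem rowP_mass_le {θ : ℝ≥0} {L vb tb sT be : ℕ} {ρ : ℕ → V} {υ : ℕ → ℝ≥0} :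
    (rw : Row) → (b : ℕ) → RowOK θ L vb tb ρ υ rw b → (row : ℕ) →
    ∑ t ∈ range rw.len, ((row / 2 ^ (be * t) % 2 ^ be : ℕ) : ℝ≥0) * υ (b + t) ≤
      ((rowP be vb sT rw row).coeff (sT / vb) : ℝ≥0)
  | .nil, _, _, row => by simp [rowP, Row.len]
  | .cons u s1 t1 s2 t2 s3 t3 l, b, h, row => by
      rw [rowP, coeff_add, coeff_C_mul, Row.len, Finset.sum_range_succ', Nat.cast_add,
        Nat.cast_mul]
      have h1 := h.1.mass_le (sT := sT)
      have h2 := rowP_mass_le (sT := sT) (be := be) l (b + 1) h.2 (row >>> be)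
      rw [add_comm (((row % 2 ^ be : ℕ) : ℝ≥0) * _)]
      refine add_le_add ?_ ?_
      · refine le_trans (le_of_eq ?_) h2
        refine Finset.sum_congr rfl fun t _ => ?_
        rw [Nat.shiftRight_eq_div_pow, Nat.div_div_eq_div_mul, ← pow_add]
        congr 2
        · congr 3
          ring
        · ring
      · simp only [mul_zero, pow_zero, Nat.div_one, add_zero]
        exact mul_le_mul_right h1 _

end NC

end Vale.Agent.P154.DE
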