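import Vale.Agent.P154.DE.Arr

/-!
# Reading a symmetric sub-law in the fundamental sector
-/

namespace Vale.Agent.P154.DE

noncomputable section NC

open Finset
open scoped ENNReal NNReal

theorem univ_perm3 : (Finset.univ : Finset (Equiv.Perm (Fin 3))) =
    {1, Equiv.swap 0 1, Equiv.swap 0 2, Equiv.swap 1 2, finRotate 3, (finRotate 3)⁻¹} := by
  decide

theorem sum_perm3 {M : Type*} [AddCommMonoid M] (F : Equiv.Perm (Fin 3) → M) :
    ∑ g, F g = F 1 + (F (Equiv.swap 0 1) + (F (Equiv.swap 0 2) + (F (Equiv.swap 1 2) +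
      (F (finRotate 3) + F (finRotate 3)⁻¹)))) := by
  rw [univ_perm3, Finset.sum_insert (by decide), Finset.sum_insert (by decide),
    Finset.sum_insert (by decide), Finset.sum_insert (by decide), Finset.sum_insert (by decide),
    Finset.sum_singleton]

/-- sorted exponents -/
def srt (x : Expo) : Prop := x 0 ≤ x 1 ∧ x 1 ≤ x 2

open Classical in
/-- indicator -/
def ind (p : Prop) : ℕ := if p then 1 else 0

theorem ind_eq (p : Prop) [Decidable p] : ind p = if p then 1 else 0 := by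
  unfold ind
  congr

/-- number of relabellings that sort -/
def nst (x : Expo) : ℕ := ∑ g : Equiv.Perm (Fin 3), ind (srt (fun i => x (g i)))

theorem nst_perm (h : Equiv.Perm (Fin 3)) (x : Expo) : nst (fun i => x (h i)) = nst x := by
  unfold nst
  refine Fintype.sum_equiv (Equiv.mulLeft h) _ _ fun g => ?_
  rfl

theorem perm_vals : (Equiv.swap (0 : Fin 3) 1) 0 = 1 ∧ (Equiv.swap (0 : Fin 3) 1) 1 = 0 ∧
    (Equiv.swap (0 : Fin 3) 1) 2 = 2 ∧ (Equiv.swap (0 : Fin 3) 2) 0 = 2 ∧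
    (Equiv.swap (0 : Fin 3) 2) 1 = 1 ∧ (Equiv.swap (0 : Fin 3) 2) 2 = 0 ∧
    (Equiv.swap (1 : Fin 3) 2) 0 = 0 ∧ (Equiv.swap (1 : Fin 3) 2) 1 = 2 ∧
    (Equiv.swap (1 : Fin 3) 2) 2 = 1 ∧ (finRotate 3) 0 = 1 ∧ (finRotate 3) 1 = 2 ∧
    (finRotate 3) 2 = 0 ∧ (finRotate 3)⁻¹ (0 : Fin 3) = 2 ∧ (finRotate 3)⁻¹ (1 : Fin 3) = 0 ∧
    (finRotate 3)⁻¹ (2 : Fin 3) = 1 := by decide

theorem nst_eq (x : Expo) : nst x =
    ind (x 0 ≤ x 1 ∧ x 1 ≤ x 2) + (ind (x 1 ≤ x 0 ∧ x 0 ≤ x 2) +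
    (ind (x 2 ≤ x 1 ∧ x 1 ≤ x 0) + (ind (x 0 ≤ x 2 ∧ x 2 ≤ x 1) +
    (ind (x 1 ≤ x 2 ∧ x 2 ≤ x 0) + ind (x 2 ≤ x 0 ∧ x 0 ≤ x 1))))) := by
  unfold nst srt
  rw [sum_perm3]
  obtain ⟨h1, h2, h3, h4, h5, h6, h7, h8, h9, h10, h11, h12, h13, h14, h15⟩ := perm_vals
  simp only [h1, h2, h3, h4, h5, h6, h7, h8, h9, h10, h11, h12, h13, h14, h15,
    Equiv.Perm.coe_one, id_eq]

theorem nst_pos (x : Expo) : 0 < nst x := by
  rw [nst_eq]
  rcases le_total (x 0) (x 1) with h1 | h1 <;> rcases le_total (x 1) (x 2) with h2 | h2 <;>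
    rcases le_total (x 0) (x 2) with h3 | h3 <;> simp [ind, h1, h2, h3]

/-- size of an orbit -/
def orb (a b : ℕ) : ℕ := if a = 0 then (if b = 0 then 1 else 3) else if a = b then 3 else 6

/-- size of an orbit, one colour excluded -/
def orbE (a : ℕ) : ℕ := if a = 0 then 3 else 6

theorem orb_mul_nst {t a b : ℕ} (hab : a ≤ b) {x : Expo} (h0 : x 0 = (t : ℕ∞))
    (h1 : x 1 = ((t + a : ℕ) : ℕ∞)) (h2 : x 2 = ((t + b : ℕ) : ℕ∞)) : orb a b * nst x ≤ 6 := by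
  rw [nst_eq, h0, h1, h2]
  simp only [ENat.natCast_le_natCast]
  unfold orb ind
  rcases Nat.eq_zero_or_pos a with ha | ha
  · rcases Nat.eq_zero_or_pos b with hb | hb
    · subst ha hb
      simp
    · subst ha
      have : ¬ (t + b ≤ t) := by omega
      simp [this, hb.ne']
  · have e1 : ¬ (t + a ≤ t) := by omega
    have e2 : ¬ (t + b ≤ t) := by omega
    rcases hab.eq_or_lt with h | h
    · subst h
      simp [e1, ha.ne']
    · have e3 : ¬ (t + b ≤ t + a) := by omega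
      simp [e1, e2, ha.ne', h.ne, h.le, not_le.mpr h]

theorem orbE_mul_nst {t a : ℕ} {x : Expo} (h0 : x 0 = (t : ℕ∞))
    (h1 : x 1 = ((t + a : ℕ) : ℕ∞)) (h2 : x 2 = ⊤) : orbE a * nst x ≤ 6 := by
  rw [nst_eq, h0, h1, h2]
  simp only [ENat.natCast_le_natCast, le_top, top_le_iff, ENat.natCast_ne_top, and_true,
    false_and, and_false]
  unfold orbE ind
  rcases Nat.eq_zero_or_pos a with ha | ha
  · subst ha
    simp
  · have e1 : ¬ (t + a ≤ t) := by omega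
    simp [e1, ha.ne']

/-- the lattice vectors of the sector -/
def vec3 (θ : ℝ≥0) (a b : ℕ) : V := pwV θ ![0, (a : ℕ∞), (b : ℕ∞)]

/-- the lattice vectors with one colour excluded -/
def vecE (θ : ℝ≥0) (a : ℕ) : V := pwV θ ![0, (a : ℕ∞), ⊤]

theorem pwV_of_J2 {θ : ℝ≥0} {z a b : ℕ} {x : Expo} (h : J2 z (z + a) (z + b) x) :
    ∃ t : ℕ, x 0 = (t : ℕ∞) ∧ x 1 = ((t + a : ℕ) : ℕ∞) ∧ x 2 = ((t + b : ℕ) : ℕ∞) ∧
      pwV θ x = θ ^ t • vec3 θ a b := by
  obtain ⟨h0, h1, h2⟩ := h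
  obtain ⟨t, ht⟩ := ENat.ne_top_iff_exists.mp h0
  rw [← ht] at h1 h2
  have e1 : x 1 = ((t + a : ℕ) : ℕ∞) := by
    have : x 1 + z = ((t + a : ℕ) : ℕ∞) + z := by
      rw [h1]
      push_cast
      abel
    exact WithTop.add_right_cancel (ENat.natCast_ne_top z) this
  have e2 : x 2 = ((t + b : ℕ) : ℕ∞) := by
    have : x 2 + z = ((t + b : ℕ) : ℕ∞) + z := by
      rw [h2]
      push_cast
      abel
    exact WithTop.add_right_cancel (ENat.natCast_ne_top z) this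
  refine ⟨t, ht.symm, e1, e2, ?_⟩
  funext i
  fin_cases i
  · show pwT θ (x 0) = θ ^ t * pwT θ 0
    rw [← ht, pwT_coe, pwT_zero, mul_one]
  · show pwT θ (x 1) = θ ^ t * pwT θ (a : ℕ∞)
    rw [e1, pwT_coe, pwT_coe, pow_add]
  · show pwT θ (x 2) = θ ^ t * pwT θ (b : ℕ∞)
    rw [e2, pwT_coe, pwT_coe, pow_add]

theorem pwV_of_JE {θ : ℝ≥0} {z a : ℕ} {x : Expo} (h : JE z (z + a) 0 x) :
    ∃ t : ℕ, x 0 = (t : ℕ∞) ∧ x 1 = ((t + a : ℕ) : ℕ∞) ∧ x 2 = ⊤ ∧
      pwV θ x = θ ^ t • vecE θ a := by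
  obtain ⟨-, h0, h2, h1⟩ := h
  obtain ⟨t, ht⟩ := ENat.ne_top_iff_exists.mp h0
  rw [← ht] at h1
  have e1 : x 1 = ((t + a : ℕ) : ℕ∞) := by
    have : x 1 + z = ((t + a : ℕ) : ℕ∞) + z := by
      rw [h1]
      push_cast
      abel
    exact WithTop.add_right_cancel (ENat.natCast_ne_top z) this
  refine ⟨t, ht.symm, e1, h2, ?_⟩
  funext i
  fin_cases i
  · show pwT θ (x 0) = θ ^ t * pwT θ 0
    rw [← ht, pwT_coe, pwT_zero, mul_one]
  · show pwT θ (x 1) = θ ^ t * pwT θ (a : ℕ∞)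
    rw [e1, pwT_coe, pwT_coe, pow_add]
  · show pwT θ (x 2) = θ ^ t * pwT θ ⊤
    rw [h2, pwT_top, mul_zero]

/-- weights of the sector representation -/
def secF (θ : ℝ≥0) (w : ℕ → ℕ → ℝ≥0∞) (T : Finset (ℕ × ℕ)) (we : ℕ → ℝ≥0∞)
    (T' : Finset ℕ) : Fnl V where
  toFun f := ∑ s ∈ T, (orb s.1 s.2 : ℝ≥0∞) * w s.1 s.2 * f (vec3 θ s.1 s.2) +
    ∑ a ∈ T', (orbE a : ℝ≥0∞) * we a * f (vecE θ a)
  map_add' f g := by
    simp only [Pi.add_apply, mul_add, Finset.sum_add_distrib]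
    ring
  map_smul' a f := by
    simp only [Pi.smul_apply, smul_eq_mul, RingHom.id_apply, mul_add, Finset.mul_sum]
    congr 1 <;> exact Finset.sum_congr rfl fun s _ => by ring

theorem secF_apply (θ : ℝ≥0) (w : ℕ → ℕ → ℝ≥0∞) (T : Finset (ℕ × ℕ)) (we : ℕ → ℝ≥0∞)
    (T' : Finset ℕ) (f : V → ℝ≥0∞) : secF θ w T we T' f =
    ∑ s ∈ T, (orb s.1 s.2 : ℝ≥0∞) * w s.1 s.2 * f (vec3 θ s.1 s.2) +
    ∑ a ∈ T', (orbE a : ℝ≥0∞) * we a * f (vecE θ a) := rfl

theorem sector {θ : ℝ≥0} {c : Fnl Expo} (hc : SymC c) {z z' : ℕ} {T : Finset (ℕ × ℕ)}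
    {T' : Finset ℕ} (hT : ∀ s ∈ T, s.1 ≤ s.2) {w : ℕ → ℕ → ℝ≥0∞} {we : ℕ → ℝ≥0∞}
    (hw : ∀ s ∈ T, w s.1 s.2 ≤ pl θ c (J2 z (z + s.1) (z + s.2)))
    (hwe : ∀ a ∈ T', we a ≤ pl θ c (JE z' (z' + a) 0)) :
    DomS (toV θ c) (secF θ w T we T') := by
  classical
  intro ψ hψ hs
  set G : Expo → ℝ≥0∞ := fun x => (ψ (pwV θ x) : ℝ≥0∞) with hG
  have hGs : ∀ (g : Equiv.Perm (Fin 3)) (x : Expo), G (fun i => x (g i)) = G x := by
    intro g x
    simp only [hG]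
    rw [show pwV θ (fun i => x (g i)) = fun i => pwV θ x (g i) from rfl, hs g]
  set f : Expo → ℝ≥0∞ := fun x => if srt x then G x / nst x else 0 with hf
  have hGf : ∀ x, G x = ∑ g : Equiv.Perm (Fin 3), f (fun i => x (g i)) := by
    intro x
    have e1 : ∀ g : Equiv.Perm (Fin 3), f (fun i => x (g i)) =
        (if srt (fun i => x (g i)) then 1 else 0) * (G x / nst x) := by
      intro g
      simp only [hf]
      rw [hGs g x, nst_perm g x]
      split_ifs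
      · rw [one_mul]
      · rw [zero_mul]
    simp_rw [e1]
    rw [← Finset.sum_mul]
    have e2 : (∑ g : Equiv.Perm (Fin 3), (if srt (fun i => x (g i)) then (1 : ℝ≥0∞) else 0)) =
        (nst x : ℝ≥0∞) := by
      unfold nst ind
      push_cast
      rfl
    rw [e2]
    have hne : (nst x : ℝ≥0∞) ≠ 0 := by
      exact_mod_cast (nst_pos x).ne'
    rw [ENNReal.mul_div_cancel hne (ENNReal.natCast_ne_top _)]
  have hcG : c G = 6 * c f := by
    have e1 : G = ∑ g : Equiv.Perm (Fin 3), fun x : Expo => f (fun i => x (g i)) := by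
      funext x
      rw [hGf x, Finset.sum_apply]
    rw [e1, map_sum, Finset.sum_congr rfl fun g _ => hc g f]
    simp only [Finset.sum_const, Finset.card_univ, Fintype.card_perm, Fintype.card_fin,
      nsmul_eq_mul]
    congr 1
  show secF θ w T we T' (up ψ) ≤ c G
  rw [hcG, secF_apply]
  -- the two sums as values of `c`
  have h1 : ∑ s ∈ T, (orb s.1 s.2 : ℝ≥0∞) * w s.1 s.2 * up ψ (vec3 θ s.1 s.2) ≤
      c (fun x => ∑ s ∈ T, (orb s.1 s.2 : ℝ≥0∞) * ψ (vec3 θ s.1 s.2) *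
        (if J2 z (z + s.1) (z + s.2) x then (pwT θ (x 0) : ℝ≥0∞) else 0)) := by
    have e : (fun x => ∑ s ∈ T, (orb s.1 s.2 : ℝ≥0∞) * ψ (vec3 θ s.1 s.2) *
        (if J2 z (z + s.1) (z + s.2) x then (pwT θ (x 0) : ℝ≥0∞) else 0)) =
        ∑ s ∈ T, ((orb s.1 s.2 : ℝ≥0∞) * ψ (vec3 θ s.1 s.2)) •
          fun x : Expo => (if J2 z (z + s.1) (z + s.2) x then (pwT θ (x 0) : ℝ≥0∞) else 0) := by
      funext x
      rw [Finset.sum_apply]
      rfl
    rw [e, map_sum]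
    refine Finset.sum_le_sum fun s hs' => ?_
    rw [map_smul, smul_eq_mul]
    calc (orb s.1 s.2 : ℝ≥0∞) * w s.1 s.2 * up ψ (vec3 θ s.1 s.2)
        = (orb s.1 s.2 : ℝ≥0∞) * ψ (vec3 θ s.1 s.2) * w s.1 s.2 := by
          unfold up
          ring
      _ ≤ _ := mul_le_mul_right (hw s hs') _
  have h2 : ∑ a ∈ T', (orbE a : ℝ≥0∞) * we a * up ψ (vecE θ a) ≤
      c (fun x => ∑ a ∈ T', (orbE a : ℝ≥0∞) * ψ (vecE θ a) *
        (if JE z' (z' + a) 0 x then (pwT θ (x 0) : ℝ≥0∞) else 0)) := by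
    have e : (fun x => ∑ a ∈ T', (orbE a : ℝ≥0∞) * ψ (vecE θ a) *
        (if JE z' (z' + a) 0 x then (pwT θ (x 0) : ℝ≥0∞) else 0)) =
        ∑ a ∈ T', ((orbE a : ℝ≥0∞) * ψ (vecE θ a)) •
          fun x : Expo => (if JE z' (z' + a) 0 x then (pwT θ (x 0) : ℝ≥0∞) else 0) := by
      funext x
      rw [Finset.sum_apply]
      rfl
    rw [e, map_sum]
    refine Finset.sum_le_sum fun a ha => ?_
    rw [map_smul, smul_eq_mul]
    calc (orbE a : ℝ≥0∞) * we a * up ψ (vecE θ a)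
        = (orbE a : ℝ≥0∞) * ψ (vecE θ a) * we a := by
          unfold up
          ring
      _ ≤ _ := mul_le_mul_right (hwe a ha) _
  refine (add_le_add h1 h2).trans ?_
  rw [← map_add]
  have h6 : (6 : ℝ≥0∞) * c f = c (6 • f) := by
    rw [map_nsmul]
    simp
  rw [h6]
  refine c.mono fun x => ?_
  rw [Pi.add_apply, Pi.smul_apply, nsmul_eq_mul]
  by_cases hx : ∃ s ∈ T, J2 z (z + s.1) (z + s.2) x
  · obtain ⟨s, hs', hJ⟩ := hx
    obtain ⟨t, e0, e1, e2, ev⟩ := pwV_of_J2 (θ := θ) hJ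
    have z2 : ∑ a ∈ T', (orbE a : ℝ≥0∞) * ψ (vecE θ a) *
        (if JE z' (z' + a) 0 x then (pwT θ (x 0) : ℝ≥0∞) else 0) = 0 := by
      refine Finset.sum_eq_zero fun a _ => ?_
      rw [if_neg, mul_zero]
      rintro ⟨-, -, h, -⟩
      rw [e2] at h
      exact ENat.natCast_ne_top _ h
    rw [z2, add_zero, Finset.sum_eq_single s]
    · rw [if_pos hJ, e0, pwT_coe]
      have hsrt : srt x := by
        unfold srt
        rw [e0, e1, e2]
        simp only [ENat.natCast_le_natCast]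
        exact ⟨by omega, by have := hT s hs'; omega⟩
      simp only [hf, if_pos hsrt]
      have eG : G x = (θ ^ t : ℝ≥0) * ψ (vec3 θ s.1 s.2) := by
        simp only [hG]
        rw [ev, hψ.hom]
        push_cast
        rfl
      rw [eG]
      have hn := orb_mul_nst (hT s hs') e0 e1 e2
      have hne : (nst x : ℝ≥0∞) ≠ 0 := by exact_mod_cast (nst_pos x).ne'
      rw [← mul_div_assoc, ENNReal.le_div_iff_mul_le (Or.inl hne)
        (Or.inl (ENNReal.natCast_ne_top _))]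
      calc (orb s.1 s.2 : ℝ≥0∞) * ψ (vec3 θ s.1 s.2) * ((θ ^ t : ℝ≥0) : ℝ≥0∞) * nst x
          = ((orb s.1 s.2 * nst x : ℕ) : ℝ≥0∞) *
            (((θ ^ t : ℝ≥0) : ℝ≥0∞) * ψ (vec3 θ s.1 s.2)) := by
            push_cast
            ring
        _ ≤ _ := by
          refine mul_le_mul_left ?_ _
          exact_mod_cast hn
    · intro s' hs'' hne
      rw [if_neg, mul_zero]
      intro hJ'
      apply hne
      obtain ⟨k1, k2⟩ := uniq_J2 _ _ _ _ _ _ hJ hJ'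
      ext <;> omega
    · intro h
      exact absurd hs' h
  · have z1 : ∑ s ∈ T, (orb s.1 s.2 : ℝ≥0∞) * ψ (vec3 θ s.1 s.2) *
        (if J2 z (z + s.1) (z + s.2) x then (pwT θ (x 0) : ℝ≥0∞) else 0) = 0 := by
      refine Finset.sum_eq_zero fun s hs' => ?_
      rw [if_neg (fun h => hx ⟨s, hs', h⟩), mul_zero]
    rw [z1, zero_add]
    by_cases hx' : ∃ a ∈ T', JE z' (z' + a) 0 x
    · obtain ⟨a, ha, hJ⟩ := hx'
      obtain ⟨t, e0, e1, e2, ev⟩ := pwV_of_JE (θ := θ) hJ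
      rw [Finset.sum_eq_single a]
      · rw [if_pos hJ, e0, pwT_coe]
        have hsrt : srt x := by
          unfold srt
          rw [e0, e1, e2]
          simp only [ENat.natCast_le_natCast, le_top, and_true]
          omega
        simp only [hf, if_pos hsrt]
        have eG : G x = (θ ^ t : ℝ≥0) * ψ (vecE θ a) := by
          simp only [hG]
          rw [ev, hψ.hom]
          push_cast
          rfl
        rw [eG]
        have hn := orbE_mul_nst (a := a) e0 e1 e2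
        have hne : (nst x : ℝ≥0∞) ≠ 0 := by exact_mod_cast (nst_pos x).ne'
        rw [← mul_div_assoc, ENNReal.le_div_iff_mul_le (Or.inl hne)
          (Or.inl (ENNReal.natCast_ne_top _))]
        calc (orbE a : ℝ≥0∞) * ψ (vecE θ a) * ((θ ^ t : ℝ≥0) : ℝ≥0∞) * nst x
            = ((orbE a * nst x : ℕ) : ℝ≥0∞) *
              (((θ ^ t : ℝ≥0) : ℝ≥0∞) * ψ (vecE θ a)) := by
              push_cast
              ring
          _ ≤ _ := by
            refine mul_le_mul_left ?_ _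
            exact_mod_cast hn
      · intro a' ha' hne
        rw [if_neg, mul_zero]
        intro hJ'
        apply hne
        obtain ⟨k1, -⟩ := uniq_JE _ _ _ _ _ _ hJ hJ'
        omega
      · intro h
        exact absurd ha h
    · rw [Finset.sum_eq_zero]
      · exact zero_le
      · intro a ha
        rw [if_neg (fun h => hx' ⟨a, ha, h⟩), mul_zero]

end NC

end Vale.Agent.P154.DE
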