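import Mathlib.Data.Nat.Notation

/-!
# Weights
-/

namespace Vale.Agent.P154.DE

/-- weights -/
def wqP : List ℕ := [nat_lit 19338953645, nat_lit 78139042206, nat_lit 157860400016, nat_lit 212611648755, nat_lit 214764341699, nat_lit 173551064527, nat_lit 116872179370, nat_lit 67460291535, nat_lit 34071663493, nat_lit 15296284038, nat_lit 6180463565, nat_lit 2270196639, nat_lit 764394126, nat_lit 237579574, nat_lit 68567162, nat_lit 18469707]

end Vale.Agent.P154.DE
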