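import Vale.Agent.P154.DE.EngD
import Vale.Agent.P154.DE.WqP
import Vale.Agent.P154.DE.StP
import Vale.Agent.P154.DE.Pw9_10_56
import Vale.Agent.P154.DE.Tk1_2_9_10_56_9_10_20

/-!
# Steps 36 to 48
-/

namespace Vale.Agent.P154.DE

set_option maxRecDepth 100000

theorem ckP_37 : stN 153 20 56 pw_9_10_56 stP_36 20 stP_37 wqP tk1_2_9_10_56_9_10_20 tk1_2_9_10_56_9_10_20E tk1_2_9_10_56_9_10_20V = true := by
  decide +kernel

theorem ckP_38 : stN 153 20 56 pw_9_10_56 stP_37 20 stP_38 wqP tk1_2_9_10_56_9_10_20 tk1_2_9_10_56_9_10_20E tk1_2_9_10_56_9_10_20V = true := by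
  decide +kernel

theorem ckP_39 : stN 153 20 56 pw_9_10_56 stP_38 20 stP_39 wqP tk1_2_9_10_56_9_10_20 tk1_2_9_10_56_9_10_20E tk1_2_9_10_56_9_10_20V = true := by
  decide +kernel

theorem ckP_40 : stN 153 20 56 pw_9_10_56 stP_39 20 stP_40 wqP tk1_2_9_10_56_9_10_20 tk1_2_9_10_56_9_10_20E tk1_2_9_10_56_9_10_20V = true := by
  decide +kernel

theorem ckP_41 : stN 153 20 56 pw_9_10_56 stP_40 20 stP_41 wqP tk1_2_9_10_56_9_10_20 tk1_2_9_10_56_9_10_20E tk1_2_9_10_56_9_10_20V = true := by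
  decide +kernel

theorem ckP_42 : stN 153 20 56 pw_9_10_56 stP_41 20 stP_42 wqP tk1_2_9_10_56_9_10_20 tk1_2_9_10_56_9_10_20E tk1_2_9_10_56_9_10_20V = true := by
  decide +kernel

theorem ckP_43 : stN 153 20 56 pw_9_10_56 stP_42 20 stP_43 wqP tk1_2_9_10_56_9_10_20 tk1_2_9_10_56_9_10_20E tk1_2_9_10_56_9_10_20V = true := by
  decide +kernel

theorem ckP_44 : stN 153 20 56 pw_9_10_56 stP_43 20 stP_44 wqP tk1_2_9_10_56_9_10_20 tk1_2_9_10_56_9_10_20E tk1_2_9_10_56_9_10_20V = true := by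
  decide +kernel

theorem ckP_45 : stN 153 20 56 pw_9_10_56 stP_44 20 stP_45 wqP tk1_2_9_10_56_9_10_20 tk1_2_9_10_56_9_10_20E tk1_2_9_10_56_9_10_20V = true := by
  decide +kernel

theorem ckP_46 : stN 153 20 56 pw_9_10_56 stP_45 20 stP_46 wqP tk1_2_9_10_56_9_10_20 tk1_2_9_10_56_9_10_20E tk1_2_9_10_56_9_10_20V = true := by
  decide +kernel

theorem ckP_47 : stN 153 20 56 pw_9_10_56 stP_46 20 stP_47 wqP tk1_2_9_10_56_9_10_20 tk1_2_9_10_56_9_10_20E tk1_2_9_10_56_9_10_20V = true := by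
  decide +kernel

theorem ckP_48 : stN 153 20 56 pw_9_10_56 stP_47 20 stP_48 wqP tk1_2_9_10_56_9_10_20 tk1_2_9_10_56_9_10_20E tk1_2_9_10_56_9_10_20V = true := by
  decide +kernel

end Vale.Agent.P154.DE
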