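import Vale.Agent.P154.DE.EngD
import Vale.Agent.P154.DE.WqP
import Vale.Agent.P154.DE.StP
import Vale.Agent.P154.DE.Pw9_10_56
import Vale.Agent.P154.DE.Tk1_2_9_10_56_9_10_20

/-!
# Steps 48 to 60
-/

namespace Vale.Agent.P154.DE

set_option maxRecDepth 100000

theorem ckP_49 : stN 153 20 56 pw_9_10_56 stP_48 20 stP_49 wqP tk1_2_9_10_56_9_10_20 tk1_2_9_10_56_9_10_20E tk1_2_9_10_56_9_10_20V = true := by
  decide +kernel

theorem ckP_50 : stN 153 20 56 pw_9_10_56 stP_49 20 stP_50 wqP tk1_2_9_10_56_9_10_20 tk1_2_9_10_56_9_10_20E tk1_2_9_10_56_9_10_20V = true := by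
  decide +kernel

theorem ckP_51 : stN 153 20 56 pw_9_10_56 stP_50 20 stP_51 wqP tk1_2_9_10_56_9_10_20 tk1_2_9_10_56_9_10_20E tk1_2_9_10_56_9_10_20V = true := by
  decide +kernel

theorem ckP_52 : stN 153 20 56 pw_9_10_56 stP_51 20 stP_52 wqP tk1_2_9_10_56_9_10_20 tk1_2_9_10_56_9_10_20E tk1_2_9_10_56_9_10_20V = true := by
  decide +kernel

theorem ckP_53 : stN 153 20 56 pw_9_10_56 stP_52 20 stP_53 wqP tk1_2_9_10_56_9_10_20 tk1_2_9_10_56_9_10_20E tk1_2_9_10_56_9_10_20V = true := by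
  decide +kernel

theorem ckP_54 : stN 153 20 56 pw_9_10_56 stP_53 20 stP_54 wqP tk1_2_9_10_56_9_10_20 tk1_2_9_10_56_9_10_20E tk1_2_9_10_56_9_10_20V = true := by
  decide +kernel

theorem ckP_55 : stN 153 20 56 pw_9_10_56 stP_54 20 stP_55 wqP tk1_2_9_10_56_9_10_20 tk1_2_9_10_56_9_10_20E tk1_2_9_10_56_9_10_20V = true := by
  decide +kernel

theorem ckP_56 : stN 153 20 56 pw_9_10_56 stP_55 20 stP_56 wqP tk1_2_9_10_56_9_10_20 tk1_2_9_10_56_9_10_20E tk1_2_9_10_56_9_10_20V = true := by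
  decide +kernel

theorem ckP_57 : stN 153 20 56 pw_9_10_56 stP_56 20 stP_57 wqP tk1_2_9_10_56_9_10_20 tk1_2_9_10_56_9_10_20E tk1_2_9_10_56_9_10_20V = true := by
  decide +kernel

theorem ckP_58 : stN 153 20 56 pw_9_10_56 stP_57 20 stP_58 wqP tk1_2_9_10_56_9_10_20 tk1_2_9_10_56_9_10_20E tk1_2_9_10_56_9_10_20V = true := by
  decide +kernel

theorem ckP_59 : stN 153 20 56 pw_9_10_56 stP_58 20 stP_59 wqP tk1_2_9_10_56_9_10_20 tk1_2_9_10_56_9_10_20E tk1_2_9_10_56_9_10_20V = true := by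
  decide +kernel

theorem ckP_60 : stN 153 20 56 pw_9_10_56 stP_59 20 stP_60 wqP tk1_2_9_10_56_9_10_20 tk1_2_9_10_56_9_10_20E tk1_2_9_10_56_9_10_20V = true := by
  decide +kernel

end Vale.Agent.P154.DE
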