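import Vale.Agent.P154.DE.EngD
import Vale.Agent.P154.DE.WqP
import Vale.Agent.P154.DE.StP
import Vale.Agent.P154.DE.Pw9_10_56
import Vale.Agent.P154.DE.Tk1_2_9_10_56_9_10_20

/-!
# Steps 60 to 72
-/

namespace Vale.Agent.P154.DE

set_option maxRecDepth 100000

theorem ckP_61 : stN 153 20 56 pw_9_10_56 stP_60 20 stP_61 wqP tk1_2_9_10_56_9_10_20 tk1_2_9_10_56_9_10_20E tk1_2_9_10_56_9_10_20V = true := by
  decide +kernel

theorem ckP_62 : stN 153 20 56 pw_9_10_56 stP_61 20 stP_62 wqP tk1_2_9_10_56_9_10_20 tk1_2_9_10_56_9_10_20E tk1_2_9_10_56_9_10_20V = true := by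
  decide +kernel

theorem ckP_63 : stN 153 20 56 pw_9_10_56 stP_62 20 stP_63 wqP tk1_2_9_10_56_9_10_20 tk1_2_9_10_56_9_10_20E tk1_2_9_10_56_9_10_20V = true := by
  decide +kernel

theorem ckP_64 : stN 153 20 56 pw_9_10_56 stP_63 20 stP_64 wqP tk1_2_9_10_56_9_10_20 tk1_2_9_10_56_9_10_20E tk1_2_9_10_56_9_10_20V = true := by
  decide +kernel

theorem ckP_65 : stN 153 20 56 pw_9_10_56 stP_64 20 stP_65 wqP tk1_2_9_10_56_9_10_20 tk1_2_9_10_56_9_10_20E tk1_2_9_10_56_9_10_20V = true := by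
  decide +kernel

theorem ckP_66 : stN 153 20 56 pw_9_10_56 stP_65 20 stP_66 wqP tk1_2_9_10_56_9_10_20 tk1_2_9_10_56_9_10_20E tk1_2_9_10_56_9_10_20V = true := by
  decide +kernel

theorem ckP_67 : stN 153 20 56 pw_9_10_56 stP_66 20 stP_67 wqP tk1_2_9_10_56_9_10_20 tk1_2_9_10_56_9_10_20E tk1_2_9_10_56_9_10_20V = true := by
  decide +kernel

theorem ckP_68 : stN 153 20 56 pw_9_10_56 stP_67 20 stP_68 wqP tk1_2_9_10_56_9_10_20 tk1_2_9_10_56_9_10_20E tk1_2_9_10_56_9_10_20V = true := by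
  decide +kernel

theorem ckP_69 : stN 153 20 56 pw_9_10_56 stP_68 20 stP_69 wqP tk1_2_9_10_56_9_10_20 tk1_2_9_10_56_9_10_20E tk1_2_9_10_56_9_10_20V = true := by
  decide +kernel

theorem ckP_70 : stN 153 20 56 pw_9_10_56 stP_69 20 stP_70 wqP tk1_2_9_10_56_9_10_20 tk1_2_9_10_56_9_10_20E tk1_2_9_10_56_9_10_20V = true := by
  decide +kernel

theorem ckP_71 : stN 153 20 56 pw_9_10_56 stP_70 20 stP_71 wqP tk1_2_9_10_56_9_10_20 tk1_2_9_10_56_9_10_20E tk1_2_9_10_56_9_10_20V = true := by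
  decide +kernel

theorem ckP_72 : stN 153 20 56 pw_9_10_56 stP_71 20 stP_72 wqP tk1_2_9_10_56_9_10_20 tk1_2_9_10_56_9_10_20E tk1_2_9_10_56_9_10_20V = true := by
  decide +kernel

end Vale.Agent.P154.DE
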