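import Vale.Agent.P154.DE.EngD
import Vale.Agent.P154.DE.WqP
import Vale.Agent.P154.DE.StP
import Vale.Agent.P154.DE.Pw9_10_56
import Vale.Agent.P154.DE.Pw14_15_70
import Vale.Agent.P154.DE.Tk1_2_9_10_56_9_10_20
import Vale.Agent.P154.DE.Tk1_2_9_10_56_14_15_24
import Vale.Agent.P154.DE.Tk1_2_14_15_70_14_15_24

/-!
# Steps 72 to 83
-/

namespace Vale.Agent.P154.DE

set_option maxRecDepth 100000

theorem ckP_73 : stN 153 20 56 pw_9_10_56 stP_72 20 stP_73 wqP tk1_2_9_10_56_9_10_20 tk1_2_9_10_56_9_10_20E tk1_2_9_10_56_9_10_20V = true := by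
  decide +kernel

theorem ckP_74 : stN 153 20 56 pw_9_10_56 stP_73 20 stP_74 wqP tk1_2_9_10_56_9_10_20 tk1_2_9_10_56_9_10_20E tk1_2_9_10_56_9_10_20V = true := by
  decide +kernel

theorem ckP_75 : stN 153 20 56 pw_9_10_56 stP_74 20 stP_75 wqP tk1_2_9_10_56_9_10_20 tk1_2_9_10_56_9_10_20E tk1_2_9_10_56_9_10_20V = true := by
  decide +kernel

theorem ckP_76 : stN 153 20 56 pw_9_10_56 stP_75 20 stP_76 wqP tk1_2_9_10_56_9_10_20 tk1_2_9_10_56_9_10_20E tk1_2_9_10_56_9_10_20V = true := by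
  decide +kernel

theorem ckP_77 : stN 153 20 56 pw_9_10_56 stP_76 20 stP_77 wqP tk1_2_9_10_56_9_10_20 tk1_2_9_10_56_9_10_20E tk1_2_9_10_56_9_10_20V = true := by
  decide +kernel

theorem ckP_78 : stN 153 20 56 pw_9_10_56 stP_77 20 stP_78 wqP tk1_2_9_10_56_9_10_20 tk1_2_9_10_56_9_10_20E tk1_2_9_10_56_9_10_20V = true := by
  decide +kernel

theorem ckP_79 : stN 153 20 56 pw_9_10_56 stP_78 20 stP_79 wqP tk1_2_9_10_56_9_10_20 tk1_2_9_10_56_9_10_20E tk1_2_9_10_56_9_10_20V = true := by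
  decide +kernel

theorem ckP_80 : stN 153 20 56 pw_9_10_56 stP_79 20 stP_80 wqP tk1_2_9_10_56_9_10_20 tk1_2_9_10_56_9_10_20E tk1_2_9_10_56_9_10_20V = true := by
  decide +kernel

theorem ckP_81 : stN 153 20 56 pw_9_10_56 stP_80 20 stP_81 wqP tk1_2_9_10_56_9_10_20 tk1_2_9_10_56_9_10_20E tk1_2_9_10_56_9_10_20V = true := by
  decide +kernel

theorem ckP_82 : stN 153 20 56 pw_9_10_56 stP_81 24 stP_82 wqP tk1_2_9_10_56_14_15_24 tk1_2_9_10_56_14_15_24E tk1_2_9_10_56_14_15_24V = true := by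
  decide +kernel

theorem ckP_83 : stN 189 24 70 pw_14_15_70 stP_82 24 stP_83 wqP tk1_2_14_15_70_14_15_24 tk1_2_14_15_70_14_15_24E tk1_2_14_15_70_14_15_24V = true := by
  decide +kernel

end Vale.Agent.P154.DE
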