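import Vale.Agent.P154.DE.EngD
import Vale.Agent.P154.DE.WqP
import Vale.Agent.P154.DE.StP
import Vale.Agent.P154.DE.Pw14_15_70
import Vale.Agent.P154.DE.Tk1_2_14_15_70_14_15_24

/-!
# Steps 90 to 97
-/

namespace Vale.Agent.P154.DE

set_option maxRecDepth 100000

theorem ckP_91 : stN 189 24 70 pw_14_15_70 stP_90 24 stP_91 wqP tk1_2_14_15_70_14_15_24 tk1_2_14_15_70_14_15_24E tk1_2_14_15_70_14_15_24V = true := by
  decide +kernel

theorem ckP_92 : stN 189 24 70 pw_14_15_70 stP_91 24 stP_92 wqP tk1_2_14_15_70_14_15_24 tk1_2_14_15_70_14_15_24E tk1_2_14_15_70_14_15_24V = true := by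
  decide +kernel

theorem ckP_93 : stN 189 24 70 pw_14_15_70 stP_92 24 stP_93 wqP tk1_2_14_15_70_14_15_24 tk1_2_14_15_70_14_15_24E tk1_2_14_15_70_14_15_24V = true := by
  decide +kernel

theorem ckP_94 : stN 189 24 70 pw_14_15_70 stP_93 24 stP_94 wqP tk1_2_14_15_70_14_15_24 tk1_2_14_15_70_14_15_24E tk1_2_14_15_70_14_15_24V = true := by
  decide +kernel

theorem ckP_95 : stN 189 24 70 pw_14_15_70 stP_94 24 stP_95 wqP tk1_2_14_15_70_14_15_24 tk1_2_14_15_70_14_15_24E tk1_2_14_15_70_14_15_24V = true := by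
  decide +kernel

theorem ckP_96 : stN 189 24 70 pw_14_15_70 stP_95 24 stP_96 wqP tk1_2_14_15_70_14_15_24 tk1_2_14_15_70_14_15_24E tk1_2_14_15_70_14_15_24V = true := by
  decide +kernel

theorem ckP_97 : stN 189 24 70 pw_14_15_70 stP_96 24 stP_97 wqP tk1_2_14_15_70_14_15_24 tk1_2_14_15_70_14_15_24E tk1_2_14_15_70_14_15_24V = true := by
  decide +kernel

end Vale.Agent.P154.DE
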