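import Vale.Agent.P154.DE.EngD
import Vale.Agent.P154.DE.WqP
import Vale.Agent.P154.DE.StP
import Vale.Agent.P154.DE.Pw14_15_70
import Vale.Agent.P154.DE.Tk1_2_14_15_70_14_15_24

/-!
# Steps 97 to 104
-/

namespace Vale.Agent.P154.DE

set_option maxRecDepth 100000

theorem ckP_98 : stN 189 24 70 pw_14_15_70 stP_97 24 stP_98 wqP tk1_2_14_15_70_14_15_24 tk1_2_14_15_70_14_15_24E tk1_2_14_15_70_14_15_24V = true := by
  decide +kernel

theorem ckP_99 : stN 189 24 70 pw_14_15_70 stP_98 24 stP_99 wqP tk1_2_14_15_70_14_15_24 tk1_2_14_15_70_14_15_24E tk1_2_14_15_70_14_15_24V = true := by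
  decide +kernel

theorem ckP_100 : stN 189 24 70 pw_14_15_70 stP_99 24 stP_100 wqP tk1_2_14_15_70_14_15_24 tk1_2_14_15_70_14_15_24E tk1_2_14_15_70_14_15_24V = true := by
  decide +kernel

theorem ckP_101 : stN 189 24 70 pw_14_15_70 stP_100 24 stP_101 wqP tk1_2_14_15_70_14_15_24 tk1_2_14_15_70_14_15_24E tk1_2_14_15_70_14_15_24V = true := by
  decide +kernel

theorem ckP_102 : stN 189 24 70 pw_14_15_70 stP_101 24 stP_102 wqP tk1_2_14_15_70_14_15_24 tk1_2_14_15_70_14_15_24E tk1_2_14_15_70_14_15_24V = true := by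
  decide +kernel

theorem ckP_103 : stN 189 24 70 pw_14_15_70 stP_102 24 stP_103 wqP tk1_2_14_15_70_14_15_24 tk1_2_14_15_70_14_15_24E tk1_2_14_15_70_14_15_24V = true := by
  decide +kernel

theorem ckP_104 : stN 189 24 70 pw_14_15_70 stP_103 24 stP_104 wqP tk1_2_14_15_70_14_15_24 tk1_2_14_15_70_14_15_24E tk1_2_14_15_70_14_15_24V = true := by
  decide +kernel

end Vale.Agent.P154.DE
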