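import Vale.Agent.P154.DE.EngD
import Vale.Agent.P154.DE.WqP
import Vale.Agent.P154.DE.StP
import Vale.Agent.P154.DE.Pw14_15_70
import Vale.Agent.P154.DE.Tk1_2_14_15_70_14_15_24

/-!
# Steps 104 to 111
-/

namespace Vale.Agent.P154.DE

set_option maxRecDepth 100000

theorem ckP_105 : stN 189 24 70 pw_14_15_70 stP_104 24 stP_105 wqP tk1_2_14_15_70_14_15_24 tk1_2_14_15_70_14_15_24E tk1_2_14_15_70_14_15_24V = true := by
  decide +kernel

theorem ckP_106 : stN 189 24 70 pw_14_15_70 stP_105 24 stP_106 wqP tk1_2_14_15_70_14_15_24 tk1_2_14_15_70_14_15_24E tk1_2_14_15_70_14_15_24V = true := by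
  decide +kernel

theorem ckP_107 : stN 189 24 70 pw_14_15_70 stP_106 24 stP_107 wqP tk1_2_14_15_70_14_15_24 tk1_2_14_15_70_14_15_24E tk1_2_14_15_70_14_15_24V = true := by
  decide +kernel

theorem ckP_108 : stN 189 24 70 pw_14_15_70 stP_107 24 stP_108 wqP tk1_2_14_15_70_14_15_24 tk1_2_14_15_70_14_15_24E tk1_2_14_15_70_14_15_24V = true := by
  decide +kernel

theorem ckP_109 : stN 189 24 70 pw_14_15_70 stP_108 24 stP_109 wqP tk1_2_14_15_70_14_15_24 tk1_2_14_15_70_14_15_24E tk1_2_14_15_70_14_15_24V = true := by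
  decide +kernel

theorem ckP_110 : stN 189 24 70 pw_14_15_70 stP_109 24 stP_110 wqP tk1_2_14_15_70_14_15_24 tk1_2_14_15_70_14_15_24E tk1_2_14_15_70_14_15_24V = true := by
  decide +kernel

theorem ckP_111 : stN 189 24 70 pw_14_15_70 stP_110 24 stP_111 wqP tk1_2_14_15_70_14_15_24 tk1_2_14_15_70_14_15_24E tk1_2_14_15_70_14_15_24V = true := by
  decide +kernel

end Vale.Agent.P154.DE
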