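import Mathlib.Data.Nat.Notation

/-!
# Weights
-/

namespace Vale.Agent.P154.DE

/-- weights -/
def wqQ : List ℕ := [nat_lit 17809310555, nat_lit 73426006488, nat_lit 151364041075, nat_lit 208019601650, nat_lit 214411003910, nat_lit 176799025604, nat_lit 121487450444, nat_lit 71554372776, nat_lit 36876440440, nat_lit 16893097365, nat_lit 6964855112, nat_lit 2610491013, nat_lit 896899449, nat_lit 284448210, nat_lit 83767966, nat_lit 23024463]

end Vale.Agent.P154.DE
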