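import Vale.Agent.P154.DE.EngD
import Vale.Agent.P154.DE.WqQ
import Vale.Agent.P154.DE.StQ
import Vale.Agent.P154.DE.Pw9_10_56
import Vale.Agent.P154.DE.Tk99_200_9_10_56_9_10_20

/-!
# Steps 36 to 48
-/

namespace Vale.Agent.P154.DE

set_option maxRecDepth 100000

theorem ckQ_37 : stN 153 20 56 pw_9_10_56 stQ_36 20 stQ_37 wqQ tk99_200_9_10_56_9_10_20 tk99_200_9_10_56_9_10_20E tk99_200_9_10_56_9_10_20V = true := by
  decide +kernel

theorem ckQ_38 : stN 153 20 56 pw_9_10_56 stQ_37 20 stQ_38 wqQ tk99_200_9_10_56_9_10_20 tk99_200_9_10_56_9_10_20E tk99_200_9_10_56_9_10_20V = true := by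
  decide +kernel

theorem ckQ_39 : stN 153 20 56 pw_9_10_56 stQ_38 20 stQ_39 wqQ tk99_200_9_10_56_9_10_20 tk99_200_9_10_56_9_10_20E tk99_200_9_10_56_9_10_20V = true := by
  decide +kernel

theorem ckQ_40 : stN 153 20 56 pw_9_10_56 stQ_39 20 stQ_40 wqQ tk99_200_9_10_56_9_10_20 tk99_200_9_10_56_9_10_20E tk99_200_9_10_56_9_10_20V = true := by
  decide +kernel

theorem ckQ_41 : stN 153 20 56 pw_9_10_56 stQ_40 20 stQ_41 wqQ tk99_200_9_10_56_9_10_20 tk99_200_9_10_56_9_10_20E tk99_200_9_10_56_9_10_20V = true := by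
  decide +kernel

theorem ckQ_42 : stN 153 20 56 pw_9_10_56 stQ_41 20 stQ_42 wqQ tk99_200_9_10_56_9_10_20 tk99_200_9_10_56_9_10_20E tk99_200_9_10_56_9_10_20V = true := by
  decide +kernel

theorem ckQ_43 : stN 153 20 56 pw_9_10_56 stQ_42 20 stQ_43 wqQ tk99_200_9_10_56_9_10_20 tk99_200_9_10_56_9_10_20E tk99_200_9_10_56_9_10_20V = true := by
  decide +kernel

theorem ckQ_44 : stN 153 20 56 pw_9_10_56 stQ_43 20 stQ_44 wqQ tk99_200_9_10_56_9_10_20 tk99_200_9_10_56_9_10_20E tk99_200_9_10_56_9_10_20V = true := by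
  decide +kernel

theorem ckQ_45 : stN 153 20 56 pw_9_10_56 stQ_44 20 stQ_45 wqQ tk99_200_9_10_56_9_10_20 tk99_200_9_10_56_9_10_20E tk99_200_9_10_56_9_10_20V = true := by
  decide +kernel

theorem ckQ_46 : stN 153 20 56 pw_9_10_56 stQ_45 20 stQ_46 wqQ tk99_200_9_10_56_9_10_20 tk99_200_9_10_56_9_10_20E tk99_200_9_10_56_9_10_20V = true := by
  decide +kernel

theorem ckQ_47 : stN 153 20 56 pw_9_10_56 stQ_46 20 stQ_47 wqQ tk99_200_9_10_56_9_10_20 tk99_200_9_10_56_9_10_20E tk99_200_9_10_56_9_10_20V = true := by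
  decide +kernel

theorem ckQ_48 : stN 153 20 56 pw_9_10_56 stQ_47 20 stQ_48 wqQ tk99_200_9_10_56_9_10_20 tk99_200_9_10_56_9_10_20E tk99_200_9_10_56_9_10_20V = true := by
  decide +kernel

end Vale.Agent.P154.DE
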