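import Vale.Agent.P154.DE.EngD
import Vale.Agent.P154.DE.WqQ
import Vale.Agent.P154.DE.StQ
import Vale.Agent.P154.DE.Pw9_10_56
import Vale.Agent.P154.DE.Tk99_200_9_10_56_9_10_20

/-!
# Steps 48 to 60
-/

namespace Vale.Agent.P154.DE

set_option maxRecDepth 100000

theorem ckQ_49 : stN 153 20 56 pw_9_10_56 stQ_48 20 stQ_49 wqQ tk99_200_9_10_56_9_10_20 tk99_200_9_10_56_9_10_20E tk99_200_9_10_56_9_10_20V = true := by
  decide +kernel

theorem ckQ_50 : stN 153 20 56 pw_9_10_56 stQ_49 20 stQ_50 wqQ tk99_200_9_10_56_9_10_20 tk99_200_9_10_56_9_10_20E tk99_200_9_10_56_9_10_20V = true := by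
  decide +kernel

theorem ckQ_51 : stN 153 20 56 pw_9_10_56 stQ_50 20 stQ_51 wqQ tk99_200_9_10_56_9_10_20 tk99_200_9_10_56_9_10_20E tk99_200_9_10_56_9_10_20V = true := by
  decide +kernel

theorem ckQ_52 : stN 153 20 56 pw_9_10_56 stQ_51 20 stQ_52 wqQ tk99_200_9_10_56_9_10_20 tk99_200_9_10_56_9_10_20E tk99_200_9_10_56_9_10_20V = true := by
  decide +kernel

theorem ckQ_53 : stN 153 20 56 pw_9_10_56 stQ_52 20 stQ_53 wqQ tk99_200_9_10_56_9_10_20 tk99_200_9_10_56_9_10_20E tk99_200_9_10_56_9_10_20V = true := by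
  decide +kernel

theorem ckQ_54 : stN 153 20 56 pw_9_10_56 stQ_53 20 stQ_54 wqQ tk99_200_9_10_56_9_10_20 tk99_200_9_10_56_9_10_20E tk99_200_9_10_56_9_10_20V = true := by
  decide +kernel

theorem ckQ_55 : stN 153 20 56 pw_9_10_56 stQ_54 20 stQ_55 wqQ tk99_200_9_10_56_9_10_20 tk99_200_9_10_56_9_10_20E tk99_200_9_10_56_9_10_20V = true := by
  decide +kernel

theorem ckQ_56 : stN 153 20 56 pw_9_10_56 stQ_55 20 stQ_56 wqQ tk99_200_9_10_56_9_10_20 tk99_200_9_10_56_9_10_20E tk99_200_9_10_56_9_10_20V = true := by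
  decide +kernel

theorem ckQ_57 : stN 153 20 56 pw_9_10_56 stQ_56 20 stQ_57 wqQ tk99_200_9_10_56_9_10_20 tk99_200_9_10_56_9_10_20E tk99_200_9_10_56_9_10_20V = true := by
  decide +kernel

theorem ckQ_58 : stN 153 20 56 pw_9_10_56 stQ_57 20 stQ_58 wqQ tk99_200_9_10_56_9_10_20 tk99_200_9_10_56_9_10_20E tk99_200_9_10_56_9_10_20V = true := by
  decide +kernel

theorem ckQ_59 : stN 153 20 56 pw_9_10_56 stQ_58 20 stQ_59 wqQ tk99_200_9_10_56_9_10_20 tk99_200_9_10_56_9_10_20E tk99_200_9_10_56_9_10_20V = true := by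
  decide +kernel

theorem ckQ_60 : stN 153 20 56 pw_9_10_56 stQ_59 20 stQ_60 wqQ tk99_200_9_10_56_9_10_20 tk99_200_9_10_56_9_10_20E tk99_200_9_10_56_9_10_20V = true := by
  decide +kernel

end Vale.Agent.P154.DE
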