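import Vale.Agent.P154.DE.EngD
import Vale.Agent.P154.DE.WqQ
import Vale.Agent.P154.DE.StQ
import Vale.Agent.P154.DE.Pw9_10_56
import Vale.Agent.P154.DE.Tk99_200_9_10_56_9_10_20

/-!
# Steps 60 to 72
-/

namespace Vale.Agent.P154.DE

set_option maxRecDepth 100000

theorem ckQ_61 : stN 153 20 56 pw_9_10_56 stQ_60 20 stQ_61 wqQ tk99_200_9_10_56_9_10_20 tk99_200_9_10_56_9_10_20E tk99_200_9_10_56_9_10_20V = true := by
  decide +kernel

theorem ckQ_62 : stN 153 20 56 pw_9_10_56 stQ_61 20 stQ_62 wqQ tk99_200_9_10_56_9_10_20 tk99_200_9_10_56_9_10_20E tk99_200_9_10_56_9_10_20V = true := by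
  decide +kernel

theorem ckQ_63 : stN 153 20 56 pw_9_10_56 stQ_62 20 stQ_63 wqQ tk99_200_9_10_56_9_10_20 tk99_200_9_10_56_9_10_20E tk99_200_9_10_56_9_10_20V = true := by
  decide +kernel

theorem ckQ_64 : stN 153 20 56 pw_9_10_56 stQ_63 20 stQ_64 wqQ tk99_200_9_10_56_9_10_20 tk99_200_9_10_56_9_10_20E tk99_200_9_10_56_9_10_20V = true := by
  decide +kernel

theorem ckQ_65 : stN 153 20 56 pw_9_10_56 stQ_64 20 stQ_65 wqQ tk99_200_9_10_56_9_10_20 tk99_200_9_10_56_9_10_20E tk99_200_9_10_56_9_10_20V = true := by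
  decide +kernel

theorem ckQ_66 : stN 153 20 56 pw_9_10_56 stQ_65 20 stQ_66 wqQ tk99_200_9_10_56_9_10_20 tk99_200_9_10_56_9_10_20E tk99_200_9_10_56_9_10_20V = true := by
  decide +kernel

theorem ckQ_67 : stN 153 20 56 pw_9_10_56 stQ_66 20 stQ_67 wqQ tk99_200_9_10_56_9_10_20 tk99_200_9_10_56_9_10_20E tk99_200_9_10_56_9_10_20V = true := by
  decide +kernel

theorem ckQ_68 : stN 153 20 56 pw_9_10_56 stQ_67 20 stQ_68 wqQ tk99_200_9_10_56_9_10_20 tk99_200_9_10_56_9_10_20E tk99_200_9_10_56_9_10_20V = true := by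
  decide +kernel

theorem ckQ_69 : stN 153 20 56 pw_9_10_56 stQ_68 20 stQ_69 wqQ tk99_200_9_10_56_9_10_20 tk99_200_9_10_56_9_10_20E tk99_200_9_10_56_9_10_20V = true := by
  decide +kernel

theorem ckQ_70 : stN 153 20 56 pw_9_10_56 stQ_69 20 stQ_70 wqQ tk99_200_9_10_56_9_10_20 tk99_200_9_10_56_9_10_20E tk99_200_9_10_56_9_10_20V = true := by
  decide +kernel

theorem ckQ_71 : stN 153 20 56 pw_9_10_56 stQ_70 20 stQ_71 wqQ tk99_200_9_10_56_9_10_20 tk99_200_9_10_56_9_10_20E tk99_200_9_10_56_9_10_20V = true := by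
  decide +kernel

theorem ckQ_72 : stN 153 20 56 pw_9_10_56 stQ_71 20 stQ_72 wqQ tk99_200_9_10_56_9_10_20 tk99_200_9_10_56_9_10_20E tk99_200_9_10_56_9_10_20V = true := by
  decide +kernel

end Vale.Agent.P154.DE
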