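import Vale.Agent.P154.DE.EngD
import Vale.Agent.P154.DE.WqQ
import Vale.Agent.P154.DE.StQ
import Vale.Agent.P154.DE.Pw9_10_56
import Vale.Agent.P154.DE.Pw14_15_70
import Vale.Agent.P154.DE.Tk99_200_9_10_56_9_10_20
import Vale.Agent.P154.DE.Tk99_200_9_10_56_14_15_24
import Vale.Agent.P154.DE.Tk99_200_14_15_70_14_15_24

/-!
# Steps 72 to 83
-/

namespace Vale.Agent.P154.DE

set_option maxRecDepth 100000

theorem ckQ_73 : stN 153 20 56 pw_9_10_56 stQ_72 20 stQ_73 wqQ tk99_200_9_10_56_9_10_20 tk99_200_9_10_56_9_10_20E tk99_200_9_10_56_9_10_20V = true := by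
  decide +kernel

theorem ckQ_74 : stN 153 20 56 pw_9_10_56 stQ_73 20 stQ_74 wqQ tk99_200_9_10_56_9_10_20 tk99_200_9_10_56_9_10_20E tk99_200_9_10_56_9_10_20V = true := by
  decide +kernel

theorem ckQ_75 : stN 153 20 56 pw_9_10_56 stQ_74 20 stQ_75 wqQ tk99_200_9_10_56_9_10_20 tk99_200_9_10_56_9_10_20E tk99_200_9_10_56_9_10_20V = true := by
  decide +kernel

theorem ckQ_76 : stN 153 20 56 pw_9_10_56 stQ_75 20 stQ_76 wqQ tk99_200_9_10_56_9_10_20 tk99_200_9_10_56_9_10_20E tk99_200_9_10_56_9_10_20V = true := by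
  decide +kernel

theorem ckQ_77 : stN 153 20 56 pw_9_10_56 stQ_76 20 stQ_77 wqQ tk99_200_9_10_56_9_10_20 tk99_200_9_10_56_9_10_20E tk99_200_9_10_56_9_10_20V = true := by
  decide +kernel

theorem ckQ_78 : stN 153 20 56 pw_9_10_56 stQ_77 20 stQ_78 wqQ tk99_200_9_10_56_9_10_20 tk99_200_9_10_56_9_10_20E tk99_200_9_10_56_9_10_20V = true := by
  decide +kernel

theorem ckQ_79 : stN 153 20 56 pw_9_10_56 stQ_78 20 stQ_79 wqQ tk99_200_9_10_56_9_10_20 tk99_200_9_10_56_9_10_20E tk99_200_9_10_56_9_10_20V = true := by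
  decide +kernel

theorem ckQ_80 : stN 153 20 56 pw_9_10_56 stQ_79 20 stQ_80 wqQ tk99_200_9_10_56_9_10_20 tk99_200_9_10_56_9_10_20E tk99_200_9_10_56_9_10_20V = true := by
  decide +kernel

theorem ckQ_81 : stN 153 20 56 pw_9_10_56 stQ_80 20 stQ_81 wqQ tk99_200_9_10_56_9_10_20 tk99_200_9_10_56_9_10_20E tk99_200_9_10_56_9_10_20V = true := by
  decide +kernel

theorem ckQ_82 : stN 153 20 56 pw_9_10_56 stQ_81 24 stQ_82 wqQ tk99_200_9_10_56_14_15_24 tk99_200_9_10_56_14_15_24E tk99_200_9_10_56_14_15_24V = true := by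
  decide +kernel

theorem ckQ_83 : stN 189 24 70 pw_14_15_70 stQ_82 24 stQ_83 wqQ tk99_200_14_15_70_14_15_24 tk99_200_14_15_70_14_15_24E tk99_200_14_15_70_14_15_24V = true := by
  decide +kernel

end Vale.Agent.P154.DE
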