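import Vale.Agent.P154.DE.EngD
import Vale.Agent.P154.DE.WqQ
import Vale.Agent.P154.DE.StQ
import Vale.Agent.P154.DE.Pw14_15_70
import Vale.Agent.P154.DE.Tk99_200_14_15_70_14_15_24

/-!
# Steps 83 to 90
-/

namespace Vale.Agent.P154.DE

set_option maxRecDepth 100000

theorem ckQ_84 : stN 189 24 70 pw_14_15_70 stQ_83 24 stQ_84 wqQ tk99_200_14_15_70_14_15_24 tk99_200_14_15_70_14_15_24E tk99_200_14_15_70_14_15_24V = true := by
  decide +kernel

theorem ckQ_85 : stN 189 24 70 pw_14_15_70 stQ_84 24 stQ_85 wqQ tk99_200_14_15_70_14_15_24 tk99_200_14_15_70_14_15_24E tk99_200_14_15_70_14_15_24V = true := by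
  decide +kernel

theorem ckQ_86 : stN 189 24 70 pw_14_15_70 stQ_85 24 stQ_86 wqQ tk99_200_14_15_70_14_15_24 tk99_200_14_15_70_14_15_24E tk99_200_14_15_70_14_15_24V = true := by
  decide +kernel

theorem ckQ_87 : stN 189 24 70 pw_14_15_70 stQ_86 24 stQ_87 wqQ tk99_200_14_15_70_14_15_24 tk99_200_14_15_70_14_15_24E tk99_200_14_15_70_14_15_24V = true := by
  decide +kernel

theorem ckQ_88 : stN 189 24 70 pw_14_15_70 stQ_87 24 stQ_88 wqQ tk99_200_14_15_70_14_15_24 tk99_200_14_15_70_14_15_24E tk99_200_14_15_70_14_15_24V = true := by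
  decide +kernel

theorem ckQ_89 : stN 189 24 70 pw_14_15_70 stQ_88 24 stQ_89 wqQ tk99_200_14_15_70_14_15_24 tk99_200_14_15_70_14_15_24E tk99_200_14_15_70_14_15_24V = true := by
  decide +kernel

theorem ckQ_90 : stN 189 24 70 pw_14_15_70 stQ_89 24 stQ_90 wqQ tk99_200_14_15_70_14_15_24 tk99_200_14_15_70_14_15_24E tk99_200_14_15_70_14_15_24V = true := by
  decide +kernel

end Vale.Agent.P154.DE
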