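import Vale.Agent.P154.DE.EngD
import Vale.Agent.P154.DE.WqQ
import Vale.Agent.P154.DE.StQ
import Vale.Agent.P154.DE.Pw14_15_70
import Vale.Agent.P154.DE.Tk99_200_14_15_70_14_15_24

/-!
# Steps 90 to 97
-/

namespace Vale.Agent.P154.DE

set_option maxRecDepth 100000

theorem ckQ_91 : stN 189 24 70 pw_14_15_70 stQ_90 24 stQ_91 wqQ tk99_200_14_15_70_14_15_24 tk99_200_14_15_70_14_15_24E tk99_200_14_15_70_14_15_24V = true := by
  decide +kernel

theorem ckQ_92 : stN 189 24 70 pw_14_15_70 stQ_91 24 stQ_92 wqQ tk99_200_14_15_70_14_15_24 tk99_200_14_15_70_14_15_24E tk99_200_14_15_70_14_15_24V = true := by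
  decide +kernel

theorem ckQ_93 : stN 189 24 70 pw_14_15_70 stQ_92 24 stQ_93 wqQ tk99_200_14_15_70_14_15_24 tk99_200_14_15_70_14_15_24E tk99_200_14_15_70_14_15_24V = true := by
  decide +kernel

theorem ckQ_94 : stN 189 24 70 pw_14_15_70 stQ_93 24 stQ_94 wqQ tk99_200_14_15_70_14_15_24 tk99_200_14_15_70_14_15_24E tk99_200_14_15_70_14_15_24V = true := by
  decide +kernel

theorem ckQ_95 : stN 189 24 70 pw_14_15_70 stQ_94 24 stQ_95 wqQ tk99_200_14_15_70_14_15_24 tk99_200_14_15_70_14_15_24E tk99_200_14_15_70_14_15_24V = true := by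
  decide +kernel

theorem ckQ_96 : stN 189 24 70 pw_14_15_70 stQ_95 24 stQ_96 wqQ tk99_200_14_15_70_14_15_24 tk99_200_14_15_70_14_15_24E tk99_200_14_15_70_14_15_24V = true := by
  decide +kernel

theorem ckQ_97 : stN 189 24 70 pw_14_15_70 stQ_96 24 stQ_97 wqQ tk99_200_14_15_70_14_15_24 tk99_200_14_15_70_14_15_24E tk99_200_14_15_70_14_15_24V = true := by
  decide +kernel

end Vale.Agent.P154.DE
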