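import Vale.Agent.P154.DE.EngD
import Vale.Agent.P154.DE.WqQ
import Vale.Agent.P154.DE.StQ
import Vale.Agent.P154.DE.Pw14_15_70
import Vale.Agent.P154.DE.Tk99_200_14_15_70_14_15_24

/-!
# Steps 97 to 104
-/

namespace Vale.Agent.P154.DE

set_option maxRecDepth 100000

theorem ckQ_98 : stN 189 24 70 pw_14_15_70 stQ_97 24 stQ_98 wqQ tk99_200_14_15_70_14_15_24 tk99_200_14_15_70_14_15_24E tk99_200_14_15_70_14_15_24V = true := by
  decide +kernel

theorem ckQ_99 : stN 189 24 70 pw_14_15_70 stQ_98 24 stQ_99 wqQ tk99_200_14_15_70_14_15_24 tk99_200_14_15_70_14_15_24E tk99_200_14_15_70_14_15_24V = true := by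
  decide +kernel

theorem ckQ_100 : stN 189 24 70 pw_14_15_70 stQ_99 24 stQ_100 wqQ tk99_200_14_15_70_14_15_24 tk99_200_14_15_70_14_15_24E tk99_200_14_15_70_14_15_24V = true := by
  decide +kernel

theorem ckQ_101 : stN 189 24 70 pw_14_15_70 stQ_100 24 stQ_101 wqQ tk99_200_14_15_70_14_15_24 tk99_200_14_15_70_14_15_24E tk99_200_14_15_70_14_15_24V = true := by
  decide +kernel

theorem ckQ_102 : stN 189 24 70 pw_14_15_70 stQ_101 24 stQ_102 wqQ tk99_200_14_15_70_14_15_24 tk99_200_14_15_70_14_15_24E tk99_200_14_15_70_14_15_24V = true := by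
  decide +kernel

theorem ckQ_103 : stN 189 24 70 pw_14_15_70 stQ_102 24 stQ_103 wqQ tk99_200_14_15_70_14_15_24 tk99_200_14_15_70_14_15_24E tk99_200_14_15_70_14_15_24V = true := by
  decide +kernel

theorem ckQ_104 : stN 189 24 70 pw_14_15_70 stQ_103 24 stQ_104 wqQ tk99_200_14_15_70_14_15_24 tk99_200_14_15_70_14_15_24E tk99_200_14_15_70_14_15_24V = true := by
  decide +kernel

end Vale.Agent.P154.DE
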