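import Vale.Agent.P154.DE.EngD
import Vale.Agent.P154.DE.WqQ
import Vale.Agent.P154.DE.StQ
import Vale.Agent.P154.DE.Pw14_15_70
import Vale.Agent.P154.DE.Tk99_200_14_15_70_14_15_24

/-!
# Steps 104 to 111
-/

namespace Vale.Agent.P154.DE

set_option maxRecDepth 100000

theorem ckQ_105 : stN 189 24 70 pw_14_15_70 stQ_104 24 stQ_105 wqQ tk99_200_14_15_70_14_15_24 tk99_200_14_15_70_14_15_24E tk99_200_14_15_70_14_15_24V = true := by
  decide +kernel

theorem ckQ_106 : stN 189 24 70 pw_14_15_70 stQ_105 24 stQ_106 wqQ tk99_200_14_15_70_14_15_24 tk99_200_14_15_70_14_15_24E tk99_200_14_15_70_14_15_24V = true := by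
  decide +kernel

theorem ckQ_107 : stN 189 24 70 pw_14_15_70 stQ_106 24 stQ_107 wqQ tk99_200_14_15_70_14_15_24 tk99_200_14_15_70_14_15_24E tk99_200_14_15_70_14_15_24V = true := by
  decide +kernel

theorem ckQ_108 : stN 189 24 70 pw_14_15_70 stQ_107 24 stQ_108 wqQ tk99_200_14_15_70_14_15_24 tk99_200_14_15_70_14_15_24E tk99_200_14_15_70_14_15_24V = true := by
  decide +kernel

theorem ckQ_109 : stN 189 24 70 pw_14_15_70 stQ_108 24 stQ_109 wqQ tk99_200_14_15_70_14_15_24 tk99_200_14_15_70_14_15_24E tk99_200_14_15_70_14_15_24V = true := by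
  decide +kernel

theorem ckQ_110 : stN 189 24 70 pw_14_15_70 stQ_109 24 stQ_110 wqQ tk99_200_14_15_70_14_15_24 tk99_200_14_15_70_14_15_24E tk99_200_14_15_70_14_15_24V = true := by
  decide +kernel

theorem ckQ_111 : stN 189 24 70 pw_14_15_70 stQ_110 24 stQ_111 wqQ tk99_200_14_15_70_14_15_24 tk99_200_14_15_70_14_15_24E tk99_200_14_15_70_14_15_24V = true := by
  decide +kernel

end Vale.Agent.P154.DE
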