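import Vale.Agent.P154.DE.EngD
import Vale.Agent.P154.DE.WqQ
import Vale.Agent.P154.DE.StQ
import Vale.Agent.P154.DE.Pw14_15_70
import Vale.Agent.P154.DE.Tk99_200_14_15_70_14_15_24

/-!
# Steps 111 to 114
-/

namespace Vale.Agent.P154.DE

set_option maxRecDepth 100000

theorem ckQ_112 : stN 189 24 70 pw_14_15_70 stQ_111 24 stQ_112 wqQ tk99_200_14_15_70_14_15_24 tk99_200_14_15_70_14_15_24E tk99_200_14_15_70_14_15_24V = true := by
  decide +kernel

theorem ckQ_113 : stN 189 24 70 pw_14_15_70 stQ_112 24 stQ_113 wqQ tk99_200_14_15_70_14_15_24 tk99_200_14_15_70_14_15_24E tk99_200_14_15_70_14_15_24V = true := by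
  decide +kernel

theorem ckQ_114 : stN 189 24 70 pw_14_15_70 stQ_113 24 stQ_114 wqQ tk99_200_14_15_70_14_15_24 tk99_200_14_15_70_14_15_24E tk99_200_14_15_70_14_15_24V = true := by
  decide +kernel

end Vale.Agent.P154.DE
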