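import Vale.Agent.P154.DE.EngD
import Vale.Agent.P154.DE.StR
import Vale.Agent.P154.DE.Pw3_4_56
import Vale.Agent.P154.DE.Tk1_2_3_4_56_3_4_14

/-!
# Steps 0 to 16
-/

namespace Vale.Agent.P154.DE

set_option maxRecDepth 100000

theorem ckR_1 : stN 141 14 56 pw_3_4_56 stR_0 14 stR_1 q4 tk1_2_3_4_56_3_4_14 tk1_2_3_4_56_3_4_14E tk1_2_3_4_56_3_4_14V = true := by
  decide +kernel

theorem ckR_2 : stN 141 14 56 pw_3_4_56 stR_1 14 stR_2 q4 tk1_2_3_4_56_3_4_14 tk1_2_3_4_56_3_4_14E tk1_2_3_4_56_3_4_14V = true := by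
  decide +kernel

theorem ckR_3 : stN 141 14 56 pw_3_4_56 stR_2 14 stR_3 q4 tk1_2_3_4_56_3_4_14 tk1_2_3_4_56_3_4_14E tk1_2_3_4_56_3_4_14V = true := by
  decide +kernel

theorem ckR_4 : stN 141 14 56 pw_3_4_56 stR_3 14 stR_4 q4 tk1_2_3_4_56_3_4_14 tk1_2_3_4_56_3_4_14E tk1_2_3_4_56_3_4_14V = true := by
  decide +kernel

theorem ckR_5 : stN 141 14 56 pw_3_4_56 stR_4 14 stR_5 q4 tk1_2_3_4_56_3_4_14 tk1_2_3_4_56_3_4_14E tk1_2_3_4_56_3_4_14V = true := by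
  decide +kernel

theorem ckR_6 : stN 141 14 56 pw_3_4_56 stR_5 14 stR_6 q4 tk1_2_3_4_56_3_4_14 tk1_2_3_4_56_3_4_14E tk1_2_3_4_56_3_4_14V = true := by
  decide +kernel

theorem ckR_7 : stN 141 14 56 pw_3_4_56 stR_6 14 stR_7 q4 tk1_2_3_4_56_3_4_14 tk1_2_3_4_56_3_4_14E tk1_2_3_4_56_3_4_14V = true := by
  decide +kernel

theorem ckR_8 : stN 141 14 56 pw_3_4_56 stR_7 14 stR_8 q4 tk1_2_3_4_56_3_4_14 tk1_2_3_4_56_3_4_14E tk1_2_3_4_56_3_4_14V = true := by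
  decide +kernel

theorem ckR_9 : stN 141 14 56 pw_3_4_56 stR_8 14 stR_9 q4 tk1_2_3_4_56_3_4_14 tk1_2_3_4_56_3_4_14E tk1_2_3_4_56_3_4_14V = true := by
  decide +kernel

theorem ckR_10 : stN 141 14 56 pw_3_4_56 stR_9 14 stR_10 q4 tk1_2_3_4_56_3_4_14 tk1_2_3_4_56_3_4_14E tk1_2_3_4_56_3_4_14V = true := by
  decide +kernel

theorem ckR_11 : stN 141 14 56 pw_3_4_56 stR_10 14 stR_11 q4 tk1_2_3_4_56_3_4_14 tk1_2_3_4_56_3_4_14E tk1_2_3_4_56_3_4_14V = true := by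
  decide +kernel

theorem ckR_12 : stN 141 14 56 pw_3_4_56 stR_11 14 stR_12 q4 tk1_2_3_4_56_3_4_14 tk1_2_3_4_56_3_4_14E tk1_2_3_4_56_3_4_14V = true := by
  decide +kernel

theorem ckR_13 : stN 141 14 56 pw_3_4_56 stR_12 14 stR_13 q4 tk1_2_3_4_56_3_4_14 tk1_2_3_4_56_3_4_14E tk1_2_3_4_56_3_4_14V = true := by
  decide +kernel

theorem ckR_14 : stN 141 14 56 pw_3_4_56 stR_13 14 stR_14 q4 tk1_2_3_4_56_3_4_14 tk1_2_3_4_56_3_4_14E tk1_2_3_4_56_3_4_14V = true := by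
  decide +kernel

theorem ckR_15 : stN 141 14 56 pw_3_4_56 stR_14 14 stR_15 q4 tk1_2_3_4_56_3_4_14 tk1_2_3_4_56_3_4_14E tk1_2_3_4_56_3_4_14V = true := by
  decide +kernel

theorem ckR_16 : stN 141 14 56 pw_3_4_56 stR_15 14 stR_16 q4 tk1_2_3_4_56_3_4_14 tk1_2_3_4_56_3_4_14E tk1_2_3_4_56_3_4_14V = true := by
  decide +kernel

end Vale.Agent.P154.DE
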