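import Vale.Agent.P154.DE.EngD
import Vale.Agent.P154.DE.StR
import Vale.Agent.P154.DE.Pw3_4_56
import Vale.Agent.P154.DE.Tk1_2_3_4_56_3_4_14

/-!
# Steps 16 to 32
-/

namespace Vale.Agent.P154.DE

set_option maxRecDepth 100000

theorem ckR_17 : stN 141 14 56 pw_3_4_56 stR_16 14 stR_17 q4 tk1_2_3_4_56_3_4_14 tk1_2_3_4_56_3_4_14E tk1_2_3_4_56_3_4_14V = true := by
  decide +kernel

theorem ckR_18 : stN 141 14 56 pw_3_4_56 stR_17 14 stR_18 q4 tk1_2_3_4_56_3_4_14 tk1_2_3_4_56_3_4_14E tk1_2_3_4_56_3_4_14V = true := by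
  decide +kernel

theorem ckR_19 : stN 141 14 56 pw_3_4_56 stR_18 14 stR_19 q4 tk1_2_3_4_56_3_4_14 tk1_2_3_4_56_3_4_14E tk1_2_3_4_56_3_4_14V = true := by
  decide +kernel

theorem ckR_20 : stN 141 14 56 pw_3_4_56 stR_19 14 stR_20 q4 tk1_2_3_4_56_3_4_14 tk1_2_3_4_56_3_4_14E tk1_2_3_4_56_3_4_14V = true := by
  decide +kernel

theorem ckR_21 : stN 141 14 56 pw_3_4_56 stR_20 14 stR_21 q4 tk1_2_3_4_56_3_4_14 tk1_2_3_4_56_3_4_14E tk1_2_3_4_56_3_4_14V = true := by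
  decide +kernel

theorem ckR_22 : stN 141 14 56 pw_3_4_56 stR_21 14 stR_22 q4 tk1_2_3_4_56_3_4_14 tk1_2_3_4_56_3_4_14E tk1_2_3_4_56_3_4_14V = true := by
  decide +kernel

theorem ckR_23 : stN 141 14 56 pw_3_4_56 stR_22 14 stR_23 q4 tk1_2_3_4_56_3_4_14 tk1_2_3_4_56_3_4_14E tk1_2_3_4_56_3_4_14V = true := by
  decide +kernel

theorem ckR_24 : stN 141 14 56 pw_3_4_56 stR_23 14 stR_24 q4 tk1_2_3_4_56_3_4_14 tk1_2_3_4_56_3_4_14E tk1_2_3_4_56_3_4_14V = true := by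
  decide +kernel

theorem ckR_25 : stN 141 14 56 pw_3_4_56 stR_24 14 stR_25 q4 tk1_2_3_4_56_3_4_14 tk1_2_3_4_56_3_4_14E tk1_2_3_4_56_3_4_14V = true := by
  decide +kernel

theorem ckR_26 : stN 141 14 56 pw_3_4_56 stR_25 14 stR_26 q4 tk1_2_3_4_56_3_4_14 tk1_2_3_4_56_3_4_14E tk1_2_3_4_56_3_4_14V = true := by
  decide +kernel

theorem ckR_27 : stN 141 14 56 pw_3_4_56 stR_26 14 stR_27 q4 tk1_2_3_4_56_3_4_14 tk1_2_3_4_56_3_4_14E tk1_2_3_4_56_3_4_14V = true := by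
  decide +kernel

theorem ckR_28 : stN 141 14 56 pw_3_4_56 stR_27 14 stR_28 q4 tk1_2_3_4_56_3_4_14 tk1_2_3_4_56_3_4_14E tk1_2_3_4_56_3_4_14V = true := by
  decide +kernel

theorem ckR_29 : stN 141 14 56 pw_3_4_56 stR_28 14 stR_29 q4 tk1_2_3_4_56_3_4_14 tk1_2_3_4_56_3_4_14E tk1_2_3_4_56_3_4_14V = true := by
  decide +kernel

theorem ckR_30 : stN 141 14 56 pw_3_4_56 stR_29 14 stR_30 q4 tk1_2_3_4_56_3_4_14 tk1_2_3_4_56_3_4_14E tk1_2_3_4_56_3_4_14V = true := by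
  decide +kernel

theorem ckR_31 : stN 141 14 56 pw_3_4_56 stR_30 14 stR_31 q4 tk1_2_3_4_56_3_4_14 tk1_2_3_4_56_3_4_14E tk1_2_3_4_56_3_4_14V = true := by
  decide +kernel

theorem ckR_32 : stN 141 14 56 pw_3_4_56 stR_31 14 stR_32 q4 tk1_2_3_4_56_3_4_14 tk1_2_3_4_56_3_4_14E tk1_2_3_4_56_3_4_14V = true := by
  decide +kernel

end Vale.Agent.P154.DE
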