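import Vale.Agent.P154.DE.EngD
import Vale.Agent.P154.DE.StR
import Vale.Agent.P154.DE.Pw12_13_56
import Vale.Agent.P154.DE.Tk1_2_12_13_56_12_13_14

/-!
# Steps 160 to 176
-/

namespace Vale.Agent.P154.DE

set_option maxRecDepth 100000

theorem ckR_161 : stN 141 14 56 pw_12_13_56 stR_160 14 stR_161 q4 tk1_2_12_13_56_12_13_14 tk1_2_12_13_56_12_13_14E tk1_2_12_13_56_12_13_14V = true := by
  decide +kernel

theorem ckR_162 : stN 141 14 56 pw_12_13_56 stR_161 14 stR_162 q4 tk1_2_12_13_56_12_13_14 tk1_2_12_13_56_12_13_14E tk1_2_12_13_56_12_13_14V = true := by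
  decide +kernel

theorem ckR_163 : stN 141 14 56 pw_12_13_56 stR_162 14 stR_163 q4 tk1_2_12_13_56_12_13_14 tk1_2_12_13_56_12_13_14E tk1_2_12_13_56_12_13_14V = true := by
  decide +kernel

theorem ckR_164 : stN 141 14 56 pw_12_13_56 stR_163 14 stR_164 q4 tk1_2_12_13_56_12_13_14 tk1_2_12_13_56_12_13_14E tk1_2_12_13_56_12_13_14V = true := by
  decide +kernel

theorem ckR_165 : stN 141 14 56 pw_12_13_56 stR_164 14 stR_165 q4 tk1_2_12_13_56_12_13_14 tk1_2_12_13_56_12_13_14E tk1_2_12_13_56_12_13_14V = true := by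
  decide +kernel

theorem ckR_166 : stN 141 14 56 pw_12_13_56 stR_165 14 stR_166 q4 tk1_2_12_13_56_12_13_14 tk1_2_12_13_56_12_13_14E tk1_2_12_13_56_12_13_14V = true := by
  decide +kernel

theorem ckR_167 : stN 141 14 56 pw_12_13_56 stR_166 14 stR_167 q4 tk1_2_12_13_56_12_13_14 tk1_2_12_13_56_12_13_14E tk1_2_12_13_56_12_13_14V = true := by
  decide +kernel

theorem ckR_168 : stN 141 14 56 pw_12_13_56 stR_167 14 stR_168 q4 tk1_2_12_13_56_12_13_14 tk1_2_12_13_56_12_13_14E tk1_2_12_13_56_12_13_14V = true := by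
  decide +kernel

theorem ckR_169 : stN 141 14 56 pw_12_13_56 stR_168 14 stR_169 q4 tk1_2_12_13_56_12_13_14 tk1_2_12_13_56_12_13_14E tk1_2_12_13_56_12_13_14V = true := by
  decide +kernel

theorem ckR_170 : stN 141 14 56 pw_12_13_56 stR_169 14 stR_170 q4 tk1_2_12_13_56_12_13_14 tk1_2_12_13_56_12_13_14E tk1_2_12_13_56_12_13_14V = true := by
  decide +kernel

theorem ckR_171 : stN 141 14 56 pw_12_13_56 stR_170 14 stR_171 q4 tk1_2_12_13_56_12_13_14 tk1_2_12_13_56_12_13_14E tk1_2_12_13_56_12_13_14V = true := by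
  decide +kernel

theorem ckR_172 : stN 141 14 56 pw_12_13_56 stR_171 14 stR_172 q4 tk1_2_12_13_56_12_13_14 tk1_2_12_13_56_12_13_14E tk1_2_12_13_56_12_13_14V = true := by
  decide +kernel

theorem ckR_173 : stN 141 14 56 pw_12_13_56 stR_172 14 stR_173 q4 tk1_2_12_13_56_12_13_14 tk1_2_12_13_56_12_13_14E tk1_2_12_13_56_12_13_14V = true := by
  decide +kernel

theorem ckR_174 : stN 141 14 56 pw_12_13_56 stR_173 14 stR_174 q4 tk1_2_12_13_56_12_13_14 tk1_2_12_13_56_12_13_14E tk1_2_12_13_56_12_13_14V = true := by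
  decide +kernel

theorem ckR_175 : stN 141 14 56 pw_12_13_56 stR_174 14 stR_175 q4 tk1_2_12_13_56_12_13_14 tk1_2_12_13_56_12_13_14E tk1_2_12_13_56_12_13_14V = true := by
  decide +kernel

theorem ckR_176 : stN 141 14 56 pw_12_13_56 stR_175 14 stR_176 q4 tk1_2_12_13_56_12_13_14 tk1_2_12_13_56_12_13_14E tk1_2_12_13_56_12_13_14V = true := by
  decide +kernel

end Vale.Agent.P154.DE
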