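import Vale.Agent.P154.DE.EngD
import Vale.Agent.P154.DE.StR
import Vale.Agent.P154.DE.Pw12_13_56
import Vale.Agent.P154.DE.Tk1_2_12_13_56_12_13_14

/-!
# Steps 176 to 190
-/

namespace Vale.Agent.P154.DE

set_option maxRecDepth 100000

theorem ckR_177 : stN 141 14 56 pw_12_13_56 stR_176 14 stR_177 q4 tk1_2_12_13_56_12_13_14 tk1_2_12_13_56_12_13_14E tk1_2_12_13_56_12_13_14V = true := by
  decide +kernel

theorem ckR_178 : stN 141 14 56 pw_12_13_56 stR_177 14 stR_178 q4 tk1_2_12_13_56_12_13_14 tk1_2_12_13_56_12_13_14E tk1_2_12_13_56_12_13_14V = true := by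
  decide +kernel

theorem ckR_179 : stN 141 14 56 pw_12_13_56 stR_178 14 stR_179 q4 tk1_2_12_13_56_12_13_14 tk1_2_12_13_56_12_13_14E tk1_2_12_13_56_12_13_14V = true := by
  decide +kernel

theorem ckR_180 : stN 141 14 56 pw_12_13_56 stR_179 14 stR_180 q4 tk1_2_12_13_56_12_13_14 tk1_2_12_13_56_12_13_14E tk1_2_12_13_56_12_13_14V = true := by
  decide +kernel

theorem ckR_181 : stN 141 14 56 pw_12_13_56 stR_180 14 stR_181 q4 tk1_2_12_13_56_12_13_14 tk1_2_12_13_56_12_13_14E tk1_2_12_13_56_12_13_14V = true := by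
  decide +kernel

theorem ckR_182 : stN 141 14 56 pw_12_13_56 stR_181 14 stR_182 q4 tk1_2_12_13_56_12_13_14 tk1_2_12_13_56_12_13_14E tk1_2_12_13_56_12_13_14V = true := by
  decide +kernel

theorem ckR_183 : stN 141 14 56 pw_12_13_56 stR_182 14 stR_183 q4 tk1_2_12_13_56_12_13_14 tk1_2_12_13_56_12_13_14E tk1_2_12_13_56_12_13_14V = true := by
  decide +kernel

theorem ckR_184 : stN 141 14 56 pw_12_13_56 stR_183 14 stR_184 q4 tk1_2_12_13_56_12_13_14 tk1_2_12_13_56_12_13_14E tk1_2_12_13_56_12_13_14V = true := by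
  decide +kernel

theorem ckR_185 : stN 141 14 56 pw_12_13_56 stR_184 14 stR_185 q4 tk1_2_12_13_56_12_13_14 tk1_2_12_13_56_12_13_14E tk1_2_12_13_56_12_13_14V = true := by
  decide +kernel

theorem ckR_186 : stN 141 14 56 pw_12_13_56 stR_185 14 stR_186 q4 tk1_2_12_13_56_12_13_14 tk1_2_12_13_56_12_13_14E tk1_2_12_13_56_12_13_14V = true := by
  decide +kernel

theorem ckR_187 : stN 141 14 56 pw_12_13_56 stR_186 14 stR_187 q4 tk1_2_12_13_56_12_13_14 tk1_2_12_13_56_12_13_14E tk1_2_12_13_56_12_13_14V = true := by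
  decide +kernel

theorem ckR_188 : stN 141 14 56 pw_12_13_56 stR_187 14 stR_188 q4 tk1_2_12_13_56_12_13_14 tk1_2_12_13_56_12_13_14E tk1_2_12_13_56_12_13_14V = true := by
  decide +kernel

theorem ckR_189 : stN 141 14 56 pw_12_13_56 stR_188 14 stR_189 q4 tk1_2_12_13_56_12_13_14 tk1_2_12_13_56_12_13_14E tk1_2_12_13_56_12_13_14V = true := by
  decide +kernel

theorem ckR_190 : stN 141 14 56 pw_12_13_56 stR_189 14 stR_190 q4 tk1_2_12_13_56_12_13_14 tk1_2_12_13_56_12_13_14E tk1_2_12_13_56_12_13_14V = true := by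
  decide +kernel

end Vale.Agent.P154.DE
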