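import Vale.Agent.P154.DE.EngD
import Vale.Agent.P154.DE.StR
import Vale.Agent.P154.DE.Pw3_4_56
import Vale.Agent.P154.DE.Tk1_2_3_4_56_3_4_14

/-!
# Steps 32 to 48
-/

namespace Vale.Agent.P154.DE

set_option maxRecDepth 100000

theorem ckR_33 : stN 141 14 56 pw_3_4_56 stR_32 14 stR_33 q4 tk1_2_3_4_56_3_4_14 tk1_2_3_4_56_3_4_14E tk1_2_3_4_56_3_4_14V = true := by
  decide +kernel

theorem ckR_34 : stN 141 14 56 pw_3_4_56 stR_33 14 stR_34 q4 tk1_2_3_4_56_3_4_14 tk1_2_3_4_56_3_4_14E tk1_2_3_4_56_3_4_14V = true := by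
  decide +kernel

theorem ckR_35 : stN 141 14 56 pw_3_4_56 stR_34 14 stR_35 q4 tk1_2_3_4_56_3_4_14 tk1_2_3_4_56_3_4_14E tk1_2_3_4_56_3_4_14V = true := by
  decide +kernel

theorem ckR_36 : stN 141 14 56 pw_3_4_56 stR_35 14 stR_36 q4 tk1_2_3_4_56_3_4_14 tk1_2_3_4_56_3_4_14E tk1_2_3_4_56_3_4_14V = true := by
  decide +kernel

theorem ckR_37 : stN 141 14 56 pw_3_4_56 stR_36 14 stR_37 q4 tk1_2_3_4_56_3_4_14 tk1_2_3_4_56_3_4_14E tk1_2_3_4_56_3_4_14V = true := by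
  decide +kernel

theorem ckR_38 : stN 141 14 56 pw_3_4_56 stR_37 14 stR_38 q4 tk1_2_3_4_56_3_4_14 tk1_2_3_4_56_3_4_14E tk1_2_3_4_56_3_4_14V = true := by
  decide +kernel

theorem ckR_39 : stN 141 14 56 pw_3_4_56 stR_38 14 stR_39 q4 tk1_2_3_4_56_3_4_14 tk1_2_3_4_56_3_4_14E tk1_2_3_4_56_3_4_14V = true := by
  decide +kernel

theorem ckR_40 : stN 141 14 56 pw_3_4_56 stR_39 14 stR_40 q4 tk1_2_3_4_56_3_4_14 tk1_2_3_4_56_3_4_14E tk1_2_3_4_56_3_4_14V = true := by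
  decide +kernel

theorem ckR_41 : stN 141 14 56 pw_3_4_56 stR_40 14 stR_41 q4 tk1_2_3_4_56_3_4_14 tk1_2_3_4_56_3_4_14E tk1_2_3_4_56_3_4_14V = true := by
  decide +kernel

theorem ckR_42 : stN 141 14 56 pw_3_4_56 stR_41 14 stR_42 q4 tk1_2_3_4_56_3_4_14 tk1_2_3_4_56_3_4_14E tk1_2_3_4_56_3_4_14V = true := by
  decide +kernel

theorem ckR_43 : stN 141 14 56 pw_3_4_56 stR_42 14 stR_43 q4 tk1_2_3_4_56_3_4_14 tk1_2_3_4_56_3_4_14E tk1_2_3_4_56_3_4_14V = true := by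
  decide +kernel

theorem ckR_44 : stN 141 14 56 pw_3_4_56 stR_43 14 stR_44 q4 tk1_2_3_4_56_3_4_14 tk1_2_3_4_56_3_4_14E tk1_2_3_4_56_3_4_14V = true := by
  decide +kernel

theorem ckR_45 : stN 141 14 56 pw_3_4_56 stR_44 14 stR_45 q4 tk1_2_3_4_56_3_4_14 tk1_2_3_4_56_3_4_14E tk1_2_3_4_56_3_4_14V = true := by
  decide +kernel

theorem ckR_46 : stN 141 14 56 pw_3_4_56 stR_45 14 stR_46 q4 tk1_2_3_4_56_3_4_14 tk1_2_3_4_56_3_4_14E tk1_2_3_4_56_3_4_14V = true := by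
  decide +kernel

theorem ckR_47 : stN 141 14 56 pw_3_4_56 stR_46 14 stR_47 q4 tk1_2_3_4_56_3_4_14 tk1_2_3_4_56_3_4_14E tk1_2_3_4_56_3_4_14V = true := by
  decide +kernel

theorem ckR_48 : stN 141 14 56 pw_3_4_56 stR_47 14 stR_48 q4 tk1_2_3_4_56_3_4_14 tk1_2_3_4_56_3_4_14E tk1_2_3_4_56_3_4_14V = true := by
  decide +kernel

end Vale.Agent.P154.DE
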