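import Vale.Agent.P154.DE.EngD
import Vale.Agent.P154.DE.StR
import Vale.Agent.P154.DE.Pw3_4_56
import Vale.Agent.P154.DE.Tk1_2_3_4_56_3_4_14

/-!
# Steps 48 to 64
-/

namespace Vale.Agent.P154.DE

set_option maxRecDepth 100000

theorem ckR_49 : stN 141 14 56 pw_3_4_56 stR_48 14 stR_49 q4 tk1_2_3_4_56_3_4_14 tk1_2_3_4_56_3_4_14E tk1_2_3_4_56_3_4_14V = true := by
  decide +kernel

theorem ckR_50 : stN 141 14 56 pw_3_4_56 stR_49 14 stR_50 q4 tk1_2_3_4_56_3_4_14 tk1_2_3_4_56_3_4_14E tk1_2_3_4_56_3_4_14V = true := by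
  decide +kernel

theorem ckR_51 : stN 141 14 56 pw_3_4_56 stR_50 14 stR_51 q4 tk1_2_3_4_56_3_4_14 tk1_2_3_4_56_3_4_14E tk1_2_3_4_56_3_4_14V = true := by
  decide +kernel

theorem ckR_52 : stN 141 14 56 pw_3_4_56 stR_51 14 stR_52 q4 tk1_2_3_4_56_3_4_14 tk1_2_3_4_56_3_4_14E tk1_2_3_4_56_3_4_14V = true := by
  decide +kernel

theorem ckR_53 : stN 141 14 56 pw_3_4_56 stR_52 14 stR_53 q4 tk1_2_3_4_56_3_4_14 tk1_2_3_4_56_3_4_14E tk1_2_3_4_56_3_4_14V = true := by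
  decide +kernel

theorem ckR_54 : stN 141 14 56 pw_3_4_56 stR_53 14 stR_54 q4 tk1_2_3_4_56_3_4_14 tk1_2_3_4_56_3_4_14E tk1_2_3_4_56_3_4_14V = true := by
  decide +kernel

theorem ckR_55 : stN 141 14 56 pw_3_4_56 stR_54 14 stR_55 q4 tk1_2_3_4_56_3_4_14 tk1_2_3_4_56_3_4_14E tk1_2_3_4_56_3_4_14V = true := by
  decide +kernel

theorem ckR_56 : stN 141 14 56 pw_3_4_56 stR_55 14 stR_56 q4 tk1_2_3_4_56_3_4_14 tk1_2_3_4_56_3_4_14E tk1_2_3_4_56_3_4_14V = true := by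
  decide +kernel

theorem ckR_57 : stN 141 14 56 pw_3_4_56 stR_56 14 stR_57 q4 tk1_2_3_4_56_3_4_14 tk1_2_3_4_56_3_4_14E tk1_2_3_4_56_3_4_14V = true := by
  decide +kernel

theorem ckR_58 : stN 141 14 56 pw_3_4_56 stR_57 14 stR_58 q4 tk1_2_3_4_56_3_4_14 tk1_2_3_4_56_3_4_14E tk1_2_3_4_56_3_4_14V = true := by
  decide +kernel

theorem ckR_59 : stN 141 14 56 pw_3_4_56 stR_58 14 stR_59 q4 tk1_2_3_4_56_3_4_14 tk1_2_3_4_56_3_4_14E tk1_2_3_4_56_3_4_14V = true := by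
  decide +kernel

theorem ckR_60 : stN 141 14 56 pw_3_4_56 stR_59 14 stR_60 q4 tk1_2_3_4_56_3_4_14 tk1_2_3_4_56_3_4_14E tk1_2_3_4_56_3_4_14V = true := by
  decide +kernel

theorem ckR_61 : stN 141 14 56 pw_3_4_56 stR_60 14 stR_61 q4 tk1_2_3_4_56_3_4_14 tk1_2_3_4_56_3_4_14E tk1_2_3_4_56_3_4_14V = true := by
  decide +kernel

theorem ckR_62 : stN 141 14 56 pw_3_4_56 stR_61 14 stR_62 q4 tk1_2_3_4_56_3_4_14 tk1_2_3_4_56_3_4_14E tk1_2_3_4_56_3_4_14V = true := by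
  decide +kernel

theorem ckR_63 : stN 141 14 56 pw_3_4_56 stR_62 14 stR_63 q4 tk1_2_3_4_56_3_4_14 tk1_2_3_4_56_3_4_14E tk1_2_3_4_56_3_4_14V = true := by
  decide +kernel

theorem ckR_64 : stN 141 14 56 pw_3_4_56 stR_63 14 stR_64 q4 tk1_2_3_4_56_3_4_14 tk1_2_3_4_56_3_4_14E tk1_2_3_4_56_3_4_14V = true := by
  decide +kernel

end Vale.Agent.P154.DE
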