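import Vale.Agent.P154.DE.EngD
import Vale.Agent.P154.DE.StR
import Vale.Agent.P154.DE.Pw3_4_56
import Vale.Agent.P154.DE.Tk1_2_3_4_56_3_4_14

/-!
# Steps 64 to 80
-/

namespace Vale.Agent.P154.DE

set_option maxRecDepth 100000

theorem ckR_65 : stN 141 14 56 pw_3_4_56 stR_64 14 stR_65 q4 tk1_2_3_4_56_3_4_14 tk1_2_3_4_56_3_4_14E tk1_2_3_4_56_3_4_14V = true := by
  decide +kernel

theorem ckR_66 : stN 141 14 56 pw_3_4_56 stR_65 14 stR_66 q4 tk1_2_3_4_56_3_4_14 tk1_2_3_4_56_3_4_14E tk1_2_3_4_56_3_4_14V = true := by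
  decide +kernel

theorem ckR_67 : stN 141 14 56 pw_3_4_56 stR_66 14 stR_67 q4 tk1_2_3_4_56_3_4_14 tk1_2_3_4_56_3_4_14E tk1_2_3_4_56_3_4_14V = true := by
  decide +kernel

theorem ckR_68 : stN 141 14 56 pw_3_4_56 stR_67 14 stR_68 q4 tk1_2_3_4_56_3_4_14 tk1_2_3_4_56_3_4_14E tk1_2_3_4_56_3_4_14V = true := by
  decide +kernel

theorem ckR_69 : stN 141 14 56 pw_3_4_56 stR_68 14 stR_69 q4 tk1_2_3_4_56_3_4_14 tk1_2_3_4_56_3_4_14E tk1_2_3_4_56_3_4_14V = true := by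
  decide +kernel

theorem ckR_70 : stN 141 14 56 pw_3_4_56 stR_69 14 stR_70 q4 tk1_2_3_4_56_3_4_14 tk1_2_3_4_56_3_4_14E tk1_2_3_4_56_3_4_14V = true := by
  decide +kernel

theorem ckR_71 : stN 141 14 56 pw_3_4_56 stR_70 14 stR_71 q4 tk1_2_3_4_56_3_4_14 tk1_2_3_4_56_3_4_14E tk1_2_3_4_56_3_4_14V = true := by
  decide +kernel

theorem ckR_72 : stN 141 14 56 pw_3_4_56 stR_71 14 stR_72 q4 tk1_2_3_4_56_3_4_14 tk1_2_3_4_56_3_4_14E tk1_2_3_4_56_3_4_14V = true := by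
  decide +kernel

theorem ckR_73 : stN 141 14 56 pw_3_4_56 stR_72 14 stR_73 q4 tk1_2_3_4_56_3_4_14 tk1_2_3_4_56_3_4_14E tk1_2_3_4_56_3_4_14V = true := by
  decide +kernel

theorem ckR_74 : stN 141 14 56 pw_3_4_56 stR_73 14 stR_74 q4 tk1_2_3_4_56_3_4_14 tk1_2_3_4_56_3_4_14E tk1_2_3_4_56_3_4_14V = true := by
  decide +kernel

theorem ckR_75 : stN 141 14 56 pw_3_4_56 stR_74 14 stR_75 q4 tk1_2_3_4_56_3_4_14 tk1_2_3_4_56_3_4_14E tk1_2_3_4_56_3_4_14V = true := by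
  decide +kernel

theorem ckR_76 : stN 141 14 56 pw_3_4_56 stR_75 14 stR_76 q4 tk1_2_3_4_56_3_4_14 tk1_2_3_4_56_3_4_14E tk1_2_3_4_56_3_4_14V = true := by
  decide +kernel

theorem ckR_77 : stN 141 14 56 pw_3_4_56 stR_76 14 stR_77 q4 tk1_2_3_4_56_3_4_14 tk1_2_3_4_56_3_4_14E tk1_2_3_4_56_3_4_14V = true := by
  decide +kernel

theorem ckR_78 : stN 141 14 56 pw_3_4_56 stR_77 14 stR_78 q4 tk1_2_3_4_56_3_4_14 tk1_2_3_4_56_3_4_14E tk1_2_3_4_56_3_4_14V = true := by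
  decide +kernel

theorem ckR_79 : stN 141 14 56 pw_3_4_56 stR_78 14 stR_79 q4 tk1_2_3_4_56_3_4_14 tk1_2_3_4_56_3_4_14E tk1_2_3_4_56_3_4_14V = true := by
  decide +kernel

theorem ckR_80 : stN 141 14 56 pw_3_4_56 stR_79 14 stR_80 q4 tk1_2_3_4_56_3_4_14 tk1_2_3_4_56_3_4_14E tk1_2_3_4_56_3_4_14V = true := by
  decide +kernel

end Vale.Agent.P154.DE
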