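import Vale.Agent.P154.DE.EngD
import Vale.Agent.P154.DE.StR
import Vale.Agent.P154.DE.Pw8_9_56
import Vale.Agent.P154.DE.Tk1_2_8_9_56_8_9_14

/-!
# Steps 112 to 128
-/

namespace Vale.Agent.P154.DE

set_option maxRecDepth 100000

theorem ckR_113 : stN 141 14 56 pw_8_9_56 stR_112 14 stR_113 q4 tk1_2_8_9_56_8_9_14 tk1_2_8_9_56_8_9_14E tk1_2_8_9_56_8_9_14V = true := by
  decide +kernel

theorem ckR_114 : stN 141 14 56 pw_8_9_56 stR_113 14 stR_114 q4 tk1_2_8_9_56_8_9_14 tk1_2_8_9_56_8_9_14E tk1_2_8_9_56_8_9_14V = true := by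
  decide +kernel

theorem ckR_115 : stN 141 14 56 pw_8_9_56 stR_114 14 stR_115 q4 tk1_2_8_9_56_8_9_14 tk1_2_8_9_56_8_9_14E tk1_2_8_9_56_8_9_14V = true := by
  decide +kernel

theorem ckR_116 : stN 141 14 56 pw_8_9_56 stR_115 14 stR_116 q4 tk1_2_8_9_56_8_9_14 tk1_2_8_9_56_8_9_14E tk1_2_8_9_56_8_9_14V = true := by
  decide +kernel

theorem ckR_117 : stN 141 14 56 pw_8_9_56 stR_116 14 stR_117 q4 tk1_2_8_9_56_8_9_14 tk1_2_8_9_56_8_9_14E tk1_2_8_9_56_8_9_14V = true := by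
  decide +kernel

theorem ckR_118 : stN 141 14 56 pw_8_9_56 stR_117 14 stR_118 q4 tk1_2_8_9_56_8_9_14 tk1_2_8_9_56_8_9_14E tk1_2_8_9_56_8_9_14V = true := by
  decide +kernel

theorem ckR_119 : stN 141 14 56 pw_8_9_56 stR_118 14 stR_119 q4 tk1_2_8_9_56_8_9_14 tk1_2_8_9_56_8_9_14E tk1_2_8_9_56_8_9_14V = true := by
  decide +kernel

theorem ckR_120 : stN 141 14 56 pw_8_9_56 stR_119 14 stR_120 q4 tk1_2_8_9_56_8_9_14 tk1_2_8_9_56_8_9_14E tk1_2_8_9_56_8_9_14V = true := by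
  decide +kernel

theorem ckR_121 : stN 141 14 56 pw_8_9_56 stR_120 14 stR_121 q4 tk1_2_8_9_56_8_9_14 tk1_2_8_9_56_8_9_14E tk1_2_8_9_56_8_9_14V = true := by
  decide +kernel

theorem ckR_122 : stN 141 14 56 pw_8_9_56 stR_121 14 stR_122 q4 tk1_2_8_9_56_8_9_14 tk1_2_8_9_56_8_9_14E tk1_2_8_9_56_8_9_14V = true := by
  decide +kernel

theorem ckR_123 : stN 141 14 56 pw_8_9_56 stR_122 14 stR_123 q4 tk1_2_8_9_56_8_9_14 tk1_2_8_9_56_8_9_14E tk1_2_8_9_56_8_9_14V = true := by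
  decide +kernel

theorem ckR_124 : stN 141 14 56 pw_8_9_56 stR_123 14 stR_124 q4 tk1_2_8_9_56_8_9_14 tk1_2_8_9_56_8_9_14E tk1_2_8_9_56_8_9_14V = true := by
  decide +kernel

theorem ckR_125 : stN 141 14 56 pw_8_9_56 stR_124 14 stR_125 q4 tk1_2_8_9_56_8_9_14 tk1_2_8_9_56_8_9_14E tk1_2_8_9_56_8_9_14V = true := by
  decide +kernel

theorem ckR_126 : stN 141 14 56 pw_8_9_56 stR_125 14 stR_126 q4 tk1_2_8_9_56_8_9_14 tk1_2_8_9_56_8_9_14E tk1_2_8_9_56_8_9_14V = true := by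
  decide +kernel

theorem ckR_127 : stN 141 14 56 pw_8_9_56 stR_126 14 stR_127 q4 tk1_2_8_9_56_8_9_14 tk1_2_8_9_56_8_9_14E tk1_2_8_9_56_8_9_14V = true := by
  decide +kernel

theorem ckR_128 : stN 141 14 56 pw_8_9_56 stR_127 14 stR_128 q4 tk1_2_8_9_56_8_9_14 tk1_2_8_9_56_8_9_14E tk1_2_8_9_56_8_9_14V = true := by
  decide +kernel

end Vale.Agent.P154.DE
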