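import Vale.Agent.P154.DE.EngD
import Vale.Agent.P154.DE.StR
import Vale.Agent.P154.DE.Pw8_9_56
import Vale.Agent.P154.DE.Tk1_2_8_9_56_8_9_14

/-!
# Steps 128 to 144
-/

namespace Vale.Agent.P154.DE

set_option maxRecDepth 100000

theorem ckR_129 : stN 141 14 56 pw_8_9_56 stR_128 14 stR_129 q4 tk1_2_8_9_56_8_9_14 tk1_2_8_9_56_8_9_14E tk1_2_8_9_56_8_9_14V = true := by
  decide +kernel

theorem ckR_130 : stN 141 14 56 pw_8_9_56 stR_129 14 stR_130 q4 tk1_2_8_9_56_8_9_14 tk1_2_8_9_56_8_9_14E tk1_2_8_9_56_8_9_14V = true := by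
  decide +kernel

theorem ckR_131 : stN 141 14 56 pw_8_9_56 stR_130 14 stR_131 q4 tk1_2_8_9_56_8_9_14 tk1_2_8_9_56_8_9_14E tk1_2_8_9_56_8_9_14V = true := by
  decide +kernel

theorem ckR_132 : stN 141 14 56 pw_8_9_56 stR_131 14 stR_132 q4 tk1_2_8_9_56_8_9_14 tk1_2_8_9_56_8_9_14E tk1_2_8_9_56_8_9_14V = true := by
  decide +kernel

theorem ckR_133 : stN 141 14 56 pw_8_9_56 stR_132 14 stR_133 q4 tk1_2_8_9_56_8_9_14 tk1_2_8_9_56_8_9_14E tk1_2_8_9_56_8_9_14V = true := by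
  decide +kernel

theorem ckR_134 : stN 141 14 56 pw_8_9_56 stR_133 14 stR_134 q4 tk1_2_8_9_56_8_9_14 tk1_2_8_9_56_8_9_14E tk1_2_8_9_56_8_9_14V = true := by
  decide +kernel

theorem ckR_135 : stN 141 14 56 pw_8_9_56 stR_134 14 stR_135 q4 tk1_2_8_9_56_8_9_14 tk1_2_8_9_56_8_9_14E tk1_2_8_9_56_8_9_14V = true := by
  decide +kernel

theorem ckR_136 : stN 141 14 56 pw_8_9_56 stR_135 14 stR_136 q4 tk1_2_8_9_56_8_9_14 tk1_2_8_9_56_8_9_14E tk1_2_8_9_56_8_9_14V = true := by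
  decide +kernel

theorem ckR_137 : stN 141 14 56 pw_8_9_56 stR_136 14 stR_137 q4 tk1_2_8_9_56_8_9_14 tk1_2_8_9_56_8_9_14E tk1_2_8_9_56_8_9_14V = true := by
  decide +kernel

theorem ckR_138 : stN 141 14 56 pw_8_9_56 stR_137 14 stR_138 q4 tk1_2_8_9_56_8_9_14 tk1_2_8_9_56_8_9_14E tk1_2_8_9_56_8_9_14V = true := by
  decide +kernel

theorem ckR_139 : stN 141 14 56 pw_8_9_56 stR_138 14 stR_139 q4 tk1_2_8_9_56_8_9_14 tk1_2_8_9_56_8_9_14E tk1_2_8_9_56_8_9_14V = true := by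
  decide +kernel

theorem ckR_140 : stN 141 14 56 pw_8_9_56 stR_139 14 stR_140 q4 tk1_2_8_9_56_8_9_14 tk1_2_8_9_56_8_9_14E tk1_2_8_9_56_8_9_14V = true := by
  decide +kernel

theorem ckR_141 : stN 141 14 56 pw_8_9_56 stR_140 14 stR_141 q4 tk1_2_8_9_56_8_9_14 tk1_2_8_9_56_8_9_14E tk1_2_8_9_56_8_9_14V = true := by
  decide +kernel

theorem ckR_142 : stN 141 14 56 pw_8_9_56 stR_141 14 stR_142 q4 tk1_2_8_9_56_8_9_14 tk1_2_8_9_56_8_9_14E tk1_2_8_9_56_8_9_14V = true := by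
  decide +kernel

theorem ckR_143 : stN 141 14 56 pw_8_9_56 stR_142 14 stR_143 q4 tk1_2_8_9_56_8_9_14 tk1_2_8_9_56_8_9_14E tk1_2_8_9_56_8_9_14V = true := by
  decide +kernel

theorem ckR_144 : stN 141 14 56 pw_8_9_56 stR_143 14 stR_144 q4 tk1_2_8_9_56_8_9_14 tk1_2_8_9_56_8_9_14E tk1_2_8_9_56_8_9_14V = true := by
  decide +kernel

end Vale.Agent.P154.DE
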