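import Mathlib.Data.Nat.Notation

/-!
# Weights
-/

namespace Vale.Agent.P154.DE

/-- weights -/
def wqS : List ℕ := [nat_lit 16358070521, nat_lit 68833124948, nat_lit 144821453235, nat_lit 203131397689, nat_lit 213689152084, nat_lit 179836516611, nat_lit 126122346374, nat_lit 75815745901, nat_lit 39878134647, nat_lit 18644800309, nat_lit 7845545522, nat_lit 3001206454, nat_lit 1052398053, nat_lit 340645059, nat_lit 102385738, nat_lit 28721930]

end Vale.Agent.P154.DE
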