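import Vale.Agent.P154.DE.EngD
import Vale.Agent.P154.DE.WqS
import Vale.Agent.P154.DE.StS
import Vale.Agent.P154.DE.Pw9_10_56
import Vale.Agent.P154.DE.Tk49_100_9_10_56_9_10_20

/-!
# Steps 36 to 48
-/

namespace Vale.Agent.P154.DE

set_option maxRecDepth 100000

theorem ckS_37 : stN 153 20 56 pw_9_10_56 stS_36 20 stS_37 wqS tk49_100_9_10_56_9_10_20 tk49_100_9_10_56_9_10_20E tk49_100_9_10_56_9_10_20V = true := by
  decide +kernel

theorem ckS_38 : stN 153 20 56 pw_9_10_56 stS_37 20 stS_38 wqS tk49_100_9_10_56_9_10_20 tk49_100_9_10_56_9_10_20E tk49_100_9_10_56_9_10_20V = true := by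
  decide +kernel

theorem ckS_39 : stN 153 20 56 pw_9_10_56 stS_38 20 stS_39 wqS tk49_100_9_10_56_9_10_20 tk49_100_9_10_56_9_10_20E tk49_100_9_10_56_9_10_20V = true := by
  decide +kernel

theorem ckS_40 : stN 153 20 56 pw_9_10_56 stS_39 20 stS_40 wqS tk49_100_9_10_56_9_10_20 tk49_100_9_10_56_9_10_20E tk49_100_9_10_56_9_10_20V = true := by
  decide +kernel

theorem ckS_41 : stN 153 20 56 pw_9_10_56 stS_40 20 stS_41 wqS tk49_100_9_10_56_9_10_20 tk49_100_9_10_56_9_10_20E tk49_100_9_10_56_9_10_20V = true := by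
  decide +kernel

theorem ckS_42 : stN 153 20 56 pw_9_10_56 stS_41 20 stS_42 wqS tk49_100_9_10_56_9_10_20 tk49_100_9_10_56_9_10_20E tk49_100_9_10_56_9_10_20V = true := by
  decide +kernel

theorem ckS_43 : stN 153 20 56 pw_9_10_56 stS_42 20 stS_43 wqS tk49_100_9_10_56_9_10_20 tk49_100_9_10_56_9_10_20E tk49_100_9_10_56_9_10_20V = true := by
  decide +kernel

theorem ckS_44 : stN 153 20 56 pw_9_10_56 stS_43 20 stS_44 wqS tk49_100_9_10_56_9_10_20 tk49_100_9_10_56_9_10_20E tk49_100_9_10_56_9_10_20V = true := by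
  decide +kernel

theorem ckS_45 : stN 153 20 56 pw_9_10_56 stS_44 20 stS_45 wqS tk49_100_9_10_56_9_10_20 tk49_100_9_10_56_9_10_20E tk49_100_9_10_56_9_10_20V = true := by
  decide +kernel

theorem ckS_46 : stN 153 20 56 pw_9_10_56 stS_45 20 stS_46 wqS tk49_100_9_10_56_9_10_20 tk49_100_9_10_56_9_10_20E tk49_100_9_10_56_9_10_20V = true := by
  decide +kernel

theorem ckS_47 : stN 153 20 56 pw_9_10_56 stS_46 20 stS_47 wqS tk49_100_9_10_56_9_10_20 tk49_100_9_10_56_9_10_20E tk49_100_9_10_56_9_10_20V = true := by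
  decide +kernel

theorem ckS_48 : stN 153 20 56 pw_9_10_56 stS_47 20 stS_48 wqS tk49_100_9_10_56_9_10_20 tk49_100_9_10_56_9_10_20E tk49_100_9_10_56_9_10_20V = true := by
  decide +kernel

end Vale.Agent.P154.DE
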