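import Vale.Agent.P154.DE.EngD
import Vale.Agent.P154.DE.WqS
import Vale.Agent.P154.DE.StS
import Vale.Agent.P154.DE.Pw9_10_56
import Vale.Agent.P154.DE.Tk49_100_9_10_56_9_10_20

/-!
# Steps 48 to 60
-/

namespace Vale.Agent.P154.DE

set_option maxRecDepth 100000

theorem ckS_49 : stN 153 20 56 pw_9_10_56 stS_48 20 stS_49 wqS tk49_100_9_10_56_9_10_20 tk49_100_9_10_56_9_10_20E tk49_100_9_10_56_9_10_20V = true := by
  decide +kernel

theorem ckS_50 : stN 153 20 56 pw_9_10_56 stS_49 20 stS_50 wqS tk49_100_9_10_56_9_10_20 tk49_100_9_10_56_9_10_20E tk49_100_9_10_56_9_10_20V = true := by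
  decide +kernel

theorem ckS_51 : stN 153 20 56 pw_9_10_56 stS_50 20 stS_51 wqS tk49_100_9_10_56_9_10_20 tk49_100_9_10_56_9_10_20E tk49_100_9_10_56_9_10_20V = true := by
  decide +kernel

theorem ckS_52 : stN 153 20 56 pw_9_10_56 stS_51 20 stS_52 wqS tk49_100_9_10_56_9_10_20 tk49_100_9_10_56_9_10_20E tk49_100_9_10_56_9_10_20V = true := by
  decide +kernel

theorem ckS_53 : stN 153 20 56 pw_9_10_56 stS_52 20 stS_53 wqS tk49_100_9_10_56_9_10_20 tk49_100_9_10_56_9_10_20E tk49_100_9_10_56_9_10_20V = true := by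
  decide +kernel

theorem ckS_54 : stN 153 20 56 pw_9_10_56 stS_53 20 stS_54 wqS tk49_100_9_10_56_9_10_20 tk49_100_9_10_56_9_10_20E tk49_100_9_10_56_9_10_20V = true := by
  decide +kernel

theorem ckS_55 : stN 153 20 56 pw_9_10_56 stS_54 20 stS_55 wqS tk49_100_9_10_56_9_10_20 tk49_100_9_10_56_9_10_20E tk49_100_9_10_56_9_10_20V = true := by
  decide +kernel

theorem ckS_56 : stN 153 20 56 pw_9_10_56 stS_55 20 stS_56 wqS tk49_100_9_10_56_9_10_20 tk49_100_9_10_56_9_10_20E tk49_100_9_10_56_9_10_20V = true := by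
  decide +kernel

theorem ckS_57 : stN 153 20 56 pw_9_10_56 stS_56 20 stS_57 wqS tk49_100_9_10_56_9_10_20 tk49_100_9_10_56_9_10_20E tk49_100_9_10_56_9_10_20V = true := by
  decide +kernel

theorem ckS_58 : stN 153 20 56 pw_9_10_56 stS_57 20 stS_58 wqS tk49_100_9_10_56_9_10_20 tk49_100_9_10_56_9_10_20E tk49_100_9_10_56_9_10_20V = true := by
  decide +kernel

theorem ckS_59 : stN 153 20 56 pw_9_10_56 stS_58 20 stS_59 wqS tk49_100_9_10_56_9_10_20 tk49_100_9_10_56_9_10_20E tk49_100_9_10_56_9_10_20V = true := by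
  decide +kernel

theorem ckS_60 : stN 153 20 56 pw_9_10_56 stS_59 20 stS_60 wqS tk49_100_9_10_56_9_10_20 tk49_100_9_10_56_9_10_20E tk49_100_9_10_56_9_10_20V = true := by
  decide +kernel

end Vale.Agent.P154.DE
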