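import Vale.Agent.P154.DE.EngD
import Vale.Agent.P154.DE.WqS
import Vale.Agent.P154.DE.StS
import Vale.Agent.P154.DE.Pw9_10_56
import Vale.Agent.P154.DE.Tk49_100_9_10_56_9_10_20

/-!
# Steps 60 to 72
-/

namespace Vale.Agent.P154.DE

set_option maxRecDepth 100000

theorem ckS_61 : stN 153 20 56 pw_9_10_56 stS_60 20 stS_61 wqS tk49_100_9_10_56_9_10_20 tk49_100_9_10_56_9_10_20E tk49_100_9_10_56_9_10_20V = true := by
  decide +kernel

theorem ckS_62 : stN 153 20 56 pw_9_10_56 stS_61 20 stS_62 wqS tk49_100_9_10_56_9_10_20 tk49_100_9_10_56_9_10_20E tk49_100_9_10_56_9_10_20V = true := by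
  decide +kernel

theorem ckS_63 : stN 153 20 56 pw_9_10_56 stS_62 20 stS_63 wqS tk49_100_9_10_56_9_10_20 tk49_100_9_10_56_9_10_20E tk49_100_9_10_56_9_10_20V = true := by
  decide +kernel

theorem ckS_64 : stN 153 20 56 pw_9_10_56 stS_63 20 stS_64 wqS tk49_100_9_10_56_9_10_20 tk49_100_9_10_56_9_10_20E tk49_100_9_10_56_9_10_20V = true := by
  decide +kernel

theorem ckS_65 : stN 153 20 56 pw_9_10_56 stS_64 20 stS_65 wqS tk49_100_9_10_56_9_10_20 tk49_100_9_10_56_9_10_20E tk49_100_9_10_56_9_10_20V = true := by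
  decide +kernel

theorem ckS_66 : stN 153 20 56 pw_9_10_56 stS_65 20 stS_66 wqS tk49_100_9_10_56_9_10_20 tk49_100_9_10_56_9_10_20E tk49_100_9_10_56_9_10_20V = true := by
  decide +kernel

theorem ckS_67 : stN 153 20 56 pw_9_10_56 stS_66 20 stS_67 wqS tk49_100_9_10_56_9_10_20 tk49_100_9_10_56_9_10_20E tk49_100_9_10_56_9_10_20V = true := by
  decide +kernel

theorem ckS_68 : stN 153 20 56 pw_9_10_56 stS_67 20 stS_68 wqS tk49_100_9_10_56_9_10_20 tk49_100_9_10_56_9_10_20E tk49_100_9_10_56_9_10_20V = true := by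
  decide +kernel

theorem ckS_69 : stN 153 20 56 pw_9_10_56 stS_68 20 stS_69 wqS tk49_100_9_10_56_9_10_20 tk49_100_9_10_56_9_10_20E tk49_100_9_10_56_9_10_20V = true := by
  decide +kernel

theorem ckS_70 : stN 153 20 56 pw_9_10_56 stS_69 20 stS_70 wqS tk49_100_9_10_56_9_10_20 tk49_100_9_10_56_9_10_20E tk49_100_9_10_56_9_10_20V = true := by
  decide +kernel

theorem ckS_71 : stN 153 20 56 pw_9_10_56 stS_70 20 stS_71 wqS tk49_100_9_10_56_9_10_20 tk49_100_9_10_56_9_10_20E tk49_100_9_10_56_9_10_20V = true := by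
  decide +kernel

theorem ckS_72 : stN 153 20 56 pw_9_10_56 stS_71 20 stS_72 wqS tk49_100_9_10_56_9_10_20 tk49_100_9_10_56_9_10_20E tk49_100_9_10_56_9_10_20V = true := by
  decide +kernel

end Vale.Agent.P154.DE
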