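import Vale.Agent.P154.DE.EngD
import Vale.Agent.P154.DE.WqS
import Vale.Agent.P154.DE.StS
import Vale.Agent.P154.DE.Pw9_10_56
import Vale.Agent.P154.DE.Pw14_15_70
import Vale.Agent.P154.DE.Tk49_100_9_10_56_9_10_20
import Vale.Agent.P154.DE.Tk49_100_9_10_56_14_15_24
import Vale.Agent.P154.DE.Tk49_100_14_15_70_14_15_24

/-!
# Steps 72 to 83
-/

namespace Vale.Agent.P154.DE

set_option maxRecDepth 100000

theorem ckS_73 : stN 153 20 56 pw_9_10_56 stS_72 20 stS_73 wqS tk49_100_9_10_56_9_10_20 tk49_100_9_10_56_9_10_20E tk49_100_9_10_56_9_10_20V = true := by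
  decide +kernel

theorem ckS_74 : stN 153 20 56 pw_9_10_56 stS_73 20 stS_74 wqS tk49_100_9_10_56_9_10_20 tk49_100_9_10_56_9_10_20E tk49_100_9_10_56_9_10_20V = true := by
  decide +kernel

theorem ckS_75 : stN 153 20 56 pw_9_10_56 stS_74 20 stS_75 wqS tk49_100_9_10_56_9_10_20 tk49_100_9_10_56_9_10_20E tk49_100_9_10_56_9_10_20V = true := by
  decide +kernel

theorem ckS_76 : stN 153 20 56 pw_9_10_56 stS_75 20 stS_76 wqS tk49_100_9_10_56_9_10_20 tk49_100_9_10_56_9_10_20E tk49_100_9_10_56_9_10_20V = true := by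
  decide +kernel

theorem ckS_77 : stN 153 20 56 pw_9_10_56 stS_76 20 stS_77 wqS tk49_100_9_10_56_9_10_20 tk49_100_9_10_56_9_10_20E tk49_100_9_10_56_9_10_20V = true := by
  decide +kernel

theorem ckS_78 : stN 153 20 56 pw_9_10_56 stS_77 20 stS_78 wqS tk49_100_9_10_56_9_10_20 tk49_100_9_10_56_9_10_20E tk49_100_9_10_56_9_10_20V = true := by
  decide +kernel

theorem ckS_79 : stN 153 20 56 pw_9_10_56 stS_78 20 stS_79 wqS tk49_100_9_10_56_9_10_20 tk49_100_9_10_56_9_10_20E tk49_100_9_10_56_9_10_20V = true := by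
  decide +kernel

theorem ckS_80 : stN 153 20 56 pw_9_10_56 stS_79 20 stS_80 wqS tk49_100_9_10_56_9_10_20 tk49_100_9_10_56_9_10_20E tk49_100_9_10_56_9_10_20V = true := by
  decide +kernel

theorem ckS_81 : stN 153 20 56 pw_9_10_56 stS_80 20 stS_81 wqS tk49_100_9_10_56_9_10_20 tk49_100_9_10_56_9_10_20E tk49_100_9_10_56_9_10_20V = true := by
  decide +kernel

theorem ckS_82 : stN 153 20 56 pw_9_10_56 stS_81 24 stS_82 wqS tk49_100_9_10_56_14_15_24 tk49_100_9_10_56_14_15_24E tk49_100_9_10_56_14_15_24V = true := by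
  decide +kernel

theorem ckS_83 : stN 189 24 70 pw_14_15_70 stS_82 24 stS_83 wqS tk49_100_14_15_70_14_15_24 tk49_100_14_15_70_14_15_24E tk49_100_14_15_70_14_15_24V = true := by
  decide +kernel

end Vale.Agent.P154.DE
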