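import Vale.Agent.P154.DE.EngD
import Vale.Agent.P154.DE.WqS
import Vale.Agent.P154.DE.StS
import Vale.Agent.P154.DE.Pw14_15_70
import Vale.Agent.P154.DE.Tk49_100_14_15_70_14_15_24

/-!
# Steps 83 to 90
-/

namespace Vale.Agent.P154.DE

set_option maxRecDepth 100000

theorem ckS_84 : stN 189 24 70 pw_14_15_70 stS_83 24 stS_84 wqS tk49_100_14_15_70_14_15_24 tk49_100_14_15_70_14_15_24E tk49_100_14_15_70_14_15_24V = true := by
  decide +kernel

theorem ckS_85 : stN 189 24 70 pw_14_15_70 stS_84 24 stS_85 wqS tk49_100_14_15_70_14_15_24 tk49_100_14_15_70_14_15_24E tk49_100_14_15_70_14_15_24V = true := by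
  decide +kernel

theorem ckS_86 : stN 189 24 70 pw_14_15_70 stS_85 24 stS_86 wqS tk49_100_14_15_70_14_15_24 tk49_100_14_15_70_14_15_24E tk49_100_14_15_70_14_15_24V = true := by
  decide +kernel

theorem ckS_87 : stN 189 24 70 pw_14_15_70 stS_86 24 stS_87 wqS tk49_100_14_15_70_14_15_24 tk49_100_14_15_70_14_15_24E tk49_100_14_15_70_14_15_24V = true := by
  decide +kernel

theorem ckS_88 : stN 189 24 70 pw_14_15_70 stS_87 24 stS_88 wqS tk49_100_14_15_70_14_15_24 tk49_100_14_15_70_14_15_24E tk49_100_14_15_70_14_15_24V = true := by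
  decide +kernel

theorem ckS_89 : stN 189 24 70 pw_14_15_70 stS_88 24 stS_89 wqS tk49_100_14_15_70_14_15_24 tk49_100_14_15_70_14_15_24E tk49_100_14_15_70_14_15_24V = true := by
  decide +kernel

theorem ckS_90 : stN 189 24 70 pw_14_15_70 stS_89 24 stS_90 wqS tk49_100_14_15_70_14_15_24 tk49_100_14_15_70_14_15_24E tk49_100_14_15_70_14_15_24V = true := by
  decide +kernel

end Vale.Agent.P154.DE
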