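import Vale.Agent.P154.DE.EngD
import Vale.Agent.P154.DE.WqS
import Vale.Agent.P154.DE.StS
import Vale.Agent.P154.DE.Pw14_15_70
import Vale.Agent.P154.DE.Tk49_100_14_15_70_14_15_24

/-!
# Steps 90 to 97
-/

namespace Vale.Agent.P154.DE

set_option maxRecDepth 100000

theorem ckS_91 : stN 189 24 70 pw_14_15_70 stS_90 24 stS_91 wqS tk49_100_14_15_70_14_15_24 tk49_100_14_15_70_14_15_24E tk49_100_14_15_70_14_15_24V = true := by
  decide +kernel

theorem ckS_92 : stN 189 24 70 pw_14_15_70 stS_91 24 stS_92 wqS tk49_100_14_15_70_14_15_24 tk49_100_14_15_70_14_15_24E tk49_100_14_15_70_14_15_24V = true := by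
  decide +kernel

theorem ckS_93 : stN 189 24 70 pw_14_15_70 stS_92 24 stS_93 wqS tk49_100_14_15_70_14_15_24 tk49_100_14_15_70_14_15_24E tk49_100_14_15_70_14_15_24V = true := by
  decide +kernel

theorem ckS_94 : stN 189 24 70 pw_14_15_70 stS_93 24 stS_94 wqS tk49_100_14_15_70_14_15_24 tk49_100_14_15_70_14_15_24E tk49_100_14_15_70_14_15_24V = true := by
  decide +kernel

theorem ckS_95 : stN 189 24 70 pw_14_15_70 stS_94 24 stS_95 wqS tk49_100_14_15_70_14_15_24 tk49_100_14_15_70_14_15_24E tk49_100_14_15_70_14_15_24V = true := by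
  decide +kernel

theorem ckS_96 : stN 189 24 70 pw_14_15_70 stS_95 24 stS_96 wqS tk49_100_14_15_70_14_15_24 tk49_100_14_15_70_14_15_24E tk49_100_14_15_70_14_15_24V = true := by
  decide +kernel

theorem ckS_97 : stN 189 24 70 pw_14_15_70 stS_96 24 stS_97 wqS tk49_100_14_15_70_14_15_24 tk49_100_14_15_70_14_15_24E tk49_100_14_15_70_14_15_24V = true := by
  decide +kernel

end Vale.Agent.P154.DE
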