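import Vale.Agent.P154.DE.EngD
import Vale.Agent.P154.DE.WqS
import Vale.Agent.P154.DE.StS
import Vale.Agent.P154.DE.Pw14_15_70
import Vale.Agent.P154.DE.Tk49_100_14_15_70_14_15_24

/-!
# Steps 97 to 104
-/

namespace Vale.Agent.P154.DE

set_option maxRecDepth 100000

theorem ckS_98 : stN 189 24 70 pw_14_15_70 stS_97 24 stS_98 wqS tk49_100_14_15_70_14_15_24 tk49_100_14_15_70_14_15_24E tk49_100_14_15_70_14_15_24V = true := by
  decide +kernel

theorem ckS_99 : stN 189 24 70 pw_14_15_70 stS_98 24 stS_99 wqS tk49_100_14_15_70_14_15_24 tk49_100_14_15_70_14_15_24E tk49_100_14_15_70_14_15_24V = true := by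
  decide +kernel

theorem ckS_100 : stN 189 24 70 pw_14_15_70 stS_99 24 stS_100 wqS tk49_100_14_15_70_14_15_24 tk49_100_14_15_70_14_15_24E tk49_100_14_15_70_14_15_24V = true := by
  decide +kernel

theorem ckS_101 : stN 189 24 70 pw_14_15_70 stS_100 24 stS_101 wqS tk49_100_14_15_70_14_15_24 tk49_100_14_15_70_14_15_24E tk49_100_14_15_70_14_15_24V = true := by
  decide +kernel

theorem ckS_102 : stN 189 24 70 pw_14_15_70 stS_101 24 stS_102 wqS tk49_100_14_15_70_14_15_24 tk49_100_14_15_70_14_15_24E tk49_100_14_15_70_14_15_24V = true := by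
  decide +kernel

theorem ckS_103 : stN 189 24 70 pw_14_15_70 stS_102 24 stS_103 wqS tk49_100_14_15_70_14_15_24 tk49_100_14_15_70_14_15_24E tk49_100_14_15_70_14_15_24V = true := by
  decide +kernel

theorem ckS_104 : stN 189 24 70 pw_14_15_70 stS_103 24 stS_104 wqS tk49_100_14_15_70_14_15_24 tk49_100_14_15_70_14_15_24E tk49_100_14_15_70_14_15_24V = true := by
  decide +kernel

end Vale.Agent.P154.DE
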