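import Vale.Agent.P154.DE.EngD
import Vale.Agent.P154.DE.WqS
import Vale.Agent.P154.DE.StS
import Vale.Agent.P154.DE.Pw14_15_70
import Vale.Agent.P154.DE.Tk49_100_14_15_70_14_15_24

/-!
# Steps 104 to 111
-/

namespace Vale.Agent.P154.DE

set_option maxRecDepth 100000

theorem ckS_105 : stN 189 24 70 pw_14_15_70 stS_104 24 stS_105 wqS tk49_100_14_15_70_14_15_24 tk49_100_14_15_70_14_15_24E tk49_100_14_15_70_14_15_24V = true := by
  decide +kernel

theorem ckS_106 : stN 189 24 70 pw_14_15_70 stS_105 24 stS_106 wqS tk49_100_14_15_70_14_15_24 tk49_100_14_15_70_14_15_24E tk49_100_14_15_70_14_15_24V = true := by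
  decide +kernel

theorem ckS_107 : stN 189 24 70 pw_14_15_70 stS_106 24 stS_107 wqS tk49_100_14_15_70_14_15_24 tk49_100_14_15_70_14_15_24E tk49_100_14_15_70_14_15_24V = true := by
  decide +kernel

theorem ckS_108 : stN 189 24 70 pw_14_15_70 stS_107 24 stS_108 wqS tk49_100_14_15_70_14_15_24 tk49_100_14_15_70_14_15_24E tk49_100_14_15_70_14_15_24V = true := by
  decide +kernel

theorem ckS_109 : stN 189 24 70 pw_14_15_70 stS_108 24 stS_109 wqS tk49_100_14_15_70_14_15_24 tk49_100_14_15_70_14_15_24E tk49_100_14_15_70_14_15_24V = true := by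
  decide +kernel

theorem ckS_110 : stN 189 24 70 pw_14_15_70 stS_109 24 stS_110 wqS tk49_100_14_15_70_14_15_24 tk49_100_14_15_70_14_15_24E tk49_100_14_15_70_14_15_24V = true := by
  decide +kernel

theorem ckS_111 : stN 189 24 70 pw_14_15_70 stS_110 24 stS_111 wqS tk49_100_14_15_70_14_15_24 tk49_100_14_15_70_14_15_24E tk49_100_14_15_70_14_15_24V = true := by
  decide +kernel

end Vale.Agent.P154.DE
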