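import Vale.Agent.P154.DE.EngD
import Vale.Agent.P154.DE.WqS
import Vale.Agent.P154.DE.StS
import Vale.Agent.P154.DE.Pw14_15_70
import Vale.Agent.P154.DE.Tk49_100_14_15_70_14_15_24

/-!
# Steps 111 to 112
-/

namespace Vale.Agent.P154.DE

set_option maxRecDepth 100000

theorem ckS_112 : stN 189 24 70 pw_14_15_70 stS_111 24 stS_112 wqS tk49_100_14_15_70_14_15_24 tk49_100_14_15_70_14_15_24E tk49_100_14_15_70_14_15_24V = true := by
  decide +kernel

end Vale.Agent.P154.DE
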