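import Mathlib.Data.Nat.Notation

/-!
# Weights
-/

namespace Vale.Agent.P154.DE

/-- weights -/
def wqT : List ℕ := [nat_lit 14984575700, nat_lit 64367743381, nat_lit 138249039233, nat_lit 197954190977, nat_lit 212583005690, nat_lit 182634311849, nat_lit 130753991663, nat_lit 80238120941, nat_lit 43083859039, nat_lit 20563447209, nat_lit 8833234383, nat_lit 3449458328, nat_lit 1234791099, nat_lit 408012972, nat_lit 125190037, nat_lit 35851088]

end Vale.Agent.P154.DE
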