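import Vale.Agent.P154.DE.EngD
import Vale.Agent.P154.DE.WqT
import Vale.Agent.P154.DE.StT
import Vale.Agent.P154.DE.Pw9_10_56
import Vale.Agent.P154.DE.Tk97_200_9_10_56_9_10_20

/-!
# Steps 36 to 48
-/

namespace Vale.Agent.P154.DE

set_option maxRecDepth 100000

theorem ckT_37 : stN 153 20 56 pw_9_10_56 stT_36 20 stT_37 wqT tk97_200_9_10_56_9_10_20 tk97_200_9_10_56_9_10_20E tk97_200_9_10_56_9_10_20V = true := by
  decide +kernel

theorem ckT_38 : stN 153 20 56 pw_9_10_56 stT_37 20 stT_38 wqT tk97_200_9_10_56_9_10_20 tk97_200_9_10_56_9_10_20E tk97_200_9_10_56_9_10_20V = true := by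
  decide +kernel

theorem ckT_39 : stN 153 20 56 pw_9_10_56 stT_38 20 stT_39 wqT tk97_200_9_10_56_9_10_20 tk97_200_9_10_56_9_10_20E tk97_200_9_10_56_9_10_20V = true := by
  decide +kernel

theorem ckT_40 : stN 153 20 56 pw_9_10_56 stT_39 20 stT_40 wqT tk97_200_9_10_56_9_10_20 tk97_200_9_10_56_9_10_20E tk97_200_9_10_56_9_10_20V = true := by
  decide +kernel

theorem ckT_41 : stN 153 20 56 pw_9_10_56 stT_40 20 stT_41 wqT tk97_200_9_10_56_9_10_20 tk97_200_9_10_56_9_10_20E tk97_200_9_10_56_9_10_20V = true := by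
  decide +kernel

theorem ckT_42 : stN 153 20 56 pw_9_10_56 stT_41 20 stT_42 wqT tk97_200_9_10_56_9_10_20 tk97_200_9_10_56_9_10_20E tk97_200_9_10_56_9_10_20V = true := by
  decide +kernel

theorem ckT_43 : stN 153 20 56 pw_9_10_56 stT_42 20 stT_43 wqT tk97_200_9_10_56_9_10_20 tk97_200_9_10_56_9_10_20E tk97_200_9_10_56_9_10_20V = true := by
  decide +kernel

theorem ckT_44 : stN 153 20 56 pw_9_10_56 stT_43 20 stT_44 wqT tk97_200_9_10_56_9_10_20 tk97_200_9_10_56_9_10_20E tk97_200_9_10_56_9_10_20V = true := by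
  decide +kernel

theorem ckT_45 : stN 153 20 56 pw_9_10_56 stT_44 20 stT_45 wqT tk97_200_9_10_56_9_10_20 tk97_200_9_10_56_9_10_20E tk97_200_9_10_56_9_10_20V = true := by
  decide +kernel

theorem ckT_46 : stN 153 20 56 pw_9_10_56 stT_45 20 stT_46 wqT tk97_200_9_10_56_9_10_20 tk97_200_9_10_56_9_10_20E tk97_200_9_10_56_9_10_20V = true := by
  decide +kernel

theorem ckT_47 : stN 153 20 56 pw_9_10_56 stT_46 20 stT_47 wqT tk97_200_9_10_56_9_10_20 tk97_200_9_10_56_9_10_20E tk97_200_9_10_56_9_10_20V = true := by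
  decide +kernel

theorem ckT_48 : stN 153 20 56 pw_9_10_56 stT_47 20 stT_48 wqT tk97_200_9_10_56_9_10_20 tk97_200_9_10_56_9_10_20E tk97_200_9_10_56_9_10_20V = true := by
  decide +kernel

end Vale.Agent.P154.DE
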