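import Vale.Agent.P154.DE.EngD
import Vale.Agent.P154.DE.WqT
import Vale.Agent.P154.DE.StT
import Vale.Agent.P154.DE.Pw9_10_56
import Vale.Agent.P154.DE.Tk97_200_9_10_56_9_10_20

/-!
# Steps 48 to 60
-/

namespace Vale.Agent.P154.DE

set_option maxRecDepth 100000

theorem ckT_49 : stN 153 20 56 pw_9_10_56 stT_48 20 stT_49 wqT tk97_200_9_10_56_9_10_20 tk97_200_9_10_56_9_10_20E tk97_200_9_10_56_9_10_20V = true := by
  decide +kernel

theorem ckT_50 : stN 153 20 56 pw_9_10_56 stT_49 20 stT_50 wqT tk97_200_9_10_56_9_10_20 tk97_200_9_10_56_9_10_20E tk97_200_9_10_56_9_10_20V = true := by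
  decide +kernel

theorem ckT_51 : stN 153 20 56 pw_9_10_56 stT_50 20 stT_51 wqT tk97_200_9_10_56_9_10_20 tk97_200_9_10_56_9_10_20E tk97_200_9_10_56_9_10_20V = true := by
  decide +kernel

theorem ckT_52 : stN 153 20 56 pw_9_10_56 stT_51 20 stT_52 wqT tk97_200_9_10_56_9_10_20 tk97_200_9_10_56_9_10_20E tk97_200_9_10_56_9_10_20V = true := by
  decide +kernel

theorem ckT_53 : stN 153 20 56 pw_9_10_56 stT_52 20 stT_53 wqT tk97_200_9_10_56_9_10_20 tk97_200_9_10_56_9_10_20E tk97_200_9_10_56_9_10_20V = true := by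
  decide +kernel

theorem ckT_54 : stN 153 20 56 pw_9_10_56 stT_53 20 stT_54 wqT tk97_200_9_10_56_9_10_20 tk97_200_9_10_56_9_10_20E tk97_200_9_10_56_9_10_20V = true := by
  decide +kernel

theorem ckT_55 : stN 153 20 56 pw_9_10_56 stT_54 20 stT_55 wqT tk97_200_9_10_56_9_10_20 tk97_200_9_10_56_9_10_20E tk97_200_9_10_56_9_10_20V = true := by
  decide +kernel

theorem ckT_56 : stN 153 20 56 pw_9_10_56 stT_55 20 stT_56 wqT tk97_200_9_10_56_9_10_20 tk97_200_9_10_56_9_10_20E tk97_200_9_10_56_9_10_20V = true := by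
  decide +kernel

theorem ckT_57 : stN 153 20 56 pw_9_10_56 stT_56 20 stT_57 wqT tk97_200_9_10_56_9_10_20 tk97_200_9_10_56_9_10_20E tk97_200_9_10_56_9_10_20V = true := by
  decide +kernel

theorem ckT_58 : stN 153 20 56 pw_9_10_56 stT_57 20 stT_58 wqT tk97_200_9_10_56_9_10_20 tk97_200_9_10_56_9_10_20E tk97_200_9_10_56_9_10_20V = true := by
  decide +kernel

theorem ckT_59 : stN 153 20 56 pw_9_10_56 stT_58 20 stT_59 wqT tk97_200_9_10_56_9_10_20 tk97_200_9_10_56_9_10_20E tk97_200_9_10_56_9_10_20V = true := by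
  decide +kernel

theorem ckT_60 : stN 153 20 56 pw_9_10_56 stT_59 20 stT_60 wqT tk97_200_9_10_56_9_10_20 tk97_200_9_10_56_9_10_20E tk97_200_9_10_56_9_10_20V = true := by
  decide +kernel

end Vale.Agent.P154.DE
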