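import Vale.Agent.P154.DE.EngD
import Vale.Agent.P154.DE.WqT
import Vale.Agent.P154.DE.StT
import Vale.Agent.P154.DE.Pw9_10_56
import Vale.Agent.P154.DE.Tk97_200_9_10_56_9_10_20

/-!
# Steps 60 to 72
-/

namespace Vale.Agent.P154.DE

set_option maxRecDepth 100000

theorem ckT_61 : stN 153 20 56 pw_9_10_56 stT_60 20 stT_61 wqT tk97_200_9_10_56_9_10_20 tk97_200_9_10_56_9_10_20E tk97_200_9_10_56_9_10_20V = true := by
  decide +kernel

theorem ckT_62 : stN 153 20 56 pw_9_10_56 stT_61 20 stT_62 wqT tk97_200_9_10_56_9_10_20 tk97_200_9_10_56_9_10_20E tk97_200_9_10_56_9_10_20V = true := by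
  decide +kernel

theorem ckT_63 : stN 153 20 56 pw_9_10_56 stT_62 20 stT_63 wqT tk97_200_9_10_56_9_10_20 tk97_200_9_10_56_9_10_20E tk97_200_9_10_56_9_10_20V = true := by
  decide +kernel

theorem ckT_64 : stN 153 20 56 pw_9_10_56 stT_63 20 stT_64 wqT tk97_200_9_10_56_9_10_20 tk97_200_9_10_56_9_10_20E tk97_200_9_10_56_9_10_20V = true := by
  decide +kernel

theorem ckT_65 : stN 153 20 56 pw_9_10_56 stT_64 20 stT_65 wqT tk97_200_9_10_56_9_10_20 tk97_200_9_10_56_9_10_20E tk97_200_9_10_56_9_10_20V = true := by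
  decide +kernel

theorem ckT_66 : stN 153 20 56 pw_9_10_56 stT_65 20 stT_66 wqT tk97_200_9_10_56_9_10_20 tk97_200_9_10_56_9_10_20E tk97_200_9_10_56_9_10_20V = true := by
  decide +kernel

theorem ckT_67 : stN 153 20 56 pw_9_10_56 stT_66 20 stT_67 wqT tk97_200_9_10_56_9_10_20 tk97_200_9_10_56_9_10_20E tk97_200_9_10_56_9_10_20V = true := by
  decide +kernel

theorem ckT_68 : stN 153 20 56 pw_9_10_56 stT_67 20 stT_68 wqT tk97_200_9_10_56_9_10_20 tk97_200_9_10_56_9_10_20E tk97_200_9_10_56_9_10_20V = true := by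
  decide +kernel

theorem ckT_69 : stN 153 20 56 pw_9_10_56 stT_68 20 stT_69 wqT tk97_200_9_10_56_9_10_20 tk97_200_9_10_56_9_10_20E tk97_200_9_10_56_9_10_20V = true := by
  decide +kernel

theorem ckT_70 : stN 153 20 56 pw_9_10_56 stT_69 20 stT_70 wqT tk97_200_9_10_56_9_10_20 tk97_200_9_10_56_9_10_20E tk97_200_9_10_56_9_10_20V = true := by
  decide +kernel

theorem ckT_71 : stN 153 20 56 pw_9_10_56 stT_70 20 stT_71 wqT tk97_200_9_10_56_9_10_20 tk97_200_9_10_56_9_10_20E tk97_200_9_10_56_9_10_20V = true := by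
  decide +kernel

theorem ckT_72 : stN 153 20 56 pw_9_10_56 stT_71 20 stT_72 wqT tk97_200_9_10_56_9_10_20 tk97_200_9_10_56_9_10_20E tk97_200_9_10_56_9_10_20V = true := by
  decide +kernel

end Vale.Agent.P154.DE
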