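import Vale.Agent.P154.DE.EngD
import Vale.Agent.P154.DE.WqT
import Vale.Agent.P154.DE.StT
import Vale.Agent.P154.DE.Pw9_10_56
import Vale.Agent.P154.DE.Pw14_15_70
import Vale.Agent.P154.DE.Tk97_200_9_10_56_9_10_20
import Vale.Agent.P154.DE.Tk97_200_9_10_56_14_15_24
import Vale.Agent.P154.DE.Tk97_200_14_15_70_14_15_24

/-!
# Steps 72 to 83
-/

namespace Vale.Agent.P154.DE

set_option maxRecDepth 100000

theorem ckT_73 : stN 153 20 56 pw_9_10_56 stT_72 20 stT_73 wqT tk97_200_9_10_56_9_10_20 tk97_200_9_10_56_9_10_20E tk97_200_9_10_56_9_10_20V = true := by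
  decide +kernel

theorem ckT_74 : stN 153 20 56 pw_9_10_56 stT_73 20 stT_74 wqT tk97_200_9_10_56_9_10_20 tk97_200_9_10_56_9_10_20E tk97_200_9_10_56_9_10_20V = true := by
  decide +kernel

theorem ckT_75 : stN 153 20 56 pw_9_10_56 stT_74 20 stT_75 wqT tk97_200_9_10_56_9_10_20 tk97_200_9_10_56_9_10_20E tk97_200_9_10_56_9_10_20V = true := by
  decide +kernel

theorem ckT_76 : stN 153 20 56 pw_9_10_56 stT_75 20 stT_76 wqT tk97_200_9_10_56_9_10_20 tk97_200_9_10_56_9_10_20E tk97_200_9_10_56_9_10_20V = true := by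
  decide +kernel

theorem ckT_77 : stN 153 20 56 pw_9_10_56 stT_76 20 stT_77 wqT tk97_200_9_10_56_9_10_20 tk97_200_9_10_56_9_10_20E tk97_200_9_10_56_9_10_20V = true := by
  decide +kernel

theorem ckT_78 : stN 153 20 56 pw_9_10_56 stT_77 20 stT_78 wqT tk97_200_9_10_56_9_10_20 tk97_200_9_10_56_9_10_20E tk97_200_9_10_56_9_10_20V = true := by
  decide +kernel

theorem ckT_79 : stN 153 20 56 pw_9_10_56 stT_78 20 stT_79 wqT tk97_200_9_10_56_9_10_20 tk97_200_9_10_56_9_10_20E tk97_200_9_10_56_9_10_20V = true := by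
  decide +kernel

theorem ckT_80 : stN 153 20 56 pw_9_10_56 stT_79 20 stT_80 wqT tk97_200_9_10_56_9_10_20 tk97_200_9_10_56_9_10_20E tk97_200_9_10_56_9_10_20V = true := by
  decide +kernel

theorem ckT_81 : stN 153 20 56 pw_9_10_56 stT_80 20 stT_81 wqT tk97_200_9_10_56_9_10_20 tk97_200_9_10_56_9_10_20E tk97_200_9_10_56_9_10_20V = true := by
  decide +kernel

theorem ckT_82 : stN 153 20 56 pw_9_10_56 stT_81 24 stT_82 wqT tk97_200_9_10_56_14_15_24 tk97_200_9_10_56_14_15_24E tk97_200_9_10_56_14_15_24V = true := by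
  decide +kernel

theorem ckT_83 : stN 189 24 70 pw_14_15_70 stT_82 24 stT_83 wqT tk97_200_14_15_70_14_15_24 tk97_200_14_15_70_14_15_24E tk97_200_14_15_70_14_15_24V = true := by
  decide +kernel

end Vale.Agent.P154.DE
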