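import Vale.Agent.P154.DE.EngD
import Vale.Agent.P154.DE.WqT
import Vale.Agent.P154.DE.StT
import Vale.Agent.P154.DE.Pw14_15_70
import Vale.Agent.P154.DE.Tk97_200_14_15_70_14_15_24

/-!
# Steps 83 to 90
-/

namespace Vale.Agent.P154.DE

set_option maxRecDepth 100000

theorem ckT_84 : stN 189 24 70 pw_14_15_70 stT_83 24 stT_84 wqT tk97_200_14_15_70_14_15_24 tk97_200_14_15_70_14_15_24E tk97_200_14_15_70_14_15_24V = true := by
  decide +kernel

theorem ckT_85 : stN 189 24 70 pw_14_15_70 stT_84 24 stT_85 wqT tk97_200_14_15_70_14_15_24 tk97_200_14_15_70_14_15_24E tk97_200_14_15_70_14_15_24V = true := by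
  decide +kernel

theorem ckT_86 : stN 189 24 70 pw_14_15_70 stT_85 24 stT_86 wqT tk97_200_14_15_70_14_15_24 tk97_200_14_15_70_14_15_24E tk97_200_14_15_70_14_15_24V = true := by
  decide +kernel

theorem ckT_87 : stN 189 24 70 pw_14_15_70 stT_86 24 stT_87 wqT tk97_200_14_15_70_14_15_24 tk97_200_14_15_70_14_15_24E tk97_200_14_15_70_14_15_24V = true := by
  decide +kernel

theorem ckT_88 : stN 189 24 70 pw_14_15_70 stT_87 24 stT_88 wqT tk97_200_14_15_70_14_15_24 tk97_200_14_15_70_14_15_24E tk97_200_14_15_70_14_15_24V = true := by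
  decide +kernel

theorem ckT_89 : stN 189 24 70 pw_14_15_70 stT_88 24 stT_89 wqT tk97_200_14_15_70_14_15_24 tk97_200_14_15_70_14_15_24E tk97_200_14_15_70_14_15_24V = true := by
  decide +kernel

theorem ckT_90 : stN 189 24 70 pw_14_15_70 stT_89 24 stT_90 wqT tk97_200_14_15_70_14_15_24 tk97_200_14_15_70_14_15_24E tk97_200_14_15_70_14_15_24V = true := by
  decide +kernel

end Vale.Agent.P154.DE
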