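import Vale.Agent.P154.DE.EngD
import Vale.Agent.P154.DE.WqT
import Vale.Agent.P154.DE.StT
import Vale.Agent.P154.DE.Pw14_15_70
import Vale.Agent.P154.DE.Tk97_200_14_15_70_14_15_24

/-!
# Steps 90 to 97
-/

namespace Vale.Agent.P154.DE

set_option maxRecDepth 100000

theorem ckT_91 : stN 189 24 70 pw_14_15_70 stT_90 24 stT_91 wqT tk97_200_14_15_70_14_15_24 tk97_200_14_15_70_14_15_24E tk97_200_14_15_70_14_15_24V = true := by
  decide +kernel

theorem ckT_92 : stN 189 24 70 pw_14_15_70 stT_91 24 stT_92 wqT tk97_200_14_15_70_14_15_24 tk97_200_14_15_70_14_15_24E tk97_200_14_15_70_14_15_24V = true := by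
  decide +kernel

theorem ckT_93 : stN 189 24 70 pw_14_15_70 stT_92 24 stT_93 wqT tk97_200_14_15_70_14_15_24 tk97_200_14_15_70_14_15_24E tk97_200_14_15_70_14_15_24V = true := by
  decide +kernel

theorem ckT_94 : stN 189 24 70 pw_14_15_70 stT_93 24 stT_94 wqT tk97_200_14_15_70_14_15_24 tk97_200_14_15_70_14_15_24E tk97_200_14_15_70_14_15_24V = true := by
  decide +kernel

theorem ckT_95 : stN 189 24 70 pw_14_15_70 stT_94 24 stT_95 wqT tk97_200_14_15_70_14_15_24 tk97_200_14_15_70_14_15_24E tk97_200_14_15_70_14_15_24V = true := by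
  decide +kernel

theorem ckT_96 : stN 189 24 70 pw_14_15_70 stT_95 24 stT_96 wqT tk97_200_14_15_70_14_15_24 tk97_200_14_15_70_14_15_24E tk97_200_14_15_70_14_15_24V = true := by
  decide +kernel

theorem ckT_97 : stN 189 24 70 pw_14_15_70 stT_96 24 stT_97 wqT tk97_200_14_15_70_14_15_24 tk97_200_14_15_70_14_15_24E tk97_200_14_15_70_14_15_24V = true := by
  decide +kernel

end Vale.Agent.P154.DE
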