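import Vale.Agent.P154.DE.EngD
import Vale.Agent.P154.DE.WqT
import Vale.Agent.P154.DE.StT
import Vale.Agent.P154.DE.Pw14_15_70
import Vale.Agent.P154.DE.Tk97_200_14_15_70_14_15_24

/-!
# Steps 97 to 104
-/

namespace Vale.Agent.P154.DE

set_option maxRecDepth 100000

theorem ckT_98 : stN 189 24 70 pw_14_15_70 stT_97 24 stT_98 wqT tk97_200_14_15_70_14_15_24 tk97_200_14_15_70_14_15_24E tk97_200_14_15_70_14_15_24V = true := by
  decide +kernel

theorem ckT_99 : stN 189 24 70 pw_14_15_70 stT_98 24 stT_99 wqT tk97_200_14_15_70_14_15_24 tk97_200_14_15_70_14_15_24E tk97_200_14_15_70_14_15_24V = true := by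
  decide +kernel

theorem ckT_100 : stN 189 24 70 pw_14_15_70 stT_99 24 stT_100 wqT tk97_200_14_15_70_14_15_24 tk97_200_14_15_70_14_15_24E tk97_200_14_15_70_14_15_24V = true := by
  decide +kernel

theorem ckT_101 : stN 189 24 70 pw_14_15_70 stT_100 24 stT_101 wqT tk97_200_14_15_70_14_15_24 tk97_200_14_15_70_14_15_24E tk97_200_14_15_70_14_15_24V = true := by
  decide +kernel

theorem ckT_102 : stN 189 24 70 pw_14_15_70 stT_101 24 stT_102 wqT tk97_200_14_15_70_14_15_24 tk97_200_14_15_70_14_15_24E tk97_200_14_15_70_14_15_24V = true := by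
  decide +kernel

theorem ckT_103 : stN 189 24 70 pw_14_15_70 stT_102 24 stT_103 wqT tk97_200_14_15_70_14_15_24 tk97_200_14_15_70_14_15_24E tk97_200_14_15_70_14_15_24V = true := by
  decide +kernel

theorem ckT_104 : stN 189 24 70 pw_14_15_70 stT_103 24 stT_104 wqT tk97_200_14_15_70_14_15_24 tk97_200_14_15_70_14_15_24E tk97_200_14_15_70_14_15_24V = true := by
  decide +kernel

end Vale.Agent.P154.DE
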