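import Vale.Agent.P154.DE.EngD
import Vale.Agent.P154.DE.WqT
import Vale.Agent.P154.DE.StT
import Vale.Agent.P154.DE.Pw14_15_70
import Vale.Agent.P154.DE.Tk97_200_14_15_70_14_15_24

/-!
# Steps 104 to 111
-/

namespace Vale.Agent.P154.DE

set_option maxRecDepth 100000

theorem ckT_105 : stN 189 24 70 pw_14_15_70 stT_104 24 stT_105 wqT tk97_200_14_15_70_14_15_24 tk97_200_14_15_70_14_15_24E tk97_200_14_15_70_14_15_24V = true := by
  decide +kernel

theorem ckT_106 : stN 189 24 70 pw_14_15_70 stT_105 24 stT_106 wqT tk97_200_14_15_70_14_15_24 tk97_200_14_15_70_14_15_24E tk97_200_14_15_70_14_15_24V = true := by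
  decide +kernel

theorem ckT_107 : stN 189 24 70 pw_14_15_70 stT_106 24 stT_107 wqT tk97_200_14_15_70_14_15_24 tk97_200_14_15_70_14_15_24E tk97_200_14_15_70_14_15_24V = true := by
  decide +kernel

theorem ckT_108 : stN 189 24 70 pw_14_15_70 stT_107 24 stT_108 wqT tk97_200_14_15_70_14_15_24 tk97_200_14_15_70_14_15_24E tk97_200_14_15_70_14_15_24V = true := by
  decide +kernel

theorem ckT_109 : stN 189 24 70 pw_14_15_70 stT_108 24 stT_109 wqT tk97_200_14_15_70_14_15_24 tk97_200_14_15_70_14_15_24E tk97_200_14_15_70_14_15_24V = true := by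
  decide +kernel

theorem ckT_110 : stN 189 24 70 pw_14_15_70 stT_109 24 stT_110 wqT tk97_200_14_15_70_14_15_24 tk97_200_14_15_70_14_15_24E tk97_200_14_15_70_14_15_24V = true := by
  decide +kernel

theorem ckT_111 : stN 189 24 70 pw_14_15_70 stT_110 24 stT_111 wqT tk97_200_14_15_70_14_15_24 tk97_200_14_15_70_14_15_24E tk97_200_14_15_70_14_15_24V = true := by
  decide +kernel

end Vale.Agent.P154.DE
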