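import Vale.Agent.P154.DE.Trim
import Vale.Agent.P154.DE.PLaw

/-!
# One step of density evolution with Poisson offspring
-/

namespace Vale.Agent.P154.DE

noncomputable section NC

open Finset Polynomial
open scoped ENNReal NNReal

/-- Horner scheme for functionals -/
def horC (sc : ℕ) (c : Fnl Expo) : List ℕ → Fnl Expo
  | [] => 0
  | q :: l => conv (· + ·) c (horC sc c l) + ((q : ℝ≥0∞) / sc) • dirac 0

theorem toV_horC (θ : ℝ≥0) (sc : ℕ) (c : Fnl Expo) (l : List ℕ) (f : V → ℝ≥0∞) :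
    toV θ (horC sc c l) f =
      ∑ k ∈ range l.length, ((l.getD k 0 : ℕ) : ℝ≥0∞) / sc * cpow (toV θ c) k f := by
  induction l generalizing f with
  | nil =>
    rw [toV_apply]
    show (0 : Fnl Expo) (fun x => f (pwV θ x)) = _
    simp
  | cons q l ih =>
    have h1 : toV θ (horC sc c (q :: l)) f =
        conv (· * ·) (toV θ c) (toV θ (horC sc c l)) f + (q : ℝ≥0∞) / sc * f 1 := by
      rw [← toV_conv]
      show conv (· + ·) c (horC sc c l) (fun x => f (pwV θ x)) +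
        ((q : ℝ≥0∞) / sc) • f (pwV θ 0) = _
      rw [pwV_zero]
      rfl
    rw [h1, List.length_cons, Finset.sum_range_succ']
    congr 1
    · rw [conv_apply]
      have h2 : (fun u => toV θ (horC sc c l) (fun v => f (u * v))) =
          ∑ k ∈ range l.length, (((l.getD k 0 : ℕ) : ℝ≥0∞) / sc) •
            fun u => cpow (toV θ c) k (fun v => f (u * v)) := by
        funext u
        rw [ih, Finset.sum_apply]
        rfl
      rw [h2, map_sum]
      refine Finset.sum_congr rfl fun k _ => ?_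
      rw [map_smul, List.getD_cons_succ]
      rfl
  -- the remaining congruence is closed by `rfl`

theorem pmass_horC {θ : ℝ≥0} {sc : ℕ} {c : Fnl Expo} (hc : pmass θ c ≤ 1) (l : List ℕ) :
    pmass θ (horC sc c l) ≤ (l.sum : ℝ≥0∞) / sc := by
  induction l with
  | nil =>
    show (0 : Fnl Expo) (fun x => (pwT θ (x 0) : ℝ≥0∞)) ≤ _
    simp
  | cons q l ih =>
    have h1 : pmass θ (horC sc c (q :: l)) =
        pmass θ (conv (· + ·) c (horC sc c l)) + (q : ℝ≥0∞) / sc := by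
      show conv (· + ·) c (horC sc c l) (fun x => (pwT θ (x 0) : ℝ≥0∞)) +
        ((q : ℝ≥0∞) / sc) • ((pwT θ 0 : ℝ≥0) : ℝ≥0∞) = _
      rw [pwT_zero, ENNReal.coe_one, smul_eq_mul, mul_one]
      rfl
    rw [h1, pmass_conv, List.sum_cons, Nat.cast_add, ENNReal.add_div, add_comm]
    gcongr
    calc pmass θ c * pmass θ (horC sc c l) ≤ 1 * pmass θ (horC sc c l) := by gcongr
      _ ≤ _ := by rw [one_mul]; exact ih

theorem symC_zero : SymC 0 := fun _ _ => rfl

theorem symC_horC {sc : ℕ} {c : Fnl Expo} (hc : SymC c) : ∀ l : List ℕ, SymC (horC sc c l)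
  | [] => symC_zero
  | q :: l => by
    intro g f
    show conv (· + ·) c (horC sc c l) (fun x => f (fun i => x (g i))) +
        ((q : ℝ≥0∞) / sc) • f (fun i => (0 : Expo) (g i)) =
      conv (· + ·) c (horC sc c l) f + ((q : ℝ≥0∞) / sc) • f 0
    rw [(hc.conv (symC_horC hc l)) g f]
    rfl

variable {θ : ℝ≥0} {c : Fnl Expo} {s sc b R t u m : ℕ}

theorem arr_horA {J : ℕ → ℕ → ℕ → Expo → Prop} (hu : Uniq J) (hcm : Comp J J J)
    {L W L' W' D₁ X : ℕ} (hsh : Shf J L L') (hj : J W W W' 0)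
    (hX : Arr θ J c (2 ^ s) L D₁ b R X) (hc : pmass θ c ≤ 1) (hb : 0 < b) (hsc0 : 0 < sc)
    (hsc : 2 ^ s * sc < 2 ^ b) (hD : D₁ + 2 * W' < R) (hs : s ≤ b)
    (hw : 2 * W' + 1 + L' ≤ R) (ht : t = b * (R * L + L')) (hu' : u = b * (R * W + W'))
    (hM : MaskOK b R s (2 * W' + 1) m) :
    ∀ l : List ℕ, l.sum ≤ sc → Arr θ J (horC sc c l) sc W (2 * W') b R (horA t m s u X l)
  | [], _ => Arr.zero
  | q :: l, hl => by
    have hl' : l.sum ≤ sc := by
      rw [List.sum_cons] at hl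
      omega
    have ih := arr_horA hu hcm hsh hj hX hc hb hsc0 hsc hD hs hw ht hu' hM l hl'
    have hscE : (sc : ℝ≥0∞) ≠ 0 := by exact_mod_cast hsc0.ne'
    have hscT : (sc : ℝ≥0∞) ≠ ⊤ := ENNReal.natCast_ne_top sc
    have hpm : pmass θ (horC sc c l) ≤ 1 := by
      refine (pmass_horC hc l).trans ?_
      rw [ENNReal.div_le_iff hscE hscT, one_mul]
      exact_mod_cast hl'
    have h1 := hX.mul hu hu hcm ih
    rw [add_comm L W] at h1
    have hpm2 : pmass θ (conv (· + ·) c (horC sc c l)) ≤ 1 := by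
      rw [pmass_conv]
      exact mul_le_one' hc hpm
    have h2 := Arr.trm (w := 2 * W' + 1) hsh h1 hpm2 hb hsc hD hs hw (by omega) ht hM
    have h3 : Arr θ J (((q : ℝ≥0∞) / sc) • dirac 0) sc W (2 * W') b R
        (q * 2 ^ (b * (R * W + W'))) := by
      refine Arr.atom hj (by omega) ?_
      show (q : ℝ≥0∞) ≤ sc * ((q : ℝ≥0∞) / sc * ((pwT θ 0 : ℝ≥0) : ℝ≥0∞))
      rw [pwT_zero, ENNReal.coe_one, mul_one, ENNReal.mul_div_cancel hscE hscT]
    have e : horA t m s u X (q :: l) = trm (X * horA t m s u X l) t m s +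
        q * 2 ^ (b * (R * W + W')) := by
      rw [horA, force_eq, Nat.shiftLeft_eq, hu']
    rw [e]
    exact Arr.add h2 h3

theorem arr_horE {L W X Y : ℕ} (hX : Arr θ JP c (2 ^ s) L 0 b 1 X)
    (hY : Arr θ JE c (2 ^ s) L 0 b 1 Y) (hc : pmass θ c ≤ 1) (hb : 0 < b) (hsc0 : 0 < sc)
    (hsc : 2 ^ s * sc < 2 ^ b) (hs : s ≤ b) (ht : t = b * (1 * L + 0))
    (hu' : u = b * (1 * W + 0)) (hM : MaskOK b 1 s 1 m) :
    ∀ l : List ℕ, l.sum ≤ sc → Arr θ JE (horC sc c l) sc W 0 b 1 (horE t m s u X Y l)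
  | [], _ => Arr.zero
  | q :: l, hl => by
    have hl' : l.sum ≤ sc := by
      rw [List.sum_cons] at hl
      omega
    have ih := arr_horE hX hY hc hb hsc0 hsc hs ht hu' hM l hl'
    have hP : Arr θ JP (horC sc c l) sc W (2 * 0) b 1 (horA t m s u X l) :=
      arr_horA (W' := 0) uniq_JP comp_JP (shf_JP L) (⟨rfl, by simp, by simp, rfl⟩) hX hc hb
        hsc0 hsc (by norm_num) hs (by norm_num) ht hu' hM l hl'
    have hscE : (sc : ℝ≥0∞) ≠ 0 := by exact_mod_cast hsc0.ne'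
    have hscT : (sc : ℝ≥0∞) ≠ ⊤ := ENNReal.natCast_ne_top sc
    have hpm : pmass θ (horC sc c l) ≤ 1 := by
      refine (pmass_horC hc l).trans ?_
      rw [ENNReal.div_le_iff hscE hscT, one_mul]
      exact_mod_cast hl'
    have hpm2 : pmass θ (conv (· + ·) c (horC sc c l)) ≤ 1 := by
      rw [pmass_conv]
      exact mul_le_one' hc hpm
    have hU : Arr θ JA (horC sc c l) sc W 0 b 1 (horA t m s u X l + horE t m s u X Y l) :=
      Arr.add_same hP ih (fun i j => pl_JP_add_JE θ _ W i j)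
    have h1 := Arr.mulE hY hX hU ih
    rw [add_comm L W] at h1
    have h2 := Arr.trm (w := 1) (shf_JE L) h1 hpm2 hb hsc (by norm_num) hs (by norm_num)
      (by norm_num) ht hM
    have e : horE t m s u X Y (q :: l) =
        trm (Y * (horA t m s u X l + horE t m s u X Y l) + X * horE t m s u X Y l) t m s := by
      rw [horE, force_eq, force_eq]
    rw [e]
    refine Arr.mono_c h2 fun f => ?_
    show _ ≤ conv (· + ·) c (horC sc c l) f + ((q : ℝ≥0∞) / sc) • f 0
    exact le_self_add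

/-- the Poisson mixture dominates the truncated mixture -/
theorem dom_horC {D : ℝ} {qs : List ℕ}
    (hq : ∀ k < qs.length, ((qs.getD k 0 : ℕ) : ℝ≥0∞) / sc ≤ pk D k) {X : Fnl V} (hX : IsLaw X)
    (h : Dom X (toV θ c)) : Dom (pm D X) (toV θ (horC sc c qs)) := by
  intro ψ hψ
  rw [toV_horC, pm_apply]
  calc ∑ k ∈ range qs.length, ((qs.getD k 0 : ℕ) : ℝ≥0∞) / sc * cpow (toV θ c) k (up ψ)
      ≤ ∑ k ∈ range qs.length, pk D k * cpow X k (up ψ) := by
        refine Finset.sum_le_sum fun k hk => ?_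
        exact mul_le_mul' (hq k (Finset.mem_range.mp hk)) (dom_cpow hX h k ψ hψ)
    _ ≤ _ := ENNReal.sum_le_tsum _

/-- one step, Poisson offspring -/
theorem stepP {θ θ' : ℝ≥0} {q qb P n0 qb' P' L' vb tb kn kd r : ℕ}
    (hkd : 0 < kd) (hk2 : 2 * kn ≤ kd)
    (hP : PT θ q qb P n0) (hP' : PT θ' q qb' P' L')
    {T : Tab} {TE TV : Row} {n sT : ℕ} (hn : n ≤ n0 + 1)
    (hT : chkTab qb' P' L' vb tb kn kd r qb P T 0 n = true) (hTl : T.len = n)
    (hE : chkRowE qb' P' L' vb tb kn kd r qb P TE 0 = true) (hEl : TE.len = n)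
    (hV : chkRowV qb' P' L' vb tb kn kd r q TV = true)
    (hsT : vb * (sT / vb) = sT) (hsT' : sT / vb = nS L')
    {be R p pb L W s sc : ℕ} (hbig : (n * n + n + 1) * (2 ^ be * (4 * 2 ^ tb)) < 2 ^ vb)
    (hL : L ≤ n0) (hs : s = p + q) (hsc0 : 0 < sc) (hscb : 2 ^ s * sc < 2 ^ be) (hsb : s ≤ be)
    (hR : 2 * L + 2 * W < R) (hnR : W + n ≤ R)
    {p' pb' sh : ℕ} (hpsh : 2 ^ p' * 2 ^ sh = sc * 2 ^ r)
    {D : ℝ} {qs : List ℕ} (hqs : qs.sum ≤ sc)
    (hq : ∀ k < qs.length, ((qs.getD k 0 : ℕ) : ℝ≥0∞) / sc ≤ pk D k)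
    {ΛX Λ : Fnl V} (hX : IsLaw ΛX) (hΛ : IsLaw Λ) (hdom : Dom Λ (pm D ΛX))
    {S S' : ℕ} (hS : Dom ΛX (toV θ (cS p pb L S)))
    (hchk : chk pb' vb sh (nS L') S'
      (accP be R L W pb qb P S s sc q sT qs T n TE TV) = true) :
    Dom (chL (aR kn kd) (bR kn kd) Λ) (toV θ' (cS p' pb' L' S')) := by
  set c := cS p pb L S with hc
  have hPL := hP.mono hL
  have hb : 0 < be := by
    rcases Nat.eq_zero_or_pos be with h0 | h0
    · subst h0
      have : s = 0 := by omega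
      rw [this] at hscb
      simp at hscb
      omega
    · exact h0
  have hsym : SymC (horC sc c qs) := symC_horC (symC_cS p pb L S) qs
  have hdomH : Dom Λ (toV θ (horC sc c qs)) := hdom.trans (dom_horC hq hX hS)
  have hpm : pmass θ c ≤ 1 := pmass_le_one hX hS
  set A := bA be R L pb qb P S with hA
  set Pa := bP be L pb qb P S with hPa
  set E := bE be L pb qb P S with hE'
  have a1 : Arr θ J2 c (2 ^ (p + q)) L (2 * L) be R A := arr_bA hPL
  have p1 : Arr θ JP c (2 ^ (p + q)) L 0 be 1 Pa := arr_bP hPL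
  have e1 : Arr θ JE c (2 ^ (p + q)) L 0 be 1 E := arr_bE hPL
  rw [← hs] at a1 p1 e1
  have mA : MaskOK be R s (2 * W + 1) (maskM be R s (2 * W + 1) (2 * W + 1)) :=
    maskOK hsb (by omega) (by omega)
  have mP : MaskOK be 1 s 1 (maskM be 1 s 1 (2 * W + 1)) := maskOK hsb le_rfl (by omega)
  have hHA : Arr θ J2 (horC sc c qs) sc W (2 * W) be R
      (horA (be * (R * L + L)) (maskM be R s (2 * W + 1) (2 * W + 1)) s (be * (R * W + W))
        A qs) :=
    arr_horA uniq_J2 comp_J2 (shf_J2 L) (⟨by simp, rfl, rfl⟩) a1 hpm hb hsc0 hscb (by omega)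
      hsb (by omega) rfl rfl mA qs hqs
  have hHE : Arr θ JE (horC sc c qs) sc W 0 be 1
      (horE (be * L) (maskM be 1 s 1 (2 * W + 1)) s (be * W) Pa E qs) :=
    arr_horE p1 e1 hpm hb hsc0 hscb hsb (by ring) (by ring) mP qs hqs
  have hsc1 : sc < 2 ^ be := by
    refine lt_of_le_of_lt ?_ hscb
    exact Nat.le_mul_of_pos_left _ (by positivity)
  refine read_step hkd hk2 hP hP' hn hT hTl hE hEl hV hsT hsT' hbig hsc1 hsc0
    (D := 2 * W) (by omega) hnR hsym hΛ hdomH hHA hHE hpsh ?_ hchk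
  unfold accP
  simp only [force_eq]
  rfl

end NC

end Vale.Agent.P154.DE
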