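import Vale.Agent.P154.DE.EngK
import Vale.Agent.P154.DE.Info

/-!
# Regular trees with the fast engine
-/

namespace Vale.Agent.P154.DE

noncomputable section NC

open Finset Polynomial Vale.Agent.P154.Up
open scoped ENNReal NNReal

theorem toV_horC_q4 (θ : ℝ≥0) (c : Fnl Expo) :
    toV θ (horC (2 ^ 40) c q4) = cpow (toV θ c) 4 := by
  ext f
  rw [toV_horC]
  have hl : q4.length = 5 := rfl
  rw [hl]
  have h0 : ∀ k < 4, ((q4.getD k 0 : ℕ) : ℝ≥0∞) = 0 := by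
    intro k hk
    interval_cases k <;> simp [q4]
  have h4 : ((q4.getD 4 0 : ℕ) : ℝ≥0∞) = ((2 ^ 40 : ℕ) : ℝ≥0∞) := by
    have : q4.getD 4 0 = 2 ^ 40 := by decide
    rw [this]
  rw [Finset.sum_range_succ, Finset.sum_eq_zero, zero_add, h4, ENNReal.div_self, one_mul]
  · positivity
  · exact ENNReal.natCast_ne_top _
  · intro k hk
    rw [h0 k (Finset.mem_range.mp hk), ENNReal.zero_div, zero_mul]

/-- one step, four children -/
theorem stepR2 {θ θ' : ℝ≥0} {q qb P n0 qb' P' L' vb tb kn kd r : ℕ}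
    (hkd : 0 < kd) (hk2 : 2 * kn ≤ kd)
    (hP : PT θ q qb P n0) (hP' : PT θ' q qb' P' L')
    {T : TabS} {TE TV : RowS} {n : ℕ} (hn : n ≤ n0 + 1)
    (hT : chkTab qb' P' L' vb tb kn kd r qb P (T.toTab vb) 0 n = true)
    (hTl : (T.toTab vb).len = n)
    (hE : chkRowE qb' P' L' vb tb kn kd r qb P (TE.toRow vb) 0 = true)
    (hEl : (TE.toRow vb).len = n)
    (hV : chkRowV qb' P' L' vb tb kn kd r q (TV.toRow vb) = true) (hvb : 0 < vb)
    {be R p pb L W e s : ℕ} (hbig : (n * n + n + 3) * (2 ^ 40 * (4 * 2 ^ tb)) < 2 ^ vb)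
    (hL : L ≤ n0) (hes : p + q = e + s) (hscb : 2 ^ s * 2 ^ 40 < 2 ^ be)
    (heb : e + s < be) (hR : 2 * L + 2 * W < R) (hnR : W + n ≤ R)
    {p' pb' sh : ℕ} (hpsh : 2 ^ p' * 2 ^ sh = 2 ^ 40 * 2 ^ r)
    {ΛX Λ : Fnl V} (hX : IsLaw ΛX) (hΛ : IsLaw Λ) (hdom : Dom Λ (cpow ΛX 4))
    {S S' : ℕ} (hS : Dom ΛX (toV θ (cS p pb L S)))
    (hchk : chk pb' vb sh (nS L') S'
      (accP2 be R L W pb qb P S e s (2 ^ 40) q q4 T n TE TV) = true) :
    Dom (chL (aR kn kd) (bR kn kd) Λ) (toV θ' (cS p' pb' L' S')) := by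
  set c := cS p pb L S with hc
  have hPL := hP.mono hL
  have hb : 0 < be := by omega
  have hsb : s ≤ be := by omega
  have hsc0 : 0 < 2 ^ 40 := by norm_num
  have hqs : q4.sum ≤ 2 ^ 40 := by decide
  have hsym : SymC (horC (2 ^ 40) c q4) := symC_horC (symC_cS p pb L S) q4
  have hdomH : Dom Λ (toV θ (horC (2 ^ 40) c q4)) := by
    rw [toV_horC_q4]
    exact hdom.trans (dom_cpow hX hS 4)
  have hpm : pmass θ c ≤ 1 := pmass_le_one hX hS
  have hee : (2 : ℕ) ^ (p + q) = 2 ^ e * 2 ^ s := by rw [hes, pow_add]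
  have hlt : 2 ^ e * 2 ^ s < 2 ^ be := by
    rw [← pow_add]
    exact Nat.pow_lt_pow_right (by norm_num) heb
  have a0 : Arr θ J2 c (2 ^ (p + q)) L (2 * L) be R (bA2 be R L pb qb P S) := by
    rw [bA2_eq]
    exact arr_bA hPL
  have p0 : Arr θ JP c (2 ^ (p + q)) L 0 be 1 (bP be L pb qb P S) := arr_bP hPL
  have e0 : Arr θ JE c (2 ^ (p + q)) L 0 be 1 (bE be L pb qb P S) := arr_bE hPL
  rw [hee] at a0 p0 e0
  have mX : MaskOK be R e (2 * L + 1) (maskM be R e (2 * L + 1) (2 * L + 1)) :=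
    maskOK (by omega) (by omega) (by omega)
  have mY : MaskOK be 1 e 1 (maskM be 1 e 1 (2 * L + 1)) := maskOK (by omega) le_rfl (by omega)
  set A := trm (bA2 be R L pb qb P S) 0 (maskM be R e (2 * L + 1) (2 * L + 1)) e with hA
  set Pa := trm (bP be L pb qb P S) 0 (maskM be 1 e 1 (2 * L + 1)) e with hPa
  set E := trm (bE be L pb qb P S) 0 (maskM be 1 e 1 (2 * L + 1)) e with hE'
  have a1 : Arr θ J2 c (2 ^ s) L (2 * L) be R A :=
    Arr.trm (o := 0) (o' := 0) (w := 2 * L + 1) (shf_J2 0) a0 hpm hb hlt (by omega) (by omega)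
      (by omega) (by omega) (by simp) mX
  have p1 : Arr θ JP c (2 ^ s) L 0 be 1 Pa :=
    Arr.trm (o := 0) (o' := 0) (w := 1) (shf_JP 0) p0 hpm hb hlt (by norm_num) (by omega)
      (by norm_num) (by norm_num) (by simp) mY
  have e1 : Arr θ JE c (2 ^ s) L 0 be 1 E :=
    Arr.trm (o := 0) (o' := 0) (w := 1) (shf_JE 0) e0 hpm hb hlt (by norm_num) (by omega)
      (by norm_num) (by norm_num) (by simp) mY
  have mA : MaskOK be R s (2 * W + 1) (maskM be R s (2 * W + 1) (2 * W + 1)) :=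
    maskOK hsb (by omega) (by omega)
  have mP : MaskOK be 1 s 1 (maskM be 1 s 1 (2 * W + 1)) := maskOK hsb le_rfl (by omega)
  have hHA : Arr θ J2 (horC (2 ^ 40) c q4) (2 ^ 40) W (2 * W) be R
      (horA (be * (R * L + L)) (maskM be R s (2 * W + 1) (2 * W + 1)) s (be * (R * W + W))
        A q4) :=
    arr_horA uniq_J2 comp_J2 (shf_J2 L) (⟨by simp, rfl, rfl⟩) a1 hpm hb hsc0 hscb (by omega)
      hsb (by omega) rfl rfl mA q4 hqs
  have hHE : Arr θ JE (horC (2 ^ 40) c q4) (2 ^ 40) W 0 be 1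
      (horE (be * L) (maskM be 1 s 1 (2 * W + 1)) s (be * W) Pa E q4) :=
    arr_horE p1 e1 hpm hb hsc0 hscb hsb (by ring) (by ring) mP q4 hqs
  have hsc1 : 2 ^ 40 < 2 ^ be := by
    refine lt_of_le_of_lt ?_ hscb
    exact Nat.le_mul_of_pos_left _ (by positivity)
  refine read_step2 hkd hk2 hP hP' hn hT hTl hE hEl hV hvb hbig hsc1 hsc0
    (D := 2 * W) (by omega) hnR hsym hΛ hdomH hHA hHE hpsh ?_
  have e : accP2 be R L W pb qb P S e s (2 ^ 40) q q4 T n TE TV =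
      readK be R W (2 ^ 40) q
        (horA (be * (R * L + L)) (maskM be R s (2 * W + 1) (2 * W + 1)) s (be * (R * W + W)) A q4)
        (horE (be * L) (maskM be 1 s 1 (2 * W + 1)) s (be * W) Pa E q4) T n TE TV := by
    unfold accP2
    simp only [force_eq]
    rfl
  rw [← e]
  exact hchk

end NC

end Vale.Agent.P154.DE
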