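import Vale.Agent.P154.DE.Arr
import Vale.Agent.P154.DE.PEng
import Vale.Agent.P154.DE.Rows

/-!
# Truncation of packed arrays
-/

namespace Vale.Agent.P154.DE

noncomputable section NC

open Finset Polynomial
open scoped ENNReal NNReal

/-- digits of a two-dimensional array -/
theorem ev2_digit {b R D : ℕ} {p : ℕ[X][X]} (hlt : ∀ i j, (p.coeff i).coeff j < 2 ^ b)
    (hpD : ∀ i j, D < j → (p.coeff i).coeff j = 0) (hD : D < R) {i j : ℕ} (hj : j < R) :
    ev2 b R p / 2 ^ (b * (R * i + j)) % 2 ^ b = (p.coeff i).coeff j := by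
  have hrow : ∀ i, (p.coeff i).eval (2 ^ b) < (2 ^ b) ^ R := fun i =>
    eval_lt_pow R _ (hlt i) (fun j hj => hpD i j (by omega))
  have e1 : ev2 b R p = ((mapRingHom (ev1 b)) p).eval ((2 ^ b) ^ R) := by
    show ((mapRingHom (ev1 b)) p).eval (2 ^ (b * R)) = _
    rw [pow_mul]
  have e2 : ev2 b R p / (2 ^ b) ^ (R * i) % (2 ^ b) ^ R = (p.coeff i).eval (2 ^ b) := by
    rw [e1, pow_mul (2 ^ b) R i]
    rw [eval_div_pow_mod i _ (fun k => by
      rw [coe_mapRingHom, coeff_map]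
      exact hrow k)]
    rw [coe_mapRingHom, coeff_map]
    rfl
  rw [← eval_div_pow_mod j (p.coeff i) (hlt i), ← e2, div_mod_aux (by positivity) hj,
    Nat.div_div_eq_div_mul, ← pow_add, pow_mul]

/-- a polynomial with prescribed digits -/
theorem eval_digits (b : ℕ) (hb : 1 < b) (N : ℕ) :
    ∃ p : ℕ[X], p.eval b = N ∧ ∀ i, p.coeff i = N / b ^ i % b := by
  induction N using Nat.strong_induction_on with
  | _ N ih =>
    rcases Nat.eq_zero_or_pos N with rfl | hN
    · exact ⟨0, by simp, fun i => by simp⟩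
    · obtain ⟨p, hp, hc⟩ := ih (N / b) (Nat.div_lt_self hN hb)
      refine ⟨p * X + C (N % b), ?_, fun i => ?_⟩
      · rw [eval_add, eval_mul, eval_X, eval_C, hp]
        exact Nat.div_add_mod' N b
      · cases i with
        | zero => simp
        | succ i =>
          rw [coeff_add, coeff_mul_X, hc, coeff_C, if_neg (by omega), add_zero,
            Nat.div_div_eq_div_mul, pow_succ']

/-- an array from its digits -/
theorem Arr.of_digits {θ : ℝ≥0} {J : ℕ → ℕ → ℕ → Expo → Prop} {c : Fnl Expo}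
    {sc z D b R A : ℕ} (hb : 0 < b) (hR : 0 < R)
    (h : ∀ i j, j < R → ((A / 2 ^ (b * (R * i + j)) % 2 ^ b : ℕ) : ℝ≥0∞) ≤ sc * pl θ c (J z i j))
    (h0 : ∀ i j, j < R → D < j → A / 2 ^ (b * (R * i + j)) % 2 ^ b = 0) :
    Arr θ J c sc z D b R A := by
  obtain ⟨P, hP, hPc⟩ := eval_digits (2 ^ (b * R)) (Nat.one_lt_two_pow (by positivity)) A
  have hrows : ∀ m : ℕ, ∃ p : ℕ[X], p.eval (2 ^ b) = m ∧ ∀ i, p.coeff i = m / (2 ^ b) ^ i % 2 ^ b :=
    eval_digits (2 ^ b) (Nat.one_lt_two_pow (by omega))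
  choose F hF hFc using hrows
  -- the row polynomials
  set Q : ℕ[X][X] := ∑ i ∈ P.support, monomial i (F (P.coeff i)) with hQ
  have hF0 : F 0 = 0 := by
    ext i
    rw [hFc]
    simp
  have hQc : ∀ i, Q.coeff i = F (P.coeff i) := by
    intro i
    rw [hQ, finsetSum_coeff]
    simp_rw [coeff_monomial]
    rw [Finset.sum_ite_eq']
    split_ifs with hi
    · rfl
    · rw [notMem_support_iff.mp hi, hF0]
  have hev : ev2 b R Q = A := by
    show (evalRingHom (2 ^ (b * R))) (mapRingHom (ev1 b) Q) = A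
    have : mapRingHom (ev1 b) Q = P := by
      ext i
      rw [coe_mapRingHom, coeff_map, hQc]
      exact hF _
    rw [this]
    exact hP
  have hcoef : ∀ i j, j < R → (Q.coeff i).coeff j = A / 2 ^ (b * (R * i + j)) % 2 ^ b := by
    intro i j hj
    rw [hQc, hFc, hPc, ← pow_mul]
    have e3 : (2 : ℕ) ^ (b * R) = (2 ^ b) ^ R := pow_mul 2 b R
    rw [e3, div_mod_aux (by positivity) hj, Nat.div_div_eq_div_mul, ← pow_mul, ← pow_add]
    congr 3
    ring
  have hcoef' : ∀ i j, R ≤ j → (Q.coeff i).coeff j = 0 := by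
    intro i j hj
    rw [hQc, hFc, hPc, ← pow_mul]
    have h1 : A / (2 ^ (b * R * i)) % 2 ^ (b * R) < (2 ^ b) ^ j := by
      calc A / (2 ^ (b * R * i)) % 2 ^ (b * R) < 2 ^ (b * R) := Nat.mod_lt _ (by positivity)
        _ = (2 ^ b) ^ R := pow_mul 2 b R
        _ ≤ (2 ^ b) ^ j := Nat.pow_le_pow_right (by positivity) hj
    rw [Nat.div_eq_of_lt h1, Nat.zero_mod]
  refine ⟨Q, hev, fun i j => ?_, fun i j hj => ?_⟩
  · rcases Nat.lt_or_ge j R with hj | hj
    · rw [hcoef i j hj]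
      exact h i j hj
    · rw [hcoef' i j hj]
      simp
  · rcases Nat.lt_or_ge j R with hj' | hj'
    · rw [hcoef i j hj']
      exact h0 i j hj' hj
    · exact hcoef' i j hj'

/-! ### bit operations -/

theorem land_div_pow (x y n : ℕ) : (x &&& y) / 2 ^ n = (x / 2 ^ n) &&& (y / 2 ^ n) := by
  rw [← Nat.shiftRight_eq_div_pow, ← Nat.shiftRight_eq_div_pow, ← Nat.shiftRight_eq_div_pow]
  exact Nat.shiftRight_and_distrib

theorem land_mod_pow (x y n : ℕ) : (x &&& y) % 2 ^ n = (x % 2 ^ n) &&& (y % 2 ^ n) := by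
  apply Nat.eq_of_testBit_eq
  intro i
  simp only [Nat.testBit_mod_two_pow, Nat.testBit_and]
  cases decide (i < n) <;> simp

/-- digits after a shift that does not respect the slots -/
theorem shift_digit {M b s : ℕ} (hs : s ≤ b) (x : ℕ) (h : M / 2 ^ (x + b) % 2 ^ s = 0) :
    M / 2 ^ s / 2 ^ x % 2 ^ b = M / 2 ^ x % 2 ^ b / 2 ^ s := by
  set N := M / 2 ^ x with hN
  have e1 : M / 2 ^ s / 2 ^ x = N / 2 ^ s := by
    rw [hN, Nat.div_div_eq_div_mul, Nat.div_div_eq_div_mul, mul_comm]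
  have e2 : M / 2 ^ (x + b) = N / 2 ^ b := by
    rw [hN, Nat.div_div_eq_div_mul, pow_add]
  rw [e1]
  rw [e2] at h
  have h2 := Nat.mod_mul_right_div_self N (2 ^ s) (2 ^ b)
  -- N % (2^s * 2^b) / 2^s = N / 2^s % 2^b
  rw [← h2, mul_comm, Nat.mod_mul, h, mul_zero, add_zero]

/-- the digits of the mask -/
structure MaskOK (b R s w m : ℕ) : Prop where
  low : ∀ i j, j < R → m / 2 ^ (b * (R * i + j)) % 2 ^ b % 2 ^ s = 0
  out : ∀ i j, j < R → w ≤ j → m / 2 ^ (b * (R * i + j)) % 2 ^ b = 0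

theorem ones_eq (b w : ℕ) : ones b w = ∑ j ∈ range w, 2 ^ (b * j) := by
  unfold ones
  rw [sumR_eq]
  refine Finset.sum_congr rfl fun j _ => ?_
  rw [Nat.one_shiftLeft]

theorem maskOK {b R s w h : ℕ} (hs : s ≤ b) (hw : w ≤ R) (hw0 : 0 < w) :
    MaskOK b R s w (maskM b R s w h) := by
  set a : ℕ := 2 ^ b - 2 ^ s with ha
  have hsb : 2 ^ s ≤ 2 ^ b := Nat.pow_le_pow_right (by norm_num) hs
  have hab : a < 2 ^ b := by
    have : 0 < 2 ^ s := by positivity
    omega
  have hdvd : 2 ^ s ∣ a := by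
    rw [ha]
    exact Nat.dvd_sub (pow_dvd_pow 2 hs) dvd_rfl
  set p : ℕ[X][X] := ∑ i ∈ range h, ∑ j ∈ range w, monomial i (monomial j a) with hp
  have hev : ev2 b R p = maskM b R s w h := by
    unfold maskM
    rw [ones_eq, ones_eq, hp, map_sum]
    simp_rw [map_sum]
    have e : ∀ i j, ev2 b R (monomial i (monomial j a)) = a * (2 ^ (b * j) * 2 ^ (b * R * i)) := by
      intro i j
      show (evalRingHom (2 ^ (b * R))) (mapRingHom (ev1 b) (monomial i (monomial j a))) = _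
      rw [coe_mapRingHom, map_monomial, coe_evalRingHom, eval_monomial, ev1_apply, eval_monomial,
        ← pow_mul, ← pow_mul, mul_assoc]
    simp_rw [e]
    rw [Finset.sum_mul_sum, Finset.sum_comm, Finset.mul_sum]
    refine Finset.sum_congr rfl fun j _ => ?_
    rw [Finset.mul_sum]
  have hc : ∀ i j, (p.coeff i).coeff j = if i < h ∧ j < w then a else 0 := by
    intro i j
    rw [hp, finsetSum_coeff, finsetSum_coeff]
    have e : ∀ i', (((∑ j' ∈ range w, monomial i' (monomial j' a) : ℕ[X][X])).coeff i).coeff j =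
        if i' = i then (if j < w then a else 0) else 0 := by
      intro i'
      rw [finsetSum_coeff, finsetSum_coeff]
      simp_rw [coeff_monomial]
      by_cases hi : i' = i
      · simp only [hi, if_true]
        simp_rw [coeff_monomial]
        rw [Finset.sum_ite_eq']
        simp
      · simp [hi]
    simp_rw [e]
    rw [Finset.sum_ite_eq']
    simp only [mem_range]
    by_cases h1 : i < h <;> by_cases h2 : j < w <;> simp [h1, h2]
  have hlt : ∀ i j, (p.coeff i).coeff j < 2 ^ b := by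
    intro i j
    rw [hc]
    split_ifs
    · exact hab
    · positivity
  have hD : ∀ i j, w - 1 < j → (p.coeff i).coeff j = 0 := by
    intro i j hj
    rw [hc, if_neg (by omega)]
  have hdig : ∀ i j, j < R → maskM b R s w h / 2 ^ (b * (R * i + j)) % 2 ^ b =
      if i < h ∧ j < w then a else 0 := by
    intro i j hj
    rw [← hev, ev2_digit hlt hD (by omega) hj, hc]
  refine ⟨fun i j hj => ?_, fun i j hj hwj => ?_⟩
  · rw [hdig i j hj]
    split_ifs
    · exact Nat.mod_eq_zero_of_dvd hdvd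
    · simp
  · rw [hdig i j hj, if_neg (by omega)]

/-- compatibility of slots with a shift of the origin -/
def Shf (J : ℕ → ℕ → ℕ → Expo → Prop) (o o' : ℕ) : Prop :=
  ∀ z i j x, J (z + o) (i + o) (j + o') x → J z i j x

theorem shf_aux {a b : ℕ∞} {z i o : ℕ} (h : a + ((z + o : ℕ) : ℕ∞) = b + ((i + o : ℕ) : ℕ∞)) :
    a + (z : ℕ∞) = b + (i : ℕ∞) := by
  push_cast at h
  rw [← add_assoc, ← add_assoc] at h
  exact WithTop.add_right_cancel (ENat.coe_ne_top o) h

theorem shf_J2 (o : ℕ) : Shf J2 o o := fun _ _ _ _ h => ⟨h.1, shf_aux h.2.1, shf_aux h.2.2⟩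

theorem shf_JP (o : ℕ) : Shf JP o 0 := fun _ _ _ _ h => ⟨h.1, h.2.1, h.2.2.1, shf_aux h.2.2.2⟩

theorem shf_JE (o : ℕ) : Shf JE o 0 := fun _ _ _ _ h => ⟨h.1, h.2.1, h.2.2.1, shf_aux h.2.2.2⟩

theorem pl_shf {J : ℕ → ℕ → ℕ → Expo → Prop} {o o' : ℕ} (h : Shf J o o') (θ : ℝ≥0)
    (c : Fnl Expo) (z i j : ℕ) : pl θ c (J (z + o) (i + o) (j + o')) ≤ pl θ c (J z i j) := by
  classical
  refine c.mono fun x => ?_
  by_cases hx : J (z + o) (i + o) (j + o') x
  · rw [if_pos hx, if_pos (h z i j x hx)]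
  · rw [if_neg hx]
    exact zero_le

/-- truncation and rounding of an array -/
theorem Arr.trm {θ : ℝ≥0} {J : ℕ → ℕ → ℕ → Expo → Prop} {c : Fnl Expo}
    {sc z D b R A o o' s w m t : ℕ} (hJ : Shf J o o')
    (h : Arr θ J c (2 ^ s * sc) (z + o) D b R A) (hm : pmass θ c ≤ 1) (hb : 0 < b)
    (hsc : 2 ^ s * sc < 2 ^ b) (hD : D < R) (hs : s ≤ b) (hw : w + o' ≤ R) (hw0 : 0 < w)
    (ht : t = b * (R * o + o')) (hM : MaskOK b R s w m) :
    Arr θ J c sc z (w - 1) b R (trm A t m s) := by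
  have hR : 0 < R := by omega
  set M := (A / 2 ^ t) &&& m with hMd
  have hN : DE.trm A t m s = M / 2 ^ s := by
    unfold DE.trm
    rw [Nat.shiftRight_eq_div_pow, Nat.shiftRight_eq_div_pow]
  have hmlow : ∀ i j, j < R → m / 2 ^ (b * (R * i + j)) % 2 ^ s = 0 := by
    intro i j hj
    rw [← Nat.mod_mod_of_dvd _ (pow_dvd_pow 2 hs)]
    exact hM.low i j hj
  have hnext : ∀ i j, j < R → M / 2 ^ (b * (R * i + j) + b) % 2 ^ s = 0 := by
    intro i j hj
    rw [hMd, land_div_pow, land_mod_pow]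
    have : m / 2 ^ (b * (R * i + j) + b) % 2 ^ s = 0 := by
      rcases Nat.lt_or_ge (j + 1) R with h1 | h1
      · have e : b * (R * i + j) + b = b * (R * i + (j + 1)) := by ring
        rw [e]
        exact hmlow i (j + 1) h1
      · have e : b * (R * i + j) + b = b * (R * (i + 1) + 0) := by
          have : R = j + 1 := by omega
          rw [this]
          ring
        rw [e]
        exact hmlow (i + 1) 0 hR
    rw [this, Nat.and_zero]
  have hdig : ∀ i j, j < R → DE.trm A t m s / 2 ^ (b * (R * i + j)) % 2 ^ b =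
      ((A / 2 ^ t / 2 ^ (b * (R * i + j)) % 2 ^ b) &&&
        (m / 2 ^ (b * (R * i + j)) % 2 ^ b)) / 2 ^ s := by
    intro i j hj
    rw [hN, shift_digit hs _ (hnext i j hj), hMd, land_div_pow, land_mod_pow]
  refine Arr.of_digits hb hR (fun i j hj => ?_) (fun i j hj hwj => ?_)
  · rw [hdig i j hj]
    rcases Nat.lt_or_ge j w with hjw | hjw
    · have e : A / 2 ^ t / 2 ^ (b * (R * i + j)) % 2 ^ b =
          A / 2 ^ (b * (R * (i + o) + (j + o'))) % 2 ^ b := by
        rw [Nat.div_div_eq_div_mul, ← pow_add, ht]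
        congr 3
        ring
      rw [e]
      set y := A / 2 ^ (b * (R * (i + o) + (j + o'))) % 2 ^ b with hy
      have h1 : ((y : ℕ) : ℝ≥0∞) ≤ ((2 ^ s * sc : ℕ) : ℝ≥0∞) * pl θ c (J z i j) := by
        refine (h.read hm hsc hD (i := i + o) (j := j + o') (by omega)).trans ?_
        exact mul_le_mul_right (pl_shf hJ θ c z i j) _
      have h2 : ((y &&& (m / 2 ^ (b * (R * i + j)) % 2 ^ b)) / 2 ^ s) * 2 ^ s ≤ y :=
        (Nat.div_mul_le_self _ _).trans Nat.and_le_left
      have h3 : ((((y &&& (m / 2 ^ (b * (R * i + j)) % 2 ^ b)) / 2 ^ s : ℕ) : ℝ≥0∞)) *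
          (2 ^ s : ℝ≥0∞) ≤ (sc * pl θ c (J z i j)) * 2 ^ s := by
        calc _ = (((((y &&& (m / 2 ^ (b * (R * i + j)) % 2 ^ b)) / 2 ^ s) * 2 ^ s : ℕ)) :
              ℝ≥0∞) := by push_cast; rfl
          _ ≤ (y : ℝ≥0∞) := by exact_mod_cast h2
          _ ≤ _ := h1
          _ = _ := by
            push_cast
            ring
      exact (ENNReal.mul_le_mul_iff_left (by positivity)
        (ENNReal.pow_ne_top (by norm_num))).mp h3
    · rw [hM.out i j hj hjw, Nat.and_zero, Nat.zero_div]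
      simp
  · rw [hdig i j hj, hM.out i j hj (by omega), Nat.and_zero, Nat.zero_div]

end NC

end Vale.Agent.P154.DE
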